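import Vale.Agent.P032.AWild

/-! Continuous plus wild decomposition; radial positive definite functions are continuous off 0. -/

namespace Vale.Agent.P032

open Finset Filter Topology
open scoped RealInnerProductSpace

variable {H : Type} [NormedAddCommGroup H] [InnerProductSpace ℝ H]

namespace Rep

variable (ρ : Rep H)

/-- Convex combinations of translates of `v` by less than `δ`. -/
def conv (v : H) (δ : ℝ) : Set H :=
  {a | ∃ (ι : Type) (_ : Fintype ι) (w : ι → ℝ) (t : ι → ℂ),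
    (∀ i, 0 ≤ w i) ∧ ∑ i, w i = 1 ∧ (∀ i, ‖t i‖ < δ) ∧ a = ∑ i, w i • ρ.T (t i) v}

variable {ρ}

theorem self_mem_conv (v : H) {δ : ℝ} (hδ : 0 < δ) : v ∈ ρ.conv v δ :=
  ⟨Unit, inferInstance, fun _ => 1, fun _ => 0, by simp, by simp, by simpa using hδ,
    by simp [ρ.T_zero]⟩

theorem conv_mono {v a : H} {δ δ' : ℝ} (h : a ∈ ρ.conv v δ) (hδ : δ ≤ δ') : a ∈ ρ.conv v δ' := by
  obtain ⟨ι, _, w, t, h1, h2, h3, h4⟩ := h
  exact ⟨ι, inferInstance, w, t, h1, h2, fun i => (h3 i).trans_le hδ, h4⟩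

theorem conv_mid {v a b : H} {δ : ℝ} (ha : a ∈ ρ.conv v δ) (hb : b ∈ ρ.conv v δ) :
    (1 / 2 : ℝ) • (a + b) ∈ ρ.conv v δ := by
  obtain ⟨ι, _, w, t, h1, h2, h3, rfl⟩ := ha
  obtain ⟨κ, _, w', t', h1', h2', h3', rfl⟩ := hb
  refine ⟨ι ⊕ κ, inferInstance, Sum.elim (fun i => 1 / 2 * w i) (fun i => 1 / 2 * w' i),
    Sum.elim t t', ?_, ?_, ?_, ?_⟩
  · rintro (i | i)
    · have := h1 i; simp only [Sum.elim_inl]; positivity
    · have := h1' i; simp only [Sum.elim_inr]; positivity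
  · simp only [Fintype.sum_sum_type, Sum.elim_inl, Sum.elim_inr, ← Finset.mul_sum, h2, h2']
    norm_num
  · rintro (i | i)
    · exact h3 i
    · exact h3' i
  · simp only [Fintype.sum_sum_type, Sum.elim_inl, Sum.elim_inr, smul_add, Finset.smul_sum,
      smul_smul]

theorem conv_R {v a : H} {δ : ℝ} (hv : ρ.Fixed v) (ha : a ∈ ρ.conv v δ) (θ : ℝ) :
    ρ.R θ a ∈ ρ.conv v δ := by
  obtain ⟨ι, _, w, t, h1, h2, h3, rfl⟩ := ha
  refine ⟨ι, inferInstance, w, fun i => ee θ * t i, h1, h2, fun i => ?_, ?_⟩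
  · rw [norm_mul, norm_ee, one_mul]; exact h3 i
  · simp only [map_sum, map_smul, hv.T_ee]

theorem conv_T {v a : H} {δ : ℝ} (ha : a ∈ ρ.conv v δ) (x : ℂ) :
    ρ.T x a ∈ ρ.conv v (‖x‖ + δ) := by
  obtain ⟨ι, _, w, t, h1, h2, h3, rfl⟩ := ha
  refine ⟨ι, inferInstance, w, fun i => x + t i, h1, h2, fun i => ?_, ?_⟩
  · have := norm_add_le x (t i)
    linarith [h3 i]
  · simp only [map_sum, map_smul, ρ.T_add]

theorem exists_level (v : H) : ∃ D : ℝ,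
    (∀ δ > 0, ∀ η > 0, ∃ a ∈ ρ.conv v δ, ‖a‖ ^ 2 ≤ D + η) ∧
    ∀ ε > 0, ∃ δ > 0, ∃ η > 0, ∀ a ∈ ρ.conv v δ, ∀ b ∈ ρ.conv v δ,
      ‖a‖ ^ 2 ≤ D + η → ‖b‖ ^ 2 ≤ D + η → ‖a - b‖ ≤ ε := by
  let d : ℝ → ℝ := fun δ => sInf ((fun a : H => ‖a‖ ^ 2) '' ρ.conv v δ)
  have hbdd : ∀ δ, BddBelow ((fun a : H => ‖a‖ ^ 2) '' ρ.conv v δ) := by
    intro δ
    refine ⟨0, ?_⟩
    rintro _ ⟨a, -, rfl⟩
    positivity
  have hd : ∀ δ, ∀ a ∈ ρ.conv v δ, d δ ≤ ‖a‖ ^ 2 := fun δ a ha => csInf_le (hbdd δ) ⟨a, ha, rfl⟩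
  have hab : BddAbove (d '' Set.Ioi 0) := by
    refine ⟨‖v‖ ^ 2, ?_⟩
    rintro _ ⟨δ, hδ, rfl⟩
    exact hd δ v (self_mem_conv v hδ)
  refine ⟨sSup (d '' Set.Ioi 0), fun δ hδ η hη => ?_, fun ε hε => ?_⟩
  · have h1 : d δ ≤ sSup (d '' Set.Ioi 0) := le_csSup hab ⟨δ, hδ, rfl⟩
    obtain ⟨_, ⟨a, ha, rfl⟩, h2⟩ := exists_lt_of_csInf_lt
      (s := (fun a : H => ‖a‖ ^ 2) '' ρ.conv v δ) (b := sSup (d '' Set.Ioi 0) + η)
      ⟨_, v, self_mem_conv v hδ, rfl⟩ (by change d δ < _; linarith)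
    exact ⟨a, ha, h2.le⟩
  · obtain ⟨_, ⟨δ, hδ, rfl⟩, h2⟩ := exists_lt_of_lt_csSup (s := d '' Set.Ioi 0)
      (b := sSup (d '' Set.Ioi 0) - ε ^ 2 / 8) ⟨_, 1, by simp, rfl⟩
      (by have : 0 < ε ^ 2 := by positivity
          linarith)
    refine ⟨δ, hδ, ε ^ 2 / 8, by positivity, fun a ha b hb h3 h4 => ?_⟩
    have h5 := hd δ _ (conv_mid ha hb)
    rw [norm_smul, mul_pow, Real.norm_of_nonneg (by norm_num)] at h5
    have h6 := parallelogram_law_with_norm ℝ a b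
    refine (abs_le_of_sq_le_sq' ?_ hε.le).2
    nlinarith

theorem decomp [CompleteSpace H] {v : H} (hv : ρ.Fixed v) :
    ∃ c, ρ.Fixed c ∧ (∀ ε > 0, ∃ δ > 0, ∀ x : ℂ, ‖x‖ < δ → ‖ρ.T x c - c‖ ≤ ε) ∧
      ρ.Wild (v - c) := by
  obtain ⟨D, hD1, hD2⟩ := exists_level (ρ := ρ) v
  have hpos : ∀ n : ℕ, (0 : ℝ) < 1 / (n + 1) := fun n => by positivity
  choose g hg1 hg2 using fun n : ℕ => hD1 _ (hpos n) _ (hpos n)
  have hev : ∀ δ : ℝ, 0 < δ → ∀ᶠ n : ℕ in atTop, 1 / ((n : ℝ) + 1) ≤ δ := fun δ hδ =>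
    (tendsto_one_div_add_atTop_nhds_zero_nat (𝕜 := ℝ)).eventually_le_const hδ
  have hcau : CauchySeq g := by
    rw [Metric.cauchySeq_iff]
    intro ε hε
    obtain ⟨δ, hδ, η, hη, h⟩ := hD2 (ε / 2) (by positivity)
    obtain ⟨N, hN⟩ := eventually_atTop.1 ((hev δ hδ).and (hev η hη))
    refine ⟨N, fun m hm n hn => ?_⟩
    rw [dist_eq_norm]
    have := h _ (conv_mono (hg1 m) (hN m hm).1) _ (conv_mono (hg1 n) (hN n hn).1)
      (by linarith [hg2 m, (hN m hm).2]) (by linarith [hg2 n, (hN n hn).2])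
    linarith
  obtain ⟨c, hc⟩ := cauchySeq_tendsto_of_complete hcau
  have hfix : ρ.Fixed c := by
    intro θ
    rw [← sub_eq_zero, ← norm_le_zero_iff]
    refine le_of_forall_pos_le_add fun ε hε => ?_
    rw [zero_add]
    obtain ⟨δ, hδ, η, hη, h⟩ := hD2 ε hε
    have h1 : Tendsto (fun n => ‖ρ.R θ (g n) - g n‖) atTop (𝓝 ‖ρ.R θ c - c‖) :=
      ((((ρ.R θ).continuous.tendsto c).comp hc).sub hc).norm
    refine le_of_tendsto h1 ?_
    filter_upwards [hev δ hδ, hev η hη] with n h2 h3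
    exact h _ (conv_mono (conv_R hv (hg1 n) θ) h2) _ (conv_mono (hg1 n) h2)
      (by rw [ρ.R_norm]; linarith [hg2 n]) (by linarith [hg2 n])
  have hcont : ∀ ε > 0, ∃ δ > 0, ∀ x : ℂ, ‖x‖ < δ → ‖ρ.T x c - c‖ ≤ ε := by
    intro ε hε
    obtain ⟨δ, hδ, η, hη, h⟩ := hD2 ε hε
    refine ⟨δ / 2, by positivity, fun x hx => ?_⟩
    have h1 : Tendsto (fun n => ‖ρ.T x (g n) - g n‖) atTop (𝓝 ‖ρ.T x c - c‖) :=
      ((((ρ.T x).continuous.tendsto c).comp hc).sub hc).norm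
    refine le_of_tendsto h1 ?_
    filter_upwards [hev (δ / 2) (by positivity), hev η hη] with n h2 h3
    exact h _ (conv_mono (conv_T (hg1 n) x) (by linarith)) _ (conv_mono (hg1 n) (by linarith))
      (by rw [ρ.T_norm]; linarith [hg2 n]) (by linarith [hg2 n])
  refine ⟨c, hfix, hcont, fun ε hε δ hδ => ?_⟩
  obtain ⟨δ', hδ', h⟩ := hcont (ε / 2) (by positivity)
  have h1 : ∀ᶠ n in atTop, ‖g n - c‖ ≤ ε / 2 :=
    (tendsto_iff_norm_sub_tendsto_zero.1 hc).eventually_le_const (by positivity)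
  obtain ⟨n, h2, h3, h4⟩ := (h1.and ((hev δ hδ).and (hev δ' hδ'))).exists
  obtain ⟨ι, _, w, t, a1, a2, a3, a4⟩ := hg1 n
  refine ⟨ι, inferInstance, w, t, a1, a2, fun i => (a3 i).trans_le h3, ?_⟩
  have e : ∑ i, w i • ρ.T (t i) (v - c) = (g n - c) - ∑ i, w i • (ρ.T (t i) c - c) := by
    simp only [map_sub, smul_sub, Finset.sum_sub_distrib, ← Finset.sum_smul, a2, one_smul, ← a4]
    abel
  rw [e]
  refine (norm_sub_le _ _).trans ?_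
  have h5 : ‖∑ i, w i • (ρ.T (t i) c - c)‖ ≤ ε / 2 := by
    refine (norm_sum_le _ _).trans ?_
    calc ∑ i, ‖w i • (ρ.T (t i) c - c)‖ ≤ ∑ i, w i * (ε / 2) := by
          refine Finset.sum_le_sum fun i _ => ?_
          rw [norm_smul, Real.norm_of_nonneg (a1 i)]
          exact mul_le_mul_of_nonneg_left (h _ ((a3 i).trans_le h4)) (a1 i)
      _ = ε / 2 := by rw [← Finset.sum_mul, a2, one_mul]
  linarith

/-- A radial positive definite function is continuous at the unit circle. -/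
theorem cont_at_circle [CompleteSpace H] {v : H} (hv : ρ.Fixed v) {ε : ℝ} (hε : 0 < ε) :
    ∃ η > 0, ∀ z : ℂ, |‖z‖ - 1| < η → ⟪ρ.T z v, v⟫ ≤ ⟪ρ.T 1 v, v⟫ + ε := by
  obtain ⟨c, hc, hcont, hw⟩ := decomp hv
  set w := v - c with hwdef
  have hwf : ρ.Fixed w := fun θ => by rw [hwdef, map_sub, hv θ, hc θ]
  have hsplit : ∀ z : ℂ, z ≠ 0 → ⟪ρ.T z v, v⟫ = ⟪ρ.T z c, v⟫ + ⟪ρ.T z w, c⟫ := by
    intro z hz
    have h0 := ρ.wild_zero hwf hw hz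
    have e1 : v = c + w := by rw [hwdef]; abel
    have e2 : ⟪ρ.T z w, v⟫ = ⟪ρ.T z w, c⟫ := by
      conv_lhs => rw [e1, inner_add_right, h0, add_zero]
    rw [← e2, ← inner_add_left, ← map_add, ← e1]
  obtain ⟨δ, hδ, h⟩ := hcont (ε / (‖v‖ + ‖w‖ + 1)) (by positivity)
  refine ⟨min δ 1, by positivity, fun z hz => ?_⟩
  set t : ℝ := ‖z‖ - 1 with ht
  have ht1 : |t| < δ := hz.trans_le (min_le_left _ _)
  have ht2 : |t| < 1 := hz.trans_le (min_le_right _ _)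
  have hz1 : ‖z‖ = ‖(1 : ℂ) + t‖ := by
    rw [ht]; push_cast; simp
  have hne : (1 : ℂ) + t ≠ 0 := by
    intro h0
    have : (1 : ℝ) + t = 0 := by exact_mod_cast h0
    have := (abs_lt.1 ht2).1
    linarith
  rw [radial hv hv hz1, hsplit _ hne, hsplit 1 one_ne_zero]
  have a1 : ⟪ρ.T (1 + t) c, v⟫ - ⟪ρ.T 1 c, v⟫ ≤ ε / (‖v‖ + ‖w‖ + 1) * ‖v‖ := by
    rw [← inner_sub_left, ρ.T_add, ← map_sub]
    refine (real_inner_le_norm _ _).trans ?_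
    rw [ρ.T_norm]
    exact mul_le_mul_of_nonneg_right (h _ (by simpa using ht1)) (norm_nonneg _)
  have a2 : ⟪ρ.T (1 + t) w, c⟫ - ⟪ρ.T 1 w, c⟫ ≤ ‖w‖ * (ε / (‖v‖ + ‖w‖ + 1)) := by
    rw [← sub_neg_eq_add, ← ρ.inner_T_T, ← inner_sub_right]
    refine (real_inner_le_norm _ _).trans ?_
    rw [ρ.T_norm]
    exact mul_le_mul_of_nonneg_left (h _ (by simpa using ht1)) (norm_nonneg _)
  have a3 : ε / (‖v‖ + ‖w‖ + 1) * (‖v‖ + ‖w‖ + 1) = ε := by field_simp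
  have a4 : 0 < ε / (‖v‖ + ‖w‖ + 1) := by positivity
  nlinarith

end Rep

end Vale.Agent.P032
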