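import Vale.Agent.P032.ADecomp

/-! The representation of the motion group on the completion of bounded functions. -/

namespace Vale.Agent.P032

open Finset Filter Topology UniformSpace
open scoped RealInnerProductSpace

/-- A fixed invariant mean on the angles. -/
noncomputable def muR : Mean ℝ := (exists_mean ℝ).some

/-- A fixed invariant mean on the plane. -/
noncomputable def muC : Mean ℂ := (exists_mean ℂ).some

/-- The iterated mean on the motion group. -/
noncomputable def MM : (ℝ × ℂ → ℝ) →ₗ[ℝ] ℝ where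
  toFun F := muR.m fun θ => muC.m fun x => F (θ, x)
  map_add' F G := by simp only [Pi.add_apply, muC.add, muR.add]
  map_smul' c F := by simp only [Pi.smul_apply, smul_eq_mul, muC.cmul, muR.cmul]; rfl

theorem MM_apply (F : ℝ × ℂ → ℝ) : MM F = muR.m fun θ => muC.m fun x => F (θ, x) := rfl

theorem bdd_inner_mean {F : ℝ × ℂ → ℝ} (hF : Bdd F) : Bdd fun θ => muC.m fun x => F (θ, x) := by
  obtain ⟨C, hC⟩ := hF
  exact ⟨C, fun θ => muC.abs_le' fun x => hC _⟩

theorem MM_const (c : ℝ) : MM (fun _ => c) = c := by simp only [MM_apply, muC.const, muR.const]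

theorem MM_nonneg {F : ℝ × ℂ → ℝ} (hF : Bdd F) (h : ∀ p, 0 ≤ F p) : 0 ≤ MM F :=
  muR.nonneg _ (bdd_inner_mean hF) fun θ => muC.nonneg _ (hF.comp fun x => (θ, x)) fun _ => h _

theorem MM_mono {F G : ℝ × ℂ → ℝ} (hF : Bdd F) (hG : Bdd G) (h : ∀ p, F p ≤ G p) :
    MM F ≤ MM G := by
  have := MM_nonneg (hG.sub hF) fun p => sub_nonneg.2 (h p)
  have e : MM (fun p => G p - F p) = MM G - MM F := map_sub MM G F
  linarith

theorem MM_T {F : ℝ × ℂ → ℝ} (hF : Bdd F) (y : ℂ) :
    MM (fun p => F (p.1, p.2 + ee p.1 * y)) = MM F := by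
  simp only [MM_apply]
  congr 1
  funext θ
  exact muC.inv (fun x => F (θ, x)) (hF.comp fun x => (θ, x)) _

theorem MM_R {F : ℝ × ℂ → ℝ} (hF : Bdd F) (s : ℝ) :
    MM (fun p => F (p.1 + s, p.2)) = MM F :=
  muR.inv (fun θ => muC.m fun x => F (θ, x)) (bdd_inner_mean hF) s

/-- Bounded functions on the motion group, with the semi-inner product of the mean. -/
def H0 : Type := bddSub (ℝ × ℂ)

noncomputable instance : AddCommGroup H0 := inferInstanceAs (AddCommGroup (bddSub (ℝ × ℂ)))

noncomputable instance : Module ℝ H0 := inferInstanceAs (Module ℝ (bddSub (ℝ × ℂ)))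

/-- The underlying function. -/
def H0.fn (F : H0) : ℝ × ℂ → ℝ := Subtype.val F

theorem H0.bdd (F : H0) : Bdd F.fn := Subtype.property F

theorem H0.fn_add (F G : H0) : (F + G).fn = fun p => F.fn p + G.fn p := rfl

theorem H0.fn_smul (c : ℝ) (F : H0) : (c • F).fn = fun p => c * F.fn p := rfl

theorem H0.ext {F G : H0} (h : ∀ p, F.fn p = G.fn p) : F = G := Subtype.ext (funext h)

/-- The semi-inner product. -/
noncomputable abbrev core0 : PreInnerProductSpace.Core ℝ H0 where
  inner F G := MM fun p => F.fn p * G.fn p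
  conj_inner_symm F G := by simp [mul_comm]
  re_inner_nonneg F := MM_nonneg (F.bdd.mul F.bdd) fun _ => mul_self_nonneg _
  add_left F G K := by
    rw [← map_add]
    congr 1
    funext p
    simp [H0.fn_add, add_mul]
  smul_left F G r := by
    have : (fun p => (r • F).fn p * G.fn p) = r • fun p => F.fn p * G.fn p := by
      funext p
      simp [H0.fn_smul, mul_assoc]
    rw [this, map_smul]
    simp

noncomputable instance : SeminormedAddCommGroup H0 :=
  InnerProductSpace.Core.toSeminormedAddCommGroup (𝕜 := ℝ) (c := core0)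

noncomputable instance : InnerProductSpace ℝ H0 := InnerProductSpace.ofCore core0

theorem H0.inner_def (F G : H0) : ⟪F, G⟫ = MM fun p => F.fn p * G.fn p := rfl

/-- Composition operator, as a linear map. -/
def comp0 (σ : ℝ × ℂ → ℝ × ℂ) : H0 →ₗ[ℝ] H0 where
  toFun F := ⟨fun p => F.fn (σ p), F.bdd.comp σ⟩
  map_add' _ _ := rfl
  map_smul' _ _ := rfl

theorem comp0_fn (σ : ℝ × ℂ → ℝ × ℂ) (F : H0) : (comp0 σ F).fn = fun p => F.fn (σ p) := rfl

/-- Mean preserving maps. -/
def Pres (σ : ℝ × ℂ → ℝ × ℂ) : Prop := ∀ F, Bdd F → MM (fun p => F (σ p)) = MM F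

theorem comp0_inner {σ : ℝ × ℂ → ℝ × ℂ} (h : Pres σ) (F G : H0) :
    ⟪comp0 σ F, comp0 σ G⟫ = ⟪F, G⟫ := h _ (F.bdd.mul G.bdd)

/-- Composition operator on the completion. -/
noncomputable def compH (σ : ℝ × ℂ → ℝ × ℂ) (h : Pres σ) : Completion H0 →L[ℝ] Completion H0 :=
  ((comp0 σ).mkContinuous 1 fun F => by
    rw [one_mul, norm_eq_sqrt_real_inner, comp0_inner h, ← norm_eq_sqrt_real_inner]).completion

theorem compH_coe (σ : ℝ × ℂ → ℝ × ℂ) (h : Pres σ) (F : H0) :
    compH σ h (F : Completion H0) = (comp0 σ F : H0) := by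
  simp [compH]

theorem compH_inner (σ : ℝ × ℂ → ℝ × ℂ) (h : Pres σ) (ξ η : Completion H0) :
    ⟪compH σ h ξ, compH σ h η⟫ = ⟪ξ, η⟫ := by
  induction ξ, η using Completion.induction_on₂ with
  | hp => exact isClosed_eq (by fun_prop) (by fun_prop)
  | ih F G => rw [compH_coe, compH_coe, Completion.inner_coe, Completion.inner_coe, comp0_inner h]

theorem compH_comp {σ τ σ' τ' : ℝ × ℂ → ℝ × ℂ} (h1 : Pres σ) (h2 : Pres τ) (h3 : Pres σ')
    (h4 : Pres τ') (h : ∀ p, τ (σ p) = τ' (σ' p)) (ξ : Completion H0) :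
    compH σ h1 (compH τ h2 ξ) = compH σ' h3 (compH τ' h4 ξ) := by
  induction ξ using Completion.induction_on with
  | hp => exact isClosed_eq (by fun_prop) (by fun_prop)
  | ih F =>
    simp only [compH_coe]
    congr 1
    exact H0.ext fun p => by simp only [comp0_fn, h]

theorem compH_id {σ : ℝ × ℂ → ℝ × ℂ} (h1 : Pres σ) (h : ∀ p, σ p = p) (ξ : Completion H0) :
    compH σ h1 ξ = ξ := by
  induction ξ using Completion.induction_on with
  | hp => exact isClosed_eq (by fun_prop) (by fun_prop)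
  | ih F =>
    simp only [compH_coe]
    congr 1
    exact H0.ext fun p => by simp only [comp0_fn, h]

theorem pres_id : Pres fun p => p := fun _ _ => rfl

theorem pres_T (y : ℂ) : Pres fun p => (p.1, p.2 + ee p.1 * y) := fun _ hF => MM_T hF y

theorem pres_R (s : ℝ) : Pres fun p => (p.1 + s, p.2) := fun _ hF => MM_R hF s

/-- The motion group representation. -/
noncomputable def rep0 : Rep (Completion H0) where
  T y := compH (fun p => (p.1, p.2 + ee p.1 * y)) (pres_T y)
  R s := compH (fun p => (p.1 + s, p.2)) (pres_R s)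
  T_add x y ξ := by
    refine (compH_id pres_id (fun _ => rfl) _).symm.trans ?_
    exact compH_comp _ _ _ _ (fun p => by simp only [mul_add, add_assoc]) ξ
  T_zero ξ := compH_id _ (fun p => by simp) ξ
  T_inner x := compH_inner _ _
  R_add x y ξ := by
    refine (compH_id pres_id (fun _ => rfl) _).symm.trans ?_
    exact compH_comp _ _ _ _ (fun p => by simp only [add_assoc]) ξ
  R_zero ξ := compH_id _ (fun p => by simp) ξ
  R_inner x := compH_inner _ _
  RT θ x ξ := compH_comp _ _ _ _ (fun p => by simp only [ee_add, mul_assoc]) ξ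

/-- The averaged autocorrelation of a bounded function is continuous at the unit circle. -/
theorem phi_small (χ : ℂ → ℝ) (hχ : Bdd χ) {ε : ℝ} (hε : 0 < ε) :
    ∃ η > 0, ∀ z : ℂ, |‖z‖ - 1| < η →
      MM (fun p => χ (p.2 + ee p.1 * z) * χ p.2) ≤
        MM (fun p => χ (p.2 + ee p.1 * 1) * χ p.2) + ε := by
  let v0 : H0 := ⟨fun p => χ p.2, hχ.comp _⟩
  have hv : rep0.Fixed (v0 : Completion H0) := by
    intro θ
    simp only [rep0, compH_coe]
    rfl
  have e : ∀ z, ⟪rep0.T z (v0 : Completion H0), (v0 : Completion H0)⟫ =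
      MM (fun p => χ (p.2 + ee p.1 * z) * χ p.2) := by
    intro z
    simp only [rep0, compH_coe, Completion.inner_coe]
    rfl
  obtain ⟨η, hη, h⟩ := Rep.cont_at_circle hv hε
  exact ⟨η, hη, fun z hz => by rw [← e, ← e]; exact h z hz⟩

end Vale.Agent.P032
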