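import Mathlib

/-! Invariant means on abelian groups. -/

namespace Vale.Agent.P032

open Finset Filter Topology

/-- Bounded real functions. -/
def Bdd {G : Type} (f : G → ℝ) : Prop := ∃ C, ∀ x, |f x| ≤ C

theorem Bdd.const {G : Type} (c : ℝ) : Bdd (fun _ : G => c) := ⟨|c|, fun _ => le_rfl⟩

theorem Bdd.add {G : Type} {f g : G → ℝ} (hf : Bdd f) (hg : Bdd g) : Bdd (fun x => f x + g x) := by
  obtain ⟨A, hA⟩ := hf
  obtain ⟨B, hB⟩ := hg
  exact ⟨A + B, fun x => (abs_add_le _ _).trans (add_le_add (hA x) (hB x))⟩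

theorem Bdd.mul {G : Type} {f g : G → ℝ} (hf : Bdd f) (hg : Bdd g) : Bdd (fun x => f x * g x) := by
  obtain ⟨A, hA⟩ := hf
  obtain ⟨B, hB⟩ := hg
  refine ⟨A * B, fun x => ?_⟩
  rw [abs_mul]
  exact mul_le_mul (hA x) (hB x) (abs_nonneg _) ((abs_nonneg _).trans (hA x))

theorem Bdd.neg {G : Type} {f : G → ℝ} (hf : Bdd f) : Bdd (fun x => - f x) := by
  obtain ⟨A, hA⟩ := hf
  exact ⟨A, fun x => by rw [abs_neg]; exact hA x⟩

theorem Bdd.sub {G : Type} {f g : G → ℝ} (hf : Bdd f) (hg : Bdd g) : Bdd (fun x => f x - g x) := by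
  simpa [sub_eq_add_neg] using hf.add hg.neg

theorem Bdd.comp {G G' : Type} {f : G → ℝ} (hf : Bdd f) (σ : G' → G) : Bdd (fun x => f (σ x)) := by
  obtain ⟨A, hA⟩ := hf
  exact ⟨A, fun x => hA _⟩

theorem Bdd.sum {G ι : Type} (s : Finset ι) {f : ι → G → ℝ} (hf : ∀ i ∈ s, Bdd (f i)) :
    Bdd (fun x => ∑ i ∈ s, f i x) := by
  classical
  induction s using Finset.induction_on with
  | empty => simpa using Bdd.const (G := G) 0
  | insert i s hi ih =>
    simp only [Finset.sum_insert hi]
    exact (hf i (mem_insert_self _ _)).add (ih fun j hj => hf j (mem_insert_of_mem hj))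

/-- The subspace of bounded functions. -/
def bddSub (G : Type) : Submodule ℝ (G → ℝ) where
  carrier := {f | Bdd f}
  add_mem' hf hg := Bdd.add hf hg
  zero_mem' := Bdd.const 0
  smul_mem' c _ hf := Bdd.mul (Bdd.const c) hf

/-- A translation invariant mean (extended linearly, arbitrarily, to unbounded functions). -/
structure Mean (G : Type) [AddCommGroup G] where
  m : (G → ℝ) →ₗ[ℝ] ℝ
  one : m (fun _ => 1) = 1
  nonneg : ∀ f, Bdd f → (∀ x, 0 ≤ f x) → 0 ≤ m f
  inv : ∀ f, Bdd f → ∀ s, m (fun x => f (x + s)) = m f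

namespace Mean

variable {G : Type} [AddCommGroup G] (μ : Mean G)

theorem const (c : ℝ) : μ.m (fun _ => c) = c := by
  have : (fun _ : G => c) = c • (fun _ : G => (1 : ℝ)) := by funext x; simp
  rw [this, map_smul, μ.one]; simp

theorem add (f g : G → ℝ) : μ.m (fun x => f x + g x) = μ.m f + μ.m g := map_add μ.m f g

theorem sub (f g : G → ℝ) : μ.m (fun x => f x - g x) = μ.m f - μ.m g := map_sub μ.m f g

theorem cmul (c : ℝ) (f : G → ℝ) : μ.m (fun x => c * f x) = c * μ.m f := map_smul μ.m c f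

theorem sum {ι : Type} (s : Finset ι) (f : ι → G → ℝ) :
    μ.m (fun x => ∑ i ∈ s, f i x) = ∑ i ∈ s, μ.m (f i) := by
  rw [← map_sum]
  congr 1
  funext x
  simp

theorem mono {f g : G → ℝ} (hf : Bdd f) (hg : Bdd g) (h : ∀ x, f x ≤ g x) : μ.m f ≤ μ.m g := by
  have := μ.nonneg (fun x => g x - f x) (hg.sub hf) fun x => sub_nonneg.2 (h x)
  rw [μ.sub] at this
  linarith

theorem le_const {f : G → ℝ} (hf : Bdd f) {c : ℝ} (h : ∀ x, f x ≤ c) : μ.m f ≤ c := by
  simpa [μ.const] using μ.mono hf (Bdd.const c) h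

theorem const_le {f : G → ℝ} (hf : Bdd f) {c : ℝ} (h : ∀ x, c ≤ f x) : c ≤ μ.m f := by
  simpa [μ.const] using μ.mono (Bdd.const c) hf h

theorem abs_le' {f : G → ℝ} {c : ℝ} (h : ∀ x, |f x| ≤ c) : |μ.m f| ≤ c :=
  abs_le.2 ⟨μ.const_le ⟨c, h⟩ fun x => (abs_le.1 (h x)).1,
    μ.le_const ⟨c, h⟩ fun x => (abs_le.1 (h x)).2⟩

theorem sq_le {f : G → ℝ} (hf : Bdd f) : μ.m f ^ 2 ≤ μ.m (fun x => f x ^ 2) := by
  have h := μ.nonneg (fun x => (f x - μ.m f) * (f x - μ.m f))
    ((hf.sub (Bdd.const _)).mul (hf.sub (Bdd.const _))) fun x => mul_self_nonneg _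
  have e : (fun x => (f x - μ.m f) * (f x - μ.m f)) =
      fun x => f x ^ 2 - (2 * μ.m f) * f x + μ.m f ^ 2 := by funext x; ring
  rw [e, μ.add, μ.sub, μ.cmul, μ.const] at h
  nlinarith

theorem exists_le {f : G → ℝ} (hf : Bdd f) {c : ℝ} (h : μ.m f < c) : ∃ x, f x < c := by
  by_contra hc
  push Not at hc
  exact absurd (μ.const_le hf hc) (not_le.2 h)

end Mean

section construction

variable {G : Type} [AddCommGroup G]

/-- Averaging over an arithmetic progression of translates. -/
noncomputable def avgT (n : ℕ) (s : G) : (G → ℝ) →ₗ[ℝ] (G → ℝ) where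
  toFun f := fun x => (∑ k ∈ range (n + 1), f (x + k • s)) / (n + 1)
  map_add' f g := by funext x; simp [Finset.sum_add_distrib, add_div]
  map_smul' c f := by funext x; simp [← Finset.mul_sum, mul_div_assoc]

theorem avgT_apply (n : ℕ) (s : G) (f : G → ℝ) (x : G) :
    avgT n s f x = (∑ k ∈ range (n + 1), f (x + k • s)) / (n + 1) := rfl

theorem avgT_ge (n : ℕ) (s : G) {f : G → ℝ} {c : ℝ} (h : ∀ x, c ≤ f x) (x : G) :
    c ≤ avgT n s f x := by
  rw [avgT_apply, le_div_iff₀ (by positivity)]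
  have := Finset.sum_le_sum (s := range (n + 1)) fun k _ => h (x + k • s)
  simpa [mul_comm] using this

theorem avgT_le (n : ℕ) (s : G) {f : G → ℝ} {c : ℝ} (h : ∀ x, f x ≤ c) (x : G) :
    avgT n s f x ≤ c := by
  rw [avgT_apply, div_le_iff₀ (by positivity)]
  have := Finset.sum_le_sum (s := range (n + 1)) fun k _ => h (x + k • s)
  simpa [mul_comm] using this

/-- Iterated averaging. -/
noncomputable def avgL (n : ℕ) : List G → ((G → ℝ) →ₗ[ℝ] (G → ℝ))
  | [] => LinearMap.id
  | s :: L => avgT n s ∘ₗ avgL n L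

theorem avgL_ge (n : ℕ) (L : List G) {f : G → ℝ} {c : ℝ} (h : ∀ x, c ≤ f x) :
    ∀ x, c ≤ avgL n L f x := by
  induction L with
  | nil => exact h
  | cons s L ih => exact avgT_ge n s ih

theorem avgL_le (n : ℕ) (L : List G) {f : G → ℝ} {c : ℝ} (h : ∀ x, f x ≤ c) :
    ∀ x, avgL n L f x ≤ c := by
  induction L with
  | nil => exact h
  | cons s L ih => exact avgT_le n s ih

theorem avgL_abs (n : ℕ) (L : List G) {f : G → ℝ} {c : ℝ} (h : ∀ x, |f x| ≤ c) (x : G) :
    |avgL n L f x| ≤ c :=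
  abs_le.2 ⟨avgL_ge n L (fun x => (abs_le.1 (h x)).1) x, avgL_le n L (fun x => (abs_le.1 (h x)).2) x⟩

theorem avgL_shift (n : ℕ) (L : List G) (f : G → ℝ) (t : G) :
    ∀ x, avgL n L (fun y => f (y + t)) x = avgL n L f (x + t) := by
  induction L with
  | nil => intro x; rfl
  | cons s L ih =>
    intro x
    simp only [avgL, LinearMap.comp_apply, avgT_apply, ih]
    congr 1
    exact Finset.sum_congr rfl fun k _ => by rw [add_right_comm]

theorem avgL_almost_inv (n : ℕ) (L : List G) {f : G → ℝ} {C : ℝ} (h : ∀ x, |f x| ≤ C) {t : G}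
    (ht : t ∈ L) : ∀ x, |avgL n L f (x + t) - avgL n L f x| ≤ 2 * C / (n + 1) := by
  induction L with
  | nil => simp at ht
  | cons s L ih =>
    intro x
    rcases List.mem_cons.1 ht with rfl | ht
    · simp only [avgL, LinearMap.comp_apply, avgT_apply]
      set g := avgL n L f
      have hg : ∀ y, |g y| ≤ C := avgL_abs n L h
      rw [← sub_div, ← Finset.sum_sub_distrib]
      have e : ∑ k ∈ range (n + 1), (g (x + t + k • t) - g (x + k • t)) =
          g (x + (n + 1) • t) - g (x + 0 • t) := by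
        rw [← Finset.sum_range_sub (fun k => g (x + k • t))]
        refine Finset.sum_congr rfl fun k _ => ?_
        rw [succ_nsmul, add_assoc, add_comm t]
      rw [e, abs_div, abs_of_pos (by positivity : (0 : ℝ) < n + 1)]
      refine div_le_div_of_nonneg_right ?_ (by positivity)
      have := abs_sub (g (x + (n + 1) • t)) (g (x + 0 • t))
      linarith [hg (x + (n + 1) • t), hg (x + 0 • t)]
    · have ih' := ih ht
      have e : avgL n (s :: L) f (x + t) - avgL n (s :: L) f x =
          avgT n s (fun y => avgL n L f (y + t) - avgL n L f y) x := by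
        simp only [avgL, LinearMap.comp_apply, avgT_apply]
        rw [← sub_div, ← Finset.sum_sub_distrib]
        congr 1
        exact Finset.sum_congr rfl fun k _ => by rw [add_right_comm]
      rw [e]
      exact abs_le.2 ⟨avgT_ge n s (fun y => (abs_le.1 (ih' y)).1) x,
        avgT_le n s (fun y => (abs_le.1 (ih' y)).2) x⟩

theorem ultra_tendsto {α : Type} (U : Ultrafilter α) (a : α → ℝ) {C : ℝ} (h : ∀ i, |a i| ≤ C) :
    Tendsto a U (𝓝 (limUnder U a)) := by
  apply tendsto_nhds_limUnder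
  have : (U.map a : Filter ℝ) ≤ 𝓟 (Set.Icc (-C) C) := by
    rw [le_principal_iff]
    exact Filter.mem_map.2 (Filter.univ_mem' fun i => abs_le.1 (h i))
  obtain ⟨l, -, hl⟩ := isCompact_Icc.ultrafilter_le_nhds (U.map a) this
  exact ⟨l, hl⟩

theorem exists_mean (G : Type) [AddCommGroup G] : Nonempty (Mean G) := by
  classical
  let U : Ultrafilter (Finset G × ℕ) := Ultrafilter.of atTop
  have hU : (U : Filter (Finset G × ℕ)) ≤ atTop := Ultrafilter.of_le _
  let a : (G → ℝ) → Finset G × ℕ → ℝ := fun f α => avgL α.2 α.1.toList f 0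
  have ht : ∀ f, Bdd f → Tendsto (a f) U (𝓝 (limUnder U (a f))) := by
    rintro f ⟨C, hC⟩
    exact ultra_tendsto U _ fun α => avgL_abs _ _ hC 0
  let m0 : bddSub G →ₗ[ℝ] ℝ :=
    { toFun := fun f => limUnder U (a f)
      map_add' := fun f g => by
        refine tendsto_nhds_unique (ht _ (f + g).2) ?_
        have := (ht _ f.2).add (ht _ g.2)
        simpa [a] using this
      map_smul' := fun c f => by
        refine tendsto_nhds_unique (ht _ (c • f).2) ?_
        have := (ht _ f.2).const_mul c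
        simpa [a] using this }
  obtain ⟨m, hm⟩ := LinearMap.exists_extend m0
  have hm' : ∀ f, Bdd f → Tendsto (a f) U (𝓝 (m f)) := by
    intro f hf
    have : m f = limUnder U (a f) := LinearMap.congr_fun hm ⟨f, hf⟩
    rw [this]
    exact ht f hf
  refine ⟨⟨m, ?_, ?_, ?_⟩⟩
  · refine tendsto_nhds_unique (hm' _ (Bdd.const 1)) ?_
    have : a (fun _ => 1) = fun _ => 1 := by
      funext α
      exact le_antisymm (avgL_le _ _ (fun _ => le_rfl) 0) (avgL_ge _ _ (fun _ => le_rfl) 0)
    rw [this]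
    exact tendsto_const_nhds
  · intro f hf h0
    exact ge_of_tendsto' (hm' f hf) fun α => avgL_ge _ _ h0 0
  · intro f hf s
    have h1 := (hm' _ (hf.comp (fun x => x + s))).sub (hm' f hf)
    obtain ⟨C, hC⟩ := hf
    have h2 : Tendsto (fun α => a (fun x => f (x + s)) α - a f α) U (𝓝 0) := by
      apply Tendsto.mono_left _ hU
      have h3 : Tendsto (fun α : Finset G × ℕ => 2 * C / ((α.2 : ℝ) + 1)) atTop (𝓝 0) := by
        have h4 : Tendsto (fun α : Finset G × ℕ => α.2) atTop atTop := by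
          rw [← prod_atTop_atTop_eq]; exact tendsto_snd
        exact (tendsto_const_div_atTop_nhds_zero_nat (2 * C)).comp (tendsto_add_atTop_nat 1)
          |>.comp h4 |>.congr fun α => by simp
      refine squeeze_zero_norm' ?_ h3
      filter_upwards [eventually_ge_atTop (({s} : Finset G), 0)] with α hα
      have hs : s ∈ α.1.toList := Finset.mem_toList.2 (hα.1 (mem_singleton_self s))
      simp only [a, avgL_shift, Real.norm_eq_abs]
      exact avgL_almost_inv _ _ hC hs 0
    have := tendsto_nhds_unique h1 h2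
    linarith

end construction

end Vale.Agent.P032
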