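import Vale.Agent.P032.AMean

/-! Measure theoretic tools: weight, weak limits, grids, the discretised correlation functional. -/

namespace Vale.Agent.P032

open Finset Filter Topology MeasureTheory Metric
open scoped RealInnerProductSpace ENNReal

/-- A positive integrable weight. -/
noncomputable def hh (z : ℂ) : ℝ := (1 + ‖z‖) ^ (-(3 : ℝ))

theorem hh_pos (z : ℂ) : 0 < hh z := Real.rpow_pos_of_pos (by positivity) _

theorem hh_le_one (z : ℂ) : hh z ≤ 1 :=
  Real.rpow_le_one_of_one_le_of_nonpos (by linarith [norm_nonneg z]) (by norm_num)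

theorem hh_integrable : Integrable hh := integrable_one_add_norm (by simp; norm_num)

theorem hh_measurable : Measurable hh := by unfold hh; fun_prop

theorem integrable_of_le {f : ℂ → ℝ} (hf : Measurable f) (h0 : ∀ z, 0 ≤ f z)
    (h1 : ∀ᵐ z, f z ≤ hh z) : Integrable f :=
  hh_integrable.mono' hf.aestronglyMeasurable
    (by filter_upwards [h1] with z hz; rwa [Real.norm_of_nonneg (h0 z)])

theorem memLp_of_le {f : ℂ → ℝ} (hf : Measurable f) (h0 : ∀ z, 0 ≤ f z)
    (h1 : ∀ᵐ z, f z ≤ hh z) : MemLp f 2 := by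
  rw [memLp_two_iff_integrable_sq hf.aestronglyMeasurable]
  refine integrable_of_le (hf.pow_const 2) (fun z => sq_nonneg _) ?_
  filter_upwards [h1] with z hz
  have := hh_le_one z
  have := h0 z
  nlinarith

theorem exists_weak_lim {H α : Type} [NormedAddCommGroup H] [InnerProductSpace ℝ H]
    [CompleteSpace H] (U : Ultrafilter α) (F : α → H) {C : ℝ} (hF : ∀ a, ‖F a‖ ≤ C) :
    ∃ P : H, ∀ ξ, Tendsto (fun a => ⟪ξ, F a⟫) U (𝓝 ⟪ξ, P⟫) := by
  have hb : ∀ ξ a, |⟪ξ, F a⟫| ≤ C * ‖ξ‖ := fun ξ a =>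
    (abs_real_inner_le_norm _ _).trans (by
      rw [mul_comm]; exact mul_le_mul_of_nonneg_right (hF a) (norm_nonneg _))
  have ht : ∀ ξ, Tendsto (fun a => ⟪ξ, F a⟫) U (𝓝 (limUnder U fun a => ⟪ξ, F a⟫)) :=
    fun ξ => ultra_tendsto U _ (hb ξ)
  let l0 : H →ₗ[ℝ] ℝ :=
    { toFun := fun ξ => limUnder U fun a => ⟪ξ, F a⟫
      map_add' := fun a b => by
        refine tendsto_nhds_unique (ht _) ?_
        simpa only [inner_add_left] using (ht a).add (ht b)
      map_smul' := fun c a => by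
        refine tendsto_nhds_unique (ht _) ?_
        simpa only [real_inner_smul_left, RingHom.id_apply, smul_eq_mul] using (ht a).const_mul c }
  let l : H →L[ℝ] ℝ := l0.mkContinuous C fun ξ =>
    le_of_tendsto' (ht ξ).norm fun a => hb ξ a
  refine ⟨(InnerProductSpace.toDual ℝ H).symm l, fun ξ => ?_⟩
  rw [real_inner_comm, InnerProductSpace.toDual_symm_apply]
  exact ht ξ

theorem exists_weak_fun {α : Type} (U : Ultrafilter α) (f : α → ℂ → ℝ)
    (hm : ∀ a, Measurable (f a)) (h0 : ∀ a z, 0 ≤ f a z) (h1 : ∀ a z, f a z ≤ hh z) :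
    ∃ P : ℂ → ℝ, Measurable P ∧ (∀ z, 0 ≤ P z) ∧ (∀ᵐ z, P z ≤ hh z) ∧
      ∀ s, MeasurableSet s → volume s < ∞ →
        Tendsto (fun a => ∫ z in s, f a z) U (𝓝 (∫ z in s, P z)) := by
  have hL : ∀ a, MemLp (f a) 2 := fun a => memLp_of_le (hm a) (h0 a) (ae_of_all _ (h1 a))
  have hH : MemLp hh 2 := memLp_of_le hh_measurable (fun z => (hh_pos z).le) (ae_of_all _ fun _ => le_rfl)
  obtain ⟨Q, hQ⟩ := exists_weak_lim U (fun a => (hL a).toLp (f a)) (C := ‖hH.toLp hh‖) fun a => by
    apply Lp.norm_le_norm_of_ae_le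
    filter_upwards [(hL a).coeFn_toLp, hH.coeFn_toLp] with z e1 e2
    rw [e1, e2, Real.norm_of_nonneg (h0 a z), Real.norm_of_nonneg (hh_pos z).le]
    exact h1 a z
  have hs : ∀ s, MeasurableSet s → volume s < ∞ →
      Tendsto (fun a => ∫ z in s, f a z) U (𝓝 (∫ z in s, Q z)) := by
    intro s hs hv
    have := hQ (indicatorConstLp 2 hs hv.ne (1 : ℝ))
    simp only [L2.inner_indicatorConstLp_one] at this
    refine this.congr fun a => ?_
    exact integral_congr_ae (ae_restrict_of_ae (hL a).coeFn_toLp)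
  have hint : ∀ s, MeasurableSet s → volume s < ∞ → IntegrableOn Q s := fun s _ hv =>
    integrableOn_Lp_of_measure_ne_top Q fact_one_le_two_ennreal.elim hv.ne
  have hQ0 : 0 ≤ᵐ[volume] Q :=
    ae_nonneg_of_forall_setIntegral_nonneg_of_sigmaFinite hint fun s hs' hv =>
      ge_of_tendsto' (hs s hs' hv) fun a => integral_nonneg (h0 a)
  have hQ1 : 0 ≤ᵐ[volume] fun z => hh z - Q z := by
    refine ae_nonneg_of_forall_setIntegral_nonneg_of_sigmaFinite
      (fun s hs' hv => hh_integrable.integrableOn.sub (hint s hs' hv)) fun s hs' hv => ?_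
    rw [integral_sub hh_integrable.integrableOn (hint s hs' hv), sub_nonneg]
    refine le_of_tendsto' (hs s hs' hv) fun a => ?_
    exact integral_mono (integrable_of_le (hm a) (h0 a) (ae_of_all _ (h1 a))).integrableOn
      hh_integrable.integrableOn (h1 a)
  have he : (fun z => max (Q z) 0) =ᵐ[volume] Q := by
    filter_upwards [hQ0] with z hz
    exact max_eq_left hz
  refine ⟨fun z => max (Q z) 0, (Lp.stronglyMeasurable Q).measurable.max measurable_const,
    fun z => le_max_right _ _, ?_, fun s hs' hv => ?_⟩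
  · filter_upwards [he, hQ1] with z e1 e2
    rw [e1]
    simpa using e2
  · rw [integral_congr_ae (ae_restrict_of_ae he)]
    exact hs s hs' hv

/-- Index of the grid cell of mesh `1/(N+1)`. -/
noncomputable def kap (N : ℕ) (z : ℂ) : ℤ × ℤ := (⌊(N + 1) * z.re⌋, ⌊(N + 1) * z.im⌋)

/-- Corner of a grid cell. -/
noncomputable def pt (N : ℕ) (a : ℤ × ℤ) : ℂ := ⟨a.1 / (N + 1), a.2 / (N + 1)⟩

theorem measurable_kap (N : ℕ) : Measurable (kap N) := by
  unfold kap
  refine Measurable.prodMk ?_ ?_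
  · exact Measurable.floor (by fun_prop)
  · exact Measurable.floor (by fun_prop)

theorem abs_sub_floor (N : ℕ) (x : ℝ) : |x - ⌊(N + 1) * x⌋ / (N + 1)| ≤ 1 / (N + 1) := by
  have hN : (0 : ℝ) < N + 1 := by positivity
  have e : x - ⌊(N + 1) * x⌋ / (N + 1) = ((N + 1) * x - ⌊(N + 1) * x⌋) / (N + 1) := by field_simp
  rw [e, abs_div, abs_of_pos hN]
  refine div_le_div_of_nonneg_right ?_ hN.le
  have h1 := Int.floor_le ((N + 1) * x)
  have h2 := Int.lt_floor_add_one ((N + 1) * x)
  rw [abs_le]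
  constructor <;> linarith

theorem norm_sub_pt (N : ℕ) (z : ℂ) : ‖z - pt N (kap N z)‖ ≤ 2 / (N + 1) := by
  refine (Complex.norm_le_abs_re_add_abs_im _).trans ?_
  have h1 := abs_sub_floor N z.re
  have h2 := abs_sub_floor N z.im
  simp only [Complex.sub_re, Complex.sub_im, pt, kap]
  have : (2 : ℝ) / (N + 1) = 1 / (N + 1) + 1 / (N + 1) := by ring
  linarith

theorem exists_finset_kap (N : ℕ) (R : ℝ) :
    ∃ S : Finset (ℤ × ℤ), ∀ z : ℂ, ‖z‖ ≤ R → kap N z ∈ S := by
  refine ⟨Finset.Icc ⌊(N + 1) * (-R)⌋ ⌊(N + 1) * R⌋ ×ˢ Finset.Icc ⌊(N + 1) * (-R)⌋ ⌊(N + 1) * R⌋,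
    fun z hz => ?_⟩
  have hN : (0 : ℝ) ≤ N + 1 := by positivity
  have h1 := abs_le.1 ((Complex.abs_re_le_norm z).trans hz)
  have h2 := abs_le.1 ((Complex.abs_im_le_norm z).trans hz)
  simp only [Finset.mem_product, Finset.mem_Icc, kap]
  exact ⟨⟨Int.floor_mono (mul_le_mul_of_nonneg_left h1.1 hN),
    Int.floor_mono (mul_le_mul_of_nonneg_left h1.2 hN)⟩,
    Int.floor_mono (mul_le_mul_of_nonneg_left h2.1 hN),
    Int.floor_mono (mul_le_mul_of_nonneg_left h2.2 hN)⟩

theorem integral_mul_comp {ι : Type} [MeasurableSpace ι] [MeasurableSingletonClass ι]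
    {s : Set ℂ} (hs : MeasurableSet s) {w : ℂ → ℝ} (hw : IntegrableOn w s) {κ : ℂ → ι}
    (hκ : Measurable κ) (S : Finset ι) (hS : ∀ z ∈ s, κ z ∈ S) (Φ : ι → ℝ) :
    ∫ z in s, w z * Φ (κ z) = ∑ a ∈ S, Φ a * ∫ z in s ∩ κ ⁻¹' {a}, w z := by
  classical
  have hm : ∀ a, MeasurableSet (κ ⁻¹' {a}) := fun a => hκ (measurableSet_singleton a)
  have e1 : ∀ a, ∫ z in s ∩ κ ⁻¹' {a}, w z = ∫ z in s, (κ ⁻¹' {a}).indicator w z := by
    intro a
    rw [setIntegral_indicator (hm a)]
  simp only [e1, ← integral_const_mul]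
  rw [← integral_finsetSum _ fun a _ => ((hw.indicator (hm a)).const_mul _)]
  refine setIntegral_congr_fun hs fun z hz => ?_
  rw [Finset.sum_eq_single (κ z)]
  · simp [mul_comm]
  · intro a _ hne
    rw [Set.indicator_of_notMem (by simpa using hne.symm), mul_zero]
  · intro h; exact absurd (hS z hz) h

/-- A linear functional commutes with integrals of finitely valued families. -/
theorem lin_integral {ι Γ : Type} [MeasurableSpace ι] [MeasurableSingletonClass ι]
    (L : (Γ → ℝ) →ₗ[ℝ] ℝ) {s : Set ℂ} (hs : MeasurableSet s) {w : ℂ → ℝ} (hw : IntegrableOn w s)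
    {κ : ℂ → ι} (hκ : Measurable κ) (S : Finset ι) (hS : ∀ z ∈ s, κ z ∈ S) (G : ι → Γ → ℝ) :
    L (fun g => ∫ z in s, w z * G (κ z) g) = ∫ z in s, w z * L (G (κ z)) := by
  rw [integral_mul_comp hs hw hκ S hS (fun a => L (G a))]
  have : (fun g => ∫ z in s, w z * G (κ z) g) =
      ∑ a ∈ S, (∫ z in s ∩ κ ⁻¹' {a}, w z) • G a := by
    funext g
    rw [integral_mul_comp hs hw hκ S hS (fun a => G a g)]
    simp [mul_comm]
  rw [this, map_sum]
  simp [mul_comm]

/-- Discretised correlation of `f` with its translate by `u`, smoothed at scale `η`. -/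
noncomputable def JJ (R : ℝ) (N : ℕ) (u : ℂ) (η : ℝ) (f : ℂ → ℝ) : ℝ :=
  ∫ z in closedBall (0 : ℂ) R, f z * ⨍ y in closedBall (pt N (kap N z) + u) η, f y

theorem JJ_nonneg (R : ℝ) (N : ℕ) (u : ℂ) (η : ℝ) {f : ℂ → ℝ} (h : ∀ z, 0 ≤ f z) :
    0 ≤ JJ R N u η f :=
  integral_nonneg fun z => mul_nonneg (h z) (integral_nonneg h)

theorem JJ_tendsto {α : Type} {l : Filter α} {f : α → ℂ → ℝ} {P : ℂ → ℝ}
    (hf : ∀ a, Integrable (f a)) (hP : Integrable P)
    (h : ∀ s, MeasurableSet s → volume s < ∞ →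
      Tendsto (fun a => ∫ z in s, f a z) l (𝓝 (∫ z in s, P z)))
    (R : ℝ) (N : ℕ) (u : ℂ) (η : ℝ) :
    Tendsto (fun a => JJ R N u η (f a)) l (𝓝 (JJ R N u η P)) := by
  obtain ⟨S, hS⟩ := exists_finset_kap N R
  have e : ∀ f : ℂ → ℝ, Integrable f → JJ R N u η f = ∑ a ∈ S,
      (⨍ y in closedBall (pt N a + u) η, f y) * ∫ z in closedBall (0 : ℂ) R ∩ kap N ⁻¹' {a}, f z :=
    fun f hf => integral_mul_comp measurableSet_closedBall hf.integrableOn (measurable_kap N) S
      (fun z hz => hS z (by simpa using hz)) (fun a => ⨍ y in closedBall (pt N a + u) η, f y)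
  simp only [e _ (hf _), e _ hP, setAverage_eq]
  refine tendsto_finsetSum _ fun a _ => Tendsto.mul (Tendsto.const_smul ?_ _) ?_
  · exact h _ measurableSet_closedBall measure_closedBall_lt_top
  · exact h _ (measurableSet_closedBall.inter (measurable_kap N (measurableSet_singleton a)))
      ((measure_mono Set.inter_subset_left).trans_lt measure_closedBall_lt_top)

theorem average_le {f : ℂ → ℝ} {x : ℂ} {η c : ℝ} (hc : 0 ≤ c)
    (hf : IntegrableOn f (closedBall x η)) (h : ∀ᵐ y, y ∈ closedBall x η → f y ≤ c) :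
    ⨍ y in closedBall x η, f y ≤ c := by
  rw [setAverage_eq, smul_eq_mul]
  have h1 : ∫ y in closedBall x η, f y ≤ ∫ _y in closedBall x η, c :=
    setIntegral_mono_on_ae hf (integrableOn_const measure_closedBall_lt_top.ne)
      measurableSet_closedBall h
  rw [setIntegral_const, smul_eq_mul] at h1
  have h2 : 0 ≤ volume.real (closedBall x η) := measureReal_nonneg
  refine (mul_le_mul_of_nonneg_left h1 (inv_nonneg.2 h2)).trans ?_
  rw [← mul_assoc]
  exact mul_le_of_le_one_left hc inv_mul_le_one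

theorem corr_limit {P : ℂ → ℝ} (hm : Measurable P) (h0 : ∀ z, 0 ≤ P z) (h1 : ∀ᵐ z, P z ≤ hh z)
    (u : ℂ) {R η : ℕ → ℝ} {N : ℕ → ℕ} (hR : Tendsto R atTop atTop)
    (hη : Tendsto η atTop (𝓝[>] 0)) (hN : ∀ m, 2 / ((N m : ℝ) + 1) ≤ η m) :
    Tendsto (fun m => JJ (R m) (N m) u (η m) P) atTop (𝓝 (∫ z, P z * P (z + u))) := by
  have hP := integrable_of_le hm h0 h1
  simp only [JJ, ← integral_indicator measurableSet_closedBall]
  refine tendsto_integral_of_dominated_convergence P (fun m => ?_) hP (fun m => ?_) ?_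
  · refine (Measurable.indicator (hm.mul ?_) measurableSet_closedBall).aestronglyMeasurable
    exact (measurable_of_countable fun a : ℤ × ℤ =>
      ⨍ y in closedBall (pt (N m) a + u) (η m), P y).comp (measurable_kap (N m))
  · refine ae_of_all _ fun z => (norm_indicator_le_norm_self _ _).trans ?_
    have h5 : 0 ≤ ⨍ y in closedBall (pt (N m) (kap (N m) z) + u) (η m), P y :=
      integral_nonneg h0
    rw [Real.norm_of_nonneg (mul_nonneg (h0 z) h5)]
    refine mul_le_of_le_one_right (h0 z) (average_le zero_le_one hP.integrableOn ?_)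
    filter_upwards [h1] with y hy _
    exact hy.trans (hh_le_one y)
  · have h2 := IsUnifLocDoublingMeasure.ae_tendsto_average volume hP.locallyIntegrable 1
    have h3 := (measurePreserving_add_right volume u).quasiMeasurePreserving.ae h2
    filter_upwards [h3] with z hz
    have h4 := hz (fun m => pt (N m) (kap (N m) z) + u) η hη (Eventually.of_forall fun m => by
      rw [mem_closedBall, dist_eq_norm, add_sub_add_right_eq_sub, one_mul]
      exact (norm_sub_pt _ _).trans (hN m))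
    refine (h4.const_mul (P z)).congr' ?_
    filter_upwards [hR.eventually_ge_atTop ‖z‖] with m hm'
    rw [Set.indicator_of_mem (by simpa using hm')]

theorem corr_continuous {P : ℂ → ℝ} (hP : MemLp P 2) :
    Continuous fun u : ℂ => ∫ z, P z * P (z + u) := by
  let g : ℂ → C(ℂ, ℂ) := ContinuousMap.curry ⟨fun p : ℂ × ℂ => p.2 + p.1, by fun_prop⟩
  have hg : ∀ u, MeasurePreserving (g u) volume volume := fun u =>
    measurePreserving_add_right volume u
  have hc : Continuous fun u => Lp.compMeasurePreserving (g u) (hg u) (hP.toLp P) :=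
    Continuous.compMeasurePreservingLp continuous_const (ContinuousMap.continuous _) hg
      (by simp)
  have : Continuous fun u => ⟪Lp.compMeasurePreserving (g u) (hg u) (hP.toLp P), hP.toLp P⟫ :=
    hc.inner continuous_const
  convert this using 2 with u
  rw [L2.inner_def]
  refine integral_congr_ae ?_
  filter_upwards [Lp.coeFn_compMeasurePreserving (hP.toLp P) (hg u), hP.coeFn_toLp,
    (hg u).quasiMeasurePreserving.ae hP.coeFn_toLp] with z e1 e2 e3
  rw [e1, Function.comp_apply, e2, e3]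
  simp [g]

end Vale.Agent.P032
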