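import Vale.Agent.P032.AMean

/-! Orthogonal representations of the plane motion group (no continuity), mean ergodic theorem. -/

namespace Vale.Agent.P032

open Finset Filter Topology
open scoped RealInnerProductSpace

/-- The point of the unit circle with angle `θ`. -/
noncomputable def ee (θ : ℝ) : ℂ := Complex.exp (θ * Complex.I)

theorem ee_add (a b : ℝ) : ee (a + b) = ee a * ee b := by
  simp [ee, add_mul, Complex.exp_add]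

theorem ee_zero : ee 0 = 1 := by simp [ee]

theorem norm_ee (a : ℝ) : ‖ee a‖ = 1 := Complex.norm_exp_ofReal_mul_I a

theorem ee_nat_mul (n : ℕ) (a : ℝ) : ee (n * a) = ee a ^ n := by
  simp [ee, ← Complex.exp_nat_mul, mul_assoc]

theorem ee_pi : ee Real.pi = -1 := by simp [ee]

theorem exists_ee {u : ℂ} (h : ‖u‖ = 1) : ∃ θ, u = ee θ := by
  obtain ⟨θ, hθ⟩ := (Complex.norm_eq_one_iff u).1 h
  exact ⟨θ, hθ.symm⟩

theorem exists_ee_mul {a b : ℂ} (h : ‖a‖ = ‖b‖) : ∃ θ, a = ee θ * b := by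
  by_cases hb : b = 0
  · subst hb
    exact ⟨0, by simpa using h⟩
  · obtain ⟨θ, hθ⟩ := exists_ee (u := a / b) (by rw [norm_div, h, div_self (by simpa using hb)])
    exact ⟨θ, by rw [← hθ]; field_simp⟩

theorem ee_nat_inj {m n : ℕ} (h : ee m = ee n) : m = n := by
  obtain ⟨k, hk⟩ := Complex.exp_eq_exp_iff_exists_int.1 h
  have h1 : ((m : ℝ) : ℂ) = (n : ℝ) + k * (2 * Real.pi) := by
    have : ((m : ℝ) : ℂ) * Complex.I = ((n : ℝ) + k * (2 * Real.pi)) * Complex.I := by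
      rw [hk]; ring
    exact mul_right_cancel₀ Complex.I_ne_zero this
  have h2 : (m : ℝ) = n + k * (2 * Real.pi) := by exact_mod_cast h1
  by_cases hk0 : k = 0
  · subst hk0
    simpa using h2
  · exfalso
    apply irrational_pi
    refine ⟨((m : ℚ) - n) / (2 * k), ?_⟩
    have : (k : ℝ) ≠ 0 := by exact_mod_cast hk0
    push_cast
    field_simp
    linarith

variable {H : Type} [NormedAddCommGroup H] [InnerProductSpace ℝ H]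

/-- Translations `T` and rotations `R` acting isometrically on a real inner product space. -/
structure Rep (H : Type) [NormedAddCommGroup H] [InnerProductSpace ℝ H] where
  T : ℂ → H →L[ℝ] H
  R : ℝ → H →L[ℝ] H
  T_add : ∀ x y ξ, T (x + y) ξ = T x (T y ξ)
  T_zero : ∀ ξ, T 0 ξ = ξ
  T_inner : ∀ x ξ η, ⟪T x ξ, T x η⟫ = ⟪ξ, η⟫
  R_add : ∀ x y ξ, R (x + y) ξ = R x (R y ξ)
  R_zero : ∀ ξ, R 0 ξ = ξ
  R_inner : ∀ x ξ η, ⟪R x ξ, R x η⟫ = ⟪ξ, η⟫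
  RT : ∀ θ x ξ, R θ (T x ξ) = T (ee θ * x) (R θ ξ)

theorem bdd_inner {G : Type} {F F' : G → H} {A B : ℝ} (hF : ∀ x, ‖F x‖ ≤ A) (hF' : ∀ x, ‖F' x‖ ≤ B) :
    Bdd (fun x => ⟪F x, F' x⟫) :=
  ⟨A * B, fun x => (abs_real_inner_le_norm _ _).trans
    (mul_le_mul (hF x) (hF' x) (norm_nonneg _) ((norm_nonneg _).trans (hF x)))⟩

namespace Rep

variable (ρ : Rep H)

theorem T_norm (x : ℂ) (ξ : H) : ‖ρ.T x ξ‖ = ‖ξ‖ := by
  rw [norm_eq_sqrt_real_inner, ρ.T_inner, ← norm_eq_sqrt_real_inner]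

theorem R_norm (x : ℝ) (ξ : H) : ‖ρ.R x ξ‖ = ‖ξ‖ := by
  rw [norm_eq_sqrt_real_inner, ρ.R_inner, ← norm_eq_sqrt_real_inner]

theorem inner_T_T (x y : ℂ) (ξ η : H) : ⟪ρ.T x ξ, ρ.T y η⟫ = ⟪ρ.T (x - y) ξ, η⟫ := by
  rw [← ρ.T_inner y (ρ.T (x - y) ξ) η, ← ρ.T_add, add_sub_cancel]

theorem inner_R_R (x y : ℝ) (ξ η : H) : ⟪ρ.R x ξ, ρ.R y η⟫ = ⟪ρ.R (x - y) ξ, η⟫ := by
  rw [← ρ.R_inner y (ρ.R (x - y) ξ) η, ← ρ.R_add, add_sub_cancel]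

/-- Rotation-fixed vectors. -/
def Fixed (η : H) : Prop := ∀ θ, ρ.R θ η = η

variable {ρ}

theorem Fixed.inner_R {η : H} (h : ρ.Fixed η) (θ : ℝ) (ξ : H) : ⟪ρ.R θ ξ, η⟫ = ⟪ξ, η⟫ := by
  conv_lhs => rw [← h θ]
  exact ρ.R_inner _ _ _

theorem Fixed.T_ee {v : H} (h : ρ.Fixed v) (θ : ℝ) (x : ℂ) :
    ρ.T (ee θ * x) v = ρ.R θ (ρ.T x v) := by rw [ρ.RT, h θ]

theorem radial {v g : H} (hv : ρ.Fixed v) (hg : ρ.Fixed g) {a b : ℂ} (h : ‖a‖ = ‖b‖) :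
    ⟪ρ.T a v, g⟫ = ⟪ρ.T b v, g⟫ := by
  obtain ⟨θ, rfl⟩ := exists_ee_mul h
  rw [hv.T_ee, hg.inner_R]

variable (ρ) [CompleteSpace H]

theorem exists_Z (μ : Mean ℝ) (ξ : H) {j : ℝ} (hj : j ≠ 0) (κ : ℝ) :
    ∃ ζ, ρ.Fixed ζ ∧ ∀ η, ⟪ζ, η⟫ = μ.m (fun θ => ⟪ρ.R (j * θ + κ) ξ, η⟫) := by
  let l0 : H →ₗ[ℝ] ℝ :=
    { toFun := fun η => μ.m (fun θ => ⟪ρ.R (j * θ + κ) ξ, η⟫)
      map_add' := fun a b => by simp only [inner_add_right, μ.add]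
      map_smul' := fun c a => by simp only [real_inner_smul_right, μ.cmul]; rfl }
  let l : H →L[ℝ] ℝ := l0.mkContinuous ‖ξ‖ fun η => by
    apply μ.abs_le'
    intro θ
    exact (abs_real_inner_le_norm _ _).trans (by rw [ρ.R_norm])
  let ζ := (InnerProductSpace.toDual ℝ H).symm l
  have hζ : ∀ η, ⟪ζ, η⟫ = μ.m (fun θ => ⟪ρ.R (j * θ + κ) ξ, η⟫) := fun η =>
    InnerProductSpace.toDual_symm_apply
  refine ⟨ζ, fun s => ?_, hζ⟩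
  apply ext_inner_right ℝ
  intro η
  have e1 : ⟪ρ.R s ζ, η⟫ = ⟪ζ, ρ.R (-s) η⟫ := by
    conv_rhs => rw [← ρ.R_zero ζ, ρ.inner_R_R]
    simp
  rw [e1, hζ, hζ]
  have := μ.inv (fun θ => ⟪ρ.R (j * θ + κ) ξ, η⟫)
    (bdd_inner (A := ‖ξ‖) (B := ‖η‖) (fun θ => (ρ.R_norm _ _).le) fun _ => le_rfl) (s / j)
  rw [← this]
  congr 1
  funext θ
  rw [ρ.inner_R_R]
  congr 2
  field_simp
  ring_nf

/-- Mean ergodic theorem for the rotation group along any dilated orbit. -/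
theorem exists_P (μ : Mean ℝ) (ξ : H) :
    ∃ ζ, ρ.Fixed ζ ∧ (∀ η, ρ.Fixed η → ⟪ζ, η⟫ = ⟪ξ, η⟫) ∧
      ∀ (j : ℝ), j ≠ 0 → ∀ κ η, μ.m (fun θ => ⟪ρ.R (j * θ + κ) ξ, η⟫) = ⟪ζ, η⟫ := by
  have key : ∀ (j κ : ℝ) (ζ : H), (∀ η, ⟪ζ, η⟫ = μ.m (fun θ => ⟪ρ.R (j * θ + κ) ξ, η⟫)) →
      ∀ η, ρ.Fixed η → ⟪ζ, η⟫ = ⟪ξ, η⟫ := by
    intro j κ ζ h η hη
    rw [h]
    simp only [hη.inner_R, μ.const]
  obtain ⟨ζ, hζ, h⟩ := ρ.exists_Z μ ξ one_ne_zero 0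
  refine ⟨ζ, hζ, key _ _ _ h, fun j hj κ η => ?_⟩
  obtain ⟨ζ', hζ', h'⟩ := ρ.exists_Z μ ξ hj κ
  have hfix : ρ.Fixed (ζ' - ζ) := fun θ => by rw [map_sub, hζ θ, hζ' θ]
  have : ⟪ζ' - ζ, ζ' - ζ⟫ = 0 := by
    rw [inner_sub_left, key _ _ _ h _ hfix, key _ _ _ h' _ hfix, sub_self]
  have : ζ' = ζ := sub_eq_zero.1 (inner_self_eq_zero.1 this)
  rw [← h', this]

end Rep

end Vale.Agent.P032
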