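import Vale.Agent.P032.AGns
import Vale.Agent.P032.AMeas

/-! Every proper colouring of the plane yields a measurable almost everywhere proper colouring. -/

namespace Vale.Agent.P032

open Finset Filter Topology MeasureTheory Metric
open scoped ENNReal

theorem integrableOn_mul_comp {ι : Type} [MeasurableSpace ι] [MeasurableSingletonClass ι]
    [Countable ι] {s : Set ℂ} (hs : MeasurableSet s) {w : ℂ → ℝ} (hw : IntegrableOn w s)
    {κ : ℂ → ι} (hκ : Measurable κ) (S : Finset ι) (hS : ∀ z ∈ s, κ z ∈ S) (Φ : ι → ℝ) :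
    IntegrableOn (fun z => w z * Φ (κ z)) s := by
  refine Integrable.mul_bdd (c := ∑ a ∈ S, ‖Φ a‖) hw
    ((measurable_of_countable Φ).comp hκ).aestronglyMeasurable ?_
  filter_upwards [ae_restrict_mem hs] with z hz
  exact Finset.single_le_sum (f := fun a => ‖Φ a‖) (fun _ _ => norm_nonneg _) (hS z hz)

theorem JJ_le (R : ℝ) (N : ℕ) (u : ℂ) (η : ℝ) {f : ℂ → ℝ} (hm : Measurable f)
    (h0 : ∀ z, 0 ≤ f z) (h1 : ∀ z, f z ≤ hh z) : JJ R N u η f ≤ ∫ z, hh z := by
  have hf := integrable_of_le hm h0 (ae_of_all _ h1)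
  refine le_trans ?_ (setIntegral_le_integral (s := closedBall (0 : ℂ) R) hh_integrable
    (ae_of_all _ fun z => (hh_pos z).le))
  refine integral_mono_of_nonneg (ae_of_all _ fun z => mul_nonneg (h0 z) (integral_nonneg h0))
    hh_integrable.integrableOn (ae_of_all _ fun z => ?_)
  refine le_trans (mul_le_of_le_one_right (h0 z) (average_le zero_le_one hf.integrableOn ?_)) (h1 z)
  exact ae_of_all _ fun y _ => (h1 y).trans (hh_le_one y)

theorem MM_exists_lt {F : ℝ × ℂ → ℝ} (hF : Bdd F) {c : ℝ} (h : MM F < c) : ∃ g, F g < c := by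
  by_contra hc
  push Not at hc
  have := MM_mono (Bdd.const c) hF hc
  rw [MM_const] at this
  linarith

/-- The weighted, moved and discretised version of `χ`. -/
noncomputable def ff (χ : ℂ → ℝ) (n : ℕ) (g : ℝ × ℂ) (z : ℂ) : ℝ :=
  hh z * χ (g.2 + ee g.1 * pt n (kap n z))

theorem ff_measurable (χ : ℂ → ℝ) (n : ℕ) (g : ℝ × ℂ) : Measurable (ff χ n g) :=
  hh_measurable.mul ((measurable_of_countable fun a : ℤ × ℤ => χ (g.2 + ee g.1 * pt n a)).comp
    (measurable_kap n))

theorem MM_JJ (χ : ℂ → ℝ) {ε η : ℝ} (hε : 0 ≤ ε)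
    (h : ∀ a a' : ℂ, |‖a - a'‖ - 1| ≤ 4 * η →
      MM (fun g => χ (g.2 + ee g.1 * a) * χ (g.2 + ee g.1 * a')) ≤ ε)
    {n N : ℕ} (hn : 2 / ((n : ℝ) + 1) ≤ η) (hN : 2 / ((N : ℝ) + 1) ≤ η) (R : ℝ) {u : ℂ}
    (hu : ‖u‖ = 1) : MM (fun g => JJ R N u η (ff χ n g)) ≤ ε * ∫ z, hh z := by
  obtain ⟨S1, hS1⟩ := exists_finset_kap n R
  obtain ⟨S2, hS2⟩ := exists_finset_kap N R
  let κ : ℂ → (ℤ × ℤ) × (ℤ × ℤ) := fun z => (kap n z, kap N z)
  have hκ : Measurable κ := (measurable_kap n).prodMk (measurable_kap N)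
  have hS : ∀ z ∈ closedBall (0 : ℂ) R, κ z ∈ S1 ×ˢ S2 := fun z hz =>
    Finset.mem_product.2 ⟨hS1 z (by simpa using hz), hS2 z (by simpa using hz)⟩
  let G : (ℤ × ℤ) × (ℤ × ℤ) → ℝ × ℂ → ℝ := fun p g =>
    χ (g.2 + ee g.1 * pt n p.1) * ⨍ y in closedBall (pt N p.2 + u) η, ff χ n g y
  have e1 : (fun g => JJ R N u η (ff χ n g)) =
      fun g => ∫ z in closedBall (0 : ℂ) R, hh z * G (κ z) g := by
    funext g
    simp only [JJ, G, κ, ff, mul_assoc]
  rw [e1, lin_integral MM measurableSet_closedBall hh_integrable.integrableOn hκ _ hS G]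
  have hG : ∀ z, MM (G (κ z)) ≤ ε := by
    intro z
    set b := pt N (kap N z) + u with hb
    set a' := pt n (kap n z) with ha'
    obtain ⟨S3, hS3⟩ := exists_finset_kap n (‖b‖ + η)
    have hS3' : ∀ y ∈ closedBall b η, kap n y ∈ S3 := fun y hy => hS3 y (by
      rw [mem_closedBall, dist_eq_norm] at hy
      have := norm_add_le b (y - b)
      rw [add_sub_cancel] at this
      linarith)
    let G' : ℤ × ℤ → ℝ × ℂ → ℝ := fun a g => χ (g.2 + ee g.1 * pt n a) * χ (g.2 + ee g.1 * a')
    have e2 : G (κ z) = (volume.real (closedBall b η))⁻¹ •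
        fun g => ∫ y in closedBall b η, hh y * G' (kap n y) g := by
      funext g
      simp only [G, G', κ, setAverage_eq, ff, Pi.smul_apply, smul_eq_mul, ← hb, ← ha',
        ← mul_assoc, integral_mul_const]
      ring
    rw [e2, map_smul, lin_integral MM measurableSet_closedBall hh_integrable.integrableOn
      (measurable_kap n) _ hS3' G', ← setAverage_eq]
    refine average_le hε (integrableOn_mul_comp measurableSet_closedBall
      hh_integrable.integrableOn (measurable_kap n) _ hS3' fun a => MM (G' a)) ?_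
    refine ae_of_all _ fun y hy => ?_
    have h1 : MM (G' (kap n y)) ≤ ε := by
      apply h
      rw [mem_closedBall, dist_eq_norm] at hy
      have a1 := (norm_sub_pt n y).trans hn
      have a2 := (norm_sub_pt n z).trans hn
      have a3 := (norm_sub_pt N z).trans hN
      have e3 : pt n (kap n y) - a' - u = -(y - pt n (kap n y)) + (y - b) -
          (z - pt N (kap N z)) + (z - a') := by rw [hb]; ring
      rw [← hu]
      refine (abs_norm_sub_norm_le _ _).trans ?_
      rw [e3]
      have b1 := norm_add_le (-(y - pt n (kap n y)) + (y - b) - (z - pt N (kap N z))) (z - a')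
      have b2 := norm_sub_le (-(y - pt n (kap n y)) + (y - b)) (z - pt N (kap N z))
      have b3 := norm_add_le (-(y - pt n (kap n y))) (y - b)
      rw [norm_neg] at b3
      linarith
    calc hh y * MM (G' (kap n y)) ≤ hh y * ε := mul_le_mul_of_nonneg_left h1 (hh_pos y).le
      _ ≤ ε := mul_le_of_le_one_left hε (hh_le_one y)
  calc ∫ z in closedBall (0 : ℂ) R, hh z * MM (G (κ z))
      ≤ ∫ z in closedBall (0 : ℂ) R, hh z * ε :=
        integral_mono (integrableOn_mul_comp measurableSet_closedBall hh_integrable.integrableOn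
          hκ _ hS fun p => MM (G p)) (hh_integrable.integrableOn.mul_const _)
          fun z => mul_le_mul_of_nonneg_left (hG z) (hh_pos z).le
    _ ≤ ε * ∫ z, hh z := by
        rw [integral_mul_const, mul_comm]
        exact mul_le_mul_of_nonneg_left (setIntegral_le_integral hh_integrable
          (ae_of_all _ fun z => (hh_pos z).le)) hε

/-- Indicator of a colour class. -/
noncomputable def cls {k : ℕ} (c : ℂ → Fin k) (i : Fin k) (x : ℂ) : ℝ := if c x = i then 1 else 0

theorem cls_nonneg {k : ℕ} (c : ℂ → Fin k) (i : Fin k) (x : ℂ) : 0 ≤ cls c i x := by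
  unfold cls; split_ifs <;> norm_num

theorem cls_le {k : ℕ} (c : ℂ → Fin k) (i : Fin k) (x : ℂ) : cls c i x ≤ 1 := by
  unfold cls; split_ifs <;> norm_num

theorem cls_bdd {k : ℕ} (c : ℂ → Fin k) (i : Fin k) : Bdd (cls c i) :=
  ⟨1, fun x => by rw [abs_of_nonneg (cls_nonneg c i x)]; exact cls_le c i x⟩

theorem cls_corr {k : ℕ} (c : ℂ → Fin k) (hc : ∀ x y, dist x y = 1 → c x ≠ c y) {ε : ℝ}
    (hε : 0 < ε) : ∀ᶠ η in 𝓝[>] (0 : ℝ), ∀ i, ∀ a a' : ℂ, |‖a - a'‖ - 1| ≤ 4 * η →
      MM (fun g => cls c i (g.2 + ee g.1 * a) * cls c i (g.2 + ee g.1 * a')) ≤ ε := by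
  rw [eventually_all]
  intro i
  obtain ⟨η0, h0, h⟩ := phi_small (cls c i) (cls_bdd c i) hε
  have hz : (fun p : ℝ × ℂ => cls c i (p.2 + ee p.1 * 1) * cls c i p.2) = fun _ => 0 := by
    funext p
    have := hc (p.2 + ee p.1 * 1) p.2 (by rw [dist_eq_norm, add_sub_cancel_left, mul_one, norm_ee])
    unfold cls
    split_ifs with h1 h2
    · exact absurd (h1.trans h2.symm) this
    all_goals simp
  rw [hz, MM_const, zero_add] at h
  have : ∀ᶠ η in 𝓝[>] (0 : ℝ), η < η0 / 4 :=
    (eventually_lt_nhds (by positivity)).filter_mono nhdsWithin_le_nhds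
  filter_upwards [this] with η hη a a' ha
  refine le_trans (le_of_eq ?_) (h (a - a') (by linarith))
  rw [← MM_T (F := fun p => cls c i (p.2 + ee p.1 * (a - a')) * cls c i p.2)
    (((cls_bdd c i).comp _).mul ((cls_bdd c i).comp _)) a']
  congr 1
  funext g
  congr 2
  ring

theorem exists_parts {k : ℕ} (c : ℂ → Fin k) (hc : ∀ x y, dist x y = 1 → c x ≠ c y) :
    ∃ P : Fin k → ℂ → ℝ, (∀ i, Measurable (P i)) ∧ (∀ᵐ z, ∃ i, 0 < P i z) ∧
      ∀ i, ∀ u : ℂ, ‖u‖ = 1 → ∀ᵐ z, P i z * P i (z + u) = 0 := by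
  have hsc : ∀ j : ℕ, ∃ η : ℝ, 0 < η ∧ η ≤ 1 / ((j : ℝ) + 1) ∧ ∀ i, ∀ a a' : ℂ,
      |‖a - a'‖ - 1| ≤ 4 * η →
      MM (fun g => cls c i (g.2 + ee g.1 * a) * cls c i (g.2 + ee g.1 * a')) ≤ (1 / 4) ^ j := by
    intro j
    have h1 := cls_corr c hc (ε := (1 / 4) ^ j) (by positivity)
    have h2 : ∀ᶠ η in 𝓝[>] (0 : ℝ), η ≤ 1 / ((j : ℝ) + 1) :=
      (eventually_le_nhds (by positivity)).filter_mono nhdsWithin_le_nhds
    obtain ⟨η, h3, h4, h5⟩ := ((eventually_mem_nhdsWithin (s := Set.Ioi (0 : ℝ))).and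
      (h2.and h1)).exists
    exact ⟨η, h3, h4, h5⟩
  choose η hη0 hη1 hη2 using hsc
  have hgrid : ∀ j, ∃ N : ℕ, 2 / ((N : ℝ) + 1) ≤ η j := by
    intro j
    obtain ⟨N, hN⟩ := exists_nat_gt (2 / η j)
    refine ⟨N, ?_⟩
    rw [div_lt_iff₀ (hη0 j)] at hN
    rw [div_le_iff₀ (by positivity)]
    nlinarith [hη0 j]
  choose N hN using hgrid
  let M : ℕ → ℕ := fun n => (range (n + 1)).sup N
  have hM : ∀ n, ∀ j ≤ n, 2 / ((M n : ℝ) + 1) ≤ η j := by
    intro n j hj
    refine le_trans ?_ (hN j)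
    have : N j ≤ M n := Finset.le_sup (f := N) (mem_range.2 (by omega))
    gcongr
  let u : ℕ → ℂ := fun j => ee (TopologicalSpace.denseSeq ℝ (Nat.unpair j).1)
  let J : ℕ → (ℂ → ℝ) → ℝ := fun j => JJ j (N j) (u j) (η j)
  set I := ∫ z, hh z with hI
  have hI0 : 0 ≤ I := integral_nonneg fun z => (hh_pos z).le
  have hf0 : ∀ i n g z, 0 ≤ ff (cls c i) n g z := fun i n g z =>
    mul_nonneg (hh_pos z).le (cls_nonneg _ _ _)
  have hf1 : ∀ i n g z, ff (cls c i) n g z ≤ hh z := fun i n g z =>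
    mul_le_of_le_one_right (hh_pos z).le (cls_le _ _ _)
  have hchoose : ∀ n, ∃ g : ℝ × ℂ, ∀ j ≤ n, ∀ i,
      J j (ff (cls c i) (M n) g) ≤ (2 * k * I + 1) * (1 / 2) ^ j := by
    intro n
    have hb : ∀ j i, Bdd fun g => J j (ff (cls c i) (M n) g) := fun j i =>
      ⟨I, fun g => by
        rw [abs_of_nonneg (JJ_nonneg _ _ _ _ (hf0 i _ g))]
        exact JJ_le _ _ _ _ (ff_measurable _ _ _) (hf0 i _ g) (hf1 i _ g)⟩
    obtain ⟨g, hg⟩ := MM_exists_lt (c := 2 * k * I + 1)
      (F := fun g => ∑ j ∈ range (n + 1), ∑ i, 2 ^ j * J j (ff (cls c i) (M n) g))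
      (Bdd.sum _ fun j _ => Bdd.sum _ fun i _ => (Bdd.const _).mul (hb j i)) (by
        have e : (fun g => ∑ j ∈ range (n + 1), ∑ i, 2 ^ j * J j (ff (cls c i) (M n) g)) =
            ∑ j ∈ range (n + 1), ∑ i, (2 ^ j : ℝ) • fun g => J j (ff (cls c i) (M n) g) := by
          funext g; simp
        rw [e]
        simp only [map_sum, map_smul, smul_eq_mul]
        have h1 : ∀ j ∈ range (n + 1), ∑ i, 2 ^ j * MM (fun g => J j (ff (cls c i) (M n) g)) ≤
            k * I * (1 / 2) ^ j := by
          intro j hj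
          have h2 : ∀ i, 2 ^ j * MM (fun g => J j (ff (cls c i) (M n) g)) ≤ I * (1 / 2) ^ j := by
            intro i
            have h3 := MM_JJ (cls c i) (by positivity) (hη2 j i)
              (hM n j (by have := mem_range.1 hj; omega)) (hN j) j (norm_ee _ : ‖u j‖ = 1)
            refine (mul_le_mul_of_nonneg_left h3 (by positivity)).trans (le_of_eq ?_)
            rw [← mul_assoc, ← mul_pow, mul_comm, hI]
            norm_num
          refine (Finset.sum_le_sum fun i _ => h2 i).trans (le_of_eq ?_)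
          simp [mul_assoc]
        refine (Finset.sum_le_sum h1).trans_lt ?_
        rw [← Finset.mul_sum]
        have h4 := sum_geometric_two_le (n + 1)
        have h5 : 0 ≤ k * I := by positivity
        nlinarith)
    refine ⟨g, fun j hj i => ?_⟩
    have hnn : ∀ j i, 0 ≤ 2 ^ j * J j (ff (cls c i) (M n) g) := fun j i =>
      mul_nonneg (by positivity) (JJ_nonneg _ _ _ _ (hf0 i _ g))
    have h1 : 2 ^ j * J j (ff (cls c i) (M n) g) ≤ ∑ i, 2 ^ j * J j (ff (cls c i) (M n) g) :=
      Finset.single_le_sum (f := fun i => 2 ^ j * J j (ff (cls c i) (M n) g))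
        (fun i _ => hnn j i) (mem_univ i)
    have h2 := Finset.single_le_sum (s := range (n + 1))
      (f := fun j => ∑ i, 2 ^ j * J j (ff (cls c i) (M n) g))
      (fun j _ => Finset.sum_nonneg fun i _ => hnn j i) (mem_range.2 (Nat.lt_succ_of_le hj))
    rw [one_div_pow, mul_one_div, le_div_iff₀ (by positivity)]
    linarith
  choose g hg using hchoose
  let U : Ultrafilter ℕ := Ultrafilter.of atTop
  have hU : (U : Filter ℕ) ≤ atTop := Ultrafilter.of_le _
  choose P hPm hP0 hP1 hPt using fun i => exists_weak_fun U (fun n => ff (cls c i) (M n) (g n))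
    (fun n => ff_measurable _ _ _) (fun n => hf0 i _ _) (fun n => hf1 i _ _)
  have hfi : ∀ i n g, Integrable (ff (cls c i) n g) := fun i n g =>
    integrable_of_le (ff_measurable _ _ _) (hf0 i n g) (ae_of_all _ (hf1 i n g))
  have hPi : ∀ i, Integrable (P i) := fun i => integrable_of_le (hPm i) (hP0 i) (hP1 i)
  refine ⟨P, hPm, ?_, fun i => ?_⟩
  · have : (fun z => ∑ i, P i z) =ᵐ[volume] hh := by
      refine Integrable.ae_eq_of_forall_setIntegral_eq _ _ (integrable_finsetSum _ fun i _ => hPi i)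
        hh_integrable fun s hs hv => ?_
      rw [integral_finsetSum _ fun i _ => (hPi i).integrableOn]
      refine tendsto_nhds_unique (tendsto_finsetSum _ fun i _ => hPt i s hs hv) ?_
      have : ∀ n, ∑ i, ∫ z in s, ff (cls c i) (M n) (g n) z = ∫ z in s, hh z := by
        intro n
        rw [← integral_finsetSum _ fun i _ => (hfi i _ _).integrableOn]
        congr 1
        funext z
        simp [ff, cls]
      simp only [this]
      exact tendsto_const_nhds
    filter_upwards [this] with z hz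
    by_contra hcon
    push Not at hcon
    have := Finset.sum_nonpos (s := univ) fun i _ => hcon i
    linarith [hh_pos z]
  · have hJ : ∀ j, J j (P i) ≤ (2 * k * I + 1) * (1 / 2) ^ j := by
      intro j
      refine le_of_tendsto (JJ_tendsto (fun n => hfi i _ _) (hPi i) (hPt i) _ _ _ _) ?_
      filter_upwards [hU (eventually_ge_atTop j)] with n hn
      exact hg n j hn i
    have hdense : ∀ a, ∫ z, P i z * P i (z + ee (TopologicalSpace.denseSeq ℝ a)) = 0 := by
      intro a
      have hp : Tendsto (fun m => Nat.pair a m) atTop atTop :=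
        tendsto_atTop_mono (fun m => Nat.right_le_pair a m) tendsto_id
      have hηt : Tendsto η atTop (𝓝[>] 0) := by
        refine tendsto_nhdsWithin_iff.2 ⟨?_, Eventually.of_forall hη0⟩
        exact squeeze_zero (fun j => (hη0 j).le) hη1 tendsto_one_div_add_atTop_nhds_zero_nat
      have h1 := corr_limit (hPm i) (hP0 i) (hP1 i) (ee (TopologicalSpace.denseSeq ℝ a))
        (R := fun m => (Nat.pair a m : ℝ)) (η := fun m => η (Nat.pair a m))
        (N := fun m => N (Nat.pair a m)) (tendsto_natCast_atTop_atTop.comp hp) (hηt.comp hp)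
        fun m => hN _
      have h2 : Tendsto (fun m => (2 * k * I + 1) * (1 / 2 : ℝ) ^ Nat.pair a m) atTop (𝓝 0) := by
        simpa using ((tendsto_pow_atTop_nhds_zero_of_lt_one (r := (1 / 2 : ℝ)) (by norm_num)
          (by norm_num)).comp hp).const_mul (2 * k * I + 1)
      refine le_antisymm (le_of_tendsto_of_tendsto' h1 h2 fun m => ?_)
        (integral_nonneg fun z => mul_nonneg (hP0 i _) (hP0 i _))
      have := hJ (Nat.pair a m)
      simpa only [J, u, Nat.unpair_pair] using this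
    have hcont : Continuous fun θ : ℝ => ∫ z, P i z * P i (z + ee θ) :=
      (corr_continuous (memLp_of_le (hPm i) (hP0 i) (hP1 i))).comp (by unfold ee; fun_prop)
    have hall : (fun θ : ℝ => ∫ z, P i z * P i (z + ee θ)) = fun _ => 0 :=
      (TopologicalSpace.denseRange_denseSeq ℝ).equalizer hcont continuous_const (funext hdense)
    intro v hv
    obtain ⟨θ, rfl⟩ := exists_ee hv
    refine (integral_eq_zero_iff_of_nonneg (fun z => mul_nonneg (hP0 i _) (hP0 i _)) ?_).1
      (congrFun hall θ)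
    refine integrable_of_le ((hPm i).mul ((hPm i).comp (by fun_prop)))
      (fun z => mul_nonneg (hP0 i _) (hP0 i _)) ?_
    filter_upwards [hP1 i, (measurePreserving_add_right volume (ee θ)).quasiMeasurePreserving.ae
      (hP1 i)] with z h1 h2
    exact (mul_le_of_le_one_right (hP0 i z) (h2.trans (hh_le_one _))).trans h1

/-- **Transfer theorem.** -/
theorem transfer (k : ℕ) (c : ℂ → Fin k) (hc : ∀ x y, dist x y = 1 → c x ≠ c y) :
    ∃ c' : ℂ → Fin k, Measurable c' ∧ ∀ u : ℂ, ‖u‖ = 1 → ∀ᵐ x : ℂ, c' x ≠ c' (x + u) := by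
  classical
  obtain ⟨P, hm, hpos, hz⟩ := exists_parts c hc
  let sel : (Fin k → Prop) → Fin k := fun b => if h : ∃ i, b i then h.choose else c 0
  have hsel : ∀ b : Fin k → Prop, (∃ i, b i) → b (sel b) := by
    intro b h
    simp only [sel, dif_pos h]
    exact h.choose_spec
  refine ⟨fun z => sel fun i => 0 < P i z, ?_, fun u hu => ?_⟩
  · refine (measurable_of_countable sel).comp (measurable_pi_lambda _ fun i => ?_)
    exact measurableSet_setOfPred.1 (measurableSet_lt measurable_const (hm i))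
  · filter_upwards [hpos, (measurePreserving_add_right volume u).quasiMeasurePreserving.ae hpos,
      ae_all_iff.2 fun i => hz i u hu] with z h1 h2 h3 he
    have a1 := hsel _ h1
    have a2 := hsel _ h2
    rw [← he] at a2
    exact (mul_pos a1 a2).ne' (h3 _)

end Vale.Agent.P032
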