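import Vale.Agent.P032.ARep

/-! Van der Corput differencing and the class of functions that small averages make small. -/

namespace Vale.Agent.P032

open Finset Filter Topology
open scoped RealInnerProductSpace

/-- `f` is pushed uniformly below `θ` by arbitrarily local finite averages. -/
def Small (f : ℂ → ℝ) (θ : ℝ) : Prop :=
  ∀ ε > 0, ∀ δ > 0, ∃ (ι : Type) (_ : Fintype ι) (w : ι → ℝ) (t : ι → ℂ),
    (∀ i, 0 ≤ w i) ∧ ∑ i, w i = 1 ∧ (∀ i, ‖t i‖ < δ) ∧ ∀ x, ∑ i, w i * f (x + t i) ≤ θ + ε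

theorem Small.of_le {f : ℂ → ℝ} {c : ℝ} (h : ∀ x, f x ≤ c) : Small f c := by
  intro ε hε δ hδ
  refine ⟨Unit, inferInstance, fun _ => 1, fun _ => 0, by simp, by simp, by simpa using hδ, ?_⟩
  intro x
  have := h x
  simp
  linarith

theorem Small.mono {f : ℂ → ℝ} {a b : ℝ} (h : Small f a) (hab : a ≤ b) : Small f b := by
  intro ε hε δ hδ
  obtain ⟨ι, _, w, t, h1, h2, h3, h4⟩ := h ε hε δ hδ
  exact ⟨ι, inferInstance, w, t, h1, h2, h3, fun x => (h4 x).trans (by linarith)⟩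

theorem Small.add {f g : ℂ → ℝ} {a b : ℝ} (hf : Small f a) (hg : Small g b) :
    Small (fun x => f x + g x) (a + b) := by
  intro ε hε δ hδ
  obtain ⟨ι, _, w, t, h1, h2, h3, h4⟩ := hf (ε / 2) (by positivity) (δ / 2) (by positivity)
  obtain ⟨κ, _, w', t', h1', h2', h3', h4'⟩ := hg (ε / 2) (by positivity) (δ / 2) (by positivity)
  refine ⟨ι × κ, inferInstance, fun p => w p.1 * w' p.2, fun p => t p.1 + t' p.2,
    fun p => mul_nonneg (h1 _) (h1' _), ?_, fun p => ?_, fun x => ?_⟩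
  · rw [Fintype.sum_prod_type]
    simp_rw [← Finset.mul_sum, h2', mul_one, h2]
  · have := norm_add_le (t p.1) (t' p.2)
    linarith [h3 p.1, h3' p.2]
  · simp only [mul_add, Finset.sum_add_distrib]
    have e1 : ∑ p : ι × κ, w p.1 * w' p.2 * f (x + (t p.1 + t' p.2)) ≤ a + ε / 2 := by
      rw [Fintype.sum_prod_type_right]
      calc ∑ k, ∑ i, w i * w' k * f (x + (t i + t' k))
          = ∑ k, w' k * ∑ i, w i * f (x + t' k + t i) := by
            refine Finset.sum_congr rfl fun k _ => ?_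
            rw [Finset.mul_sum]
            refine Finset.sum_congr rfl fun i _ => ?_
            rw [add_comm (t i), ← add_assoc]; ring
        _ ≤ ∑ k, w' k * (a + ε / 2) :=
            Finset.sum_le_sum fun k _ => mul_le_mul_of_nonneg_left (h4 _) (h1' k)
        _ = a + ε / 2 := by rw [← Finset.sum_mul, h2', one_mul]
    have e2 : ∑ p : ι × κ, w p.1 * w' p.2 * g (x + (t p.1 + t' p.2)) ≤ b + ε / 2 := by
      rw [Fintype.sum_prod_type]
      calc ∑ i, ∑ k, w i * w' k * g (x + (t i + t' k))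
          = ∑ i, w i * ∑ k, w' k * g (x + t i + t' k) := by
            refine Finset.sum_congr rfl fun i _ => ?_
            rw [Finset.mul_sum]
            refine Finset.sum_congr rfl fun k _ => ?_
            rw [← add_assoc]; ring
        _ ≤ ∑ i, w i * (b + ε / 2) :=
            Finset.sum_le_sum fun i _ => mul_le_mul_of_nonneg_left (h4' _) (h1 i)
        _ = b + ε / 2 := by rw [← Finset.sum_mul, h2, one_mul]
    linarith

theorem Small.cmul {f : ℂ → ℝ} {a c : ℝ} (hf : Small f a) (hc : 0 ≤ c) :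
    Small (fun x => c * f x) (c * a) := by
  intro ε hε δ hδ
  obtain ⟨ι, _, w, t, h1, h2, h3, h4⟩ := hf (ε / (c + 1)) (by positivity) δ hδ
  refine ⟨ι, inferInstance, w, t, h1, h2, h3, fun x => ?_⟩
  have e : ∑ i, w i * (c * f (x + t i)) = c * ∑ i, w i * f (x + t i) := by
    rw [Finset.mul_sum]; exact Finset.sum_congr rfl fun _ _ => by ring
  rw [e]
  have h5 := mul_le_mul_of_nonneg_left (h4 x) hc
  have h6 : c * (ε / (c + 1)) ≤ ε := by
    rw [← mul_div_assoc, div_le_iff₀ (by positivity)]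
    nlinarith
  nlinarith

theorem Small.dilate {f : ℂ → ℝ} {a : ℝ} (hf : Small f a) {c : ℂ} (hc : c ≠ 0) :
    Small (fun x => f (x * c)) a := by
  intro ε hε δ hδ
  have hc' : 0 < ‖c‖ := norm_pos_iff.2 hc
  obtain ⟨ι, _, w, t, h1, h2, h3, h4⟩ := hf ε hε (δ * ‖c‖) (by positivity)
  refine ⟨ι, inferInstance, w, fun i => t i / c, h1, h2, fun i => ?_, fun x => ?_⟩
  · rw [norm_div, div_lt_iff₀ hc']; exact h3 i
  · have := h4 (x * c)
    convert this using 4 with i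
    field_simp

theorem Small.sum {ι : Type} (s : Finset ι) {f : ι → ℂ → ℝ} {a : ι → ℝ}
    (hf : ∀ i ∈ s, Small (f i) (a i)) : Small (fun x => ∑ i ∈ s, f i x) (∑ i ∈ s, a i) := by
  classical
  induction s using Finset.induction_on with
  | empty => simpa using Small.of_le (f := fun _ => 0) (c := 0) fun _ => le_rfl
  | insert i s hi ih =>
    simp only [Finset.sum_insert hi]
    exact (hf i (mem_insert_self _ _)).add (ih fun j hj => hf j (mem_insert_of_mem hj))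

theorem Small.le_of_ball {f : ℂ → ℝ} {a c : ℝ} (hf : Small f a) {x : ℂ} {δ : ℝ} (hδ : 0 < δ)
    (h : ∀ t : ℂ, ‖t‖ < δ → c ≤ f (x + t)) : c ≤ a := by
  refine le_of_forall_pos_le_add fun ε hε => ?_
  obtain ⟨ι, _, w, t, h1, h2, h3, h4⟩ := hf ε hε δ hδ
  refine le_trans ?_ (h4 x)
  calc c = ∑ i, w i * c := by rw [← Finset.sum_mul, h2, one_mul]
    _ ≤ _ := Finset.sum_le_sum fun i _ => mul_le_mul_of_nonneg_left (h _ (h3 i)) (h1 i)

/-- `p` is a polynomial function of degree at most `j` whose `u^j` coefficient is `a`. -/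
def IsPoly : ℕ → ℂ → (ℂ → ℂ) → Prop
  | 0, a, p => ∀ u, p u = a
  | j + 1, a, p => ∃ p0 r, IsPoly j a r ∧ ∀ u, p u = p0 + u * r u

theorem IsPoly.lin (α β : ℂ) : ∀ {j : ℕ} {a b : ℂ} {p q : ℂ → ℂ}, IsPoly j a p → IsPoly j b q →
    IsPoly j (α * a + β * b) (fun u => α * p u + β * q u)
  | 0, _, _, _, _, hp, hq => fun u => by beta_reduce; rw [hp u, hq u]
  | _ + 1, _, _, _, _, ⟨p0, r, hr, hp⟩, ⟨q0, s, hs, hq⟩ =>
    ⟨α * p0 + β * q0, _, IsPoly.lin α β hr hs, fun u => by beta_reduce; rw [hp u, hq u]; ring⟩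

theorem IsPoly.congr {j : ℕ} {a b : ℂ} {p q : ℂ → ℂ} (h : IsPoly j a p) (hab : a = b)
    (hpq : ∀ u, p u = q u) : IsPoly j b q := by
  have : p = q := funext hpq
  subst this; subst hab; exact h

theorem IsPoly.smul (α : ℂ) {j : ℕ} {a : ℂ} {p : ℂ → ℂ} (h : IsPoly j a p) :
    IsPoly j (α * a) (fun u => α * p u) :=
  (IsPoly.lin α 0 h h).congr (by ring) fun u => by ring

theorem IsPoly.scale (w : ℂ) : ∀ {j : ℕ} {a : ℂ} {p : ℂ → ℂ}, IsPoly j a p →
    IsPoly j (a * w ^ j) (fun u => p (w * u))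
  | 0, _, _, hp => fun u => by beta_reduce; rw [hp]; simp
  | _ + 1, _, _, ⟨p0, r, hr, hp⟩ =>
    ⟨p0, _, ((IsPoly.scale w hr).smul w).congr (by ring) fun _ => rfl,
      fun u => by beta_reduce; rw [hp]; ring⟩

theorem IsPoly.raise : ∀ {j : ℕ} {a : ℂ} {p : ℂ → ℂ}, IsPoly j a p → IsPoly (j + 1) 0 p
  | 0, a, _, hp => ⟨a, fun _ => 0, fun _ => rfl, fun u => by rw [hp]; simp⟩
  | _ + 1, _, _, ⟨p0, r, hr, hp⟩ => ⟨p0, r, IsPoly.raise hr, hp⟩

/-- The iterated van der Corput majorant. -/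
noncomputable def BB (φ : ℂ → ℝ) (N : ℕ) : ℕ → ℂ → ℝ
  | 0, a => φ a
  | j + 1, a => ∑ p : Fin N × Fin N,
      1 / (N : ℝ) ^ 2 * BB φ N j (a * (ee (p.1 : ℕ) ^ (j + 1) - ee (p.2 : ℕ) ^ (j + 1)))

theorem sum_pair_weight {N : ℕ} (hN : 0 < N) : ∑ _p : Fin N × Fin N, 1 / (N : ℝ) ^ 2 = 1 := by
  have : (N : ℝ) ≠ 0 := by positivity
  simp only [sum_const, card_univ, Fintype.card_prod, Fintype.card_fin, nsmul_eq_mul]
  push_cast
  field_simp

theorem BB_le {φ : ℂ → ℝ} (h : ∀ a, φ a ≤ 1) {N : ℕ} (hN : 0 < N) : ∀ j a, BB φ N j a ≤ 1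
  | 0, a => h a
  | j + 1, a => by
    rw [BB]
    refine le_trans (Finset.sum_le_sum fun p _ => ?_) (sum_pair_weight hN).le
    exact mul_le_of_le_one_right (by positivity) (BB_le h hN j _)

theorem BB_small {φ : ℂ → ℝ} (h : ∀ a, φ a ≤ 1) (hs : Small φ 0) {N : ℕ} (hN : 0 < N) :
    ∀ j, Small (BB φ N j) (j / N)
  | 0 => by simpa [BB] using hs
  | j + 1 => by
    have ih := BB_small h hs hN j
    have key : ∀ p : Fin N × Fin N,
        Small (fun a => BB φ N j (a * (ee (p.1 : ℕ) ^ (j + 1) - ee (p.2 : ℕ) ^ (j + 1))))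
          ((if p.1 = p.2 then 1 else 0) + j / N) := by
      intro p
      split_ifs with hp
      · exact (Small.of_le fun a => BB_le h hN j _).mono (le_add_of_nonneg_right (by positivity))
      · rw [zero_add]
        apply ih.dilate
        intro h0
        rw [sub_eq_zero, ← ee_nat_mul, ← ee_nat_mul] at h0
        have h1 : ee (((j + 1) * p.1 : ℕ) : ℝ) = ee (((j + 1) * p.2 : ℕ) : ℝ) := by
          push_cast at h0 ⊢; exact h0
        have := ee_nat_inj h1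
        exact hp (Fin.ext (Nat.eq_of_mul_eq_mul_left (Nat.succ_pos j) this))
    have := Small.sum (univ : Finset (Fin N × Fin N))
      fun p _ => (key p).cmul (c := 1 / (N : ℝ) ^ 2) (by positivity)
    refine Small.mono this (le_of_eq ?_)
    have hN' : (N : ℝ) ≠ 0 := by positivity
    simp only [mul_add, Finset.sum_add_distrib]
    rw [← Finset.sum_mul, sum_pair_weight hN, ← Finset.mul_sum, Fintype.sum_prod_type]
    simp
    field_simp
    ring

theorem jensen_two_pow {ι : Type} [Fintype ι] (w y : ι → ℝ) (h0 : ∀ i, 0 ≤ w i)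
    (h1 : ∑ i, w i = 1) (j : ℕ) : (∑ i, w i * y i) ^ 2 ^ j ≤ ∑ i, w i * y i ^ 2 ^ j := by
  cases j with
  | zero => simp
  | succ j =>
    have hc : ConvexOn ℝ Set.univ (fun x : ℝ => x ^ 2 ^ (j + 1)) :=
      Even.convexOn_pow ⟨2 ^ j, by ring⟩
    simpa using hc.map_sum_le (t := univ) (w := w) (p := y) (fun i _ => h0 i) h1
      (fun _ _ => Set.mem_univ _)

variable {H : Type} [NormedAddCommGroup H] [InnerProductSpace ℝ H]

namespace Rep

variable (ρ : Rep H) (μ : Mean ℝ)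

theorem vdc_step {v g : H} (hv : ‖v‖ ≤ 1) (hg : ‖g‖ ≤ 1) (p : ℂ → ℂ) {N : ℕ} (hN : 0 < N) :
    (μ.m fun θ => ⟪ρ.T (p (ee θ)) v, g⟫) ^ 2 ≤ ∑ q : Fin N × Fin N, 1 / (N : ℝ) ^ 2 *
      μ.m fun θ => ⟪ρ.T (p (ee (q.1 : ℕ) * ee θ) - p (ee (q.2 : ℕ) * ee θ)) v, v⟫ := by
  have hN' : (N : ℝ) ≠ 0 := by positivity
  have hTv : ∀ x, ‖ρ.T x v‖ ≤ 1 := fun x => by rw [ρ.T_norm]; exact hv
  let S : ℝ → H := fun θ => ∑ k : Fin N, (1 / (N : ℝ)) • ρ.T (p (ee (k : ℕ) * ee θ)) v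
  have hS : ∀ θ, ‖S θ‖ ≤ 1 := by
    intro θ
    refine (norm_sum_le _ _).trans ?_
    calc ∑ k : Fin N, ‖(1 / (N : ℝ)) • ρ.T (p (ee (k : ℕ) * ee θ)) v‖
        ≤ ∑ _k : Fin N, 1 / (N : ℝ) := by
          refine Finset.sum_le_sum fun k _ => ?_
          rw [norm_smul, Real.norm_of_nonneg (by positivity)]
          exact mul_le_of_le_one_right (by positivity) (hTv _)
      _ = 1 := by simp; field_simp
  have e1 : (μ.m fun θ => ⟪ρ.T (p (ee θ)) v, g⟫) = μ.m fun θ => ⟪S θ, g⟫ := by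
    simp only [S, sum_inner, real_inner_smul_left, μ.sum, μ.cmul]
    have : ∀ k : Fin N, (μ.m fun θ => ⟪ρ.T (p (ee (k : ℕ) * ee θ)) v, g⟫) =
        μ.m fun θ => ⟪ρ.T (p (ee θ)) v, g⟫ := by
      intro k
      rw [← μ.inv (fun θ => ⟪ρ.T (p (ee θ)) v, g⟫) (bdd_inner (fun _ => hTv _) fun _ => hg)
        (k : ℕ)]
      simp only [ee_add, mul_comm]
    simp only [this]
    simp
    field_simp
  rw [e1]
  have hb : Bdd fun θ => ⟪S θ, g⟫ := bdd_inner hS fun _ => hg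
  refine (μ.sq_le hb).trans ?_
  have e2 : (μ.m fun θ => ⟪S θ, S θ⟫) = ∑ q : Fin N × Fin N, 1 / (N : ℝ) ^ 2 *
      μ.m fun θ => ⟪ρ.T (p (ee (q.1 : ℕ) * ee θ) - p (ee (q.2 : ℕ) * ee θ)) v, v⟫ := by
    simp only [S, sum_inner, inner_sum, real_inner_smul_left, real_inner_smul_right, μ.sum,
      μ.cmul, ρ.inner_T_T]
    rw [Fintype.sum_prod_type_right]
    refine Finset.sum_congr rfl fun k _ => Finset.sum_congr rfl fun k' _ => ?_
    ring
  rw [← e2]
  refine μ.mono (by simpa [sq] using hb.mul hb) (bdd_inner hS hS) fun θ => ?_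
  have h1 := abs_real_inner_le_norm (S θ) g
  have h2 : |⟪S θ, g⟫| ≤ ‖S θ‖ := h1.trans (mul_le_of_le_one_right (norm_nonneg _) hg)
  rw [real_inner_self_eq_norm_sq, ← sq_abs]
  exact pow_le_pow_left₀ (abs_nonneg _) h2 2

theorem vdc_succ {v : H} (hv : ‖v‖ ≤ 1) (hfix : ρ.Fixed v) {N : ℕ} (hN : 0 < N) (j : ℕ)
    (ih : ∀ a p, IsPoly j a p →
      (μ.m fun θ => ⟪ρ.T (p (ee θ)) v, v⟫) ^ 2 ^ j ≤ BB (fun x => ⟪ρ.T x v, v⟫) N j a)
    {g : H} (hg : ‖g‖ ≤ 1) {a : ℂ} {p : ℂ → ℂ} (hp : IsPoly (j + 1) a p) :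
    (μ.m fun θ => ⟪ρ.T (p (ee θ)) v, g⟫) ^ 2 ^ (j + 1) ≤
      BB (fun x => ⟪ρ.T x v, v⟫) N (j + 1) a := by
  obtain ⟨p0, r, hr, hpr⟩ := hp
  have h1 := ρ.vdc_step μ hv hg p hN
  rw [pow_succ' 2 j, pow_mul]
  refine (pow_le_pow_left₀ (sq_nonneg _) h1 _).trans ?_
  refine (jensen_two_pow _ _ (fun _ => by positivity) (sum_pair_weight hN) j).trans ?_
  rw [BB]
  refine Finset.sum_le_sum fun q _ => mul_le_mul_of_nonneg_left ?_ (by positivity)
  set w := ee (q.1 : ℕ)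
  set w' := ee (q.2 : ℕ)
  have hq : IsPoly j (a * (w ^ (j + 1) - w' ^ (j + 1)))
      (fun u => w * r (w * u) + (-w') * r (w' * u)) :=
    (IsPoly.lin w (-w') (hr.scale w) (hr.scale w')).congr (by ring) fun _ => rfl
  refine le_trans (le_of_eq ?_) (ih _ _ hq)
  congr 2
  funext θ
  apply radial hfix hfix
  rw [hpr, hpr]
  have : p0 + w * ee θ * r (w * ee θ) - (p0 + w' * ee θ * r (w' * ee θ)) =
      ee θ * (w * r (w * ee θ) + (-w') * r (w' * ee θ)) := by ring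
  rw [this, norm_mul, norm_ee, one_mul]

theorem vdc {v : H} (hv : ‖v‖ ≤ 1) (hfix : ρ.Fixed v) {N : ℕ} (hN : 0 < N) (j : ℕ) :
    ∀ a p, IsPoly j a p →
      (μ.m fun θ => ⟪ρ.T (p (ee θ)) v, v⟫) ^ 2 ^ j ≤ BB (fun x => ⟪ρ.T x v, v⟫) N j a := by
  induction j with
  | zero =>
    intro a p hp
    have : ∀ u, p u = a := hp
    simp [this, μ.const, BB]
  | succ j ih => exact fun a p hp => ρ.vdc_succ μ hv hfix hN j ih hv hp

end Rep

end Vale.Agent.P032
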