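import Vale.Agent.P032.AVdc

/-! A wild rotation-fixed vector is orthogonal to all its nontrivial translates. -/

namespace Vale.Agent.P032

open Finset Filter Topology
open scoped RealInnerProductSpace

/-- Geometric sum `(u^(n+1) - z^(n+1)) / (u - z)` in Horner form. -/
noncomputable def geo (z : ℂ) : ℕ → ℂ → ℂ
  | 0, _ => 1
  | n + 1, u => z ^ (n + 1) + u * geo z n u

theorem geo_poly (z : ℂ) : ∀ n, IsPoly n 1 (geo z n)
  | 0 => fun _ => rfl
  | n + 1 => ⟨z ^ (n + 1), geo z n, geo_poly z n, fun _ => rfl⟩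

theorem geo_mul (z u : ℂ) : ∀ n, (u - z) * geo z n u = u ^ (n + 1) - z ^ (n + 1)
  | 0 => by simp [geo]
  | n + 1 => by
    have := geo_mul z u n
    rw [geo]
    linear_combination u * this

theorem const_poly (c : ℂ) : ∀ n, IsPoly (n + 1) 0 (fun _ => c)
  | 0 => IsPoly.raise (j := 0) (a := c) fun _ => rfl
  | n + 1 => (const_poly c n).raise

theorem exists_root {x y : ℝ} (hx : 1 ≤ x) (hxy : x ≤ y) (hy : y ≤ 2) :
    ∃ z : ℂ, ‖z‖ = x ∧ ‖1 + z‖ = y := by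
  set s := (y ^ 2 - 1 - x ^ 2) / 2 with hs
  have h1 : 0 ≤ x ^ 2 - s ^ 2 := by
    have a1 : s ≤ x := by nlinarith
    have a2 : -x ≤ s := by nlinarith
    nlinarith
  have h2 := Real.sq_sqrt h1
  refine ⟨⟨s, Real.sqrt (x ^ 2 - s ^ 2)⟩, ?_, ?_⟩
  · rw [Complex.norm_eq_sqrt_sq_add_sq]
    simp only
    rw [h2, show s ^ 2 + (x ^ 2 - s ^ 2) = x ^ 2 by ring, Real.sqrt_sq (by linarith)]
  · rw [Complex.norm_eq_sqrt_sq_add_sq]
    simp only [Complex.add_re, Complex.one_re, Complex.add_im, Complex.one_im, zero_add]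
    rw [h2, show (1 + s) ^ 2 + (x ^ 2 - s ^ 2) = y ^ 2 by rw [hs]; ring, Real.sqrt_sq (by linarith)]

theorem exists_flip (n : ℕ) {a : ℂ} (h1 : 1 ≤ ‖a‖) (h2 : ‖a‖ ^ (n + 2) ≤ 2) :
    ∃ (β : ℝ) (q : ℂ → ℂ), IsPoly (n + 2) a q ∧
      ∀ u, ‖u‖ = 1 → ‖q u‖ = ‖1 + u + ee β * u ^ (n + 2)‖ := by
  obtain ⟨z, hz, hz1⟩ := exists_root h1 (le_self_pow₀ h1 (by omega)) h2
  have hz0 : z ≠ 0 := by
    rintro rfl
    rw [norm_zero] at hz
    linarith
  obtain ⟨β, hβ⟩ := exists_ee (u := -(1 + z) / z ^ (n + 2)) (by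
    rw [norm_div, norm_neg, norm_pow, hz1, hz, div_self (by positivity)])
  have hβ' : ee β * z ^ (n + 2) = -(1 + z) := by rw [← hβ]; field_simp
  obtain ⟨κ, hκ⟩ := exists_ee_mul (a := a) (b := -(starRingEnd ℂ z) * ee β) (by
    rw [norm_mul, norm_neg, Complex.norm_conj, norm_ee, hz, mul_one])
  have hs : IsPoly (n + 1) (ee β) (fun u => 1 * 1 + ee β * geo z (n + 1) u) :=
    (IsPoly.lin 1 (ee β) (const_poly 1 n) (geo_poly z (n + 1))).congr (by ring) fun _ => rfl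
  set s : ℂ → ℂ := fun u => 1 * 1 + ee β * geo z (n + 1) u with hsdef
  have hus : IsPoly (n + 2) (ee β) (fun u => 0 + u * s u) := ⟨0, s, hs, fun _ => rfl⟩
  refine ⟨β, _, ((IsPoly.lin 1 (-(starRingEnd ℂ z)) hs.raise hus).smul (ee κ)).congr
    (by rw [hκ]; ring) fun _ => rfl, fun u hu => ?_⟩
  have e1 : 1 + u + ee β * u ^ (n + 2) = (u - z) * s u := by
    have := geo_mul z u (n + 1)
    simp only [hsdef]
    linear_combination (-ee β) * this + hβ'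
  have hc : u * starRingEnd ℂ u = 1 := by
    rw [Complex.mul_conj, Complex.normSq_eq_norm_sq, hu]; simp
  have e2 : ee κ * (1 * s u + -(starRingEnd ℂ z) * (0 + u * s u)) =
      ee κ * u * starRingEnd ℂ (u - z) * s u := by
    rw [map_sub]
    linear_combination (-(ee κ * s u)) * hc
  rw [e1, e2]
  simp only [norm_mul, norm_ee, hu, Complex.norm_conj, one_mul]

variable {H : Type} [NormedAddCommGroup H] [InnerProductSpace ℝ H]

namespace Rep

variable (ρ : Rep H)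

theorem lower [CompleteSpace H] (μ : Mean ℝ) {v : H} (hv : ‖v‖ ≤ 1) (hfix : ρ.Fixed v)
    (hne : ⟪ρ.T 1 v, v⟫ ≠ 0) :
    ∃ (g : H) (b : ℝ) (n : ℕ), ρ.Fixed g ∧ ‖g‖ ≤ 1 ∧ 0 < b ∧
      ∀ β, b / 2 ≤ μ.m fun θ => ⟪ρ.T (1 + ee θ + ee β * ee θ ^ (n + 2)) v, g⟫ := by
  set ξ := ρ.T 1 v with hξ
  have hξn : ‖ξ‖ ≤ 1 := by rw [hξ, ρ.T_norm]; exact hv
  obtain ⟨g, hgf, hg1, hg2⟩ := ρ.exists_P μ ξ
  obtain ⟨g2, hhf, hh1, hh2⟩ := ρ.exists_P μ (ρ.T 1 g)
  have hgn : ‖g‖ ≤ 1 := by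
    have h1 := hg1 g hgf
    rw [real_inner_self_eq_norm_sq] at h1
    have h2 := real_inner_le_norm ξ g
    have h3 := norm_nonneg g
    nlinarith
  have hneg : ∀ η, ρ.Fixed η → ρ.T (-1) η = ρ.R Real.pi (ρ.T 1 η) := by
    intro η hη
    rw [← hη.T_ee, ee_pi, mul_one]
  have hg0 : g ≠ 0 := by
    rintro rfl
    apply hne
    rw [← hg1 v hfix, inner_zero_left]
  have hh0 : g2 ≠ 0 := by
    rintro rfl
    have h1 := hh1 v hfix
    have h2 := ρ.inner_T_T 0 (-1) g v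
    rw [ρ.T_zero, zero_sub, neg_neg, ← h1, inner_zero_left, hneg v hfix, real_inner_comm,
      hgf.inner_R, ← hg1 g hgf] at h2
    exact hg0 (inner_self_eq_zero.1 h2)
  set b := ⟪g2, g2⟫ with hb
  have hbpos : 0 < b := real_inner_self_pos.2 hh0
  by_contra hcon
  push Not at hcon
  choose β hβ using fun n => hcon g b n hgf hgn hbpos
  obtain ⟨n, hn⟩ := exists_nat_gt (4 / b ^ 2)
  let s : Fin n → ℝ → H := fun k θ => ρ.R (((k : ℕ) + 2 : ℕ) * θ + β k) ξ - g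
  let F : ℝ → H := fun θ => ρ.T (-1 - ee θ) g
  have hF : ∀ θ, ‖F θ‖ ≤ 1 := fun θ => by simp only [F, ρ.T_norm]; exact hgn
  have h1 : ∀ k, (μ.m fun θ => ⟪s k θ, F θ⟫) ≤ -(b / 2) := by
    intro k
    have e1 : ∀ θ, ⟪s k θ, F θ⟫ = ⟪ρ.T (1 + ee θ + ee (β k) * ee θ ^ ((k : ℕ) + 2)) v, g⟫ -
        ⟪ρ.R (1 * θ + 0) (ρ.T 1 g), ρ.T (-1) g⟫ := by
      intro θ
      simp only [s, F, inner_sub_left]
      congr 1
      · rw [hξ, ← hfix.T_ee, ρ.inner_T_T, ee_add, ee_nat_mul]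
        congr 2
        ring_nf
      · rw [← hgf.T_ee, ρ.inner_T_T]
        conv_lhs => enter [2]; rw [← ρ.T_zero g]
        rw [ρ.inner_T_T]
        congr 2
        simp only [one_mul, add_zero, mul_one]
        ring_nf
    simp only [e1, μ.sub]
    rw [hh2 1 one_ne_zero, hneg g hgf, real_inner_comm, hhf.inner_R, ← hh1 g2 hhf]
    have := hβ k
    linarith
  have h2 : ∀ k k', (μ.m fun θ => ⟪s k θ, s k' θ⟫) ≤ if k = k' then 1 else 0 := by
    intro k k'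
    have e1 : ∀ θ, ⟪s k θ, s k' θ⟫ =
        ⟪ρ.R ((((k : ℕ) : ℝ) - (k' : ℕ)) * θ + (β k - β k')) ξ, ξ⟫ - ⟪g, g⟫ := by
      intro θ
      simp only [s, inner_sub_left, inner_sub_right, ρ.inner_R_R]
      rw [real_inner_comm _ g, hgf.inner_R, hgf.inner_R, ← hg1 g hgf]
      have : ((((k : ℕ) + 2 : ℕ) : ℝ) * θ + β k - ((((k' : ℕ) + 2 : ℕ) : ℝ) * θ + β k')) =
          (((k : ℕ) : ℝ) - (k' : ℕ)) * θ + (β k - β k') := by push_cast; ring
      rw [this]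
      ring
    simp only [e1, μ.sub, μ.const]
    split_ifs with hk
    · subst hk
      simp only [sub_self, zero_mul, add_zero, ρ.R_zero, μ.const]
      have := real_inner_self_nonneg (x := g)
      rw [real_inner_self_eq_norm_sq ξ]
      have := norm_nonneg ξ
      nlinarith
    · rw [hg2 _ (by
        rw [sub_ne_zero]
        intro h
        exact hk (Fin.ext (by exact_mod_cast h))), real_inner_comm, ← hg1 g hgf]
      simp
  have hs : ∀ k θ, ‖s k θ‖ ≤ 2 := by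
    intro k θ
    refine (norm_sub_le _ _).trans ?_
    rw [ρ.R_norm]
    linarith
  let Y : ℝ → H := fun θ => F θ + (b / 2) • ∑ k, s k θ
  have hY : ∀ θ, ‖Y θ‖ ≤ 1 + ‖b / 2‖ * ∑ _k : Fin n, 2 := by
    intro θ
    refine (norm_add_le _ _).trans (add_le_add (hF θ) ?_)
    rw [norm_smul]
    exact mul_le_mul_of_nonneg_left ((norm_sum_le _ _).trans
      (Finset.sum_le_sum fun k _ => hs k θ)) (norm_nonneg _)
  have h3 := μ.nonneg _ (bdd_inner hY hY) fun θ => real_inner_self_nonneg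
  have e3 : ∀ θ, ⟪Y θ, Y θ⟫ = ⟪F θ, F θ⟫ + b * ∑ k, ⟪s k θ, F θ⟫ +
      (b / 2) ^ 2 * ∑ k, ∑ k', ⟪s k θ, s k' θ⟫ := by
    intro θ
    simp only [Y, real_inner_add_add_self, real_inner_smul_left, real_inner_smul_right]
    rw [real_inner_comm (∑ k, s k θ) (F θ), sum_inner, sum_inner]
    simp only [inner_sum]
    ring
  simp only [e3, μ.add, μ.cmul, μ.sum] at h3
  have h4 : (μ.m fun θ => ⟪F θ, F θ⟫) ≤ 1 := μ.le_const (bdd_inner hF hF) fun θ => by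
    rw [real_inner_self_eq_norm_sq]
    have := hF θ
    have := norm_nonneg (F θ)
    nlinarith
  have h5 : ∑ k, (μ.m fun θ => ⟪s k θ, F θ⟫) ≤ n * -(b / 2) := by
    simpa using Finset.sum_le_sum (s := univ) fun k _ => h1 k
  have h6 : ∑ k, ∑ k', (μ.m fun θ => ⟪s k θ, s k' θ⟫) ≤ n := by
    simpa using Finset.sum_le_sum (s := univ) fun k _ =>
      Finset.sum_le_sum (s := univ) fun k' _ => h2 k k'
  rw [div_lt_iff₀ (by positivity)] at hn
  have h7 := mul_le_mul_of_nonneg_left h5 hbpos.le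
  have h8 := mul_le_mul_of_nonneg_left h6 (sq_nonneg (b / 2))
  nlinarith

/-- Arbitrarily local averages of translates of `v` are arbitrarily small. -/
def Wild (v : H) : Prop :=
  ∀ ε > 0, ∀ δ > 0, ∃ (ι : Type) (_ : Fintype ι) (w : ι → ℝ) (t : ι → ℂ),
    (∀ i, 0 ≤ w i) ∧ ∑ i, w i = 1 ∧ (∀ i, ‖t i‖ < δ) ∧ ‖∑ i, w i • ρ.T (t i) v‖ ≤ ε

theorem wild_one [CompleteSpace H] {v : H} (hv : ‖v‖ ≤ 1) (hfix : ρ.Fixed v) (hw : ρ.Wild v) :
    ⟪ρ.T 1 v, v⟫ = 0 := by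
  obtain ⟨μ⟩ := exists_mean ℝ
  by_contra hne
  obtain ⟨g, b, n, hgf, hgn, hb, hlow⟩ := ρ.lower μ hv hfix hne
  set φ : ℂ → ℝ := fun x => ⟪ρ.T x v, v⟫ with hφ
  have hφ1 : ∀ x, φ x ≤ 1 := fun x => by
    have := real_inner_le_norm (ρ.T x v) v
    rw [ρ.T_norm] at this
    have h0 := norm_nonneg v
    simp only [hφ]
    nlinarith
  have hs : Small φ 0 := by
    intro ε hε δ hδ
    obtain ⟨ι, _, w, t, h1, h2, h3, h4⟩ := hw ε hε δ hδ
    refine ⟨ι, inferInstance, w, t, h1, h2, h3, fun x => ?_⟩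
    have e : ∑ i, w i * φ (x + t i) = ⟪∑ i, w i • ρ.T (t i) v, ρ.T (-x) v⟫ := by
      rw [sum_inner]
      refine Finset.sum_congr rfl fun i _ => ?_
      rw [real_inner_smul_left, ρ.inner_T_T, sub_neg_eq_add, add_comm]
    rw [e, zero_add]
    refine (real_inner_le_norm _ _).trans ?_
    rw [ρ.T_norm]
    exact (mul_le_of_le_one_right (norm_nonneg _) hv).trans h4
  have hB : ∀ N, 0 < N → ∀ a : ℂ, 1 ≤ ‖a‖ → ‖a‖ ^ (n + 2) ≤ 2 →
      (b / 2) ^ 2 ^ (n + 2) ≤ BB φ N (n + 2) a := by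
    intro N hN a h1 h2
    obtain ⟨β, q, hq, hqn⟩ := exists_flip n h1 h2
    refine le_trans ?_ (ρ.vdc_succ μ hv hfix hN (n + 1) (ρ.vdc μ hv hfix hN (n + 1)) hgn hq)
    refine pow_le_pow_left₀ (by positivity) ((hlow β).trans (le_of_eq ?_)) _
    congr 1
    funext θ
    exact radial hfix hgf (hqn _ (norm_ee θ)).symm
  obtain ⟨δ, hδ, hδ2⟩ : ∃ δ : ℝ, 0 < δ ∧ (1 + 2 * δ) ^ (n + 2) ≤ 2 := by
    have hc : ContinuousAt (fun δ : ℝ => (1 + 2 * δ) ^ (n + 2)) 0 := by fun_prop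
    have h1 : ∀ᶠ δ in 𝓝 (0 : ℝ), (1 + 2 * δ) ^ (n + 2) < 2 :=
      hc.eventually_lt continuousAt_const (by simp)
    obtain ⟨δ, h2, h3⟩ := ((h1.filter_mono nhdsWithin_le_nhds).and
      (self_mem_nhdsWithin (s := Set.Ioi (0 : ℝ)))).exists
    exact ⟨δ, h3, h2.le⟩
  have hpos : 0 < (b / 2) ^ 2 ^ (n + 2) := by positivity
  obtain ⟨N, hN⟩ := exists_nat_gt (((n + 2 : ℕ) : ℝ) / (b / 2) ^ 2 ^ (n + 2))
  have hN0 : 0 < N := by
    have : (0 : ℝ) < N := lt_of_le_of_lt (by positivity) hN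
    exact_mod_cast this
  have h1 := (BB_small hφ1 hs hN0 (n + 2)).le_of_ball (x := ((1 + δ : ℝ) : ℂ)) hδ
    (c := (b / 2) ^ 2 ^ (n + 2)) fun t ht => by
      have hx : ‖((1 + δ : ℝ) : ℂ)‖ = 1 + δ := by
        rw [Complex.norm_real, Real.norm_of_nonneg (by positivity)]
      have a1 := norm_add_le ((1 + δ : ℝ) : ℂ) t
      have a2 := norm_sub_le (((1 + δ : ℝ) : ℂ) + t) t
      rw [add_sub_cancel_right] at a2
      refine hB N hN0 _ (by linarith) (le_trans (pow_le_pow_left₀ (norm_nonneg _) ?_ _) hδ2)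
      linarith
  rw [div_lt_iff₀ hpos] at hN
  rw [le_div_iff₀ (by exact_mod_cast hN0)] at h1
  linarith

/-- Rescaling the translations. -/
def rescale (r : ℂ) : Rep H where
  T x := ρ.T (r * x)
  R := ρ.R
  T_add x y ξ := by rw [mul_add, ρ.T_add]
  T_zero ξ := by rw [mul_zero, ρ.T_zero]
  T_inner x := ρ.T_inner _
  R_add := ρ.R_add
  R_zero := ρ.R_zero
  R_inner := ρ.R_inner
  RT θ x ξ := by rw [ρ.RT, mul_left_comm]

theorem wild_zero [CompleteSpace H] {v : H} (hfix : ρ.Fixed v) (hw : ρ.Wild v) {r : ℂ}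
    (hr : r ≠ 0) : ⟪ρ.T r v, v⟫ = 0 := by
  set c : ℝ := 1 / (‖v‖ + 1) with hc
  have hc0 : 0 < c := by positivity
  have hr' : 0 < ‖r‖ := norm_pos_iff.2 hr
  have h := (ρ.rescale r).wild_one (v := c • v) ?_ ?_ ?_
  · simp only [rescale, mul_one, map_smul, real_inner_smul_left, real_inner_smul_right] at h
    simpa [hc0.ne'] using h
  · rw [norm_smul, Real.norm_of_nonneg hc0.le, hc, div_mul_eq_mul_div, div_le_one (by positivity)]
    linarith
  · intro θ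
    simp only [rescale, map_smul, hfix θ]
  · intro ε hε δ hδ
    obtain ⟨ι, _, w, t, h1, h2, h3, h4⟩ := hw (ε / c) (by positivity) (δ * ‖r‖) (by positivity)
    refine ⟨ι, inferInstance, w, fun i => t i / r, h1, h2, fun i => ?_, ?_⟩
    · rw [norm_div, div_lt_iff₀ hr']; exact h3 i
    · have e : ∑ i, w i • (ρ.rescale r).T (t i / r) (c • v) = c • ∑ i, w i • ρ.T (t i) v := by
        rw [Finset.smul_sum]
        refine Finset.sum_congr rfl fun i _ => ?_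
        simp only [rescale, map_smul]
        rw [mul_div_cancel₀ _ hr, smul_comm]
      rw [e, norm_smul, Real.norm_of_nonneg hc0.le]
      rwa [le_div_iff₀' hc0] at h4

end Rep

end Vale.Agent.P032
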