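import Vale.Agent.P032.BDefs

/-! Arc measure on the unit circle and the intersection maps `psi`. -/

open MeasureTheory Set Metric Filter Topology
open scoped ENNReal NNReal

namespace Vale.Agent.P032

noncomputable def eb (θ : ℝ) : ℂ := Complex.exp (Complex.I * θ)

def I0 : Set ℝ := Ioc (-Real.pi) Real.pi

noncomputable def sig : Measure ℂ := (volume.restrict I0).map eb

lemma norm_eb (θ : ℝ) : ‖eb θ‖ = 1 := by
  simp [eb, Complex.norm_exp]

lemma eb_add (a b : ℝ) : eb (a + b) = eb a * eb b := by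
  simp [eb, mul_add, Complex.exp_add]

lemma eb_re (θ : ℝ) : (eb θ).re = Real.cos θ := by
  rw [eb, mul_comm, Complex.exp_ofReal_mul_I_re]

lemma eb_im (θ : ℝ) : (eb θ).im = Real.sin θ := by
  rw [eb, mul_comm, Complex.exp_ofReal_mul_I_im]

lemma eb_arg {u : ℂ} (hu : ‖u‖ = 1) : eb u.arg = u := by
  have := Complex.norm_mul_exp_arg_mul_I u
  rw [hu] at this
  simpa [eb, mul_comm] using this

lemma continuous_eb : Continuous eb := by unfold eb; fun_prop

lemma measurable_eb : Measurable eb := continuous_eb.measurable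

lemma norm_eb_sub (a b : ℝ) : ‖eb a - eb b‖ = |2 * Real.sin ((a - b) / 2)| := by
  have : eb a - eb b = eb b * (eb (a - b) - 1) := by
    rw [mul_sub, ← eb_add]; simp
  rw [this, norm_mul, norm_eb, one_mul, eb, Complex.norm_exp_I_mul_ofReal_sub_one,
    Real.norm_eq_abs]

lemma norm_eb_sub_le (a b : ℝ) : ‖eb a - eb b‖ ≤ |a - b| := by
  rw [norm_eb_sub, abs_mul, abs_two]
  have := Real.abs_sin_le_abs (x := (a - b) / 2)
  rw [abs_div, abs_two] at this
  linarith

lemma abs_sub_le_eb {a b : ℝ} (h : |a - b| ≤ Real.pi) : |a - b| ≤ 2 * ‖eb a - eb b‖ := by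
  rw [norm_eb_sub, abs_mul, abs_two]
  have h1 : |(a - b) / 2| ≤ Real.pi / 2 := by rw [abs_div, abs_two]; linarith
  have h2 := Real.mul_abs_le_abs_sin h1
  rw [abs_div, abs_two] at h2
  have h3 : 1 / 2 ≤ 2 / Real.pi := by
    rw [div_le_div_iff₀ two_pos Real.pi_pos]; linarith [Real.pi_le_four]
  nlinarith [abs_nonneg (a - b)]

lemma lipschitz_eb : LipschitzWith 1 eb :=
  LipschitzWith.of_dist_le_mul fun a b => by
    simpa [dist_eq_norm] using norm_eb_sub_le a b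

lemma measI0 : MeasurableSet I0 := measurableSet_Ioc

lemma sig_apply {X : Set ℂ} (hX : MeasurableSet X) : sig X = volume (eb ⁻¹' X ∩ I0) := by
  rw [sig, Measure.map_apply measurable_eb hX, Measure.restrict_apply (measurable_eb hX)]

lemma le_sig (X : Set ℂ) : volume (eb ⁻¹' X ∩ I0) ≤ sig X := by
  rw [← Measure.restrict_apply' measI0]
  exact Measure.le_map_apply measurable_eb.aemeasurable X

instance : IsFiniteMeasure sig := ⟨by
  rw [sig_apply MeasurableSet.univ]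
  simp [I0]⟩

lemma ae_unit : ∀ᵐ u ∂sig, ‖u‖ = 1 := by
  rw [sig, ae_map_iff measurable_eb.aemeasurable
    (measurableSet_eq_fun measurable_norm measurable_const)]
  exact Eventually.of_forall norm_eb

lemma sig_inter_sphere (X : Set ℂ) : sig (X ∩ sphere 0 1) = sig X := by
  refine measure_congr ?_
  filter_upwards [ae_unit] with u hu
  simp only [eq_iff_iff]
  exact ⟨fun h => h.1, fun h => ⟨h, by simpa using hu⟩⟩

lemma haus_le_sig (X : Set ℂ) : μH[1] (X ∩ sphere (0 : ℂ) 1) ≤ sig X := by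
  have h1 : X ∩ sphere (0 : ℂ) 1 ⊆ eb '' (eb ⁻¹' X ∩ I0) := by
    rintro u ⟨hu, hu1⟩
    have hu1 : ‖u‖ = 1 := by simpa using hu1
    exact ⟨u.arg, ⟨by simpa [eb_arg hu1] using hu, Complex.arg_mem_Ioc u⟩, eb_arg hu1⟩
  refine (measure_mono h1).trans ((lipschitz_eb.hausdorffMeasure_image_le zero_le_one _).trans ?_)
  simpa [hausdorffMeasure_real] using le_sig X

lemma arg_eb {θ : ℝ} (h : θ ∈ I0) : (eb θ).arg = θ := by
  rw [eb, mul_comm, Complex.arg_exp_mul_I]
  have : θ ∈ Ioc (-Real.pi) (-Real.pi + 2 * Real.pi) := by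
    have := h.2; exact ⟨h.1, by linarith⟩
  exact (toIocMod_eq_self _).2 this

lemma vol_half_le (X : Set ℂ) {J : Set ℝ} (hJ : J ⊆ I0)
    (hJ' : ∀ a ∈ J, ∀ b ∈ J, |a - b| ≤ Real.pi) :
    volume (eb ⁻¹' X ∩ J) ≤ 2 * μH[1] (X ∩ sphere (0 : ℂ) 1) := by
  have h1 : eb ⁻¹' X ∩ J ⊆ Complex.arg '' (X ∩ eb '' J) := by
    rintro θ ⟨h1, h2⟩
    exact ⟨eb θ, ⟨h1, θ, h2, rfl⟩, arg_eb (hJ h2)⟩
  have h2 : LipschitzOnWith 2 Complex.arg (X ∩ eb '' J) := by
    refine LipschitzOnWith.of_dist_le_mul ?_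
    rintro _ ⟨-, a, ha, rfl⟩ _ ⟨-, b, hb, rfl⟩
    rw [arg_eb (hJ ha), arg_eb (hJ hb), Real.dist_eq, dist_eq_norm]
    simpa using abs_sub_le_eb (hJ' a ha b hb)
  rw [← hausdorffMeasure_real]
  refine (measure_mono h1).trans ((h2.hausdorffMeasure_image_le zero_le_one).trans ?_)
  simp only [ENNReal.coe_ofNat, ENNReal.rpow_one]
  gcongr
  rintro _ ⟨θ, -, rfl⟩
  simp [norm_eb]

lemma I0_split (S : Set ℝ) :
    S ∩ I0 ⊆ (S ∩ Ioc (-Real.pi) 0) ∪ (S ∩ Ioc 0 Real.pi) := by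
  rintro θ ⟨h1, h2, h3⟩
  rcases le_or_gt θ 0 with h | h
  · exact Or.inl ⟨h1, h2, h⟩
  · exact Or.inr ⟨h1, h, h3⟩

lemma half1 : Ioc (-Real.pi) 0 ⊆ I0 := fun _ h => ⟨h.1, h.2.trans Real.pi_pos.le⟩
lemma half2 : Ioc 0 Real.pi ⊆ I0 := fun _ h => ⟨by linarith [h.1, Real.pi_pos], h.2⟩
lemma half1' : ∀ a ∈ Ioc (-Real.pi) 0, ∀ b ∈ Ioc (-Real.pi) 0, |a - b| ≤ Real.pi :=
  fun a ha b hb => abs_le.2 ⟨by linarith [ha.1, hb.2], by linarith [ha.2, hb.1]⟩
lemma half2' : ∀ a ∈ Ioc 0 Real.pi, ∀ b ∈ Ioc 0 Real.pi, |a - b| ≤ Real.pi :=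
  fun a ha b hb => abs_le.2 ⟨by linarith [ha.1, hb.2], by linarith [ha.2, hb.1]⟩

lemma sig_le_haus (X : Set ℂ) : sig X ≤ 4 * μH[1] (X ∩ sphere (0 : ℂ) 1) := by
  set Y := toMeasurable (μH[1] : Measure ℂ) (X ∩ sphere 0 1) with hY
  have hYm : MeasurableSet Y := measurableSet_toMeasurable _ _
  have hle : μH[1] (Y ∩ sphere (0 : ℂ) 1) ≤ μH[1] (X ∩ sphere (0 : ℂ) 1) :=
    (measure_mono inter_subset_left).trans (measure_toMeasurable _).le
  calc sig X = sig (X ∩ sphere 0 1) := (sig_inter_sphere X).symm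
    _ ≤ sig Y := measure_mono (subset_toMeasurable _ _)
    _ = volume (eb ⁻¹' Y ∩ I0) := sig_apply hYm
    _ ≤ _ := (measure_mono (I0_split _)).trans (measure_union_le _ _)
    _ ≤ 2 * μH[1] (Y ∩ sphere (0 : ℂ) 1) + 2 * μH[1] (Y ∩ sphere (0 : ℂ) 1) :=
        add_le_add (vol_half_le _ half1 half1') (vol_half_le _ half2 half2')
    _ = 4 * μH[1] (Y ∩ sphere (0 : ℂ) 1) := by ring
    _ ≤ _ := by gcongr

lemma sig_image_le {f : ℂ → ℂ} {L : ℝ≥0} {X : Set ℂ}
    (hf : LipschitzOnWith L f (X ∩ sphere 0 1)) :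
    sig (f '' (X ∩ sphere 0 1)) ≤ 4 * L * sig X := by
  refine (sig_le_haus _).trans ?_
  rw [mul_assoc]
  gcongr
  refine (measure_mono inter_subset_left).trans
    ((hf.hausdorffMeasure_image_le zero_le_one).trans ?_)
  rw [ENNReal.rpow_one]
  exact mul_le_mul_right (haus_le_sig X) _

lemma sig_closedBall_le (u : ℂ) {r : ℝ} (hr : 0 ≤ r) :
    sig (closedBall u r) ≤ ENNReal.ofReal (8 * r) := by
  have key : ∀ J : Set ℝ, (∀ a ∈ J, ∀ b ∈ J, |a - b| ≤ Real.pi) →
      volume (eb ⁻¹' closedBall u r ∩ J) ≤ ENNReal.ofReal (4 * r) := by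
    intro J hJ
    refine (Real.volume_le_diam _).trans (ediam_le ?_)
    rintro a ⟨ha, ha'⟩ b ⟨hb, hb'⟩
    rw [edist_dist, Real.dist_eq]
    refine ENNReal.ofReal_le_ofReal ((abs_sub_le_eb (hJ a ha' b hb')).trans ?_)
    have := dist_triangle_right (eb a) (eb b) u
    rw [dist_eq_norm (eb a) (eb b)] at this
    have h1 : dist (eb a) u ≤ r := ha
    have h2 : dist (eb b) u ≤ r := hb
    linarith
  rw [sig_apply measurableSet_closedBall]
  refine ((measure_mono (I0_split _)).trans (measure_union_le _ _)).trans ?_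
  refine (add_le_add (key _ half1') (key _ half2')).trans ?_
  rw [← ENNReal.ofReal_add (by positivity) (by positivity)]
  exact ENNReal.ofReal_le_ofReal (by linarith)

lemma le_sig_closedBall {u : ℂ} (hu : ‖u‖ = 1) {r : ℝ} (hr1 : r ≤ 1) :
    ENNReal.ofReal r ≤ sig (closedBall u r) := by
  refine le_trans ?_ (le_sig _)
  have h0 := Complex.arg_mem_Ioc u
  have hpi := Real.pi_gt_three
  rcases le_or_gt u.arg 0 with h | h
  · have : Icc u.arg (u.arg + r) ⊆ eb ⁻¹' closedBall u r ∩ I0 := by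
      intro θ hθ
      refine ⟨?_, by linarith [h0.1, hθ.1], by linarith [hθ.2]⟩
      rw [mem_preimage, mem_closedBall, dist_eq_norm]
      conv_lhs => rw [← eb_arg hu]
      exact (norm_eb_sub_le _ _).trans (abs_le.2 ⟨by linarith [hθ.1, hθ.2], by linarith [hθ.2]⟩)
    simpa using measure_mono (μ := volume) this
  · have : Icc (u.arg - r) u.arg ⊆ eb ⁻¹' closedBall u r ∩ I0 := by
      intro θ hθ
      refine ⟨?_, by linarith [hθ.1], by linarith [hθ.2, h0.2]⟩
      rw [mem_preimage, mem_closedBall, dist_eq_norm]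
      conv_lhs => rw [← eb_arg hu]
      exact (norm_eb_sub_le _ _).trans (abs_le.2 ⟨by linarith [hθ.1], by linarith [hθ.1, hθ.2]⟩)
    simpa using measure_mono (μ := volume) this

lemma sig_singleton (u : ℂ) : sig {u} = 0 := by
  have := sig_closedBall_le u le_rfl
  simpa using this

instance : NullSingletonClass sig := ⟨sig_singleton⟩

/-- the area of a sumset of two subsets of the circle -/
lemma vol_add_le {X Y : Set ℂ} {S : Set ℂ}
    (hS : ∀ z ∈ S, ∃ u ∈ X, ∃ v ∈ Y, ‖u‖ = 1 ∧ ‖v‖ = 1 ∧ z = u + v) :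
    volume S ≤ 4 * (sig X * sig Y) := by
  let F : ℝ × ℝ → ℝ × ℝ := fun p => (Real.cos p.1 + Real.cos p.2, Real.sin p.1 + Real.sin p.2)
  have hF : LipschitzWith 2 F := by
    refine LipschitzWith.of_dist_le_mul fun p q => ?_
    have h1 : dist p.1 q.1 ≤ dist p q := le_max_left _ _
    have h2 : dist p.2 q.2 ≤ dist p q := le_max_right _ _
    rw [Prod.dist_eq]
    simp only [Real.dist_eq] at h1 h2 ⊢
    have a1 := Real.abs_cos_sub_cos_le p.1 q.1
    have a2 := Real.abs_cos_sub_cos_le p.2 q.2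
    have a3 := Real.abs_sin_sub_sin_le p.1 q.1
    have a4 := Real.abs_sin_sub_sin_le p.2 q.2
    refine max_le ?_ ?_
    · have := abs_add_le (Real.cos p.1 - Real.cos q.1) (Real.cos p.2 - Real.cos q.2)
      have e : (F p).1 - (F q).1 = Real.cos p.1 - Real.cos q.1 + (Real.cos p.2 - Real.cos q.2) := by
        simp only [F]; ring
      rw [e]; push_cast; linarith
    · have := abs_add_le (Real.sin p.1 - Real.sin q.1) (Real.sin p.2 - Real.sin q.2)
      have e : (F p).2 - (F q).2 = Real.sin p.1 - Real.sin q.1 + (Real.sin p.2 - Real.sin q.2) := by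
        simp only [F]; ring
      rw [e]; push_cast; linarith
  have h1 : S ⊆ Complex.measurableEquivRealProd ⁻¹'
      (F '' ((eb ⁻¹' X ∩ I0) ×ˢ (eb ⁻¹' Y ∩ I0))) := by
    intro z hz
    obtain ⟨u, hu, v, hv, hu1, hv1, rfl⟩ := hS z hz
    refine ⟨(u.arg, v.arg), ⟨⟨by simpa [eb_arg hu1] using hu, Complex.arg_mem_Ioc u⟩,
      ⟨by simpa [eb_arg hv1] using hv, Complex.arg_mem_Ioc v⟩⟩, ?_⟩
    simp only [F, ← eb_re, ← eb_im, eb_arg hu1, eb_arg hv1]
    rfl
  refine (measure_mono h1).trans ?_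
  rw [Complex.volume_preserving_equiv_real_prod.measure_preimage_equiv, ← hausdorffMeasure_prod_real]
  refine (hF.hausdorffMeasure_image_le zero_le_two _).trans ?_
  rw [hausdorffMeasure_prod_real, Measure.volume_eq_prod, Measure.prod_prod]
  have : ((2 : ℝ≥0) : ℝ≥0∞) ^ (2 : ℝ) = 4 := by
    rw [ENNReal.rpow_two]; norm_num
  rw [this]
  gcongr <;> exact le_sig _

/-- density point for the arc measure -/
def SDens (X : Set ℂ) (u : ℂ) : Prop :=
  ∀ η : ℝ, 0 < η → ∀ᶠ r in 𝓝[>] (0 : ℝ), sig (Xᶜ ∩ closedBall u r) ≤ ENNReal.ofReal (η * r)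

lemma ae_sdens {X : Set ℂ} (hX : MeasurableSet X) : ∀ᵐ u ∂sig, u ∈ X → SDens X u := by
  filter_upwards [Besicovitch.ae_tendsto_measure_inter_div_of_measurableSet sig hX.compl, ae_unit]
    with u hu hu1 huX η hη
  rw [indicator_of_notMem (by simpa using huX)] at hu
  have h1 := hu.eventually (gt_mem_nhds (show (0 : ENNReal) < ENNReal.ofReal (η / 8) by
    simpa using hη))
  have h2 : ∀ᶠ r in 𝓝[>] (0 : ℝ), r < 1 := nhdsWithin_le_nhds (Iio_mem_nhds one_pos)
  filter_upwards [h1, self_mem_nhdsWithin, h2] with r hr hr0 hr1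
  have hr0 : 0 < r := hr0
  have hB : sig (closedBall u r) ≠ 0 :=
    ((ENNReal.ofReal_pos.2 hr0).trans_le (le_sig_closedBall hu1 hr1.le)).ne'
  rw [ENNReal.div_lt_iff (Or.inl hB) (Or.inl (measure_ne_top _ _))] at hr
  refine hr.le.trans ?_
  calc _ ≤ ENNReal.ofReal (η / 8) * ENNReal.ofReal (8 * r) := by
        gcongr; exact sig_closedBall_le u hr0.le
    _ = _ := by rw [← ENNReal.ofReal_mul (by positivity)]; congr 1; ring

end Vale.Agent.P032
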