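import Vale.Agent.P032.B1

/-! The intersection maps `psi`. -/

open MeasureTheory Set Metric Filter Topology
open scoped ENNReal NNReal

namespace Vale.Agent.P032

noncomputable def psi (s : ℝ) (z : ℂ) : ℂ :=
  z / 2 + ((s * Real.sqrt (1 - ‖z‖ ^ 2 / 4) / ‖z‖ : ℝ) : ℂ) * Complex.I * z

noncomputable def zt : ℂ := 1 / 2 + (Real.sqrt 3 / 2 : ℝ) * Complex.I

def Sg (s : ℝ) : Prop := s = 1 ∨ s = -1

lemma Sg.neg {s : ℝ} (h : Sg s) : Sg (-s) := by rcases h with rfl | rfl <;> simp [Sg]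
lemma sg1 : Sg 1 := Or.inl rfl
lemma sg2 : Sg (-1) := Or.inr rfl
lemma Sg.sq {s : ℝ} (h : Sg s) : s ^ 2 = 1 := by rcases h with rfl | rfl <;> simp

lemma psi_add (s : ℝ) (z : ℂ) : psi s z + psi (-s) z = z := by
  simp only [psi]; push_cast; ring

lemma sub_psi (s : ℝ) (z : ℂ) : z - psi s z = psi (-s) z := by
  rw [sub_eq_iff_eq_add', psi_add]

lemma norm_sq_eq (z : ℂ) : ‖z‖ ^ 2 = z.re ^ 2 + z.im ^ 2 := by
  rw [Complex.sq_norm, Complex.normSq_apply]; ring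

lemma norm_eq_one_iff {z : ℂ} : ‖z‖ = 1 ↔ z.re ^ 2 + z.im ^ 2 = 1 := by
  rw [← norm_sq_eq, pow_eq_one_iff_of_nonneg (norm_nonneg z) two_ne_zero]

lemma norm_psi {s : ℝ} (hs : Sg s) {z : ℂ} (h0 : z ≠ 0) (h2 : ‖z‖ ≤ 2) : ‖psi s z‖ = 1 := by
  have hz : 0 < ‖z‖ := norm_pos_iff.2 h0
  set t := s * Real.sqrt (1 - ‖z‖ ^ 2 / 4) / ‖z‖ with ht
  have h1 : psi s z = (1 / 2 + t * Complex.I) * z := by simp only [psi, ← ht]; ring
  have h3 : t ^ 2 * ‖z‖ ^ 2 = 1 - ‖z‖ ^ 2 / 4 := by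
    rw [ht, div_pow, mul_pow, hs.sq, Real.sq_sqrt (by nlinarith)]; field_simp
  have h4 : ‖(1 / 2 + t * Complex.I : ℂ)‖ ^ 2 = 1 / 4 + t ^ 2 := by
    rw [norm_sq_eq]; simp; ring
  rw [← pow_eq_one_iff_of_nonneg (norm_nonneg _) two_ne_zero, h1, norm_mul, mul_pow, h4]
  linarith

lemma norm_sub_psi {s : ℝ} (hs : Sg s) {z : ℂ} (h0 : z ≠ 0) (h2 : ‖z‖ ≤ 2) :
    ‖z - psi s z‖ = 1 := by rw [sub_psi]; exact norm_psi hs.neg h0 h2

lemma norm_le_two {u z : ℂ} (hu : ‖u‖ = 1) (hz : ‖z - u‖ = 1) : ‖z‖ ≤ 2 := by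
  have := norm_add_le (z - u) u
  rw [sub_add_cancel] at this; linarith

lemma psi_char {u z : ℂ} (hu : ‖u‖ = 1) (hz : ‖z - u‖ = 1) (h0 : z ≠ 0) :
    ∃ s, Sg s ∧ u = psi s z := by
  have hz0 : 0 < ‖z‖ := norm_pos_iff.2 h0
  have h2 := norm_le_two hu hz
  set d := u / z - 1 / 2 with hd
  have hud : u = z / 2 + d * z := by rw [hd]; field_simp; ring
  have e1 := norm_eq_one_iff.1 hu
  have e2 := norm_eq_one_iff.1 hz
  have e3 := norm_sq_eq z
  have hre : d.re = 0 := by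
    have : d.re * ‖z‖ ^ 2 = 0 := by
      rw [hud] at e1 e2
      simp at e1 e2
      rw [e3]; nlinarith
    simpa [hz0.ne'] using this
  have him : d.im ^ 2 * ‖z‖ ^ 2 = 1 - ‖z‖ ^ 2 / 4 := by
    rw [hud] at e1
    simp [hre] at e1
    rw [e3]; nlinarith
  have hd' : d = (d.im : ℂ) * Complex.I := by
    apply Complex.ext <;> simp [hre]
  have hs : Real.sqrt (1 - ‖z‖ ^ 2 / 4) = |d.im| * ‖z‖ := by
    rw [← him, ← mul_pow, Real.sqrt_sq_eq_abs, abs_mul, abs_of_pos hz0]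
  rcases le_total 0 d.im with h | h
  · refine ⟨1, sg1, ?_⟩
    rw [psi, hs, abs_of_nonneg h, one_mul, mul_div_cancel_right₀ _ hz0.ne', ← hd', ← hud]
  · refine ⟨-1, sg2, ?_⟩
    rw [psi, hs, abs_of_nonpos h, show -1 * (-d.im * ‖z‖) = d.im * ‖z‖ by ring,
      mul_div_cancel_right₀ _ hz0.ne', ← hd', ← hud]

lemma norm_zt : ‖zt‖ = 1 := by
  rw [norm_eq_one_iff]
  have := Real.sq_sqrt (show (0 : ℝ) ≤ 3 by norm_num)
  simp [zt]; nlinarith

lemma zt_sq : zt ^ 2 = zt - 1 := by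
  have := Real.sq_sqrt (show (0 : ℝ) ≤ 3 by norm_num)
  apply Complex.ext <;> simp [zt, sq] <;> nlinarith

lemma zt_ne : zt ≠ 0 := norm_ne_zero_iff.1 (by simp [norm_zt])

lemma sqrt34 : Real.sqrt (1 - 1 ^ 2 / 4) = Real.sqrt 3 / 2 := by
  rw [show (1 : ℝ) - 1 ^ 2 / 4 = 3 / 2 ^ 2 by norm_num, Real.sqrt_div (by norm_num),
    Real.sqrt_sq (by norm_num)]

lemma psi_one_unit {u : ℂ} (hu : ‖u‖ = 1) : psi 1 u = zt * u := by
  rw [psi, hu, sqrt34, zt]; push_cast; ring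

lemma psi_neg_unit {u : ℂ} (hu : ‖u‖ = 1) : psi (-1) u = -(zt ^ 2 * u) := by
  have := psi_add 1 u
  rw [psi_one_unit hu] at this
  rw [zt_sq]; linear_combination this

lemma measurable_psi (s : ℝ) : Measurable (psi s) := by unfold psi; fun_prop

lemma contDiffAt_psi (s : ℝ) {z : ℂ} (h0 : z ≠ 0) (h2 : ‖z‖ < 2) : ContDiffAt ℝ 1 (psi s) z := by
  have hz : 0 < ‖z‖ := norm_pos_iff.2 h0
  have hn : ContDiffAt ℝ 1 (fun z : ℂ => ‖z‖) z := contDiffAt_norm ℝ h0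
  have h1 : ContDiffAt ℝ 1 (fun z : ℂ => Real.sqrt (1 - ‖z‖ ^ 2 / 4)) z :=
    (contDiffAt_const.sub ((hn.pow 2).div_const 4)).sqrt (by nlinarith)
  have h3 : ContDiffAt ℝ 1 (fun z : ℂ => s * Real.sqrt (1 - ‖z‖ ^ 2 / 4) / ‖z‖) z :=
    (contDiffAt_const.mul h1).div hn hz.ne'
  have h4 := Complex.ofRealCLM.contDiff.contDiffAt.comp z h3
  unfold psi
  exact (contDiffAt_id.div_const 2).add ((h4.mul contDiffAt_const).mul contDiffAt_id)

def Ann (a b : ℝ) : Set ℂ := {z | a ≤ ‖z‖ ∧ ‖z‖ ≤ b}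

lemma exists_lip_psi {a b : ℝ} (ha : 0 < a) (hb : b < 2) :
    ∃ L : ℝ≥0, ∀ s, Sg s → LipschitzOnWith L (psi s) (Ann a b) := by
  have hc : IsCompact (Ann a b) := by
    refine (isCompact_closedBall (0 : ℂ) b).of_isClosed_subset ?_ fun z hz => by simpa using hz.2
    exact (isClosed_le continuous_const continuous_norm).inter
      (isClosed_le continuous_norm continuous_const)
  have key : ∀ s, ∃ L : ℝ≥0, LipschitzOnWith L (psi s) (Ann a b) := fun s => by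
    refine LocallyLipschitzOn.exists_lipschitzOnWith_of_compact hc fun z hz => ?_
    obtain ⟨K, t, ht, h⟩ := (contDiffAt_psi s (norm_pos_iff.1 (ha.trans_le hz.1))
      (hz.2.trans_lt hb)).exists_lipschitzOnWith
    exact ⟨K, t, mem_nhdsWithin_of_mem_nhds ht, h⟩
  obtain ⟨L1, h1⟩ := key 1
  obtain ⟨L2, h2⟩ := key (-1)
  refine ⟨max L1 L2, fun s hs => ?_⟩
  rcases hs with rfl | rfl
  · exact h1.weaken (le_max_left _ _)
  · exact h2.weaken (le_max_right _ _)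

lemma unit_add_mem {u b : ℂ} (hu : ‖u‖ = 1) (hb : ‖b‖ ≤ 1 / 2) : u + b ∈ Ann (1 / 2) (3 / 2) := by
  have h1 := norm_add_le u b
  have h2 := norm_sub_le (u + b) b
  rw [add_sub_cancel_right] at h2
  exact ⟨by linarith, by linarith⟩

lemma ann_ne {z : ℂ} (h : z ∈ Ann (1 / 2) (3 / 2)) : z ≠ 0 :=
  norm_pos_iff.1 (by linarith [h.1])

/-- uniform domination -/
lemma exists_dom : ∃ C : ℝ≥0, ∀ b : ℂ, ‖b‖ ≤ 1 / 2 → ∀ s, Sg s → ∀ X : Set ℂ,
    sig {u | psi s (u + b) ∈ X} ≤ C * sig X := by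
  obtain ⟨L, hL⟩ := exists_lip_psi (a := 1 / 2) (b := 3 / 2) (by norm_num) (by norm_num)
  refine ⟨8 * L, fun b hb s hs X => ?_⟩
  have hlip : ∀ s', Sg s' → LipschitzOnWith L (fun w => psi s' (w + -b)) (X ∩ sphere 0 1) := by
    intro s' hs'
    refine LipschitzOnWith.of_dist_le_mul fun x hx y hy => ?_
    have := (hL s' hs').dist_le_mul _ (unit_add_mem (by simpa using hx.2) (by simpa using hb : ‖-b‖ ≤ 1 / 2))
      _ (unit_add_mem (by simpa using hy.2) (by simpa using hb : ‖-b‖ ≤ 1 / 2))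
    simpa using this
  have hsub : {u | psi s (u + b) ∈ X} ∩ sphere 0 1 ⊆
      (fun w => psi 1 (w + -b)) '' (X ∩ sphere 0 1) ∪
      (fun w => psi (-1) (w + -b)) '' (X ∩ sphere 0 1) := by
    rintro u ⟨hu, hu1⟩
    have hu1 : ‖u‖ = 1 := by simpa using hu1
    have hA := unit_add_mem hu1 hb
    have hw := norm_psi hs (ann_ne hA) (by linarith [hA.2])
    have hw' := norm_sub_psi hs (ann_ne hA) (by linarith [hA.2])
    have hA' := unit_add_mem hw (by simpa using hb : ‖-b‖ ≤ 1 / 2)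
    obtain ⟨s', hs', e⟩ := psi_char (z := psi s (u + b) + -b) hu1
      (by rw [← hw', ← norm_neg]; congr 1; ring) (ann_ne hA')
    rcases hs' with rfl | rfl
    · exact Or.inl ⟨_, ⟨hu, by simpa using hw⟩, e.symm⟩
    · exact Or.inr ⟨_, ⟨hu, by simpa using hw⟩, e.symm⟩
  rw [← sig_inter_sphere]
  refine ((measure_mono hsub).trans (measure_union_le _ _)).trans ?_
  refine (add_le_add (sig_image_le (hlip 1 sg1)) (sig_image_le (hlip _ sg2))).trans ?_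
  push_cast; apply le_of_eq; ring

lemma ae_psi {b : ℂ} (hb : ‖b‖ ≤ 1 / 2) {s : ℝ} (hs : Sg s) {P : ℂ → Prop}
    (h : ∀ᵐ v ∂sig, P v) : ∀ᵐ u ∂sig, P (psi s (u + b)) := by
  obtain ⟨C, hC⟩ := exists_dom
  have := hC b hb s hs {v | ¬ P v}
  rw [ae_iff] at h ⊢
  rw [h, mul_zero] at this
  exact nonpos_iff_eq_zero.1 this

lemma rot_dom {ω : ℂ} (hω : ‖ω‖ = 1) (X : Set ℂ) : sig {u | ω * u ∈ X} ≤ 4 * sig X := by
  have h0 : ω ≠ 0 := norm_ne_zero_iff.1 (by simp [hω])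
  have hlip : LipschitzOnWith 1 (fun w => ω⁻¹ * w) (X ∩ sphere 0 1) := by
    refine LipschitzOnWith.of_dist_le_mul fun x _ y _ => ?_
    simp [dist_eq_norm, ← mul_sub, hω]
  have hsub : {u | ω * u ∈ X} ∩ sphere 0 1 ⊆ (fun w => ω⁻¹ * w) '' (X ∩ sphere 0 1) := by
    rintro u ⟨hu, hu1⟩
    exact ⟨ω * u, ⟨hu, by simpa [hω] using hu1⟩, by field_simp⟩
  rw [← sig_inter_sphere]
  simpa using (measure_mono hsub).trans (sig_image_le hlip)

lemma ae_rot {ω : ℂ} (hω : ‖ω‖ = 1) {P : ℂ → Prop}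
    (h : ∀ᵐ v ∂sig, P v) : ∀ᵐ u ∂sig, P (ω * u) := by
  have := rot_dom hω {v | ¬ P v}
  rw [ae_iff] at h ⊢
  rw [h, mul_zero] at this
  exact nonpos_iff_eq_zero.1 this

/-- continuity in measure of the maps `u ↦ psi s (u + b)` -/
lemma tendsto_psi {b₀ : ℂ} (hb : ‖b₀‖ < 1 / 2) {s : ℝ} (hs : Sg s) {X : Set ℂ}
    (hX : MeasurableSet X) :
    Tendsto (fun b => sig {u | psi s (u + b₀) ∈ X ∧ psi s (u + b) ∉ X}) (𝓝 b₀) (𝓝 0) := by
  obtain ⟨C, hC⟩ := exists_dom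
  rw [ENNReal.tendsto_nhds_zero]
  intro ε hε
  have hε2 : 0 < ε / 2 := ENNReal.half_pos hε.ne'
  have hε3 : ε / 2 / (C + 1) ≠ 0 := (ENNReal.div_pos hε2.ne' (by simp)).ne'
  obtain ⟨U, hXU, hU, -, hUX⟩ := hX.exists_isOpen_sdiff_lt (μ := sig) (measure_ne_top _ _) hε3
  have hm : ∀ b, Measurable fun u : ℂ => psi s (u + b) :=
    fun b => (measurable_psi s).comp (measurable_id.add_const b)
  have h1 : Tendsto (fun b => sig {u | psi s (u + b₀) ∈ U ∧ psi s (u + b) ∉ U}) (𝓝 b₀)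
      (𝓝 (sig ∅)) := by
    refine tendsto_measure_of_ae_tendsto_indicator_of_isFiniteMeasure _ MeasurableSet.empty
      (fun b => (hm b₀ hU.measurableSet).inter (hm b hU.measurableSet).compl) ?_
    filter_upwards [ae_unit] with u hu
    by_cases h : psi s (u + b₀) ∈ U
    · have hA := unit_add_mem hu hb.le
      have hc : ContinuousAt (fun b => psi s (u + b)) b₀ :=
        ContinuousAt.comp (g := psi s)
          (contDiffAt_psi s (ann_ne hA) (by linarith [hA.2])).continuousAt (by fun_prop)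
      filter_upwards [hc.eventually (hU.mem_nhds h)] with b hb'
      exact ⟨fun h' => h'.2 hb', fun h' => h'.elim⟩
    · simp [h]
  rw [measure_empty, ENNReal.tendsto_nhds_zero] at h1
  have h2 : ∀ᶠ b in 𝓝 b₀, ‖b‖ < 1 / 2 :=
    continuous_norm.continuousAt.eventually (gt_mem_nhds hb)
  filter_upwards [h1 _ hε2, h2] with b hb1 hb2
  have hsub : {u | psi s (u + b₀) ∈ X ∧ psi s (u + b) ∉ X} ⊆
      {u | psi s (u + b₀) ∈ U ∧ psi s (u + b) ∉ U} ∪ {u | psi s (u + b) ∈ U \ X} := by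
    rintro u ⟨h1, h2⟩
    by_cases h : psi s (u + b) ∈ U
    · exact Or.inr ⟨h, h2⟩
    · exact Or.inl ⟨hXU h1, h⟩
  refine ((measure_mono hsub).trans (measure_union_le _ _)).trans ?_
  rw [← ENNReal.add_halves ε]
  refine add_le_add hb1 ((hC b hb2.le s hs _).trans ?_)
  calc (C : ℝ≥0∞) * sig (U \ X) ≤ (C + 1) * (ε / 2 / (C + 1)) := by gcongr; exact le_self_add
    _ ≤ ε / 2 := ENNReal.mul_div_le

/-- density points of the circle give density points of the plane -/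
lemma dens_psi {p : ℂ} (h0 : p ≠ 0) (h2 : ‖p‖ < 2) {s : ℝ} (hs : Sg s) {X : Set ℂ}
    (hX : SDens X (psi s p)) : Dens {z | psi s z ∈ X ∧ z ≠ 0 ∧ ‖z‖ ≤ 2} p := by
  have hp : 0 < ‖p‖ := norm_pos_iff.2 h0
  obtain ⟨L, hL⟩ := exists_lip_psi (a := ‖p‖ / 2) (b := (‖p‖ + 2) / 2) (by linarith) (by linarith)
  intro η hη
  set K : ℝ := L + 1 with hK
  have hK0 : 0 < K := by positivity
  have ht : Tendsto (fun r : ℝ => K * r) (𝓝[>] 0) (𝓝[>] 0) := by
    refine tendsto_nhdsWithin_iff.2 ⟨?_, ?_⟩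
    · have : Tendsto (fun r : ℝ => K * r) (𝓝 0) (𝓝 (K * 0)) := by
        apply Continuous.tendsto; fun_prop
      rw [mul_zero] at this
      exact this.mono_left nhdsWithin_le_nhds
    · filter_upwards [self_mem_nhdsWithin] with r hr using mul_pos hK0 hr
  have h1 := ht.eventually (hX (η / (32 * K ^ 2)) (by positivity))
  have h3 : ∀ᶠ r in 𝓝[>] (0 : ℝ), r < min (‖p‖ / 2) ((2 - ‖p‖) / 2) :=
    nhdsWithin_le_nhds (Iio_mem_nhds (lt_min (by linarith) (by linarith)))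
  filter_upwards [h1, h3, self_mem_nhdsWithin] with r hr hr3 hr0
  have hr0 : 0 < r := hr0
  have hpA : p ∈ Ann (‖p‖ / 2) ((‖p‖ + 2) / 2) := ⟨by linarith, by linarith⟩
  have key : volume ({z | psi s z ∈ X ∧ z ≠ 0 ∧ ‖z‖ ≤ 2}ᶜ ∩ closedBall p r) ≤
      4 * (sig (Xᶜ ∩ closedBall (psi s p) (K * r)) * sig (closedBall (psi (-s) p) (K * r))) := by
    refine vol_add_le ?_
    rintro z ⟨hz, hzB⟩
    have hd : ‖z - p‖ ≤ r := by simpa [dist_eq_norm] using hzB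
    have a1 := lt_min_iff.1 hr3
    have a2 := norm_sub_norm_le z p
    have a3 := norm_sub_norm_le p z
    rw [norm_sub_rev p z] at a3
    have hzA : z ∈ Ann (‖p‖ / 2) ((‖p‖ + 2) / 2) := ⟨by linarith, by linarith⟩
    have hz0 : z ≠ 0 := norm_pos_iff.1 (by linarith [hzA.1])
    have hz2 : ‖z‖ ≤ 2 := by linarith [hzA.2]
    have hl : ∀ s', Sg s' → psi s' z ∈ closedBall (psi s' p) (K * r) := fun s' hs' => by
      refine ((hL s' hs').dist_le_mul _ hzA _ hpA).trans ?_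
      have : dist z p ≤ r := hzB
      gcongr; linarith
    exact ⟨psi s z, ⟨fun h => hz ⟨h, hz0, hz2⟩, hl s hs⟩, psi (-s) z, hl _ hs.neg,
      norm_psi hs hz0 hz2, norm_psi hs.neg hz0 hz2, (psi_add s z).symm⟩
  have k2 : volume ({z | psi s z ∈ X ∧ z ≠ 0 ∧ ‖z‖ ≤ 2}ᶜ ∩ closedBall p r) ≤
      ENNReal.ofReal (η * r ^ 2) := by
    refine key.trans ?_
    calc _ ≤ 4 * (ENNReal.ofReal (η / (32 * K ^ 2) * (K * r)) * ENNReal.ofReal (8 * (K * r))) := by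
          gcongr; exact sig_closedBall_le _ (by positivity)
      _ = _ := by
          rw [← ENNReal.ofReal_mul (by positivity), ← ENNReal.ofReal_ofNat,
            ← ENNReal.ofReal_mul (by positivity)]
          congr 1; field_simp; ring
  exact ENNReal.toReal_le_of_le_ofReal (by positivity) k2

end Vale.Agent.P032
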