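import Vale.Agent.P032.B2

/-! The two-step map and translation continuity. -/

open MeasureTheory Set Metric Filter Topology
open scoped ENNReal NNReal symmDiff

namespace Vale.Agent.P032

noncomputable def GG (p : ℝ × ℝ) : ℂ := eb p.1 * (1 - eb p.2)

noncomputable def Gr (p : ℝ × ℝ) : ℝ × ℝ :=
  (Real.cos p.1 - Real.cos (p.1 + p.2), Real.sin p.1 - Real.sin (p.1 + p.2))

noncomputable def Gd (p : ℝ × ℝ) : ℝ × ℝ →L[ℝ] ℝ × ℝ :=
  (Matrix.toLin (.finTwoProd ℝ) (.finTwoProd ℝ)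
    !![-Real.sin p.1 + Real.sin (p.1 + p.2), Real.sin (p.1 + p.2);
      Real.cos p.1 - Real.cos (p.1 + p.2), -Real.cos (p.1 + p.2)]).toContinuousLinearMap

lemma hasFDerivAt_Gr (p : ℝ × ℝ) : HasFDerivAt Gr (Gd p) p := by
  unfold Gd
  rw [Matrix.toLin_finTwoProd_toContinuousLinearMap]
  have h1 : HasFDerivAt (fun p : ℝ × ℝ => p.1 + p.2)
      (ContinuousLinearMap.fst ℝ ℝ ℝ + ContinuousLinearMap.snd ℝ ℝ ℝ) p :=
    hasFDerivAt_fst.add hasFDerivAt_snd
  convert!
    HasFDerivAt.prodMk (𝕜 := ℝ)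
      (((Real.hasDerivAt_cos p.1).comp_hasFDerivAt p hasFDerivAt_fst).sub
        ((Real.hasDerivAt_cos (p.1 + p.2)).comp_hasFDerivAt p h1))
      (((Real.hasDerivAt_sin p.1).comp_hasFDerivAt p hasFDerivAt_fst).sub
        ((Real.hasDerivAt_sin (p.1 + p.2)).comp_hasFDerivAt p h1)) using 2 <;>
  · ext <;> simp [sub_eq_add_neg]

lemma det_Gd (p : ℝ × ℝ) : (Gd p).det = -Real.sin p.2 := by
  unfold Gd
  simp only [LinearMap.det_toContinuousLinearMap, LinearMap.det_toLin, Matrix.det_fin_two_of]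
  have : Real.sin p.2 = Real.sin ((p.1 + p.2) - p.1) := by congr 1; ring
  rw [this, Real.sin_sub]; ring

lemma equiv_GG (p : ℝ × ℝ) : Complex.measurableEquivRealProd (GG p) = Gr p := by
  have : GG p = eb p.1 - eb (p.1 + p.2) := by rw [GG, eb_add]; ring
  rw [this]
  simp only [Gr, ← eb_re, ← eb_im]
  rfl

lemma vol_GG_image (S : Set (ℝ × ℝ)) : volume (GG '' S) = volume (Gr '' S) := by
  rw [← Complex.volume_preserving_equiv_real_prod.measure_preimage_equiv]
  congr 1
  ext z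
  constructor
  · rintro ⟨p, hp, rfl⟩; exact ⟨p, hp, (equiv_GG p).symm⟩
  · rintro ⟨p, hp, h⟩
    exact ⟨p, hp, Complex.measurableEquivRealProd.injective ((equiv_GG p).trans h)⟩

lemma continuous_GG : Continuous GG := by
  have := continuous_eb
  unfold GG; fun_prop

lemma GG_image_null {S : Set (ℝ × ℝ)} (hS : volume S = 0) : volume (GG '' S) = 0 := by
  rw [vol_GG_image]
  exact addHaar_image_eq_zero_of_differentiableOn_of_addHaar_eq_zero volume
    (fun p _ => (hasFDerivAt_Gr p).differentiableAt.differentiableWithinAt) hS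

def Tset (s : ℝ) : Set ℝ := {t | 0 < s * t ∧ s * t < Real.pi}

lemma norm_one_sub_eb (t : ℝ) : ‖1 - eb t‖ ^ 2 = 2 - 2 * Real.cos t := by
  rw [norm_sq_eq]; simp [eb_re, eb_im]; nlinarith [Real.sin_sq_add_cos_sq t]

lemma norm_GG_sq (p : ℝ × ℝ) : ‖GG p‖ ^ 2 = 2 - 2 * Real.cos p.2 := by
  rw [GG, norm_mul, norm_eb, one_mul, norm_one_sub_eb]

lemma cos_sg {s : ℝ} (hs : Sg s) (t : ℝ) : Real.cos (s * t) = Real.cos t := by
  rcases hs with rfl | rfl <;> simp

lemma sin_sg {s : ℝ} (hs : Sg s) (t : ℝ) : Real.sin (s * t) = s * Real.sin t := by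
  rcases hs with rfl | rfl <;> simp

lemma abs_sin_sg {s : ℝ} (hs : Sg s) {t : ℝ} (ht : t ∈ Tset s) :
    |Real.sin t| = Real.sin (s * t) := by
  have := Real.sin_pos_of_pos_of_lt_pi ht.1 ht.2
  rcases hs with rfl | rfl
  · rw [one_mul] at *; exact abs_of_pos this
  · rw [neg_one_mul, Real.sin_neg] at *; exact abs_of_neg (by linarith)

lemma injOn_GG {s : ℝ} (hs : Sg s) : InjOn GG (I0 ×ˢ Tset s) := by
  rintro p ⟨hp1, hp2⟩ q ⟨hq1, hq2⟩ h
  have h1 : Real.cos (s * p.2) = Real.cos (s * q.2) := by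
    have := norm_GG_sq p
    rw [h, norm_GG_sq] at this
    rw [cos_sg hs, cos_sg hs]; linarith
  have h2 := Real.injOn_cos ⟨hp2.1.le, hp2.2.le⟩ ⟨hq2.1.le, hq2.2.le⟩ h1
  have h3 : p.2 = q.2 := by
    rcases hs with rfl | rfl <;> linarith
  have h4 : 1 - eb q.2 ≠ 0 := by
    intro h0
    have := congrArg Complex.im h0
    have h5 := abs_sin_sg hs hq2
    have h6 := Real.sin_pos_of_pos_of_lt_pi hq2.1 hq2.2
    simp [eb_im] at this
    rw [this] at h5; simp at h5; linarith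
  rw [GG, GG, h3] at h
  have h5 := mul_right_cancel₀ h4 h
  exact Prod.ext (by rw [← arg_eb hp1, h5, arg_eb hq1]) h3

lemma vol_GG {s : ℝ} (hs : Sg s) {S : Set (ℝ × ℝ)} (hS : MeasurableSet S) (h : S ⊆ I0 ×ˢ Tset s) :
    volume (GG '' S) = ∫⁻ p in S, ENNReal.ofReal |Real.sin p.2| := by
  rw [vol_GG_image, ← lintegral_abs_det_fderiv_eq_addHaar_image volume hS
    (fun p _ => (hasFDerivAt_Gr p).hasFDerivWithinAt)]
  · simp [det_Gd]
  · intro p hp q hq e
    refine injOn_GG hs (h hp) (h hq) (Complex.measurableEquivRealProd.injective ?_)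
    rw [equiv_GG, equiv_GG, e]

noncomputable def m2 : Measure (ℝ × ℝ) := (volume.restrict I0).prod (volume.restrict I0)

instance : IsFiniteMeasure (volume.restrict I0) := ⟨by simp [I0]⟩

instance : IsFiniteMeasure m2 := by unfold m2; infer_instance

lemma m2_eq : m2 = volume.restrict (I0 ×ˢ I0) := by
  rw [m2, Measure.prod_restrict]; rfl

lemma measTset (s : ℝ) : MeasurableSet (Tset s) :=
  (measurableSet_lt measurable_const (measurable_id.const_mul s)).inter
    (measurableSet_lt (measurable_id.const_mul s) measurable_const)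

lemma GG_ac : m2.map GG ≪ volume := by
  refine Measure.AbsolutelyContinuous.mk fun N hN hN0 => ?_
  rw [Measure.map_apply continuous_GG.measurable hN, m2_eq,
    Measure.restrict_apply (continuous_GG.measurable hN)]
  have key : ∀ s, Sg s → volume (GG ⁻¹' N ∩ I0 ×ˢ Tset s) = 0 := by
    intro s hs
    have hm : MeasurableSet (GG ⁻¹' N ∩ I0 ×ˢ Tset s) :=
      (continuous_GG.measurable hN).inter (measI0.prod (measTset s))
    have h1 := vol_GG hs hm inter_subset_right
    rw [measure_mono_null (by rintro _ ⟨p, hp, rfl⟩; exact hp.1) hN0, eq_comm,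
      lintegral_eq_zero_iff (by fun_prop), EventuallyEq, ae_restrict_iff' hm] at h1
    rw [measure_eq_zero_iff_ae_notMem]
    filter_upwards [h1] with p hp hp'
    have h2 := hp hp'
    rw [abs_sin_sg hs hp'.2.2] at h2
    have h3 := Real.sin_pos_of_pos_of_lt_pi hp'.2.2.1 hp'.2.2.2
    simp at h2; linarith
  have h0 : volume ((univ : Set ℝ) ×ˢ ({0, Real.pi} : Set ℝ)) = 0 := by
    rw [Measure.volume_eq_prod, Measure.prod_prod, (Set.toFinite ({0, Real.pi} : Set ℝ)).measure_zero, mul_zero]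
  refine measure_mono_null (t := (GG ⁻¹' N ∩ I0 ×ˢ Tset 1 ∪ GG ⁻¹' N ∩ I0 ×ˢ Tset (-1)) ∪
    univ ×ˢ {0, Real.pi}) ?_ (measure_union_null (measure_union_null (key _ sg1) (key _ sg2)) h0)
  rintro p ⟨hp, hp1, hp2⟩
  rcases lt_trichotomy p.2 0 with h | h | h
  · exact Or.inl (Or.inr ⟨hp, hp1, by linarith, by linarith [hp2.1]⟩)
  · exact Or.inr ⟨trivial, Or.inl h⟩
  · rcases hp2.2.lt_or_eq with h' | h'
    · exact Or.inl (Or.inl ⟨hp, hp1, by linarith, by linarith⟩)
    · exact Or.inr ⟨trivial, Or.inr h'⟩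

lemma norm_GG_le (p : ℝ × ℝ) : ‖GG p‖ ≤ 2 := by
  have := norm_GG_sq p
  nlinarith [Real.neg_one_le_cos p.2, norm_nonneg (GG p)]

/-- translation continuity of two-step averages -/
lemma tendsto_GG {A : Set ℂ} (hA : MeasurableSet A) (x : ℂ) :
    Tendsto (fun a => m2 {p | x + GG p ∈ A ∧ a + GG p ∉ A}) (𝓝 x) (𝓝 0) := by
  let f : ℂ → C(ℂ, ℂ) := fun a => ⟨fun z => a + z, by fun_prop⟩
  have hf : Continuous f := ContinuousMap.continuous_of_continuous_uncurry f
    (show Continuous fun p : ℂ × ℂ => p.1 + p.2 by fun_prop)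
  have hA' : MeasurableSet (A ∩ closedBall x 2) := hA.inter measurableSet_closedBall
  have h1 := tendsto_measure_symmDiff_preimage_nhds_zero (μ := volume) (ν := volume)
    (hf.tendsto x) (Eventually.of_forall fun a => measurePreserving_add_left volume a)
    (measurePreserving_add_left volume x) hA'.nullMeasurableSet (inter_closedBall_ne_top _ _ _)
  have h2 := tendsto_setLIntegral_zero (μ := volume) (f := (m2.map GG).rnDeriv volume)
    (Measure.lintegral_rnDeriv_lt_top _ _).ne h1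
  refine tendsto_of_tendsto_of_tendsto_of_le_of_le tendsto_const_nhds h2
    (fun _ => zero_le) fun a => ?_
  have hm : MeasurableSet ((f a ⁻¹' (A ∩ closedBall x 2)) ∆ (f x ⁻¹' (A ∩ closedBall x 2))) :=
    ((f a).continuous.measurable hA').symmDiff ((f x).continuous.measurable hA')
  simp only
  rw [Measure.setLIntegral_rnDeriv GG_ac, Measure.map_apply continuous_GG.measurable hm]
  refine measure_mono ?_
  rintro p ⟨h1, h2⟩
  refine Or.inr ⟨⟨h1, ?_⟩, fun h => h2 h.1⟩
  simpa [f] using norm_GG_le p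

/-- a maximal set in a sigma-ideal -/
lemma exists_max_ideal {μ : Measure ℂ} [IsFiniteMeasure μ] (P : Set ℂ → Prop) (h0 : P ∅)
    (hU : ∀ N : ℕ → Set ℂ, (∀ n, MeasurableSet (N n)) → (∀ n, P (N n)) → P (⋃ n, N n)) :
    ∃ M, MeasurableSet M ∧ P M ∧ ∀ N, MeasurableSet N → P N → μ (N \ M) = 0 := by
  let T : Set ℝ≥0∞ := {t | ∃ N, MeasurableSet N ∧ P N ∧ μ N = t}
  have hT : T.Nonempty := ⟨_, ∅, MeasurableSet.empty, h0, rfl⟩
  obtain ⟨u, -, hu, huT⟩ := exists_seq_tendsto_sSup hT (OrderTop.bddAbove T)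
  choose N hN hP hμ using huT
  have hM : MeasurableSet (⋃ n, N n) := MeasurableSet.iUnion hN
  refine ⟨_, hM, hU N hN hP, fun N' hN' hP' => ?_⟩
  have h1 : sSup T ≤ μ (⋃ n, N n) :=
    le_of_tendsto' hu fun n => hμ n ▸ measure_mono (subset_iUnion N n)
  let N2 : ℕ → Set ℂ := fun n => Nat.casesOn n N' N
  have h2 : (⋃ n, N2 n) = (⋃ n, N n) ∪ N' := by
    rw [← union_iUnion_nat_succ, union_comm]; rfl
  have h3 : μ ((⋃ n, N n) ∪ N') ≤ sSup T := le_sSup ⟨_, hM.union hN', h2 ▸ hU N2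
    (fun n => by cases n <;> simp [N2, hN, hN']) (fun n => by cases n <;> simp [N2, hP, hP']), rfl⟩
  rw [← union_sdiff_self, measure_union disjoint_sdiff_right (hN'.diff hM)] at h3
  have h4 := h3.trans h1
  by_contra hc
  exact absurd h4 (not_le.2 (ENNReal.lt_add_right (measure_ne_top _ _) hc))

end Vale.Agent.P032
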