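import Vale.Agent.P032.B3

/-! Thin presence of colours near the unit circle about a point. -/

open MeasureTheory Set Metric Filter Topology
open scoped ENNReal NNReal

namespace Vale.Agent.P032

noncomputable def FF (x : ℂ) : Filter ℂ := 𝓝 x ⊓ ae volume

lemma FF_le_nhds (x : ℂ) : FF x ≤ 𝓝 x := inf_le_left
lemma FF_le_ae (x : ℂ) : FF x ≤ ae volume := inf_le_right

lemma eventually_FF {x : ℂ} {P : ℂ → Prop} :
    (∀ᶠ a in FF x, P a) ↔ ∃ δ > 0, ∀ᵐ a : ℂ, a ∈ ball x δ → P a := by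
  constructor
  · intro h
    obtain ⟨s, hs, t, ht, hst⟩ := mem_inf_iff.1 h
    obtain ⟨δ, hδ, hs'⟩ := Metric.mem_nhds_iff.1 hs
    refine ⟨δ, hδ, ?_⟩
    filter_upwards [ht] with a ha ha'
    have : a ∈ s ∩ t := ⟨hs' ha', ha⟩
    rwa [← hst] at this
  · rintro ⟨δ, hδ, h⟩
    filter_upwards [FF_le_nhds x (ball_mem_nhds x hδ), FF_le_ae x h] with a h1 h2 using h2 h1

instance (x : ℂ) : (FF x).NeBot := by
  refine ⟨fun h => ?_⟩
  obtain ⟨δ, hδ, h⟩ := eventually_FF.1 (eventually_false_iff_eq_bot.2 h)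
  exact (dens_univ x).not_ae_notMem hδ (h.mono fun _ h1 h2 => (h1 h2).elim)

lemma ae_ae_add {P : ℂ → Prop} (h : ∀ᵐ z : ℂ, P z) : ∀ᵐ a : ℂ, ∀ᵐ u ∂sig, P (a + u) := by
  obtain ⟨N, hN1, hN, hN0⟩ := exists_measurable_superset_of_null (ae_iff.1 h)
  have h1 : ∀ᵐ a : ℂ, ∀ᵐ u ∂sig, a + u ∉ N := by
    rw [Measure.ae_ae_comm (p := fun a u => a + u ∉ N) (measurable_add hN).compl]
    refine Eventually.of_forall fun u => ?_
    exact (measurePreserving_add_right volume u).quasiMeasurePreserving.ae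
      (measure_eq_zero_iff_ae_notMem.1 hN0)
  filter_upwards [h1] with a ha
  filter_upwards [ha] with u hu
  by_contra hc
  exact hu (hN1 hc)

namespace WCol

variable (w : WCol)

lemma meas_ne {α : Type*} [MeasurableSpace α] {f g : α → ℂ} (hf : Measurable f)
    (hg : Measurable g) : MeasurableSet {p | w.c (f p) ≠ w.c (g p)} :=
  (measurableSet_eq_fun (w.meas.comp hf) (w.meas.comp hg)).compl

lemma meas_eq {α : Type*} [MeasurableSpace α] {f : α → ℂ} (hf : Measurable f) (i : Fin 5) :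
    MeasurableSet {p | w.c (f p) = i} := hf (w.measA i)

lemma ae_one : ∀ᵐ a : ℂ, ∀ᵐ u ∂sig, w.c a ≠ w.c (a + u) := by
  rw [Measure.ae_ae_comm (p := fun a u => w.c a ≠ w.c (a + u))
    (w.meas_ne measurable_fst measurable_add)]
  filter_upwards [ae_unit] with u hu using w.prop u hu

lemma ae_two : ∀ᵐ a : ℂ, ∀ᵐ p ∂m2, w.c (a + eb p.1) ≠ w.c (a + GG p) := by
  have h1 := measurable_eb
  have h2 := continuous_GG.measurable
  rw [Measure.ae_ae_comm (p := fun a p => w.c (a + eb p.1) ≠ w.c (a + GG p))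
    (w.meas_ne (by fun_prop) (by fun_prop))]
  refine Eventually.of_forall fun p => ?_
  have h := (measurePreserving_add_right volume (eb p.1)).quasiMeasurePreserving.ae
    (w.prop (-(eb p.1 * eb p.2)) (by simp [norm_eb]))
  filter_upwards [h] with a ha
  have : a + GG p = a + eb p.1 + -(eb p.1 * eb p.2) := by rw [GG]; ring
  rwa [this]

def NonPres (x : ℂ) (i : Fin 5) (N : Set ℂ) : Prop :=
  Tendsto (fun a => sig (N ∩ {u | w.c (a + u) = i})) (FF x) (𝓝 0)

lemma exists_Th (x : ℂ) (i : Fin 5) : ∃ M, MeasurableSet M ∧ w.NonPres x i M ∧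
    ∀ N, MeasurableSet N → w.NonPres x i N → sig (N \ M) = 0 := by
  refine exists_max_ideal _ (by simp [NonPres]) fun N hN hP => ?_
  rw [NonPres, ENNReal.tendsto_nhds_zero]
  intro ε hε
  have hε2 : 0 < ε / 2 := ENNReal.half_pos hε.ne'
  have h1 : Tendsto (fun n => sig ((⋃ k, N k) \ ⋃ k ∈ Finset.range n, N k)) atTop (𝓝 (sig ∅)) := by
    refine tendsto_measure_of_ae_tendsto_indicator_of_isFiniteMeasure _ MeasurableSet.empty
      (fun n => (MeasurableSet.iUnion hN).diff (Finset.measurableSet_biUnion _ fun k _ => hN k))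
      (Eventually.of_forall fun u => ?_)
    by_cases h : u ∈ ⋃ k, N k
    · obtain ⟨k, hk⟩ := mem_iUnion.1 h
      filter_upwards [eventually_gt_atTop k] with n hn
      exact ⟨fun h' => h'.2 (mem_biUnion (Finset.mem_range.2 hn) hk), fun h' => h'.elim⟩
    · exact Eventually.of_forall fun n => ⟨fun h' => h h'.1, fun h' => h'.elim⟩
  rw [measure_empty, ENNReal.tendsto_nhds_zero] at h1
  obtain ⟨n, hn⟩ := (h1 _ hε2).exists
  have h2 : Tendsto (fun a => ∑ k ∈ Finset.range n, sig (N k ∩ {u | w.c (a + u) = i})) (FF x)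
      (𝓝 0) := by simpa using tendsto_finsetSum (Finset.range n) fun k _ => hP k
  rw [ENNReal.tendsto_nhds_zero] at h2
  filter_upwards [h2 _ hε2] with a ha
  have hsub : (⋃ k, N k) ∩ {u | w.c (a + u) = i} ⊆ ((⋃ k, N k) \ ⋃ k ∈ Finset.range n, N k) ∪
      ⋃ k ∈ Finset.range n, (N k ∩ {u | w.c (a + u) = i}) := by
    rintro u ⟨h1, h2⟩
    by_cases h : u ∈ ⋃ k ∈ Finset.range n, N k
    · obtain ⟨k, hk, hk'⟩ := mem_iUnion₂.1 h
      exact Or.inr (mem_biUnion hk ⟨hk', h2⟩)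
    · exact Or.inl ⟨h1, h⟩
  refine ((measure_mono hsub).trans (measure_union_le _ _)).trans ?_
  rw [← ENNReal.add_halves ε]
  exact add_le_add hn ((measure_biUnion_finset_le _ _).trans ha)

def Th (x : ℂ) (i : Fin 5) : Set ℂ := (w.exists_Th x i).chooseᶜ

lemma measTh (x : ℂ) (i : Fin 5) : MeasurableSet (w.Th x i) :=
  (w.exists_Th x i).choose_spec.1.compl

lemma th1 (x : ℂ) (i : Fin 5) : w.NonPres x i (w.Th x i)ᶜ := by
  rw [Th, compl_compl]; exact (w.exists_Th x i).choose_spec.2.1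

lemma th2 {x : ℂ} {i : Fin 5} {N : Set ℂ} (hN : MeasurableSet N) (h : w.NonPres x i N) :
    ∀ᵐ u ∂sig, u ∈ N → u ∉ w.Th x i := by
  have := (w.exists_Th x i).choose_spec.2.2 N hN h
  filter_upwards [measure_eq_zero_iff_ae_notMem.1 this] with u hu h1 h2 using hu ⟨h1, h2⟩

open Classical in
noncomputable def C (x u : ℂ) : Finset (Fin 5) := Finset.univ.filter fun i => u ∈ w.Th x i

lemma mem_C {x u : ℂ} {i : Fin 5} : i ∈ w.C x u ↔ u ∈ w.Th x i := by simp [C]

lemma measC (x : ℂ) (P : Finset (Fin 5) → Prop) : MeasurableSet {u | P (w.C x u)} := by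
  have h1 : ∀ S : Finset (Fin 5), MeasurableSet {u | w.C x u = S} := by
    intro S
    have : {u | w.C x u = S} = ⋂ i, {u | u ∈ w.Th x i ↔ i ∈ S} := by
      ext u; simp [Finset.ext_iff, mem_C]
    rw [this]
    refine MeasurableSet.iInter fun i => ?_
    by_cases h : i ∈ S
    · simpa [h] using w.measTh x i
    · simp only [h, iff_false]; exact (w.measTh x i).compl
  have : {u | P (w.C x u)} = ⋃ S ∈ {S | P S}, {u | w.C x u = S} := by
    ext u; simp
  rw [this]
  exact MeasurableSet.biUnion (Set.to_countable _) fun S _ => h1 S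

lemma cover (x : ℂ) : Tendsto (fun a => sig {u | w.c (a + u) ∉ w.C x u}) (FF x) (𝓝 0) := by
  have h2 : Tendsto (fun a => ∑ i, sig ((w.Th x i)ᶜ ∩ {u | w.c (a + u) = i})) (FF x)
      (𝓝 0) := by simpa using tendsto_finsetSum Finset.univ fun i _ => w.th1 x i
  refine tendsto_of_tendsto_of_tendsto_of_le_of_le tendsto_const_nhds h2 (fun _ => zero_le)
    fun a => ?_
  refine le_trans (measure_mono ?_) (measure_iUnion_fintype_le _ _)
  intro u hu
  exact mem_iUnion.2 ⟨w.c (a + u), fun h => hu (w.mem_C.2 h), rfl⟩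

/-- two-step exclusion -/
lemma excl (x : ℂ) : ∀ᵐ z : ℂ, ∀ u : ℂ, ‖u‖ = 1 → ‖z - x - u‖ = 1 → w.c z ∉ w.C x u := by
  have he := measurable_eb
  have hG := continuous_GG.measurable
  suffices H : ∀ i, ∀ᵐ z : ℂ, ∀ u : ℂ, ‖u‖ = 1 → ‖z - x - u‖ = 1 → w.c z = i → u ∉ w.Th x i by
    filter_upwards [ae_all_iff.2 H] with z hz u h1 h2 h3 using hz _ u h1 h2 rfl (w.mem_C.1 h3)
  intro i
  let h : ℂ → ℝ≥0∞ := fun u => volume.restrict I0 {t | w.c (x + u * (1 - eb t)) = i}
  have hm : Measurable h :=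
    measurable_measure_prodMk_left (s := {p : ℂ × ℝ | w.c (x + p.1 * (1 - eb p.2)) = i})
      (w.meas_eq (by fun_prop) i)
  have h1 : ∀ η : ℝ≥0∞, η ≠ 0 → η ≠ ⊤ → w.NonPres x i {u | η ≤ h u} := by
    intro η hη hη'
    have t1 := ENNReal.Tendsto.const_mul (a := η⁻¹)
      ((tendsto_GG (w.measA i) x).mono_left (FF_le_nhds x)) (Or.inr (by simpa using hη))
    rw [mul_zero] at t1
    refine tendsto_of_tendsto_of_tendsto_of_le_of_le' tendsto_const_nhds t1
      (Eventually.of_forall fun _ => zero_le) ?_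
    filter_upwards [FF_le_ae x w.ae_two] with a ha
    have hS : MeasurableSet {p : ℝ × ℝ | w.c (a + eb p.1) = i ∧ w.c (x + GG p) = i} :=
      (w.meas_eq (by fun_prop) i).inter (w.meas_eq (by fun_prop) i)
    have hN : MeasurableSet ({u | η ≤ h u} ∩ {u | w.c (a + u) = i}) :=
      (measurableSet_le measurable_const hm).inter (w.meas_eq (by fun_prop) i)
    rw [← ENNReal.div_eq_inv_mul, ENNReal.le_div_iff_mul_le (Or.inl hη) (Or.inl hη'), mul_comm]
    calc η * sig ({u | η ≤ h u} ∩ {u | w.c (a + u) = i})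
        = η * volume.restrict I0 (eb ⁻¹' ({u | η ≤ h u} ∩ {u | w.c (a + u) = i})) := by
          rw [sig, Measure.map_apply he hN]
      _ ≤ η * volume.restrict I0 {θ | η ≤ volume.restrict I0 (Prod.mk θ ⁻¹'
            {p : ℝ × ℝ | w.c (a + eb p.1) = i ∧ w.c (x + GG p) = i})} := by
          gcongr
          rintro θ ⟨h1, h2⟩
          have h2 : w.c (a + eb θ) = i := h2
          simpa [h2, h, GG] using h1
      _ ≤ m2 {p : ℝ × ℝ | w.c (a + eb p.1) = i ∧ w.c (x + GG p) = i} := by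
          rw [m2, Measure.prod_apply hS]
          exact mul_meas_ge_le_lintegral (measurable_measure_prodMk_left hS) η
      _ ≤ _ := by
          refine measure_mono_ae ?_
          filter_upwards [ha] with p hp h
          exact ⟨h.2, fun h' => hp (h.1.trans h'.symm)⟩
  have h2 : ∀ᵐ u ∂sig, u ∈ w.Th x i → h u = 0 := by
    have : ∀ n : ℕ, ∀ᵐ u ∂sig, u ∈ {u | ((n : ℝ≥0∞) + 1)⁻¹ ≤ h u} → u ∉ w.Th x i := fun n =>
      w.th2 (measurableSet_le measurable_const hm) (h1 _ (by simp) (by simp))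
    filter_upwards [ae_all_iff.2 this] with u hu hu'
    by_contra hc
    obtain ⟨n, hn⟩ := ENNReal.exists_inv_nat_lt hc
    refine hu n (le_trans ?_ hn.le) hu'
    exact ENNReal.inv_le_inv.2 le_self_add
  have hS : MeasurableSet {p : ℝ × ℝ | eb p.1 ∈ w.Th x i ∧ w.c (x + GG p) = i} :=
    ((he.comp measurable_fst) (w.measTh x i)).inter (w.meas_eq (by fun_prop) i)
  have h3 : m2 {p : ℝ × ℝ | eb p.1 ∈ w.Th x i ∧ w.c (x + GG p) = i} = 0 := by
    rw [m2, Measure.measure_prod_null hS]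
    filter_upwards [ae_of_ae_map he.aemeasurable h2] with θ hθ
    by_cases h0 : eb θ ∈ w.Th x i
    · simpa [h0, h, GG] using hθ h0
    · simp [h0]
  rw [m2_eq, Measure.restrict_apply hS] at h3
  have h4 := (measurePreserving_sub_right volume x).quasiMeasurePreserving.ae
    (measure_eq_zero_iff_ae_notMem.1 (GG_image_null h3))
  filter_upwards [h4] with z hz u hu1 hu2 hi hu
  have hu0 : u ≠ 0 := norm_ne_zero_iff.1 (by simp [hu1])
  have hv : ‖-(z - x - u) / u‖ = 1 := by rw [norm_div, norm_neg, hu2, hu1, div_one]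
  have e : GG (u.arg, (-(z - x - u) / u).arg) = z - x := by
    simp only [GG, eb_arg hu1, eb_arg hv]; field_simp; ring
  exact hz ⟨(u.arg, (-(z - x - u) / u).arg), ⟨⟨by simpa [eb_arg hu1] using hu, by rw [e]; simpa using hi⟩,
    Complex.arg_mem_Ioc _, Complex.arg_mem_Ioc _⟩, e⟩

/-- cross-centre disjointness -/
lemma cross {x x' : ℂ} (hx : ‖x' - x‖ < 1 / 2) : ∀ᵐ u' ∂sig, ∀ u : ℂ, ‖u‖ = 1 →
    ‖u' + (x' - x) - u‖ = 1 → Disjoint (w.C x' u') (w.C x u) := by
  have H : ∀ s, Sg s → ∀ i, ∀ᵐ u' ∂sig, psi s (u' + (x' - x)) ∈ w.Th x i → u' ∉ w.Th x' i := by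
    intro s hs i
    refine w.th2 (N := {u' | psi s (u' + (x' - x)) ∈ w.Th x i})
      (((measurable_psi s).comp (measurable_id.add_const _)) (w.measTh x i)) ?_
    have hc : Tendsto (fun a => a - x) (𝓝 x') (𝓝 (x' - x)) := by
      apply Continuous.tendsto; fun_prop
    have t1 := ((tendsto_psi hx hs (w.measTh x i)).comp hc).mono_left (FF_le_nhds x')
    refine tendsto_of_tendsto_of_tendsto_of_le_of_le' tendsto_const_nhds t1
      (Eventually.of_forall fun _ => zero_le) ?_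
    have t2 : ∀ᶠ a in 𝓝 x', ‖a - x‖ < 1 / 2 := hc.norm.eventually (gt_mem_nhds hx)
    filter_upwards [FF_le_ae x' (ae_ae_add (w.excl x)), FF_le_nhds x' t2] with a ha ha'
    refine measure_mono_ae ?_
    filter_upwards [ha, ae_unit] with u hu hu1 h
    refine ⟨h.1, fun h' => ?_⟩
    have hA := unit_add_mem hu1 ha'.le
    refine hu _ (norm_psi hs (ann_ne hA) (by linarith [hA.2])) ?_ (w.mem_C.2 ?_)
    · rw [show a + u - x = u + (a - x) by ring]
      exact norm_sub_psi hs (ann_ne hA) (by linarith [hA.2])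
    · have : w.c (a + u) = i := h.2
      rwa [this]
  filter_upwards [ae_all_iff.2 (H 1 sg1), ae_all_iff.2 (H _ sg2), ae_unit] with u' h1 h2 hu' u hu hd
  obtain ⟨s, hs, rfl⟩ := psi_char hu hd (ann_ne (unit_add_mem hu' hx.le))
  rw [Finset.disjoint_right]
  intro i hi hi'
  rcases hs with rfl | rfl
  · exact h1 i (w.mem_C.1 hi) (w.mem_C.1 hi')
  · exact h2 i (w.mem_C.1 hi) (w.mem_C.1 hi')

lemma same (x : ℂ) : ∀ᵐ u ∂sig, Disjoint (w.C x u) (w.C x (zt * u)) := by
  filter_upwards [w.cross (x := x) (x' := x) (by simp), ae_unit] with u hu hu1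
  refine hu _ (by simp [norm_zt, hu1]) ?_
  have : u + (x - x) - zt * u = -(zt ^ 2 * u) := by rw [zt_sq]; ring
  rw [this]; simp [norm_zt, hu1]

lemma null_of_freq {x : ℂ} {N : Set ℂ}
    (h : ∃ᶠ a in FF x, ∀ᵐ u ∂sig, u ∈ N → w.c (a + u) ∉ w.C x u) : ∀ᵐ u ∂sig, u ∉ N := by
  rw [← measure_eq_zero_iff_ae_notMem, ← nonpos_iff_eq_zero]
  refine le_of_forall_gt_imp_ge_of_dense fun ε hε => ?_
  obtain ⟨a, h1, h2⟩ := (h.and_eventually
    (ENNReal.tendsto_nhds_zero.1 (w.cover x) ε hε)).exists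
  exact (measure_mono_ae h1).trans h2

lemma C_nonempty (x : ℂ) : ∀ᵐ u ∂sig, (w.C x u).Nonempty := by
  have := w.null_of_freq (x := x) (N := {u | w.C x u = ∅})
    (Frequently.of_forall fun a => Eventually.of_forall fun u hu => by
      have : w.C x u = ∅ := hu
      simp [this])
  filter_upwards [this] with u hu using Finset.nonempty_iff_ne_empty.2 hu

/-- colour `i` occurs in every neighbourhood of `x` -/
def V (x : ℂ) (i : Fin 5) : Prop := ∃ᶠ a in FF x, w.c a = i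

lemma not_V {x : ℂ} {i : Fin 5} : ¬ w.V x i ↔ ∃ δ > 0, ∀ᵐ a : ℂ, a ∈ ball x δ → w.c a ≠ i := by
  rw [V, not_frequently, eventually_FF]

lemma C_not_single {x : ℂ} {i : Fin 5} (h : w.V x i) : ∀ᵐ u ∂sig, ¬ w.C x u ⊆ {i} := by
  refine w.null_of_freq (x := x) (N := {u | w.C x u ⊆ {i}}) ?_
  refine (h.and_eventually (FF_le_ae x w.ae_one)).mono ?_
  rintro a ⟨h1, h2⟩
  filter_upwards [h2] with u hu hu' h3
  exact hu (h1.trans (Finset.mem_singleton.1 (hu' h3)).symm)

/-- plane density of the exclusion -/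
lemma dens_excl {x p v : ℂ} (h0 : p ≠ 0) (h2 : ‖p‖ < 2) (hv : ‖v‖ = 1) (hpv : ‖p - v‖ = 1)
    (hd : SDens {u | w.C x u = w.C x v} v) : Dens {z | w.c (z + x) ∉ w.C x v} p := by
  obtain ⟨s, hs, e⟩ := psi_char hv hpv h0
  have h1 := dens_psi h0 h2 hs (X := {u | w.C x u = w.C x v}) (e ▸ hd)
  refine h1.mono_ae one_pos ?_
  filter_upwards [(measurePreserving_add_right volume x).quasiMeasurePreserving.ae (w.excl x)]
    with z hz _ h
  have := hz (psi s z) (norm_psi hs h.2.1 h.2.2)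
    (by rw [add_sub_cancel_right]; exact norm_sub_psi hs h.2.1 h.2.2)
  have e2 : w.C x (psi s z) = w.C x v := h.1
  rwa [e2] at this

lemma ae_class (x : ℂ) : ∀ᵐ v ∂sig, SDens {u | w.C x u = w.C x v} v := by
  have : ∀ S : Finset (Fin 5), ∀ᵐ v ∂sig, v ∈ {u | w.C x u = S} → SDens {u | w.C x u = S} v :=
    fun S => ae_sdens (w.measC x (· = S))
  filter_upwards [ae_all_iff.2 this] with v hv using hv _ rfl

end WCol

end Vale.Agent.P032
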