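import Vale.Agent.P032.B4

/-! Edges between colours at a point. -/

open MeasureTheory Set Metric Filter Topology
open scoped ENNReal NNReal

namespace Vale.Agent.P032

lemma exists_dir (z : ℂ) : ∃ n : ℂ, ‖n‖ = 1 ∧ z = ‖z‖ * n := by
  refine ⟨eb z.arg, norm_eb _, ?_⟩
  rw [eb, mul_comm Complex.I]
  exact (Complex.norm_mul_exp_arg_mul_I z).symm

lemma radius_lt {z x : ℂ} {r δ : ℝ} (hr : 0 ≤ r) (h : closedBall z r ⊆ ball x δ) : r < δ := by
  have h1 : dist (z + r) x < δ := h (by simp [abs_of_nonneg hr])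
  have h2 : dist (z - r) x < δ := h (by simp [abs_of_nonneg hr])
  have h3 := dist_triangle_right (z + r) (z - r) x
  have h4 : dist (z + r) (z - r) = 2 * r := by
    rw [dist_eq_norm, show z + r - (z - r) = ((2 * r : ℝ) : ℂ) by push_cast; ring,
      Complex.norm_real, Real.norm_eq_abs, abs_of_nonneg (by linarith)]
  linarith

lemma near_axis {u n : ℂ} (hu : ‖u‖ = 1) (hn : ‖n‖ = 1) {k : ℝ} (hk : 0 ≤ k)
    (h : |(u * (starRingEnd ℂ) n).im| < k) :
    u ∈ closedBall n (2 * k) ∨ u ∈ closedBall (-n) (2 * k) := by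
  have e1 := norm_eq_one_iff.1 hu
  have e2 := norm_eq_one_iff.1 hn
  have h1 : (u * (starRingEnd ℂ) n).im ^ 2 < k ^ 2 := by
    rw [← sq_abs]; exact pow_lt_pow_left₀ h (abs_nonneg _) two_ne_zero
  simp only [Complex.mul_im, Complex.conj_re, Complex.conj_im] at h1
  set α := u.re * n.re + u.im * n.im with hα
  have e3 : α ^ 2 + (u.re * -n.im + u.im * n.re) ^ 2 = 1 := by
    rw [hα]; nlinarith
  have hα1 : α ≤ 1 := by nlinarith
  have hα2 : -1 ≤ α := by nlinarith
  rcases le_total 0 α with h0 | h0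
  · left
    rw [mem_closedBall, dist_eq_norm]
    refine (pow_le_pow_iff_left₀ (norm_nonneg _) (by linarith) two_ne_zero).1 ?_
    rw [norm_sq_eq]; simp only [Complex.sub_re, Complex.sub_im]; nlinarith
  · right
    rw [mem_closedBall, dist_eq_norm]
    refine (pow_le_pow_iff_left₀ (norm_nonneg _) (by linarith) two_ne_zero).1 ?_
    rw [norm_sq_eq]; simp only [Complex.sub_re, Complex.sub_im, Complex.neg_re, Complex.neg_im]
    nlinarith

lemma GG_mem_ball {s : ℝ} (hs : Sg s) {n : ℂ} (hn : ‖n‖ = 1) {k r l : ℝ} (hk : 0 < k) (hk1 : k ≤ 1)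
    (hr : 0 < r) (hr1 : r ≤ 1) (hl0 : 0 ≤ l) (hl : l ≤ r) {p : ℝ × ℝ}
    (h1 : k ≤ s * (eb p.1 * (starRingEnd ℂ) n).im) (h2 : 0 < s * p.2) (h3 : s * p.2 ≤ r * k / 3) :
    ‖GG p - l * n‖ ≤ r := by
  have e2 := norm_eq_one_iff.1 hn
  set m := eb p.1 * (starRingEnd ℂ) n with hm
  have hm1 : ‖m‖ = 1 := by simp [hm, norm_eb, hn]
  have e3 := norm_eq_one_iff.1 hm1
  set t := s * p.2 with ht
  have ht1 : t ≤ 1 := by nlinarith
  have hc : 1 - t ^ 2 / 2 ≤ Real.cos t := Real.one_sub_sq_div_two_le_cos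
  have hsin : t / 2 ≤ Real.sin t := by
    have := Real.sin_gt_sub_cube h2
    nlinarith [mul_pos h2 h2]
  have hG : GG p * (starRingEnd ℂ) n = m * (1 - eb p.2) := by rw [GG, hm]; ring
  have hre : (GG p * (starRingEnd ℂ) n).re =
      m.re * (1 - Real.cos t) + (s * m.im) * Real.sin t := by
    rw [hG, ht, cos_sg hs, sin_sg hs]
    have := hs.sq
    simp [eb_re, eb_im]
    linear_combination (-m.im * Real.sin p.2) * this
  have hN : ‖GG p‖ ^ 2 = 2 - 2 * Real.cos t := by rw [norm_GG_sq, ht, cos_sg hs]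
  have hm2 : -1 ≤ m.re := by nlinarith
  have hc1 := Real.cos_le_one t
  have key : ‖GG p‖ ^ 2 ≤ r * (GG p * (starRingEnd ℂ) n).re := by
    rw [hN, hre]
    have a1 : k * (t / 2) ≤ (s * m.im) * Real.sin t :=
      mul_le_mul h1 hsin (by linarith) (by linarith)
    have a2 : -(1 - Real.cos t) ≤ m.re * (1 - Real.cos t) := by nlinarith
    have a3 : 3 * (1 - Real.cos t) ≤ r * (k * (t / 2)) := by nlinarith
    nlinarith
  have hpos : 0 ≤ (GG p * (starRingEnd ℂ) n).re := by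
    by_contra hc
    have := mul_neg_of_pos_of_neg hr (not_le.1 hc)
    nlinarith [sq_nonneg ‖GG p‖]
  refine (pow_le_pow_iff_left₀ (norm_nonneg _) hr.le two_ne_zero).1 ?_
  have e4 : ‖GG p - l * n‖ ^ 2 =
      ‖GG p‖ ^ 2 - 2 * l * (GG p * (starRingEnd ℂ) n).re + l ^ 2 := by
    rw [norm_sq_eq, norm_sq_eq]; simp; linear_combination l ^ 2 * e2
  have e5 : (GG p * (starRingEnd ℂ) n).re ≤ ‖GG p‖ := by
    have := Complex.re_le_norm (GG p * (starRingEnd ℂ) n)
    simpa [hn] using this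
  set g := ‖GG p‖
  set q := (GG p * (starRingEnd ℂ) n).re
  have hg : 0 ≤ g := norm_nonneg _
  have hgr : g ≤ r := by nlinarith
  have hq : q ≤ r := e5.trans hgr
  rw [e4]
  nlinarith [mul_nonneg hl0 hpos, mul_nonneg (sub_nonneg.2 hl) (sub_nonneg.2 hq)]

namespace WCol

variable (w : WCol)

/-- small discs near `x` dominated by `a` meet `b` -/
def Edge (x : ℂ) (a b : Fin 5) : Prop :=
  ∀ δ > 0, ∃ (z : ℂ) (r : ℝ), 0 < r ∧ closedBall z r ⊆ ball x δ ∧
    mass (w.A a)ᶜ z r ≤ δ * r ^ 2 ∧ mass (w.A b) z r ≠ 0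

lemma area_lower {s : ℝ} (hs : Sg s) {n z z₀ : ℂ} (hn : ‖n‖ = 1) {k r : ℝ} (hk : 0 < k)
    (hk1 : k ≤ 1) (hr : 0 < r) (hr1 : r ≤ 1) (hz : z₀ - z = ‖z₀ - z‖ * n) (hl : ‖z₀ - z‖ ≤ r)
    (a : Fin 5) (h2 : ∀ᵐ p ∂m2, w.c (z + eb p.1) ≠ w.c (z + GG p)) :
    ENNReal.ofReal ((r * k) ^ 2 / 72) *
      sig {u | w.c (z + u) = a ∧ k ≤ s * (u * (starRingEnd ℂ) n).im} ≤
      volume ((w.A a)ᶜ ∩ closedBall z₀ r) := by
  have he := measurable_eb
  have hG := continuous_GG.measurable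
  set X := {u | w.c (z + u) = a ∧ k ≤ s * (u * (starRingEnd ℂ) n).im} with hX
  have hXm : MeasurableSet X := (w.meas_eq (by fun_prop) a).inter
    (measurableSet_le measurable_const (Continuous.measurable
      (f := fun u : ℂ => s * (u * (starRingEnd ℂ) n).im) (by fun_prop)))
  set t₀ := r * k / 3 with ht₀
  have ht0 : 0 < t₀ := by positivity
  have ht1 : t₀ ≤ 1 := by nlinarith
  let T : Set ℝ := {t | t₀ / 2 ≤ s * t ∧ s * t ≤ t₀}
  have hTm : MeasurableSet T := (measurableSet_le measurable_const (measurable_id.const_mul s)).inter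
    (measurableSet_le (measurable_id.const_mul s) measurable_const)
  have hpi := Real.pi_gt_three
  have hTs : T ⊆ Tset s := fun t ht => ⟨by linarith [ht.1], by linarith [ht.2]⟩
  have hTI : T ⊆ I0 := fun t ht => by
    rcases hs with rfl | rfl <;> exact ⟨by linarith [ht.1, ht.2], by linarith [ht.1, ht.2]⟩
  have hTv : volume T = ENNReal.ofReal (t₀ / 2) := by
    rcases hs with rfl | rfl
    · have : T = Icc (t₀ / 2) t₀ := by ext t; simp [T]
      rw [this, Real.volume_Icc]; congr 1; ring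
    · have : T = Icc (-t₀) (-(t₀ / 2)) := by
        ext t; simp only [T, mem_ofPred_eq, mem_Icc]; constructor <;> intro h <;>
          constructor <;> linarith [h.1, h.2]
      rw [this, Real.volume_Icc]; congr 1; ring
  let S : Set (ℝ × ℝ) := (eb ⁻¹' X ∩ I0) ×ˢ T ∩ {p | w.c (z + GG p) ≠ a}
  have hS0 : MeasurableSet ((eb ⁻¹' X ∩ I0) ×ˢ T) := ((he hXm).inter measI0).prod hTm
  have hSm : MeasurableSet S := hS0.inter (w.meas_eq (by fun_prop) a).compl
  have h3 : volume ((eb ⁻¹' X ∩ I0) ×ˢ T) ≤ volume S := by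
    rw [m2_eq, ae_restrict_iff' (measI0.prod measI0)] at h2
    refine measure_mono_ae ?_
    filter_upwards [h2] with p hp h
    exact ⟨h, fun h' => hp ⟨h.1.2, hTI h.2⟩ (h.1.1.1.trans h'.symm)⟩
  have h4 : ENNReal.ofReal (t₀ / 4) * volume S ≤ volume (GG '' S) := by
    rw [vol_GG hs hSm fun p hp => ⟨hp.1.1.2, hTs hp.1.2⟩, ← setLIntegral_const]
    refine setLIntegral_mono' hSm fun p hp => ENNReal.ofReal_le_ofReal ?_
    rw [abs_sin_sg hs (hTs hp.1.2)]
    have a1 := hp.1.2.1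
    have a2 := hp.1.2.2
    have a3 : 0 < s * p.2 := by linarith
    have := Real.sin_gt_sub_cube a3
    nlinarith [mul_pos a3 a3]
  have h5 : volume (GG '' S) ≤ volume ((w.A a)ᶜ ∩ closedBall z₀ r) := by
    rw [← measure_preimage_add volume z ((w.A a)ᶜ ∩ closedBall z₀ r)]
    refine measure_mono ?_
    rintro _ ⟨p, hp, rfl⟩
    refine ⟨hp.2, ?_⟩
    have := GG_mem_ball hs hn hk hk1 hr hr1 (norm_nonneg (z₀ - z)) hl hp.1.1.1.2
      (hTs hp.1.2).1 hp.1.2.2
    rw [← hz] at this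
    rw [mem_closedBall, dist_eq_norm, show z + GG p - z₀ = GG p - (z₀ - z) by ring]
    exact this
  refine le_trans ?_ (h4.trans h5)
  refine le_trans (le_of_eq ?_) (mul_le_mul_right h3 _)
  rw [Measure.volume_eq_prod, Measure.prod_prod, ← sig_apply hXm, hTv, mul_comm (sig X),
    ← mul_assoc, ← ENNReal.ofReal_mul (by positivity)]
  congr 2; rw [ht₀]; ring

lemma C_not_edge {x : ℂ} {a b : Fin 5} (h : w.Edge x a b) : ∀ᵐ u ∂sig, ¬ w.C x u ⊆ {a, b} := by
  by_contra hc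
  set N := {u | w.C x u ⊆ {a, b}} with hN
  have hN0 : sig N ≠ 0 := fun h0 => hc (measure_eq_zero_iff_ae_notMem.1 h0)
  set κ := (sig N).toReal with hκ
  have hκ0 : 0 < κ := ENNReal.toReal_pos hN0 (measure_ne_top _ _)
  set k := min (κ / 200) 1 with hk
  have hk0 : 0 < k := lt_min (by positivity) one_pos
  obtain ⟨δ₀, hδ₀, hcov⟩ := eventually_FF.1 (ENNReal.tendsto_nhds_zero.1 (w.cover x)
    (ENNReal.ofReal (κ / 4)) (by simpa using hκ0))
  obtain ⟨z₀, r, hr, hB, hm1, hm2⟩ := h (min (min δ₀ 1) (κ * k ^ 2 / 300)) (by positivity)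
  have hr1 : r ≤ 1 := (radius_lt hr.le hB).le.trans ((min_le_left _ _).trans (min_le_right _ _))
  obtain ⟨z, hzB, hzb, hz1, hz2, hz3⟩ : ∃ z ∈ closedBall z₀ r, w.c z = b ∧
      sig {u | w.c (z + u) ∉ w.C x u} ≤ ENNReal.ofReal (κ / 4) ∧
      (∀ᵐ u ∂sig, w.c z ≠ w.c (z + u)) ∧ ∀ᵐ p ∂m2, w.c (z + eb p.1) ≠ w.c (z + GG p) := by
    by_contra hcon
    refine hm2 (mass_eq_zero_iff_ae.2 ?_)
    filter_upwards [hcov, w.ae_one, w.ae_two] with z h1 h2 h3 h4 h5
    exact hcon ⟨z, h4, h5, h1 (ball_subset_ball ((min_le_left _ _).trans (min_le_left _ _)) (hB h4)),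
      h2, h3⟩
  obtain ⟨n, hn, hzn⟩ := exists_dir (z₀ - z)
  have hl : ‖z₀ - z‖ ≤ r := by rwa [mem_closedBall, dist_comm, dist_eq_norm] at hzB
  let X : ℝ → Set ℂ := fun s => {u | w.c (z + u) = a ∧ k ≤ s * (u * (starRingEnd ℂ) n).im}
  have hXs : ∀ s, Sg s → sig (X s) ≤ ENNReal.ofReal (κ / 4) := by
    intro s hs
    have h1 := w.area_lower hs hn hk0 (min_le_right _ _) hr hr1 hzn hl a hz3
    have h2 := ENNReal.toReal_mono (inter_closedBall_ne_top _ _ _) h1
    rw [ENNReal.toReal_mul, ENNReal.toReal_ofReal (by positivity)] at h2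
    have h3 : (r * k) ^ 2 / 72 * (sig (X s)).toReal ≤ κ * k ^ 2 / 300 * r ^ 2 :=
      h2.trans (hm1.trans (by gcongr; exact min_le_right _ _))
    rw [← ENNReal.ofReal_toReal (measure_ne_top sig (X s))]
    refine ENNReal.ofReal_le_ofReal ?_
    have h4 : 0 < (r * k) ^ 2 := by positivity
    by_contra hcon
    nlinarith [mul_lt_mul_of_pos_left (not_le.1 hcon) h4]
  have hsub : ∀ᵐ u ∂sig, u ∈ N → u ∈ ({u | w.c (z + u) ∉ w.C x u} ∪ (X 1 ∪ X (-1))) ∪
      (closedBall n (2 * k) ∪ closedBall (-n) (2 * k)) := by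
    filter_upwards [hz2, ae_unit] with u h1 hu huN
    by_cases h2 : w.c (z + u) ∈ w.C x u
    · have h3 : w.c (z + u) = a := by
        rcases Finset.mem_insert.1 (huN h2) with h | h
        · exact h
        · exact (h1 (hzb.trans (Finset.mem_singleton.1 h).symm)).elim
      by_cases h4 : |(u * (starRingEnd ℂ) n).im| < k
      · exact Or.inr (near_axis hu hn hk0.le h4)
      · rcases le_abs'.1 (not_lt.1 h4) with h5 | h5
        · exact Or.inl (Or.inr (Or.inr ⟨h3, by linarith⟩))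
        · exact Or.inl (Or.inr (Or.inl ⟨h3, by linarith⟩))
    · exact Or.inl (Or.inl h2)
  have h6 : sig N ≤ (ENNReal.ofReal (κ / 4) + (ENNReal.ofReal (κ / 4) + ENNReal.ofReal (κ / 4))) +
      (ENNReal.ofReal (8 * (2 * k)) + ENNReal.ofReal (8 * (2 * k))) := by
    refine (measure_mono_ae hsub).trans ((measure_union_le _ _).trans (add_le_add ?_ ?_))
    · exact (measure_union_le _ _).trans (add_le_add hz1
        ((measure_union_le _ _).trans (add_le_add (hXs _ sg1) (hXs _ sg2))))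
    · exact (measure_union_le _ _).trans
        (add_le_add (sig_closedBall_le _ (by positivity)) (sig_closedBall_le _ (by positivity)))
  rw [← ENNReal.ofReal_add (by positivity) (by positivity),
    ← ENNReal.ofReal_add (by positivity) (by positivity),
    ← ENNReal.ofReal_add (by positivity) (by positivity),
    ← ENNReal.ofReal_add (by positivity) (by positivity)] at h6
  have h7 := ENNReal.toReal_le_of_le_ofReal (by positivity) h6
  have h8 : k ≤ κ / 200 := min_le_left _ _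
  linarith

end WCol

end Vale.Agent.P032
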