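import Vale.Agent.P032.B2

/-! Geometry of the near-identity maps `SS b`. -/

open MeasureTheory Set Metric Filter Topology
open scoped ENNReal NNReal

namespace Vale.Agent.P032

lemma exists_alpha {a b : ℂ} (ha : ‖a‖ = 1) (hb : ‖b‖ = 1) (h : a + b ≠ 0) :
    ∃ α : ℝ, a - b = Complex.I * α * (a + b) ∧ ‖a - b‖ ^ 2 * (1 + α ^ 2) = 4 * α ^ 2 := by
  have e1 := norm_eq_one_iff.1 ha
  have e2 := norm_eq_one_iff.1 hb
  set d := (a - b) / (a + b) with hd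
  have h1 : a - b = d * (a + b) := by rw [hd]; field_simp
  have h0 : 0 < ‖a + b‖ ^ 2 := pow_pos (norm_pos_iff.2 h) 2
  have hre : d.re = 0 := by
    have r1 := congrArg Complex.re h1
    have r2 := congrArg Complex.im h1
    simp only [Complex.sub_re, Complex.mul_re, Complex.add_re, Complex.add_im, Complex.sub_im,
      Complex.mul_im] at r1 r2
    have : d.re * ‖a + b‖ ^ 2 = 0 := by
      rw [norm_sq_eq]; simp only [Complex.add_re, Complex.add_im]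
      linear_combination e1 - e2 - (a.re + b.re) * r1 - (a.im + b.im) * r2
    exact (mul_eq_zero.1 this).resolve_right h0.ne'
  have hd' : d = Complex.I * d.im := by apply Complex.ext <;> simp [hre]
  refine ⟨d.im, by rw [← hd']; exact h1, ?_⟩
  have h2 : ‖a - b‖ ^ 2 = d.im ^ 2 * ‖a + b‖ ^ 2 := by
    rw [h1, norm_mul, mul_pow, norm_sq_eq d, hre]; ring
  have h3 : ‖a - b‖ ^ 2 + ‖a + b‖ ^ 2 = 4 := by
    rw [norm_sq_eq, norm_sq_eq]; simp; linear_combination 2 * e1 + 2 * e2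
  linear_combination h2 + d.im ^ 2 * h3

lemma chord_le {D D' α α' l : ℝ} (hD : 0 ≤ D) (hD' : 0 ≤ D') (hl : 1 ≤ l)
    (h : D ^ 2 * (1 + α ^ 2) = 4 * α ^ 2) (h' : D' ^ 2 * (1 + α' ^ 2) = 4 * α' ^ 2)
    (hα : |α'| ≤ l * |α|) : D' ≤ l * D := by
  have h1 : α' ^ 2 ≤ l ^ 2 * α ^ 2 := by
    have := pow_le_pow_left₀ (abs_nonneg _) hα 2
    rwa [mul_pow, sq_abs, sq_abs] at this
  refine (pow_le_pow_iff_left₀ hD' (by positivity) two_ne_zero).1 ?_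
  have hp : 0 < (1 + α ^ 2) * (1 + α' ^ 2) := by positivity
  refine le_of_mul_le_mul_right ?_ hp
  have e1 : D' ^ 2 * ((1 + α ^ 2) * (1 + α' ^ 2)) = 4 * α' ^ 2 * (1 + α ^ 2) := by
    rw [← h']; ring
  have e2 : (l * D) ^ 2 * ((1 + α ^ 2) * (1 + α' ^ 2)) = l ^ 2 * (4 * α ^ 2) * (1 + α' ^ 2) := by
    rw [← h]; ring
  have h2 : 1 ≤ l ^ 2 := by nlinarith
  rw [e1, e2]
  nlinarith [mul_nonneg (mul_nonneg (sq_nonneg α) (sq_nonneg α')) (sub_nonneg.2 h2)]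

lemma abs_cross_le (a b : ℂ) : |a.re * b.im - a.im * b.re| ≤ ‖a‖ * ‖b‖ := by
  have := Complex.abs_im_le_norm ((starRingEnd ℂ) a * b)
  rw [norm_mul, Complex.norm_conj] at this
  convert this using 2
  simp; ring

lemma zt_re : zt.re = 1 / 2 := by simp [zt]
lemma zt_im : zt.im = Real.sqrt 3 / 2 := by simp [zt]
lemma sqrt3_gt : (1.7 : ℝ) < Real.sqrt 3 := Real.lt_sqrt_of_sq_lt (by norm_num)
lemma sqrt3_lt : Real.sqrt 3 < 2 := (Real.sqrt_lt' (by norm_num)).2 (by norm_num)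
lemma zt_cube : zt ^ 3 = -1 := by
  rw [pow_succ, zt_sq, sub_mul, ← sq, zt_sq]; ring

lemma ratio_le {β g x y : ℝ} (h0 : 0 ≤ β) (h1 : β ≤ 1 / 100) (hg : 0 ≤ g)
    (hx : x - g ≤ 1.4 * β * g + 0.2 * β * g) (hy : g - y ≤ 1.4 * β * g + 0.2 * β * g) :
    x ≤ (1 + 4 * β) * y := by
  have g1 : 0 ≤ β * g := by positivity
  have g2 : β * (β * g) ≤ 1 / 100 * (β * g) := by gcongr
  have : (1 + 4 * β) * (g - 1.6 * β * g) ≤ (1 + 4 * β) * y := by gcongr; linarith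
  nlinarith

lemma re_ge {x y : ℝ} (h : x ^ 2 + y ^ 2 = 1) (h0 : 0 ≤ x) (h1 : -0.72 ≤ y) (h2 : y ≤ 0.72) :
    0.6 ≤ x := by nlinarith

lemma bilip {w₁ w₂ v₁ v₂ b : ℂ} {β : ℝ} (h₁ : ‖w₁‖ = 1) (h₂ : ‖w₂‖ = 1) (k₁ : ‖v₁‖ = 1)
    (k₂ : ‖v₂‖ = 1) (u₁ : ‖w₁ + v₁ - b‖ = 1) (u₂ : ‖w₂ + v₂ - b‖ = 1) (hb : ‖b‖ ≤ β)
    (hβ : β ≤ 1 / 100) (c₁ : ‖v₁ - zt ^ 2 * w₁‖ ≤ 1 / 10) (c₂ : ‖v₂ - zt ^ 2 * w₂‖ ≤ 1 / 10)
    (c : ‖w₁ - w₂‖ ≤ 1 / 10) :
    ‖v₁ - v₂‖ ≤ (1 + 4 * β) * ‖w₁ - w₂‖ ∧ ‖w₁ - w₂‖ ≤ (1 + 4 * β) * ‖v₁ - v₂‖ := by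
  have hβ0 : 0 ≤ β := (norm_nonneg _).trans hb
  set s := w₁ + w₂ with hs
  set s' := v₁ + v₂ with hs'
  set e := s' - zt ^ 2 * s with he
  have he1 : ‖e‖ ≤ 1 / 5 := by
    have : e = (v₁ - zt ^ 2 * w₁) + (v₂ - zt ^ 2 * w₂) := by rw [he, hs, hs']; ring
    rw [this]; linarith [norm_add_le (v₁ - zt ^ 2 * w₁) (v₂ - zt ^ 2 * w₂)]
  have hs2 : ‖s‖ ≤ 2 := by linarith [norm_add_le w₁ w₂]
  have hs2' : ‖s'‖ ≤ 2 := by linarith [norm_add_le v₁ v₂]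
  have hs1 : 19 / 10 ≤ ‖s‖ := by
    have := norm_add_le s (w₁ - w₂)
    rw [show s + (w₁ - w₂) = 2 * w₁ by rw [hs]; ring, norm_mul, h₁] at this
    simp at this; linarith
  have hX : 2.5 ≤ s.re * s'.im - s.im * s'.re := by
    have e1 : s' = (zt - 1) * s + e := by rw [he, zt_sq]; ring
    have e2 := abs_le.1 (abs_cross_le s e)
    have e3 := norm_sq_eq s
    have e4 : s.re * s'.im - s.im * s'.re =
        Real.sqrt 3 / 2 * ‖s‖ ^ 2 + (s.re * e.im - s.im * e.re) := by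
      rw [e1, e3]; simp [zt_re, zt_im]; ring
    have e5 : ‖s‖ * ‖e‖ ≤ 2 * (1 / 5) := by gcongr
    have e6 : 1.7 / 2 * (19 / 10) ^ 2 ≤ Real.sqrt 3 / 2 * ‖s‖ ^ 2 := by
      gcongr; exact sqrt3_gt.le
    rw [e4]; linarith
  have n1 : s ≠ 0 := norm_pos_iff.1 (by linarith)
  have n2 : s' ≠ 0 := by rintro h; rw [h] at hX; simp at hX; linarith
  have n3 : (w₁ + v₁ - b) + (w₂ + v₂ - b) ≠ 0 := by
    intro h
    have e1 : zt * s = 2 * b - e := by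
      rw [he, zt_sq]; linear_combination h
    have := norm_sub_le (2 * b) e
    rw [← e1, norm_mul, norm_mul, norm_zt] at this
    simp at this; linarith
  obtain ⟨α, ha, ha'⟩ := exists_alpha h₁ h₂ n1
  obtain ⟨α', hb1, hb'⟩ := exists_alpha k₁ k₂ n2
  obtain ⟨γ, hc, -⟩ := exists_alpha u₁ u₂ n3
  have rel : (α - γ : ℝ) * s + (α' - γ : ℝ) * s' = -2 * γ * b := by
    have : Complex.I * ((α - γ : ℝ) * s + (α' - γ : ℝ) * s' + 2 * γ * b) = 0 := by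
      push_cast; rw [hs, hs']; linear_combination hc - ha - hb1
    have := (mul_eq_zero.1 this).resolve_left Complex.I_ne_zero
    linear_combination this
  have r1 := congrArg Complex.re rel
  have r2 := congrArg Complex.im rel
  simp at r1 r2
  set X := s.re * s'.im - s.im * s'.re with hXd
  have q1 : (α - γ) * X = -2 * γ * (b.re * s'.im - b.im * s'.re) := by
    rw [hXd]; linear_combination s'.im * r1 - s'.re * r2
  have q2 : (α' - γ) * X = 2 * γ * (b.re * s.im - b.im * s.re) := by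
    rw [hXd]; linear_combination -s.im * r1 + s.re * r2
  have bd : ∀ (δ Y : ℝ), |Y| ≤ β * 2 → |δ * X| = |2 * γ * Y| → |δ| ≤ 1.4 * β * |γ| + 0.2 * β * |γ| := by
    intro δ Y hY h
    rw [abs_mul, abs_mul, abs_mul, abs_of_pos (by linarith : 0 < X), abs_two] at h
    have : |δ| * 2.5 ≤ |δ| * X := by gcongr
    have h3 : 2 * |γ| * |Y| ≤ 2 * |γ| * (β * 2) := by gcongr
    linarith
  have b1 := bd (α - γ) _ ((abs_cross_le b s').trans (by gcongr)) (by rw [q1]; simp [abs_mul])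
  have b2 := bd (α' - γ) _ ((abs_cross_le b s).trans (by gcongr)) (by rw [q2])
  have t1 := abs_sub_abs_le_abs_sub α γ
  have t2 := abs_sub_abs_le_abs_sub α' γ
  have t3 := abs_sub_abs_le_abs_sub γ α
  have t4 := abs_sub_abs_le_abs_sub γ α'
  rw [abs_sub_comm γ] at t3 t4
  exact ⟨chord_le (norm_nonneg _) (norm_nonneg _) (by linarith only [hβ0]) ha' hb'
      (ratio_le hβ0 hβ (abs_nonneg γ) (t2.trans b2) (t3.trans b1)),
    chord_le (norm_nonneg _) (norm_nonneg _) (by linarith only [hβ0]) hb' ha'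
      (ratio_le hβ0 hβ (abs_nonneg γ) (t1.trans b1) (t4.trans b2))⟩

/-- the displacement estimate, normalised -/
lemma displace {a a' d : ℂ} {β L : ℝ} (ha : ‖a‖ = 1) (ha' : ‖a'‖ = 1) (hβ : 0 < β) (hL : 1 ≤ L)
    (hβL : L ^ 2 * β ≤ 1 / 10) (h : ‖a + zt * (a' - a) - d‖ = 1) (hd : ‖d - β‖ ≤ β / 10)
    (hre : 0.6 ≤ a.re) (hΔ : ‖a' - a‖ ≤ L * β) : a'.im ≤ a.im - β / 20 := by
  have e1 := norm_eq_one_iff.1 ha
  have e2 := norm_eq_one_iff.1 ha'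
  set Δ := a' - a with hΔd
  set e := d - β with he
  set g := zt * Δ - d with hg
  have e3 : ‖a + g‖ = 1 := by rw [← h, hg]; congr 1; ring
  have e4 := norm_eq_one_iff.1 e3
  have hD : ‖Δ‖ ^ 2 ≤ β / 10 := by
    calc ‖Δ‖ ^ 2 ≤ (L * β) ^ 2 := by gcongr
      _ = (L ^ 2 * β) * β := by ring
      _ ≤ 1 / 10 * β := by gcongr
      _ = _ := by ring
  have hD' := norm_sq_eq Δ
  set q1 := a.re * Δ.re + a.im * Δ.im with hq1
  set q2 := a.re * Δ.im - a.im * Δ.re with hq2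
  have f1 : q1 = -‖Δ‖ ^ 2 / 2 := by
    rw [hD', hq1, hΔd]; simp; linear_combination (e2 - e1) / 2
  have f2 : 2 * (a.re * g.re + a.im * g.im) + ‖g‖ ^ 2 = 0 := by
    rw [norm_sq_eq]; simp at e4; linear_combination e4 - e1
  have f3 : a.re * g.re + a.im * g.im =
      q1 / 2 - Real.sqrt 3 / 2 * q2 - β * a.re - (a.re * e.re + a.im * e.im) := by
    rw [hg, hq1, hq2, he]; simp [zt_re, zt_im]; ring
  have f4 : -(β / 10) ≤ a.re * e.re + a.im * e.im := by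
    have := Complex.abs_re_le_norm ((starRingEnd ℂ) a * e)
    rw [norm_mul, Complex.norm_conj, ha, one_mul] at this
    have := (abs_le.1 (this.trans hd)).1
    simpa using this
  have f5 : ‖g‖ ^ 2 ≤ β / 2 := by
    have a1 : ‖g‖ ≤ L * β + (β + β / 10) := by
      refine (norm_sub_le _ _).trans (add_le_add (by simpa [norm_zt] using hΔ) ?_)
      have := norm_add_le (β : ℂ) e
      rw [show (β : ℂ) + e = d by rw [he]; ring, Complex.norm_real, Real.norm_eq_abs,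
        abs_of_pos hβ] at this
      linarith
    have a2 : 1 * β ≤ L * β := by gcongr
    calc ‖g‖ ^ 2 ≤ (2.1 * L * β) ^ 2 := by gcongr; linarith only [a1, a2]
      _ = 4.41 * (L ^ 2 * β) * β := by ring
      _ ≤ 4.41 * (1 / 10) * β := by gcongr
      _ ≤ _ := by linarith
  have f0 : 0.6 * β ≤ β * a.re := by rw [mul_comm]; gcongr
  have f6 : Real.sqrt 3 * q2 ≤ -(β / 2) := by
    linarith only [f0, f1, f2, f3, f4, f5, sq_nonneg ‖Δ‖]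
  have f7 : q2 ≤ -(β / 4) := by
    by_contra hc
    nlinarith only [hc, f6, sqrt3_lt, sqrt3_gt, hβ]
  have f8 : Δ.im = a.re * q2 + a.im * q1 := by rw [hq1, hq2]; linear_combination -Δ.im * e1
  have f9 : a.im * q1 ≤ β / 20 := by
    have : |a.im| ≤ 1 := (Complex.abs_im_le_norm a).trans ha.le
    have := abs_le.1 this
    nlinarith only [this.1, f1, hD, sq_nonneg ‖Δ‖]
  have f10 : Δ.im = a'.im - a.im := by simp [hΔd]
  have f11 : a.re * q2 ≤ 0.6 * q2 := mul_le_mul_of_nonpos_right hre (by linarith)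
  linarith only [f7, f8, f9, f10, f11, hβ]

noncomputable def SS (b w : ℂ) : ℂ := -zt * psi (-1) (b - w)

lemma sub_mem_ann {b w : ℂ} (hb : ‖b‖ ≤ 1 / 2) (hw : ‖w‖ = 1) : b - w ∈ Ann (1 / 2) (3 / 2) := by
  have := unit_add_mem (u := -w) (by simpa using hw) hb
  rwa [neg_add_eq_sub] at this

lemma norm_SS {b w : ℂ} (hb : ‖b‖ ≤ 1 / 2) (hw : ‖w‖ = 1) : ‖SS b w‖ = 1 := by
  have hA := sub_mem_ann hb hw
  rw [SS, norm_mul, norm_neg, norm_zt, one_mul, norm_psi sg2 (ann_ne hA) (by linarith [hA.2])]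

lemma zt_sq_SS (b w : ℂ) : zt ^ 2 * SS b w = psi (-1) (b - w) := by
  rw [SS]; linear_combination (-psi (-1) (b - w)) * zt_cube

lemma norm_SS_rel {b w : ℂ} (hb : ‖b‖ ≤ 1 / 2) (hw : ‖w‖ = 1) :
    ‖w + zt ^ 2 * SS b w - b‖ = 1 := by
  have hA := sub_mem_ann hb hw
  rw [zt_sq_SS, show w + psi (-1) (b - w) - b = -(b - w - psi (-1) (b - w)) by ring, norm_neg]
  exact norm_sub_psi sg2 (ann_ne hA) (by linarith [hA.2])

lemma exists_L : ∃ L : ℝ, 1 ≤ L ∧ ∀ b w : ℂ, ‖b‖ ≤ 1 / 2 → ‖w‖ = 1 → ‖SS b w - w‖ ≤ L * ‖b‖ := by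
  obtain ⟨L, hL⟩ := exists_lip_psi (a := 1 / 2) (b := 3 / 2) (by norm_num) (by norm_num)
  refine ⟨L + 1, by linarith [L.2], fun b w hb hw => ?_⟩
  have h1 := (hL _ sg2).dist_le_mul _ (sub_mem_ann hb hw) _
    (sub_mem_ann (b := 0) (by simp) hw)
  rw [zero_sub, psi_neg_unit (u := -w) (by simpa using hw), dist_eq_norm, dist_eq_norm, ← zt_sq_SS,
    show zt ^ 2 * SS b w - -(zt ^ 2 * -w) = zt ^ 2 * (SS b w - w) by ring,
    show b - w - -w = b by ring, norm_mul, norm_pow, norm_zt, one_pow, one_mul] at h1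
  nlinarith [norm_nonneg b]

lemma SS_bilip {L : ℝ} (hL : ∀ b w : ℂ, ‖b‖ ≤ 1 / 2 → ‖w‖ = 1 → ‖SS b w - w‖ ≤ L * ‖b‖)
    {b w₁ w₂ : ℂ} (hb : ‖b‖ ≤ 1 / 100) (hbL : L * ‖b‖ ≤ 1 / 10) (h₁ : ‖w₁‖ = 1) (h₂ : ‖w₂‖ = 1)
    (c : ‖w₁ - w₂‖ ≤ 1 / 10) :
    ‖SS b w₁ - SS b w₂‖ ≤ (1 + 4 * ‖b‖) * ‖w₁ - w₂‖ ∧
      ‖w₁ - w₂‖ ≤ (1 + 4 * ‖b‖) * ‖SS b w₁ - SS b w₂‖ := by
  have hb' : ‖b‖ ≤ 1 / 2 := by linarith
  have k : ∀ w, ‖w‖ = 1 → ‖zt ^ 2 * SS b w‖ = 1 := fun w hw => by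
    simp [norm_zt, norm_SS hb' hw]
  have cc : ∀ w, ‖w‖ = 1 → ‖zt ^ 2 * SS b w - zt ^ 2 * w‖ ≤ 1 / 10 := fun w hw => by
    rw [← mul_sub, norm_mul, norm_pow, norm_zt, one_pow, one_mul]
    exact (hL b w hb' hw).trans hbL
  have := bilip h₁ h₂ (k _ h₁) (k _ h₂) (norm_SS_rel hb' h₁) (norm_SS_rel hb' h₂) le_rfl hb
    (cc _ h₁) (cc _ h₂) c
  rwa [← mul_sub, norm_mul, norm_pow, norm_zt, one_pow, one_mul] at this

lemma SS_displace {L : ℝ} (hL1 : 1 ≤ L)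
    (hL : ∀ b w : ℂ, ‖b‖ ≤ 1 / 2 → ‖w‖ = 1 → ‖SS b w - w‖ ≤ L * ‖b‖)
    {b m w : ℂ} (hb0 : b ≠ 0) (hb : ‖b‖ ≤ 1 / 2) (hbL : L ^ 2 * ‖b‖ ≤ 1 / 10) (hm : ‖m‖ = 1)
    (hbm : ‖b * m - ‖b‖ * zt‖ ≤ ‖b‖ / 10) (hw : ‖w‖ = 1) (hre : 0.6 ≤ (w * m).re) :
    (SS b w * m).im ≤ (w * m).im - ‖b‖ / 20 := by
  refine displace (d := -(zt ^ 2) * (b * m)) (by simp [hw, hm]) (by simp [norm_SS hb hw, hm])
    (norm_pos_iff.2 hb0) hL1 hbL ?_ ?_ hre ?_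
  · have : w * m + zt * (SS b w * m - w * m) - -(zt ^ 2) * (b * m) =
        -(zt ^ 2) * m * (w + zt ^ 2 * SS b w - b) := by
      linear_combination (m * w) * zt_sq + (zt * SS b w * m) * zt_cube
    rw [this]; simp [norm_zt, hm, norm_SS_rel hb hw]
  · have : -(zt ^ 2) * (b * m) - (‖b‖ : ℂ) = -(zt ^ 2) * (b * m - ‖b‖ * zt) := by
      linear_combination (-(‖b‖ : ℂ)) * zt_cube
    rw [this]; simpa [norm_zt] using hbm
  · rw [← sub_mul, norm_mul, hm, mul_one]; exact hL b w hb hw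

lemma close_of_im {a a' : ℂ} (ha : ‖a‖ = 1) (ha' : ‖a'‖ = 1) (h1 : 0.7 ≤ a.re) (h2 : 0 ≤ a'.re) :
    ‖a' - a‖ ≤ 4 * |a'.im - a.im| := by
  have e1 := norm_eq_one_iff.1 ha
  have e2 := norm_eq_one_iff.1 ha'
  have i1 := abs_le.1 ((Complex.abs_im_le_norm a).trans ha.le)
  have i2 := abs_le.1 ((Complex.abs_im_le_norm a').trans ha'.le)
  have h3 : |a'.re - a.re| * (a'.re + a.re) = |a'.im - a.im| * |a'.im + a.im| := by
    rw [← abs_of_nonneg (show 0 ≤ a'.re + a.re by linarith), ← abs_mul, ← abs_mul, ← abs_neg]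
    congr 1; linear_combination e1 - e2
  have h4 : |a'.im + a.im| ≤ 2 := abs_le.2 ⟨by linarith, by linarith⟩
  have h5 : |a'.re - a.re| ≤ 3 * |a'.im - a.im| := by
    nlinarith [abs_nonneg (a'.re - a.re), abs_nonneg (a'.im - a.im)]
  have := Complex.norm_le_abs_re_add_abs_im (a' - a)
  simp only [Complex.sub_re, Complex.sub_im] at this
  linarith

lemma orbit {L : ℝ} (hL1 : 1 ≤ L)
    (hL : ∀ b w : ℂ, ‖b‖ ≤ 1 / 2 → ‖w‖ = 1 → ‖SS b w - w‖ ≤ L * ‖b‖)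
    {b m y₀ y₁ : ℂ} (hb0 : b ≠ 0) (hb : ‖b‖ ≤ 1 / 2) (hbL : L ^ 2 * ‖b‖ ≤ 1 / 10) (hm : ‖m‖ = 1)
    (hbm : ‖b * m - ‖b‖ * zt‖ ≤ ‖b‖ / 10) (h₀ : ‖y₀‖ = 1) (h₁ : ‖y₁‖ = 1)
    (r₀ : 0.7 ≤ (y₀ * m).re) (r₁ : 0.7 ≤ (y₁ * m).re) (hlt : (y₁ * m).im < (y₀ * m).im) :
    ∃ n : ℕ, n * ‖b‖ ≤ 41 ∧ ‖(SS b)^[n] y₀ - y₁‖ ≤ 4 * L * ‖b‖ := by
  have hβ : 0 < ‖b‖ := norm_pos_iff.2 hb0
  have hLβ : L * ‖b‖ ≤ 1 / 10 := by nlinarith [mul_nonneg (sub_nonneg.2 hL1) (mul_pos (by linarith : (0:ℝ) < L) hβ).le]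
  have hu : ∀ n, ‖(SS b)^[n] y₀‖ = 1 := by
    intro n
    induction n with
    | zero => exact h₀
    | succ n ih => rw [Function.iterate_succ_apply']; exact norm_SS hb ih
  have e₀ := norm_eq_one_iff.1 (show ‖y₀ * m‖ = 1 by simp [h₀, hm])
  have e₁ := norm_eq_one_iff.1 (show ‖y₁ * m‖ = 1 by simp [h₁, hm])
  have i₀ : (y₀ * m).im ≤ 0.72 := by nlinarith only [e₀, r₀]
  have i₁ : -0.72 ≤ (y₁ * m).im := by nlinarith only [e₁, r₁]
  have key : ∀ j : ℕ, (∃ n : ℕ, n ≤ j ∧ ‖(SS b)^[n] y₀ - y₁‖ ≤ 4 * L * ‖b‖) ∨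
      (0.6 ≤ ((SS b)^[j] y₀ * m).re ∧ (y₁ * m).im < ((SS b)^[j] y₀ * m).im ∧
        ((SS b)^[j] y₀ * m).im ≤ (y₀ * m).im - j * (‖b‖ / 20)) := by
    intro j
    induction j with
    | zero => exact Or.inr ⟨by simp only [Function.iterate_zero, id]; linarith, hlt, by simp⟩
    | succ j ih =>
      rcases ih with ⟨n, hn, h⟩ | ⟨a1, a2, a3⟩
      · exact Or.inl ⟨n, by omega, h⟩
      · set y := (SS b)^[j] y₀ with hy
        have hyu : ‖y‖ = 1 := hu j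
        have d1 := SS_displace hL1 hL hb0 hb hbL hm hbm hyu a1
        have d2 : ‖SS b y * m - y * m‖ ≤ L * ‖b‖ := by
          rw [← sub_mul, norm_mul, hm, mul_one]; exact hL b y hb hyu
        have d3 := abs_le.1 ((Complex.abs_re_le_norm _).trans d2)
        have d4 := abs_le.1 ((Complex.abs_im_le_norm _).trans d2)
        rw [Complex.sub_re] at d3
        rw [Complex.sub_im] at d4
        have hSu : ‖SS b y * m‖ = 1 := by simp [norm_SS hb hyu, hm]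
        have e2 := norm_eq_one_iff.1 hSu
        rcases lt_or_ge (y₁ * m).im (SS b y * m).im with h | h
        · right
          rw [Function.iterate_succ_apply', ← hy]
          have j0 : (0 : ℝ) ≤ j * (‖b‖ / 20) := by positivity
          refine ⟨?_, h, by push_cast; linarith⟩
          exact re_ge e2 (by linarith) (by linarith) (by linarith)
        · left
          refine ⟨j + 1, le_rfl, ?_⟩
          rw [Function.iterate_succ_apply', ← hy]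
          have := close_of_im (show ‖y₁ * m‖ = 1 by simp [h₁, hm]) hSu r₁ (by linarith)
          rw [← sub_mul, norm_mul, hm, mul_one, abs_of_nonpos (by linarith)] at this
          linarith
  rcases key ⌈40 / ‖b‖⌉₊ with ⟨n, hn, h⟩ | ⟨-, a2, a3⟩
  · refine ⟨n, ?_, h⟩
    have h1 : (n : ℝ) ≤ 40 / ‖b‖ + 1 :=
      (Nat.cast_le.2 hn).trans (Nat.ceil_lt_add_one (by positivity)).le
    calc n * ‖b‖ ≤ (40 / ‖b‖ + 1) * ‖b‖ := by gcongr
      _ = 40 + ‖b‖ := by field_simp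
      _ ≤ 41 := by linarith
  · exfalso
    have h1 := Nat.le_ceil (40 / ‖b‖)
    have h2 : 40 / ‖b‖ * (‖b‖ / 20) ≤ ⌈40 / ‖b‖⌉₊ * (‖b‖ / 20) := by gcongr
    have h3 : 40 / ‖b‖ * (‖b‖ / 20) = 2 := by field_simp; norm_num
    linarith

end Vale.Agent.P032
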