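import Vale.Agent.P032.B5
import Vale.Agent.P032.B6

/-! Special points do not accumulate: the core argument. -/

open MeasureTheory Set Metric Filter Topology
open scoped ENNReal NNReal

namespace Vale.Agent.P032

lemma haus_le_image {f : ℂ → ℂ} {s : Set ℂ} {K : ℝ} (hK : 0 ≤ K)
    (h : ∀ x ∈ s, ∀ y ∈ s, ‖x - y‖ ≤ K * ‖f x - f y‖) :
    μH[1] s ≤ ENNReal.ofReal K * μH[1] (f '' s) := by
  let g := Function.invFunOn f s
  have hinj : InjOn f s := fun x hx y hy e => by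
    have := h x hx y hy
    rw [e, sub_self, norm_zero, mul_zero] at this
    exact sub_eq_zero.1 (norm_le_zero_iff.1 this)
  have hg : ∀ x ∈ s, g (f x) = x := fun x hx => hinj.leftInvOn_invFunOn hx
  have hl : LipschitzOnWith ⟨K, hK⟩ g (f '' s) := by
    refine LipschitzOnWith.of_dist_le_mul ?_
    rintro _ ⟨x, hx, rfl⟩ _ ⟨y, hy, rfl⟩
    rw [hg x hx, hg y hy, dist_eq_norm, dist_eq_norm]
    exact h x hx y hy
  have h1 : s ⊆ g '' (f '' s) := fun x hx => ⟨f x, ⟨x, hx, rfl⟩, hg x hx⟩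
  refine (measure_mono h1).trans ((hl.hausdorffMeasure_image_le zero_le_one).trans ?_)
  rw [ENNReal.rpow_one, ENNReal.ofReal_eq_coe_nnreal hK]
  exact le_rfl

lemma iterate_contra {X : Set ℂ} {m y₀ y₁ : ℂ} (hm : ‖m‖ = 1) (h₀ : ‖y₀‖ = 1) (h₁ : ‖y₁‖ = 1)
    (r₀ : 0.7 ≤ (y₀ * m).re) (r₁ : 0.7 ≤ (y₁ * m).re) (hlt : (y₁ * m).im < (y₀ * m).im)
    (d₀ : SDens X y₀) (d₁ : SDens Xᶜ y₁)
    (hf : ∀ ε > 0, ∃ b : ℂ, b ≠ 0 ∧ ‖b‖ < ε ∧ ‖b * m - ‖b‖ * zt‖ ≤ ‖b‖ / 10 ∧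
      ∀ᵐ w ∂sig, w ∈ X → SS b w ∈ X) : False := by
  obtain ⟨L, hL1, hL⟩ := exists_L
  set M := Real.exp 164 with hM
  have hM1 : 1 ≤ M := Real.one_le_exp (by norm_num)
  set K := M + 4 * L with hK
  have hK0 : 0 < K := by positivity
  obtain ⟨ε₀, hε₀, e₀⟩ := mem_nhdsGT_iff_exists_Ioo_subset.1 (d₀ (1 / 2) (by norm_num))
  obtain ⟨ε₁, hε₁, e₁⟩ := mem_nhdsGT_iff_exists_Ioo_subset.1 (d₁ (1 / (16 * M * K)) (by positivity))
  have hε₀ : 0 < ε₀ := hε₀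
  have hε₁ : 0 < ε₁ := hε₁
  obtain ⟨b, hb0, hb, hbm, hinv⟩ := hf (min (min ε₀ (ε₁ / K))
    (min (1 / (10 * L ^ 2)) (1 / (100 * M)))) (by positivity)
  simp only [lt_min_iff] at hb
  obtain ⟨⟨b1, b2⟩, b3, b4⟩ := hb
  have hβ : 0 < ‖b‖ := norm_pos_iff.2 hb0
  rw [lt_div_iff₀ (by positivity)] at b2 b3 b4
  have c1 : ‖b‖ ≤ 1 / 100 := by nlinarith only [b4, hM1, hβ]
  have c2 : L ^ 2 * ‖b‖ ≤ 1 / 10 := by linarith
  have c3 : L * ‖b‖ ≤ 1 / 10 := by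
    have : L * ‖b‖ ≤ L ^ 2 * ‖b‖ := by gcongr; nlinarith only [hL1]
    linarith
  have c4 : ‖b‖ ≤ 1 / 2 := by linarith
  obtain ⟨n, hn, hy⟩ := orbit hL1 hL hb0 c4 c2 hm hbm h₀ h₁ r₀ r₁ hlt
  set l := 1 + 4 * ‖b‖ with hl
  have hl0 : 0 ≤ l := by positivity
  have hlM : ∀ j ≤ n, l ^ j ≤ M := by
    intro j hj
    calc l ^ j ≤ Real.exp (4 * ‖b‖) ^ j := by
          gcongr; rw [hl, add_comm]; exact Real.add_one_le_exp _
      _ = Real.exp (j * (4 * ‖b‖)) := (Real.exp_nat_mul _ _).symm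
      _ ≤ M := by
          have : (j : ℝ) * ‖b‖ ≤ n * ‖b‖ := by gcongr
          exact Real.exp_le_exp.2 (by linarith)
  have hu : ∀ n, ‖(SS b)^[n] y₀‖ = 1 := by
    intro n
    induction n with
    | zero => exact h₀
    | succ n ih => rw [Function.iterate_succ_apply']; exact norm_SS c4 ih
  have hN : μH[1] ({w | ¬ (w ∈ X → SS b w ∈ X)} ∩ sphere (0 : ℂ) 1) = 0 :=
    nonpos_iff_eq_zero.1 ((haus_le_sig _).trans (ae_iff.1 hinv).le)
  have key : ∀ j ≤ n, ∃ Y ⊆ X ∩ closedBall ((SS b)^[j] y₀) (l ^ j * ‖b‖) ∩ sphere 0 1,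
      ENNReal.ofReal (‖b‖ / 8) ≤ ENNReal.ofReal (l ^ j) * μH[1] Y := by
    intro j hj
    induction j with
    | zero =>
      refine ⟨_, subset_rfl, ?_⟩
      simp only [pow_zero, one_mul, Function.iterate_zero, id, ENNReal.ofReal_one]
      have a1 := le_sig_closedBall h₀ (r := ‖b‖) (by linarith)
      have a2 : sig (closedBall y₀ ‖b‖) ≤ sig (X ∩ closedBall y₀ ‖b‖) +
          sig (Xᶜ ∩ closedBall y₀ ‖b‖) := by
        refine le_trans (measure_mono ?_) (measure_union_le _ _)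
        intro u hu; by_cases h : u ∈ X
        exacts [Or.inl ⟨h, hu⟩, Or.inr ⟨h, hu⟩]
      have a3 := a1.trans (a2.trans (add_le_add (sig_le_haus _) (e₀ ⟨hβ, b1⟩)))
      have a4 : ENNReal.ofReal ‖b‖ = 4 * ENNReal.ofReal (‖b‖ / 8) + ENNReal.ofReal (1 / 2 * ‖b‖) := by
        rw [← ENNReal.ofReal_ofNat, ← ENNReal.ofReal_mul (by norm_num),
          ← ENNReal.ofReal_add (by positivity) (by positivity)]
        congr 1; ring
      rw [a4, ENNReal.add_le_add_iff_right ENNReal.ofReal_ne_top,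
        ENNReal.mul_le_mul_iff_right (by norm_num) (by norm_num)] at a3
      exact a3
    | succ j ih =>
      obtain ⟨Y, hY, hYm⟩ := ih (by omega)
      have hjM := hlM j (by omega)
      have hs : l ^ j * ‖b‖ ≤ 1 / 100 := by
        calc l ^ j * ‖b‖ ≤ M * ‖b‖ := by gcongr
          _ ≤ _ := by linarith
      let Y' := Y ∩ {w | w ∈ X → SS b w ∈ X}
      have hY1 : ∀ w ∈ Y, ‖w‖ = 1 := fun w hw => by simpa using (hY hw).2
      have hY2 : ∀ w ∈ Y, ‖w - (SS b)^[j] y₀‖ ≤ l ^ j * ‖b‖ := fun w hw => by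
        simpa [dist_eq_norm] using (hY hw).1.2
      refine ⟨SS b '' Y', ?_, ?_⟩
      · rintro _ ⟨w, hw, rfl⟩
        refine ⟨⟨hw.2 (hY hw.1).1.1, ?_⟩, by simpa using norm_SS c4 (hY1 w hw.1)⟩
        rw [mem_closedBall, dist_eq_norm, Function.iterate_succ_apply']
        refine (SS_bilip hL c1 c3 (hY1 w hw.1) (hu j) (by linarith [hY2 w hw.1])).1.trans ?_
        rw [pow_succ', mul_assoc]
        exact mul_le_mul_of_nonneg_left (hY2 w hw.1) hl0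
      · have a1 : μH[1] Y ≤ μH[1] Y' := by
          refine le_trans (measure_mono (t := Y' ∪
            ({w | ¬ (w ∈ X → SS b w ∈ X)} ∩ sphere (0 : ℂ) 1)) ?_) ?_
          · intro w hw
            by_cases h : w ∈ X → SS b w ∈ X
            exacts [Or.inl ⟨hw, h⟩, Or.inr ⟨h, (hY hw).2⟩]
          · exact (measure_union_le _ _).trans (by rw [hN, add_zero])
        have a2 := haus_le_image (f := SS b) (s := Y') hl0 fun x hx y hy => by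
          refine (SS_bilip hL c1 c3 (hY1 x hx.1) (hY1 y hy.1) ?_).2
          have := norm_sub_le_norm_sub_add_norm_sub x ((SS b)^[j] y₀) y
          rw [norm_sub_rev ((SS b)^[j] y₀) y] at this
          linarith [hY2 x hx.1, hY2 y hy.1]
        rw [pow_succ, ENNReal.ofReal_mul (by positivity), mul_assoc]
        exact hYm.trans (mul_le_mul_right (a1.trans a2) _)
  obtain ⟨Y, hY, hYm⟩ := key n le_rfl
  have a1 : Y ⊆ (Xᶜᶜ ∩ closedBall y₁ (K * ‖b‖)) ∩ sphere 0 1 := by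
    intro w hw
    refine ⟨⟨by simpa using (hY hw).1.1, ?_⟩, (hY hw).2⟩
    have a2 : dist w ((SS b)^[n] y₀) ≤ l ^ n * ‖b‖ := (hY hw).1.2
    have a3 : l ^ n * ‖b‖ ≤ M * ‖b‖ := by gcongr; exact hlM n le_rfl
    have a4 := dist_triangle w ((SS b)^[n] y₀) y₁
    rw [dist_eq_norm _ y₁, dist_eq_norm _ y₁] at a4
    rw [mem_closedBall, dist_eq_norm, hK]; linarith
  have a2 := (measure_mono a1).trans ((haus_le_sig _).trans
    (e₁ (a := K * ‖b‖) ⟨by positivity, by linarith⟩))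
  have a3 : ENNReal.ofReal (‖b‖ / 8) ≤
      ENNReal.ofReal M * ENNReal.ofReal (1 / (16 * M * K) * (K * ‖b‖)) :=
    hYm.trans (mul_le_mul' (ENNReal.ofReal_le_ofReal (hlM n le_rfl)) a2)
  rw [← ENNReal.ofReal_mul (by positivity), ENNReal.ofReal_le_ofReal_iff (by positivity)] at a3
  have a4 : M * (1 / (16 * M * K) * (K * ‖b‖)) = ‖b‖ / 16 := by field_simp
  linarith

lemma flip_contra {X : Set ℂ} (hX : MeasurableSet X) (h3 : ∀ᵐ u ∂sig, zt * u ∈ X ↔ u ∉ X)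
    (hf : ∃ᶠ b in 𝓝[≠] (0 : ℂ), ∀ᵐ w ∂sig, SS b w ∈ X ↔ w ∈ X) : False := by
  -- a limiting direction
  obtain ⟨n, hn, hcl⟩ : ∃ n : ℂ, ‖n‖ = 1 ∧ ∀ ε > 0, ∃ b : ℂ, b ≠ 0 ∧ ‖b‖ < ε ∧
      ‖b - ‖b‖ * n‖ ≤ ‖b‖ / 10 ∧ ∀ᵐ w ∂sig, SS b w ∈ X ↔ w ∈ X := by
    let F := 𝓝[≠] (0 : ℂ) ⊓ 𝓟 {b | ∀ᵐ w ∂sig, SS b w ∈ X ↔ w ∈ X}
    have : F.NeBot := frequently_iff_neBot.1 hf
    obtain ⟨n, hn, hc⟩ := (isCompact_sphere (0 : ℂ) 1).exists_mapClusterPt (f := F)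
      (u := fun b => eb b.arg) (tendsto_principal.2 (Eventually.of_forall fun b => by
        simp [norm_eb]))
    refine ⟨n, by simpa using hn, fun ε hε => ?_⟩
    have h1 := hc.frequently (closedBall_mem_nhds n (show (0 : ℝ) < 1 / 10 by norm_num))
    have h2 : ∀ᶠ b in F, b ≠ 0 ∧ ‖b‖ < ε ∧ ∀ᵐ w ∂sig, SS b w ∈ X ↔ w ∈ X := by
      have i1 : F ≤ 𝓝[≠] (0 : ℂ) := inf_le_left
      have i2 : F ≤ 𝓟 _ := inf_le_right
      filter_upwards [i1 self_mem_nhdsWithin, i1 (nhdsWithin_le_nhds (ball_mem_nhds 0 hε)),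
        i2 (mem_principal_self _)] with b k1 k2 k3
      exact ⟨k1, by simpa using k2, k3⟩
    obtain ⟨b, k1, k2, k3, k4⟩ := (h1.and_eventually h2).exists
    refine ⟨b, k2, k3, ?_, k4⟩
    have e : b = ‖b‖ * eb b.arg := by
      rw [eb, mul_comm Complex.I]; exact (Complex.norm_mul_exp_arg_mul_I b).symm
    have k5 : ‖eb b.arg - n‖ ≤ 1 / 10 := by simpa [dist_eq_norm] using k1
    calc ‖b - ‖b‖ * n‖ = ‖(‖b‖ : ℂ) * (eb b.arg - n)‖ := by rw [mul_sub, ← e]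
      _ = ‖b‖ * ‖eb b.arg - n‖ := by simp
      _ ≤ ‖b‖ * (1 / 10) := by gcongr
      _ = _ := by ring
  have hn0 : n ≠ 0 := norm_ne_zero_iff.1 (by simp [hn])
  set m := zt / n with hmd
  have hm : ‖m‖ = 1 := by simp [hmd, norm_zt, hn]
  have hm0 : m ≠ 0 := norm_ne_zero_iff.1 (by simp [hm])
  have hf' : ∀ ε > 0, ∃ b : ℂ, b ≠ 0 ∧ ‖b‖ < ε ∧ ‖b * m - ‖b‖ * zt‖ ≤ ‖b‖ / 10 ∧
      ∀ᵐ w ∂sig, SS b w ∈ X ↔ w ∈ X := fun ε hε => by
    obtain ⟨b, k1, k2, k3, k4⟩ := hcl ε hε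
    refine ⟨b, k1, k2, ?_, k4⟩
    have : b * m - ‖b‖ * zt = (b - ‖b‖ * n) * m := by rw [hmd]; field_simp
    rw [this, norm_mul, hm, mul_one]; exact k3
  let p₀ : ℂ := ⟨Real.sqrt 3 / 2, -(1 / 2)⟩
  have s3 := Real.sq_sqrt (show (0 : ℝ) ≤ 3 by norm_num)
  have hp₀ : ‖p₀‖ = 1 := by rw [norm_eq_one_iff]; simp [p₀]; nlinarith
  have hp : ‖p₀ / m‖ = 1 := by simp [hp₀, hm]
  have hpos : sig (closedBall (p₀ / m) (1 / 10)) ≠ 0 :=
    ((ENNReal.ofReal_pos.2 (by norm_num)).trans_le (le_sig_closedBall hp (by norm_num))).ne'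
  have hd : ∀ᵐ u ∂sig, (u ∈ X → SDens X u) ∧ (u ∈ Xᶜ → SDens Xᶜ u) :=
    (ae_sdens hX).and (ae_sdens hX.compl)
  obtain ⟨u, hu, hu1, k1, k2, k3⟩ : ∃ u ∈ closedBall (p₀ / m) (1 / 10), ‖u‖ = 1 ∧
      (zt * u ∈ X ↔ u ∉ X) ∧ ((u ∈ X → SDens X u) ∧ (u ∈ Xᶜ → SDens Xᶜ u)) ∧
      ((zt * u ∈ X → SDens X (zt * u)) ∧ (zt * u ∈ Xᶜ → SDens Xᶜ (zt * u))) := by
    by_contra hc
    refine hpos (measure_eq_zero_iff_ae_notMem.2 ?_)
    filter_upwards [ae_unit, h3, hd, ae_rot norm_zt hd] with u a1 a2 a3 a4 a5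
    exact hc ⟨u, a5, a1, a2, a3, a4⟩
  have q1 : ‖u * m - p₀‖ ≤ 1 / 10 := by
    have : u * m - p₀ = (u - p₀ / m) * m := by field_simp
    rw [this, norm_mul, hm, mul_one, ← dist_eq_norm]; exact hu
  have q2 : ‖zt * u * m - zt * p₀‖ ≤ 1 / 10 := by
    rw [mul_assoc, ← mul_sub, norm_mul, norm_zt, one_mul]; exact q1
  have z1 : (zt * p₀).re = Real.sqrt 3 / 2 := by simp [zt_re, zt_im, p₀]; ring
  have z2 : (zt * p₀).im = 1 / 2 := by simp [zt_re, zt_im, p₀]; nlinarith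
  have t1 := abs_le.1 ((Complex.abs_re_le_norm _).trans q1)
  have t2 := abs_le.1 ((Complex.abs_im_le_norm _).trans q1)
  have t3 := abs_le.1 ((Complex.abs_re_le_norm _).trans q2)
  have t4 := abs_le.1 ((Complex.abs_im_le_norm _).trans q2)
  rw [Complex.sub_re] at t1 t3
  rw [Complex.sub_im] at t2 t4
  rw [z1] at t3
  rw [z2] at t4
  have p1 : p₀.re = Real.sqrt 3 / 2 := rfl
  have p2 : p₀.im = -(1 / 2) := rfl
  have s4 := sqrt3_gt
  have hzu : ‖zt * u‖ = 1 := by simp [norm_zt, hu1]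
  by_cases h : u ∈ X
  · refine iterate_contra (X := Xᶜ) (y₀ := zt * u) (y₁ := u) hm hzu hu1 (by linarith) (by linarith)
      (by linarith) (k3.2 fun h' => k1.1 h' h) (by rw [compl_compl]; exact k2.1 h) fun ε hε => ?_
    obtain ⟨b, a1, a2, a3, a4⟩ := hf' ε hε
    exact ⟨b, a1, a2, a3, a4.mono fun w hw h1 h2 => h1 (hw.1 h2)⟩
  · refine iterate_contra (X := X) (y₀ := zt * u) (y₁ := u) hm hzu hu1 (by linarith) (by linarith)
      (by linarith) (k3.1 (k1.2 h)) (k2.2 h) fun ε hε => ?_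
    obtain ⟨b, a1, a2, a3, a4⟩ := hf' ε hε
    exact ⟨b, a1, a2, a3, a4.mono fun w hw => hw.2⟩

end Vale.Agent.P032
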