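import Vale.Agent.P032.B7

/-! Special points do not accumulate. -/

open MeasureTheory Set Metric Filter Topology
open scoped ENNReal NNReal

namespace Vale.Agent.P032

lemma ae_norm_ne {b : ℂ} (hb : b ≠ 0) : ∀ᵐ u ∂sig, ‖b - u‖ ≠ 1 := by
  have h : sig {psi 1 b, psi (-1) b} = 0 := (Set.toFinite _).measure_zero _
  filter_upwards [ae_unit, measure_eq_zero_iff_ae_notMem.1 h] with u hu h1 h2
  obtain ⟨s, hs, e⟩ := psi_char hu h2 hb
  rcases hs with rfl | rfl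
  · exact h1 (Or.inl e)
  · exact h1 (Or.inr e)

/-- a common neighbour close to the centre -/
lemma exists_apex {v v' : ℂ} {β : ℝ} (hv : ‖v‖ = 1) (hv' : ‖v'‖ = 1) (hβ : β ≤ 1)
    (h : |‖v + v'‖ - 1| ≤ β) :
    ∃ p : ℂ, ‖p - v‖ = 1 ∧ ‖p - (v + v')‖ = 1 ∧ ‖p‖ ^ 2 ≤ 3 * β := by
  have e1 := norm_eq_one_iff.1 hv
  have e2 := norm_eq_one_iff.1 hv'
  have key : ‖v + zt * v'‖ * ‖v + -(zt ^ 2) * v'‖ ≤ 3 * β := by
    have a1 : (v + zt * v') * (v + -(zt ^ 2) * v') = v ^ 2 + v * v' + v' ^ 2 := by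
      linear_combination (-(v * v')) * zt_sq + (-(v' ^ 2)) * zt_cube
    have a2 : v ^ 2 + v * v' + v' ^ 2 = v * v' * ((‖v + v'‖ ^ 2 - 1 : ℝ) : ℂ) := by
      rw [norm_sq_eq]
      apply Complex.ext <;> simp [sq]
      · linear_combination (-(v.re * v.re - v.im * v.im) - (v.re * v'.re - v.im * v'.im)) * e2 +
          (-(v'.re * v'.re - v'.im * v'.im) - (v.re * v'.re - v.im * v'.im)) * e1
      · linear_combination (-(2 * v.re * v.im) - (v.re * v'.im + v.im * v'.re)) * e2 +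
          (-(2 * v'.re * v'.im) - (v.re * v'.im + v.im * v'.re)) * e1
    rw [← norm_mul, a1, a2, norm_mul, norm_mul, hv, hv', Complex.norm_real, Real.norm_eq_abs]
    have a3 := abs_le.1 h
    rw [one_mul, one_mul, abs_le]
    constructor <;> nlinarith [norm_nonneg (v + v')]
  rcases le_total ‖v + zt * v'‖ ‖v + -(zt ^ 2) * v'‖ with h1 | h1
  · refine ⟨v + zt * v', by simp [norm_zt, hv'], ?_, ?_⟩
    · rw [show v + zt * v' - (v + v') = zt ^ 2 * v' by rw [zt_sq]; ring]; simp [norm_zt, hv']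
    · nlinarith [norm_nonneg (v + zt * v')]
  · refine ⟨v + -(zt ^ 2) * v', by simp [norm_zt, hv'], ?_, ?_⟩
    · rw [show v + -(zt ^ 2) * v' - (v + v') = -zt * v' by rw [zt_sq]; ring]; simp [norm_zt, hv']
    · nlinarith [norm_nonneg (v + -(zt ^ 2) * v')]

namespace WCol

variable (w : WCol)

lemma exactly_one {x b : ℂ} {e : Fin 5} {δ : ℝ} (hδ : 0 < δ)
    (he : ∀ᵐ y : ℂ, y ∈ ball x δ → w.c y ≠ e) {Good : Finset (Fin 5) → Prop}
    (hG : ∀ S S', Good S → Good S' → Disjoint S S' → e ∉ S → e ∉ S' → ∀ i, i ≠ e → i ∈ S ∨ i ∈ S')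
    (hx : ∀ᵐ u ∂sig, Good (w.C x u)) (hx' : ∀ᵐ u ∂sig, Good (w.C (x + b) u))
    (hb0 : b ≠ 0) (hb : ‖b‖ < 1 / 4) (hbδ : 3 * ‖b‖ < δ ^ 2) {s : ℝ} (hs : Sg s) :
    ∀ᵐ u ∂sig, (e ∈ w.C (x + b) u ↔ e ∉ w.C x (psi s (u + b))) := by
  have hb2 : ‖b‖ ≤ 1 / 2 := by linarith
  filter_upwards [ae_unit, hx', ae_psi hb2 hs hx, w.ae_class (x + b), ae_psi hb2 hs (w.ae_class x),
    w.cross (x := x) (x' := x + b) (by simpa using by linarith),
    ae_norm_ne (neg_ne_zero.2 hb0), ae_psi hb2 hs (ae_norm_ne hb0)]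
    with u hu g1 g2 c1 c2 hd n1 n2
  have hA := unit_add_mem hu hb2
  set v := psi s (u + b) with hv
  have hv1 : ‖v‖ = 1 := norm_psi hs (ann_ne hA) (by linarith [hA.2])
  have hv2 : ‖u + b - v‖ = 1 := norm_sub_psi hs (ann_ne hA) (by linarith [hA.2])
  have hdis := hd v hv1 (by rwa [add_sub_cancel_left])
  refine ⟨fun h1 h2 => Finset.disjoint_left.1 hdis h1 h2, fun h2 => ?_⟩
  by_contra h1
  have hab : |‖v + (u + b - v)‖ - 1| ≤ ‖b‖ := by
    rw [add_sub_cancel]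
    simpa [hu] using abs_norm_sub_norm_le (u + b) u
  obtain ⟨p, p1, p2, p3⟩ := exists_apex hv1 hv2 (by linarith) hab
  rw [add_sub_cancel] at p2
  have p4 : ‖p‖ < 1 := by nlinarith [norm_nonneg p]
  have p5 : ‖p‖ < δ := by nlinarith [norm_nonneg p]
  have p6 : p ≠ 0 := by
    rintro rfl
    exact n1 (by rw [← p2]; congr 1; ring)
  have p7 : p - b ≠ 0 := by
    intro h
    rw [sub_eq_zero.1 h] at p1
    exact n2 p1
  have d1 := w.dens_excl p6 (by linarith) hv1 p1 c2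
  have d2 := w.dens_excl (x := x + b) p7 (by linarith [norm_sub_le p b]) hu
    (by rw [← p2]; congr 1; ring) c1
  have d3 : Dens {z | w.c (z + x) ∉ w.C (x + b) u} p := by
    have := (show Dens {z | w.c (z + (x + b)) ∉ w.C (x + b) u} (p + -b) by
      rwa [← sub_eq_add_neg]).translate
    refine this.mono fun z hz => ?_
    simpa [add_assoc, add_comm x b] using hz
  refine (d1.inter d3).not_ae_notMem (δ := δ - ‖p‖) (by linarith) ?_
  filter_upwards [(measurePreserving_add_right volume x).quasiMeasurePreserving.ae he]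
    with z hz hzB h
  have hzx : z + x ∈ ball x δ := by
    have := norm_add_le (z - p) p
    rw [mem_ball, dist_eq_norm] at hzB ⊢
    rw [sub_add_cancel] at this
    rw [add_sub_cancel_right]; linarith
  rcases hG _ _ g1 g2 hdis h1 h2 _ (hz hzx) with h' | h'
  exacts [h.2 h', h.1 h']

lemma no_accum {x : ℂ} {e : Fin 5} {δ : ℝ} (hδ : 0 < δ)
    (he : ∀ᵐ y : ℂ, y ∈ ball x δ → w.c y ≠ e) {Good : Finset (Fin 5) → Prop}
    (hG : ∀ S S', Good S → Good S' → Disjoint S S' → e ∉ S → e ∉ S' → ∀ i, i ≠ e → i ∈ S ∨ i ∈ S')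
    (hx : ∀ᵐ u ∂sig, Good (w.C x u))
    (hf : ∃ᶠ b in 𝓝[≠] (0 : ℂ), ∀ᵐ u ∂sig, Good (w.C (x + b) u)) : False := by
  set X := {v | e ∈ w.C x v} with hX
  have hXm : MeasurableSet X := w.measC x (e ∈ ·)
  have hsmall : ∀ᶠ b in 𝓝[≠] (0 : ℂ), b ≠ 0 ∧ ‖b‖ < 1 / 4 ∧ 3 * ‖b‖ < δ ^ 2 := by
    filter_upwards [self_mem_nhdsWithin, nhdsWithin_le_nhds
      (ball_mem_nhds (0 : ℂ) (show 0 < min (1 / 4) (δ ^ 2 / 3) by positivity))] with b h1 h2
    rw [mem_ball_zero_iff, lt_min_iff] at h2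
    exact ⟨h1, h2.1, by linarith [h2.2]⟩
  have hf1 : ∃ᶠ b in 𝓝[≠] (0 : ℂ), ‖b‖ < 1 / 4 ∧ ∀ s, Sg s →
      ∀ᵐ u ∂sig, (e ∈ w.C (x + b) u ↔ psi s (u + b) ∉ X) :=
    (hf.and_eventually hsmall).mono fun b h => ⟨h.2.2.1, fun s hs =>
      w.exactly_one hδ he hG hx h.1 h.2.1 h.2.2.1 h.2.2.2 hs⟩
  have h2 : ∀ᵐ u ∂sig, ¬ (zt * u ∉ X ∧ zt * (zt * u) ∉ X) := by
    refine (measure_eq_zero_iff_ae_notMem (s := {u | zt * u ∉ X ∧ zt * (zt * u) ∉ X})).1
      (nonpos_iff_eq_zero.1 ?_)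
    have t1 := tendsto_psi (b₀ := 0) (by simp) sg1 hXm.compl
    have t2 := t1.add (ENNReal.Tendsto.const_mul (a := 4) t1 (Or.inr (by norm_num)))
    rw [mul_zero, add_zero] at t2
    refine ge_of_tendsto_of_frequently (t2.mono_left nhdsWithin_le_nhds) (hf1.mono ?_)
    rintro b ⟨hb, h⟩
    set Y := {u | psi 1 (u + 0) ∈ Xᶜ ∧ psi 1 (u + b) ∉ Xᶜ} with hY
    refine le_trans (measure_mono_ae (t := Y ∪ {u | zt * u ∈ Y}) ?_)
      ((measure_union_le _ _).trans (add_le_add le_rfl (rot_dom norm_zt Y)))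
    filter_upwards [ae_unit, h 1 sg1, ae_rot norm_zt (h 1 sg1), w.same (x + b)]
      with u hu a1 a2 a3 a4
    have hzu : ‖zt * u‖ = 1 := by simp [norm_zt, hu]
    by_cases k1 : psi 1 (u + b) ∈ X
    · exact Or.inl ⟨by rw [add_zero, psi_one_unit hu]; exact a4.1, fun h => h k1⟩
    · refine Or.inr ⟨by rw [add_zero, psi_one_unit hzu]; exact a4.2, fun k2 => ?_⟩
      exact Finset.disjoint_left.1 a3 (a1.2 k1) (a2.2 k2)
  have h3 : ∀ᵐ u ∂sig, zt * u ∈ X ↔ u ∉ X := by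
    have hz : ‖zt⁻¹‖ = 1 := by simp [norm_zt]
    filter_upwards [ae_rot hz h2, w.same x] with u a1 a2
    rw [mul_inv_cancel_left₀ zt_ne] at a1
    exact ⟨fun k1 k2 => Finset.disjoint_left.1 a2 k2 k1, fun k1 => by
      by_contra k2; exact a1 ⟨k1, k2⟩⟩
  refine flip_contra hXm h3 (hf1.mono ?_)
  rintro b ⟨hb, h⟩
  have hb2 : ‖b‖ ≤ 1 / 2 := by linarith
  have hm1 : ‖(-1 : ℂ)‖ = 1 := by simp
  have k1 := ae_rot hm1 (ae_psi hb2 sg1 (ae_rot hm1 ((h 1 sg1).and (h _ sg2))))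
  have k2 : ∀ᵐ v ∂sig, -zt * v ∈ X ↔ v ∈ X := by
    have hz : ‖-zt‖ = 1 := by simp [norm_zt]
    filter_upwards [ae_rot hz h3, ae_rot hz (ae_rot norm_zt h3)] with v a1 a2
    have : zt * (zt * (-zt * v)) = v := by linear_combination (-v) * zt_cube
    rw [this] at a2
    tauto
  have k3 := ae_rot hm1 (ae_psi hb2 sg2 k2)
  filter_upwards [k1, k3, ae_unit] with v a1 a2 hv
  rw [show -1 * v + b = b - v by ring] at a1 a2
  rw [SS, a2]
  have hA := sub_mem_ann hb2 hv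
  set u := -1 * psi 1 (b - v) with hu
  have hu1 : ‖u‖ = 1 := by
    rw [hu, norm_mul, hm1, one_mul]; exact norm_psi sg1 (ann_ne hA) (by linarith [hA.2])
  have hv' : ‖psi (-1) (b - v)‖ = 1 := norm_psi sg2 (ann_ne hA) (by linarith [hA.2])
  have e1 : u + b = v + psi (-1) (b - v) := by
    rw [hu]; linear_combination -psi_add 1 (b - v)
  have hne := ann_ne (unit_add_mem hu1 hb2)
  have key : ∀ y : ℂ, ‖y‖ = 1 → ‖u + b - y‖ = 1 → (e ∈ w.C (x + b) u ↔ y ∉ X) := by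
    intro y y1 y2
    obtain ⟨s, hs, rfl⟩ := psi_char y1 y2 hne
    rcases hs with rfl | rfl
    exacts [a1.1, a1.2]
  have q1 := key v hv (by rw [e1, add_sub_cancel_left]; exact hv')
  have q2 := key _ hv' (by rw [e1, add_sub_cancel_right]; exact hv)
  tauto

end WCol

end Vale.Agent.P032
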