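import Vale.Agent.P032.SData

/-! The finite statement: checking the certificate. -/

namespace Vale.Agent.P032.SC

theorem run0 : run okc db 0 1172 = true := by decide +kernel

theorem run1 : run okc db 1172 179 = true := by decide +kernel

theorem run2 : run okc db 1351 120 = true := by decide +kernel

theorem run3 : run okc db 1471 104 = true := by decide +kernel

theorem run4 : run okc db 1575 131 = true := by decide +kernel

theorem run5 : run okc db 1706 131 = true := by decide +kernel

theorem run6 : run okc db 1837 99 = true := by decide +kernel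

theorem run7 : run okc db 1936 164 = true := by decide +kernel

theorem run8 : run okc db 2100 212 = true := by decide +kernel

theorem all_steps : ∀ n < 2312, step okc db n = true := by
  intro n hn
  by_cases h0 : n < 1172
  · exact run_spec _ _ _ _ run0 n (by omega) (by omega)
  by_cases h1 : n < 1351
  · exact run_spec _ _ _ _ run1 n (by omega) (by omega)
  by_cases h2 : n < 1471
  · exact run_spec _ _ _ _ run2 n (by omega) (by omega)
  by_cases h3 : n < 1575
  · exact run_spec _ _ _ _ run3 n (by omega) (by omega)
  by_cases h4 : n < 1706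
  · exact run_spec _ _ _ _ run4 n (by omega) (by omega)
  by_cases h5 : n < 1837
  · exact run_spec _ _ _ _ run5 n (by omega) (by omega)
  by_cases h6 : n < 1936
  · exact run_spec _ _ _ _ run6 n (by omega) (by omega)
  by_cases h7 : n < 2100
  · exact run_spec _ _ _ _ run7 n (by omega) (by omega)
  exact run_spec _ _ _ _ run8 n (by omega) (by omega)

theorem last_empty : (Cl db 2311).isEmpty = true := by decide +kernel

theorem _root_.Vale.Agent.P032.v5_finite (C : ℂ → Finset (Fin 5)) (col : ℂ → Fin 5)
    (h2 : ∀ u ∈ U, 2 ≤ (C u).card) (hadj : ∀ u ∈ U, Disjoint (C u) (C (zeta * u)))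
    (hex : ∀ u ∈ U, ∀ v ∈ U, u + v ≠ 0 → u ≠ v → col (u + v) ∉ C u)
    (hcol : ∀ u ∈ U, ∀ v ∈ U, ∀ u' ∈ U, ∀ v' ∈ U, ‖(u + v) - (u' + v')‖ = 1 →
      col (u + v) ≠ col (u' + v')) : False := by
  obtain ⟨σ, hs, h0, h1, h2', h3⟩ := exists_sigma C h2 hadj
  obtain ⟨l, hl, -⟩ := all_sat _ okc (okc_sound C col h2 hadj hex hcol σ hs h0 h1 h2' h3) db _
    all_steps 2311 (by omega)
  rw [List.isEmpty_iff.1 last_empty] at hl
  simp at hl

end Vale.Agent.P032.SC
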