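import Vale.Agent.P032.B8
import Vale.Agent.P032.SFin

/-! An absent colour at each point, and local finiteness of the special points. -/

open MeasureTheory Set Metric Filter Topology
open scoped ENNReal NNReal

namespace Vale.Agent.P032

lemma zeta_eq : zeta = zt := by
  apply Complex.ext <;> simp [zeta, zt_re, zt_im]

lemma norm_add_lt_two {u v : ℂ} (hu : ‖u‖ = 1) (hv : ‖v‖ = 1) (h : u ≠ v) : ‖u + v‖ < 2 := by
  have e1 := norm_eq_one_iff.1 hu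
  have e2 := norm_eq_one_iff.1 hv
  have h3 : ‖u - v‖ ^ 2 + ‖u + v‖ ^ 2 = 4 := by
    rw [norm_sq_eq, norm_sq_eq]; simp; linear_combination 2 * e1 + 2 * e2
  have h4 : 0 < ‖u - v‖ ^ 2 := pow_pos (norm_pos_iff.2 (sub_ne_zero.2 h)) 2
  nlinarith [norm_nonneg (u + v)]

lemma freq_exists {α ι : Type*} [Finite ι] {l : Filter α} {p : ι → α → Prop}
    (h : ∃ᶠ x in l, ∃ i, p i x) : ∃ i, ∃ᶠ x in l, p i x := by
  by_contra hc
  simp only [not_exists, not_frequently] at hc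
  exact h ((eventually_all.2 hc).mono fun x hx => not_exists.2 hx)

lemma exists_three : ∀ d e : Fin 5, d ≠ e → ∃ a b c : Fin 5, a ≠ b ∧ b ≠ c ∧ a ≠ c ∧
    ∀ i, i ≠ d → i ≠ e → i = a ∨ i = b ∨ i = c := by decide +kernel

lemma exists_fifth : ∀ a b c e : Fin 5, a ≠ b → b ≠ c → a ≠ c → e ≠ a → e ≠ b → e ≠ c →
    ∃ d : Fin 5, ∀ i, i = a ∨ i = b ∨ i = c ∨ i = d ∨ i = e := by decide +kernel

lemma good4 (e : Fin 5) (S S' : Finset (Fin 5)) (h : ∀ i, i ≠ e → ¬ S ⊆ {i})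
    (h' : ∀ i, i ≠ e → ¬ S' ⊆ {i}) (hd : Disjoint S S') (he : e ∉ S) (he' : e ∉ S') (i : Fin 5)
    (hi : i ≠ e) : i ∈ S ∨ i ∈ S' := by
  have key : ∀ T : Finset (Fin 5), (∀ i, i ≠ e → ¬ T ⊆ {i}) → e ∉ T → 2 ≤ T.card := by
    intro T hT h1
    by_contra h2
    obtain ⟨j, hj⟩ := Finset.card_le_one_iff_subset_singleton.1 (show T.card ≤ 1 by omega)
    by_cases h3 : j = e
    · exact hT i hi fun k hk => (h1 (h3 ▸ Finset.mem_singleton.1 (hj hk) ▸ hk)).elim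
    · exact hT j h3 hj
  by_contra hc
  rw [not_or] at hc
  have h1 : S ∪ S' ⊆ ({i, e} : Finset (Fin 5))ᶜ := by
    intro k hk
    rw [Finset.mem_compl, Finset.mem_insert, Finset.mem_singleton]
    rintro (rfl | rfl) <;> rcases Finset.mem_union.1 hk with h | h <;> tauto
  have h2 := Finset.card_le_card h1
  rw [Finset.card_union_of_disjoint hd, Finset.card_compl, Finset.card_pair hi] at h2
  have := key S h he
  have := key S' h' he'
  simp at h2; omega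

lemma good3 {a b c e : Fin 5} (hab : a ≠ b) (hbc : b ≠ c) (hac : a ≠ c) (ha : e ≠ a) (hb : e ≠ b)
    (hc : e ≠ c) (S S' : Finset (Fin 5)) (h : ¬ S ⊆ {a, b} ∧ ¬ S ⊆ {b, c} ∧ ¬ S ⊆ {a, c})
    (h' : ¬ S' ⊆ {a, b} ∧ ¬ S' ⊆ {b, c} ∧ ¬ S' ⊆ {a, c}) (hd : Disjoint S S') (he : e ∉ S)
    (he' : e ∉ S') (i : Fin 5) (hi : i ≠ e) : i ∈ S ∨ i ∈ S' := by
  obtain ⟨d, hcov⟩ := exists_fifth a b c e hab hbc hac ha hb hc
  have key : ∀ T : Finset (Fin 5), (¬ T ⊆ {a, b} ∧ ¬ T ⊆ {b, c} ∧ ¬ T ⊆ {a, c}) → e ∉ T → d ∉ T →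
      a ∈ T ∧ b ∈ T ∧ c ∈ T := by
    intro T hT h1 h2
    refine ⟨?_, ?_, ?_⟩ <;> by_contra h3
    · refine hT.2.1 fun j hj => ?_
      rcases hcov j with rfl | rfl | rfl | rfl | rfl <;> simp_all
    · refine hT.2.2 fun j hj => ?_
      rcases hcov j with rfl | rfl | rfl | rfl | rfl <;> simp_all
    · refine hT.1 fun j hj => ?_
      rcases hcov j with rfl | rfl | rfl | rfl | rfl <;> simp_all
  by_cases h1 : d ∈ S
  · obtain ⟨k1, k2, k3⟩ := key S' h' he' (Finset.disjoint_left.1 hd h1)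
    rcases hcov i with rfl | rfl | rfl | rfl | rfl <;> simp_all
  · obtain ⟨k1, k2, k3⟩ := key S h he h1
    by_cases h2 : d ∈ S'
    · rcases hcov i with rfl | rfl | rfl | rfl | rfl <;> simp_all
    · exact (Finset.disjoint_left.1 hd k1 (key S' h' he' h2).1).elim

namespace WCol

variable (w : WCol)

lemma exists_not_V (x : ℂ) : ∃ e, ¬ w.V x e := by
  by_contra hc
  push Not at hc
  have h1 : ∀ᵐ v ∂sig, (∀ i, ¬ w.C x v ⊆ {i}) ∧ Disjoint (w.C x v) (w.C x (zt * v)) ∧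
      SDens {u | w.C x u = w.C x v} v :=
    (ae_all_iff.2 fun i => w.C_not_single (hc i)).and ((w.same x).and (w.ae_class x))
  have h2 := (eventually_all_finset U).2 fun u hu => ae_rot (U_norm u hu) h1
  have hne : (ae sig).NeBot := by
    rw [ae_neBot]
    intro h0
    have := le_sig_closedBall (u := 1) (by simp) (r := 1) le_rfl
    rw [h0] at this; simp at this
  obtain ⟨ω, h3, hω⟩ := (h2.and ae_unit).exists
  have hω0 : ω ≠ 0 := norm_ne_zero_iff.1 (by simp [hω])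
  have d1 : Dens (⋂ u ∈ U, ⋂ v ∈ U,
      {b | u + v ≠ 0 → u ≠ v → w.c (b + (u + v) * ω + x) ∉ w.C x (u * ω)}) 0 := by
    refine dens_biInter _ fun u hu => dens_biInter _ fun v hv => ?_
    by_cases h : u + v ≠ 0 ∧ u ≠ v
    · have a1 := w.dens_excl (x := x) (p := (u + v) * ω) (v := u * ω) (mul_ne_zero h.1 hω0)
        (by rw [norm_mul, hω, mul_one]; exact norm_add_lt_two (U_norm u hu) (U_norm v hv) h.2)
        (by simp [hω, U_norm u hu])
        (by rw [show (u + v) * ω - u * ω = v * ω by ring]; simp [hω, U_norm v hv]) (h3 u hu).2.2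
      rw [← zero_add ((u + v) * ω)] at a1
      exact a1.translate.mono fun b hb _ _ => hb
    · exact (dens_univ 0).mono fun b _ k1 k2 => (h ⟨k1, k2⟩).elim
  have d2 : ∀ᵐ b : ℂ, ∀ u ∈ U, ∀ v ∈ U, ∀ u' ∈ U, ∀ v' ∈ U, ‖(u + v) - (u' + v')‖ = 1 →
      w.c (b + (u + v) * ω + x) ≠ w.c (b + (u' + v') * ω + x) := by
    refine (eventually_all_finset U).2 fun u _ => (eventually_all_finset U).2 fun v _ =>
      (eventually_all_finset U).2 fun u' _ => (eventually_all_finset U).2 fun v' _ => ?_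
    by_cases h : ‖(u + v) - (u' + v')‖ = 1
    · have := (measurePreserving_add_right volume ((u + v) * ω + x)).quasiMeasurePreserving.ae
        (w.prop (-((u + v) - (u' + v')) * ω) (by rw [norm_mul, norm_neg, h, hω, one_mul]))
      filter_upwards [this] with b hb _
      rwa [show b + ((u + v) * ω + x) + -((u + v) - (u' + v')) * ω = b + (u' + v') * ω + x by ring,
        ← add_assoc] at hb
    · exact Eventually.of_forall fun b h' => (h h').elim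
  obtain ⟨b, -, b1, b2⟩ := d1.exists_mem one_pos d2
  refine v5_finite (fun u => w.C x (u * ω)) (fun z => w.c (b + z * ω + x)) (fun u hu => ?_)
    (fun u hu => ?_) (fun u hu v hv => ?_) b2
  · by_contra h
    obtain ⟨i, hi⟩ := Finset.card_le_one_iff_subset_singleton.1
      (show (w.C x (u * ω)).card ≤ 1 by omega)
    exact (h3 u hu).1 i hi
  · simpa [zeta_eq, mul_assoc] using (h3 u hu).2.1
  · exact mem_iInter₂.1 (mem_iInter₂.1 b1 u hu) v hv

lemma absent (x : ℂ) : ∃ e δ, 0 < δ ∧ ∀ᵐ y : ℂ, y ∈ ball x δ → w.c y ≠ e := by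
  obtain ⟨e, he⟩ := w.exists_not_V x
  obtain ⟨δ, h1, h2⟩ := w.not_V.1 he
  exact ⟨e, δ, h1, h2⟩

def EdgeU (x : ℂ) (a b : Fin 5) : Prop := w.Edge x a b ∨ w.Edge x b a

lemma edgeU_of_sp {x : ℂ} (hx : x ∈ w.Sp) {p m q : Fin 5} {δ : ℝ} (hδ : 0 < δ)
    (h : ∀ᵐ y : ℂ, y ∈ ball x δ → w.c y = p ∨ w.c y = m ∨ w.c y = q) : w.EdgeU x p q := by
  by_contra hc
  simp only [EdgeU, Edge, not_or, not_forall, not_exists, not_and, not_not] at hc
  obtain ⟨⟨δ₁, h1, k1⟩, δ₂, h2, k2⟩ := hc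
  refine hx ⟨p, m, q, min δ (min δ₁ δ₂), by positivity,
    h.mono fun y hy hy' => hy (ball_subset_ball (min_le_left _ _) hy'), fun z r hr hB => ⟨?_, ?_⟩⟩
  · have : min δ (min δ₁ δ₂) ≤ δ₁ := (min_le_right _ _).trans (min_le_left _ _)
    exact fun hm => k1 z r hr (hB.trans (ball_subset_ball this)) (hm.trans (by gcongr))
  · have : min δ (min δ₁ δ₂) ≤ δ₂ := (min_le_right _ _).trans (min_le_right _ _)
    exact fun hm => k2 z r hr (hB.trans (ball_subset_ball this)) (hm.trans (by gcongr))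

lemma sp_type {x : ℂ} (hx : x ∈ w.Sp) : (∃ e, ∀ i, i ≠ e → w.V x i) ∨
    ∃ t : Fin 5 × Fin 5 × Fin 5, (t.1 ≠ t.2.1 ∧ t.2.1 ≠ t.2.2 ∧ t.1 ≠ t.2.2) ∧
      w.EdgeU x t.1 t.2.1 ∧ w.EdgeU x t.2.1 t.2.2 ∧ w.EdgeU x t.1 t.2.2 := by
  obtain ⟨e, he⟩ := w.exists_not_V x
  by_cases h : ∀ i, i ≠ e → w.V x i
  · exact Or.inl ⟨e, h⟩
  push Not at h
  obtain ⟨d, hde, hd⟩ := h
  obtain ⟨a, b, c, h1, h2, h3, hcov⟩ := exists_three d e hde
  obtain ⟨δ, hδ, h4⟩ := eventually_FF.1 ((not_frequently.1 hd).and (not_frequently.1 he))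
  have h5 : ∀ᵐ y : ℂ, y ∈ ball x δ → w.c y = a ∨ w.c y = b ∨ w.c y = c :=
    h4.mono fun y hy hy' => hcov _ (hy hy').1 (hy hy').2
  exact Or.inr ⟨(a, b, c), ⟨h1, h2, h3⟩,
    w.edgeU_of_sp hx (m := c) hδ (h5.mono fun y hy hy' => by have := hy hy'; tauto),
    w.edgeU_of_sp hx (m := a) hδ (h5.mono fun y hy hy' => by have := hy hy'; tauto),
    w.edgeU_of_sp hx hδ h5⟩

lemma ball_sub {x b : ℂ} {δ : ℝ} (hb : ‖b‖ < δ / 2) : ball (x + b) (δ / 2) ⊆ ball x δ :=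
  ball_subset_ball' (by simp [dist_eq_norm]; linarith)

lemma ev_small {δ : ℝ} (hδ : 0 < δ) : ∀ᶠ b in 𝓝[≠] (0 : ℂ), ‖b‖ < δ / 2 := by
  filter_upwards [nhdsWithin_le_nhds (ball_mem_nhds (0 : ℂ) (half_pos hδ))] with b hb
  simpa using hb

lemma V_closed {x : ℂ} {i : Fin 5} (h : ∃ᶠ b in 𝓝[≠] (0 : ℂ), w.V (x + b) i) : w.V x i := by
  by_contra hc
  obtain ⟨δ, hδ, h1⟩ := w.not_V.1 hc
  obtain ⟨b, b1, b2⟩ := (h.and_eventually (ev_small hδ)).exists
  exact w.not_V.2 ⟨δ / 2, half_pos hδ, h1.mono fun y hy hy' => hy (ball_sub b2 hy')⟩ b1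

lemma Edge_closed {x : ℂ} {p q : Fin 5} (h : ∃ᶠ b in 𝓝[≠] (0 : ℂ), w.Edge (x + b) p q) :
    w.Edge x p q := by
  intro δ hδ
  obtain ⟨b, b1, b2⟩ := (h.and_eventually (ev_small hδ)).exists
  obtain ⟨z, r, hr, k1, k2, k3⟩ := b1 (δ / 2) (half_pos hδ)
  exact ⟨z, r, hr, k1.trans (ball_sub b2), k2.trans (by gcongr; linarith), k3⟩

lemma EdgeU_closed {x : ℂ} {p q : Fin 5} (h : ∃ᶠ b in 𝓝[≠] (0 : ℂ), w.EdgeU (x + b) p q) :
    w.EdgeU x p q :=
  (frequently_or_distrib.1 h).imp w.Edge_closed w.Edge_closed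

lemma Edge.V {w : WCol} {x : ℂ} {p q : Fin 5} (h : w.Edge x p q) : w.V x p ∧ w.V x q := by
  constructor <;> by_contra hc <;> obtain ⟨δ, hδ, h1⟩ := w.not_V.1 hc
  · obtain ⟨z, r, hr, k1, k2, -⟩ := h (min δ 1) (by positivity)
    have a1 : mass (w.A p) z r = 0 := mass_eq_zero_iff_ae.2
      (h1.mono fun y hy hy' => hy (ball_subset_ball (min_le_left _ _) (k1 hy')))
    have a2 := mass_add_compl (w.measA p) z hr.le
    have a3 : min δ 1 * r ^ 2 ≤ 1 * r ^ 2 := by gcongr; exact min_le_right _ _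
    nlinarith [Real.pi_gt_three, pow_pos hr 2]
  · obtain ⟨z, r, hr, k1, -, k3⟩ := h δ hδ
    exact k3 (mass_eq_zero_iff_ae.2 (h1.mono fun y hy hy' => hy (k1 hy')))

lemma EdgeU.V {w : WCol} {x : ℂ} {p q : Fin 5} (h : w.EdgeU x p q) : w.V x p ∧ w.V x q :=
  h.elim Edge.V fun h => h.V.symm

lemma EdgeU.C {w : WCol} {x : ℂ} {p q : Fin 5} (h : w.EdgeU x p q) :
    ∀ᵐ u ∂sig, ¬ w.C x u ⊆ {p, q} :=
  h.elim w.C_not_edge fun h => Finset.pair_comm q p ▸ w.C_not_edge h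

lemma sp_finite (R : ℝ) : (w.Sp ∩ closedBall 0 R).Finite := by
  by_contra hc
  obtain ⟨x, -, hx⟩ := Set.Infinite.exists_accPt_of_subset_isCompact hc
    (isCompact_closedBall 0 R) inter_subset_right
  rw [accPt_iff_frequently_nhdsNE] at hx
  have ht : Tendsto (fun y => y - x) (𝓝[≠] x) (𝓝[≠] 0) := by
    refine tendsto_nhdsWithin_iff.2 ⟨?_, ?_⟩
    · have : Tendsto (fun y => y - x) (𝓝 x) (𝓝 (x - x)) := by apply Continuous.tendsto; fun_prop
      rw [sub_self] at this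
      exact this.mono_left nhdsWithin_le_nhds
    · filter_upwards [self_mem_nhdsWithin] with y hy using sub_ne_zero.2 hy
  have hf : ∃ᶠ b in 𝓝[≠] (0 : ℂ), x + b ∈ w.Sp :=
    ht.frequently (hx.mono fun y hy => by simpa using hy.1)
  obtain ⟨e, he⟩ := w.exists_not_V x
  obtain ⟨δ, hδ, he'⟩ := w.not_V.1 he
  rcases frequently_or_distrib.1 (hf.mono fun b hb => w.sp_type hb) with h | h
  · obtain ⟨e', h⟩ := freq_exists h
    have h1 : ∀ i, i ≠ e' → w.V x i := fun i hi => w.V_closed (h.mono fun b hb => hb i hi)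
    obtain rfl : e = e' := by by_contra hne; exact he (h1 e hne)
    have h2 : ∀ y, (∀ i, i ≠ e → w.V y i) → ∀ᵐ u ∂sig, ∀ i, i ≠ e → ¬ w.C y u ⊆ {i} := by
      intro y hy
      refine ae_all_iff.2 fun i => ?_
      by_cases hi : i = e
      · exact Eventually.of_forall fun u h => (h hi).elim
      · exact (w.C_not_single (hy i hi)).mono fun u hu _ => hu
    exact w.no_accum hδ he' (Good := fun S => ∀ i, i ≠ e → ¬ S ⊆ {i}) (good4 e) (h2 x h1)
      (h.mono fun b hb => h2 _ hb)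
  · obtain ⟨⟨a, b, c⟩, h⟩ := freq_exists h
    obtain ⟨_, ⟨h1, h2, h3⟩, -⟩ := h.exists
    have e1 := w.EdgeU_closed (h.mono fun b hb => hb.2.1)
    have e2 := w.EdgeU_closed (h.mono fun b hb => hb.2.2.1)
    have e3 := w.EdgeU_closed (h.mono fun b hb => hb.2.2.2)
    exact w.no_accum hδ he' (Good := fun S => ¬ S ⊆ {a, b} ∧ ¬ S ⊆ {b, c} ∧ ¬ S ⊆ {a, c})
      (good3 h1 h2 h3 (fun h => he (h ▸ e1.V.1)) (fun h => he (h ▸ e1.V.2))
        (fun h => he (h ▸ e2.V.2))) (e1.C.and (e2.C.and e3.C))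
      (h.mono fun b hb => hb.2.1.C.and (hb.2.2.1.C.and hb.2.2.2.C))

end WCol

end Vale.Agent.P032
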