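import Mathlib

/-! Part B of P032: weak measurable five-colourings of the plane. Basic definitions. -/

open MeasureTheory Set Metric Filter Topology

namespace Vale.Agent.P032

/-- A weak measurable five-colouring of the plane. -/
structure WCol where
  c : ℂ → Fin 5
  meas : Measurable c
  prop : ∀ u : ℂ, ‖u‖ = 1 → ∀ᵐ x : ℂ, c x ≠ c (x + u)

/-- area of `S` inside the closed disc of centre `x` and radius `r` -/
noncomputable def mass (S : Set ℂ) (x : ℂ) (r : ℝ) : ℝ := volume.real (S ∩ closedBall x r)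

/-- `x` is a density point of `S` -/
def Dens (S : Set ℂ) (x : ℂ) : Prop :=
  ∀ η : ℝ, 0 < η → ∀ᶠ r in 𝓝[>] (0 : ℝ), mass Sᶜ x r ≤ η * r ^ 2

/-- colour class -/
def WCol.A (w : WCol) (i : Fin 5) : Set ℂ := {x | w.c x = i}

/-- density points of a colour class -/
def WCol.D (w : WCol) (i : Fin 5) : Set ℂ := {x | Dens (w.A i) x}

/-- points whose unit circle separates `k'` from `k` are density points of neither colour -/
def WCol.Lune (w : WCol) (p q : Fin 5) (k' k : ℂ) : Prop :=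
  ∀ y : ℂ, (‖y - k'‖ - 1) * (‖y - k‖ - 1) < 0 → y ∉ w.D p ∧ y ∉ w.D q

/-- near `x` only colours `a b c` occur, and no disc dominated by `a` (resp. `c`) meets `c`
(resp. `a`) in positive area -/
def WCol.Chart (w : WCol) (x : ℂ) (a b c : Fin 5) (δ : ℝ) : Prop :=
  0 < δ ∧ (∀ᵐ y : ℂ, y ∈ ball x δ → w.c y = a ∨ w.c y = b ∨ w.c y = c) ∧
  ∀ (z : ℂ) (r : ℝ), 0 < r → closedBall z r ⊆ ball x δ →
    (mass (w.A a)ᶜ z r ≤ δ * r ^ 2 → mass (w.A c) z r = 0) ∧
    (mass (w.A c)ᶜ z r ≤ δ * r ^ 2 → mass (w.A a) z r = 0)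

/-- special points: those without a chart -/
def WCol.Sp (w : WCol) : Set ℂ := {x | ¬ ∃ a b c δ, w.Chart x a b c δ}

lemma inter_closedBall_ne_top (S : Set ℂ) (x : ℂ) (r : ℝ) : volume (S ∩ closedBall x r) ≠ ⊤ :=
  ((measure_mono inter_subset_right).trans_lt measure_closedBall_lt_top).ne

lemma mass_nonneg (S : Set ℂ) (x : ℂ) (r : ℝ) : 0 ≤ mass S x r := measureReal_nonneg

lemma mass_univ (x : ℂ) {r : ℝ} (hr : 0 ≤ r) : mass univ x r = Real.pi * r ^ 2 := by
  simp only [mass, univ_inter, Measure.real, Complex.volume_closedBall]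
  rw [ENNReal.toReal_mul, ENNReal.toReal_pow, ENNReal.toReal_ofReal hr]
  simp [mul_comm]

lemma mass_mono_ae {S T : Set ℂ} {x x' : ℂ} {r r' : ℝ}
    (h : ∀ᵐ y : ℂ, y ∈ S → y ∈ closedBall x r → y ∈ T ∧ y ∈ closedBall x' r') :
    mass S x r ≤ mass T x' r' := by
  refine ENNReal.toReal_mono (inter_closedBall_ne_top _ _ _) (measure_mono_ae ?_)
  filter_upwards [h] with y hy hy'
  exact hy hy'.1 hy'.2

lemma mass_mono {S T : Set ℂ} {x x' : ℂ} {r r' : ℝ} (hST : S ⊆ T)
    (h : closedBall x r ⊆ closedBall x' r') : mass S x r ≤ mass T x' r' :=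
  mass_mono_ae (Eventually.of_forall fun _ hy hy' => ⟨hST hy, h hy'⟩)

lemma mass_le (S : Set ℂ) (x : ℂ) {r : ℝ} (hr : 0 ≤ r) : mass S x r ≤ Real.pi * r ^ 2 :=
  mass_univ x hr ▸ mass_mono (subset_univ _) subset_rfl

lemma mass_union_le (S T : Set ℂ) (x : ℂ) (r : ℝ) :
    mass (S ∪ T) x r ≤ mass S x r + mass T x r := by
  unfold mass
  rw [union_inter_distrib_right]
  exact measureReal_union_le _ _

lemma mass_add_compl {S : Set ℂ} (hS : MeasurableSet S) (x : ℂ) {r : ℝ} (hr : 0 ≤ r) :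
    mass S x r + mass Sᶜ x r = Real.pi * r ^ 2 := by
  rw [← mass_univ x hr]
  unfold mass
  rw [univ_inter, inter_comm S, inter_comm Sᶜ, ← sdiff_eq]
  exact measureReal_inter_add_sdiff hS measure_closedBall_lt_top.ne

lemma mass_eq_zero_iff {S : Set ℂ} {x : ℂ} {r : ℝ} :
    mass S x r = 0 ↔ volume (S ∩ closedBall x r) = 0 :=
  measureReal_eq_zero_iff (inter_closedBall_ne_top _ _ _)

lemma mass_eq_zero_iff_ae {S : Set ℂ} {x : ℂ} {r : ℝ} :
    mass S x r = 0 ↔ ∀ᵐ y : ℂ, y ∈ closedBall x r → y ∉ S := by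
  rw [mass_eq_zero_iff, measure_eq_zero_iff_ae_notMem]
  refine eventually_congr (Eventually.of_forall fun y => ?_)
  simp only [mem_inter_iff, not_and]
  tauto

lemma mass_translate (S : Set ℂ) (x u : ℂ) (r : ℝ) :
    mass S (x + u) r = mass ((fun y => y + u) ⁻¹' S) x r := by
  unfold mass Measure.real
  rw [← measure_preimage_add_right volume u (S ∩ closedBall (x + u) r)]
  congr 2
  ext y
  simp [mem_closedBall]

lemma Dens.mono_ae {S T : Set ℂ} {x : ℂ} (h : Dens S x) {δ : ℝ} (hδ : 0 < δ)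
    (hST : ∀ᵐ y : ℂ, y ∈ ball x δ → y ∈ S → y ∈ T) : Dens T x := by
  intro η hη
  have h1 : ∀ᶠ r in 𝓝[>] (0 : ℝ), r < δ := nhdsWithin_le_nhds (Iio_mem_nhds hδ)
  filter_upwards [h η hη, h1] with r hr hr1
  refine le_trans (mass_mono_ae ?_) hr
  filter_upwards [hST] with y hy hyT hyB
  exact ⟨fun hyS => hyT (hy (closedBall_subset_ball hr1 hyB) hyS), hyB⟩

lemma Dens.mono {S T : Set ℂ} {x : ℂ} (h : Dens S x) (hST : S ⊆ T) : Dens T x :=
  h.mono_ae one_pos (Eventually.of_forall fun _ _ hy => hST hy)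

lemma dens_univ (x : ℂ) : Dens univ x := by
  intro η hη
  filter_upwards [self_mem_nhdsWithin] with r hr
  simp only [mass, compl_univ, empty_inter, measureReal_empty]
  positivity

lemma dens_of_ae {S : Set ℂ} {x : ℂ} {δ : ℝ} (hδ : 0 < δ)
    (h : ∀ᵐ y : ℂ, y ∈ ball x δ → y ∈ S) : Dens S x :=
  (dens_univ x).mono_ae hδ (h.mono fun _ hy h1 _ => hy h1)

lemma Dens.inter {S T : Set ℂ} {x : ℂ} (hS : Dens S x) (hT : Dens T x) : Dens (S ∩ T) x := by
  intro η hη
  filter_upwards [hS (η / 2) (by positivity), hT (η / 2) (by positivity)] with r h1 h2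
  rw [compl_inter]
  linarith [mass_union_le Sᶜ Tᶜ x r]

lemma dens_biInter {ι : Type*} (s : Finset ι) {S : ι → Set ℂ} {x : ℂ}
    (h : ∀ i ∈ s, Dens (S i) x) : Dens (⋂ i ∈ s, S i) x := by
  classical
  induction s using Finset.induction_on with
  | empty => simpa using dens_univ x
  | insert a s _ ih =>
    rw [Finset.set_biInter_insert]
    exact (h a (Finset.mem_insert_self _ _)).inter
      (ih fun i hi => h i (Finset.mem_insert_of_mem hi))

lemma not_dens_empty (x : ℂ) : ¬ Dens ∅ x := by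
  intro h
  obtain ⟨r, hr, hr0⟩ := ((h 1 one_pos).and self_mem_nhdsWithin).exists
  rw [compl_empty, mass_univ x (le_of_lt hr0)] at hr
  have : (0 : ℝ) < r ^ 2 := pow_pos hr0 2
  nlinarith [Real.pi_gt_three]

/-- a density point of `S` has positive `S`-area in each neighbourhood -/
lemma Dens.not_ae_notMem {S : Set ℂ} {x : ℂ} (h : Dens S x) {δ : ℝ} (hδ : 0 < δ) :
    ¬ ∀ᵐ y : ℂ, y ∈ ball x δ → y ∉ S := fun h' =>
  not_dens_empty x (h.mono_ae hδ (h'.mono fun _ hy h1 h2 => (hy h1 h2).elim))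

lemma Dens.exists_mem {S N : Set ℂ} {x : ℂ} (h : Dens S x) {δ : ℝ} (hδ : 0 < δ)
    (hN : ∀ᵐ y : ℂ, y ∈ N) : ∃ y ∈ ball x δ, y ∈ S ∧ y ∈ N := by
  by_contra hc
  push Not at hc
  exact h.not_ae_notMem hδ (hN.mono fun y hy h1 h2 => hc y h1 h2 hy)

lemma Dens.translate {S : Set ℂ} {x u : ℂ} (h : Dens S (x + u)) :
    Dens ((fun y => y + u) ⁻¹' S) x := by
  intro η hη
  filter_upwards [h η hη] with r hr
  rwa [mass_translate] at hr

/-- Lebesgue density theorem -/
lemma ae_dens {S : Set ℂ} (hS : MeasurableSet S) : ∀ᵐ x : ℂ, x ∈ S → Dens S x := by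
  filter_upwards [Besicovitch.ae_tendsto_measure_inter_div_of_measurableSet volume hS.compl]
    with x hx hxS η hη
  rw [indicator_of_notMem (by simpa using hxS)] at hx
  have h1 := hx.eventually (gt_mem_nhds (show (0 : ENNReal) < ENNReal.ofReal (η / Real.pi) by
    simpa using div_pos hη Real.pi_pos))
  filter_upwards [h1, self_mem_nhdsWithin] with r hr hr0
  have hr0 : 0 < r := hr0
  have hB : volume (closedBall x r) ≠ 0 := (measure_closedBall_pos _ _ hr0).ne'
  have hB' : volume (closedBall x r) ≠ ⊤ := measure_closedBall_lt_top.ne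
  rw [ENNReal.div_lt_iff (Or.inl hB) (Or.inl hB')] at hr
  have h2 := ENNReal.toReal_mono (ENNReal.mul_ne_top ENNReal.ofReal_ne_top hB') hr.le
  rw [ENNReal.toReal_mul, ENNReal.toReal_ofReal (by positivity)] at h2
  have h3 := mass_univ x hr0.le
  simp only [mass, univ_inter, Measure.real] at h3
  rw [h3] at h2
  have : η / Real.pi * (Real.pi * r ^ 2) = η * r ^ 2 := by field_simp
  rw [this] at h2
  exact h2

namespace WCol

variable (w : WCol)

lemma measA (i : Fin 5) : MeasurableSet (w.A i) := w.meas (measurableSet_singleton i)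

lemma mem_A {i : Fin 5} {x : ℂ} : x ∈ w.A i ↔ w.c x = i := Iff.rfl

lemma ae_D : ∀ᵐ x : ℂ, x ∈ w.D (w.c x) := by
  have : ∀ᵐ x : ℂ, ∀ i, x ∈ w.A i → Dens (w.A i) x :=
    ae_all_iff.2 fun i => ae_dens (w.measA i)
  filter_upwards [this] with x hx using hx _ rfl

lemma D_unique {i j : Fin 5} {x : ℂ} (hi : x ∈ w.D i) (hj : x ∈ w.D j) : i = j := by
  by_contra hij
  refine not_dens_empty x ((Dens.inter hi hj).mono ?_)
  rintro y ⟨h1, h2⟩
  exact hij (h1.symm.trans h2)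

/-- the basic inequality -/
lemma mass_le_compl (i : Fin 5) (x : ℂ) {u : ℂ} (hu : ‖u‖ = 1) (r : ℝ) :
    mass (w.A i) (x + u) r ≤ mass (w.A i)ᶜ x r := by
  rw [mass_translate]
  refine mass_mono_ae ?_
  filter_upwards [w.prop u hu] with y hy h1 h2
  exact ⟨fun h3 => hy (h3.trans h1.symm), h2⟩

lemma D_indep {i : Fin 5} {x y : ℂ} (hxy : ‖y - x‖ = 1) (hx : x ∈ w.D i) : y ∉ w.D i := by
  intro hy
  have hy' : Dens (w.A i) (x + (y - x)) := by rw [add_sub_cancel]; exact hy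
  refine not_dens_empty x ((Dens.inter hx hy'.translate).mono_ae one_pos ?_)
  filter_upwards [w.prop _ hxy] with z hz _ h
  exact hz (h.1.trans h.2.symm)

lemma mem_D_of_ae {i : Fin 5} {x : ℂ} {δ : ℝ} (hδ : 0 < δ)
    (h : ∀ᵐ y : ℂ, y ∈ ball x δ → w.c y = i) : x ∈ w.D i := dens_of_ae hδ h

lemma Lune.symm {w : WCol} {p q : Fin 5} {k' k : ℂ} (h : w.Lune p q k' k) : w.Lune q p k' k :=
  fun y hy => (h y hy).symm

end WCol

end Vale.Agent.P032
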