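import Vale.Agent.P032.GFour

/-! Module G of P032: no triangle and no four-cycle of lunes at a point. -/

open Set Metric Filter Topology Complex

namespace Vale.Agent.P032.G

/-- lunes in the point system based at the origin -/
def PS.Lun (P : PS) (p q : Fin 5) (k : ℂ) : Prop :=
  ∀ y : ℂ, (‖y‖ - 1) * (‖y - k‖ - 1) < 0 → y ∉ P.D p ∧ y ∉ P.D q

lemma lun_ofW {w : WCol} {p q : Fin 5} {x k : ℂ} (h : w.Lune p q x k) :
    (ofW w x).Lun p q (k - x) := by
  intro y hy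
  refine h (x + y) ?_
  rwa [add_sub_cancel_left, show x + y - k = y - (k - x) by ring]

open Classical in
/-- the sign of a unit vector with respect to `k` -/
noncomputable def sg (k u : ℂ) : Bool := decide (‖u - k‖ < 1)

lemma sg_ev {k u : ℂ} (h : ‖u - k‖ ≠ 1) : ∀ᶠ v in 𝓝 u, sg k v = sg k u ∧ ‖v - k‖ ≠ 1 := by
  have hc : Tendsto (fun v => ‖v - k‖) (𝓝 u) (𝓝 ‖u - k‖) :=
    (by fun_prop : Continuous fun v : ℂ => ‖v - k‖).tendsto u
  rcases lt_or_gt_of_ne h with h1 | h1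
  · filter_upwards [hc.eventually (gt_mem_nhds h1)] with v hv
    exact ⟨by simp [sg, hv, h1], hv.ne⟩
  · filter_upwards [hc.eventually (lt_mem_nhds h1)] with v hv
    exact ⟨by simp [sg, not_lt.2 hv.le, not_lt.2 h1.le], hv.ne'⟩

lemma PS.Lun.side {P : PS} {p q : Fin 5} {k u : ℂ} (h : P.Lun p q k) (hu : ‖u - k‖ ≠ 1) :
    P.Side u (sg k u) fun i => i ≠ p ∧ i ≠ q := by
  filter_upwards [sg_ev hu] with y ⟨h1, h2⟩ hs i hi
  have : (‖y‖ - 1) * (‖y - k‖ - 1) < 0 := by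
    rw [← h1] at hs
    by_cases h3 : ‖y - k‖ < 1
    · have : 1 < ‖y‖ := by simpa [G.side, sg, h3] using hs
      exact mul_neg_of_pos_of_neg (by linarith) (by linarith)
    · have : ‖y‖ < 1 := by simpa [G.side, sg, h3] using hs
      have h4 : 1 < ‖y - k‖ := lt_of_le_of_ne (not_lt.1 h3) (Ne.symm h2)
      exact mul_neg_of_neg_of_pos (by linarith) (by linarith)
  exact ⟨fun e => (h y this).1 (e ▸ hi), fun e => (h y this).2 (e ▸ hi)⟩

lemma sg_anti {k u : ℂ} (hu : ‖u‖ = 1) (h1 : sg k u = true) (h2 : sg k (-u) = true) : False := by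
  simp only [sg, decide_eq_true_eq] at h1 h2
  have : ‖(u - k) - (-u - k)‖ < 2 := (norm_sub_le _ _).trans_lt (by linarith)
  rw [show (u - k) - (-u - k) = 2 * u by ring] at this
  simp [hu] at this

lemma not_special {n : ℕ} {k : Fin n → ℂ} {u : ℂ} (hu : ‖u‖ = 1) (h : u ∉ ⋃ e, Spc (k e)) (e : Fin n) :
    ‖u - k e‖ ≠ 1 := fun h' => h (mem_iUnion.2 ⟨e, hu, h'⟩)

lemma PS.no_tri (P : PS) (k : Fin 3 → ℂ) (hk : ∀ e, 0 < ‖k e‖ ∧ ‖k e‖ < 1) {a b c : Fin 5}
    (hab : a ≠ b) (hbc : b ≠ c) (hac : a ≠ c) (l0 : P.Lun a b (k 0)) (l1 : P.Lun b c (k 1))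
    (l2 : P.Lun c a (k 2)) : False := by
  have hpq : ∀ a b c : Fin 5, a ≠ b → b ≠ c → a ≠ c →
      ∃ p q : Fin 5, ∀ i, i ≠ a → i ≠ b → i ≠ c → i = p ∨ i = q := by decide +kernel
  obtain ⟨p, q, h⟩ := hpq a b c hab hbc hac
  refine P.two_colour (finite_iUnion fun e => Spc_finite (hk e).1)
    (exists_nonspecial (by norm_num) k hk) (p := p) (q := q) fun u hu hF => ?_
  have s0 := l0.side (not_special hu hF 0)
  have s1 := l1.side (not_special hu hF 1)
  have s2 := l2.side (not_special hu hF 2)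
  have : sg (k 0) u = sg (k 1) u ∨ sg (k 1) u = sg (k 2) u ∨ sg (k 0) u = sg (k 2) u := by
    cases sg (k 0) u <;> cases sg (k 1) u <;> cases sg (k 2) u <;> simp
  rcases this with e | e | e
  · rw [← e] at s1
    exact ⟨_, (s0.and s1).mono fun i hi => h i hi.1.1 hi.1.2 hi.2.2⟩
  · rw [← e] at s2
    exact ⟨_, (s1.and s2).mono fun i hi => h i hi.2.2 hi.1.1 hi.1.2⟩
  · rw [← e] at s2
    exact ⟨_, (s0.and s2).mono fun i hi => h i hi.1.1 hi.1.2 hi.2.1⟩

/-- the two mixed sign types -/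
def ty (t x0 x1 x2 x3 : Bool) : Prop :=
  x2 = !x0 ∧ x3 = !x1 ∧ x1 = (if t then x0 else !x0)

instance (t x0 x1 x2 x3 : Bool) : Decidable (ty t x0 x1 x2 x3) := by unfold ty; infer_instance

lemma ty_excl : ∀ t x0 x1 x2 x3 : Bool, ty t x0 x1 x2 x3 → ¬ ty (!t) x0 x1 x2 x3 := by decide

lemma ty_none : ∀ x0 x1 x2 x3 : Bool, (∀ t, ¬ ty t x0 x1 x2 x3) → x0 = x2 ∨ x1 = x3 := by decide

lemma ty_anti : ∀ t x0 x1 x2 x3 : Bool, ty t x0 x1 x2 x3 → ∀ y0 y1 y2 y3 : Bool,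
    ty (!t) y0 y1 y2 y3 → (x0 = true ∧ y0 = true) ∨ (x1 = true ∧ y1 = true) ∨
      (x2 = true ∧ y2 = true) ∨ (x3 = true ∧ y3 = true) := by decide

lemma ty_true : ∀ x0 x1 x2 x3 : Bool, ty true x0 x1 x2 x3 → x0 = x1 ∧ x2 = x3 := by decide

lemma ty_false : ∀ x0 x1 x2 x3 : Bool, ty false x0 x1 x2 x3 → x0 = x3 ∧ x1 = x2 := by decide

lemma PS.no_four (P : PS) (k : Fin 4 → ℂ) (hk : ∀ e, 0 < ‖k e‖ ∧ ‖k e‖ < 1) {a b c d : Fin 5}
    (hab : a ≠ b) (hac : a ≠ c) (had : a ≠ d) (hbc : b ≠ c) (hbd : b ≠ d) (hcd : c ≠ d)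
    (l0 : P.Lun a b (k 0)) (l1 : P.Lun b c (k 1)) (l2 : P.Lun c d (k 2)) (l3 : P.Lun d a (k 3)) :
    False := by
  have he : ∀ a b : Fin 5, a ≠ b → ∀ c, a ≠ c → b ≠ c → ∀ d, a ≠ d → b ≠ d → c ≠ d →
      ∃ e : Fin 5, ∀ i, i = e ∨ i = a ∨ i = b ∨ i = c ∨ i = d := by decide +kernel
  obtain ⟨e, h⟩ := he a b hab c hac hbc d had hbd hcd
  refine Four.false_of (P := P)
    { e := e
      c := fun t i => if t then (if i then b else d) else (if i then a else c)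
      cover := ?_
      F := ⋃ e, Spc (k e)
      fin := finite_iUnion fun e => Spc_finite (hk e).1
      orb := exists_nonspecial (by norm_num) k hk
      T := fun t u => ty t (sg (k 0) u) (sg (k 1) u) (sg (k 2) u) (sg (k 3) u)
      excl := fun t u => ty_excl _ _ _ _ _
      loc := ?_
      sideT := ?_
      sideE := ?_
      anti := ?_ }
  · intro j
    rcases h j with h | h | h | h | h
    · exact Or.inl h
    · exact Or.inr ⟨false, true, h⟩
    · exact Or.inr ⟨true, true, h⟩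
    · exact Or.inr ⟨false, false, h⟩
    · exact Or.inr ⟨true, false, h⟩
  · intro t u hu hF
    filter_upwards [sg_ev (not_special hu hF 0), sg_ev (not_special hu hF 1),
      sg_ev (not_special hu hF 2), sg_ev (not_special hu hF 3)] with v a0 a1 a2 a3
    rw [a0.1, a1.1, a2.1, a3.1]
  · intro t u hu hF hT i
    have s0 := l0.side (not_special hu hF 0)
    have s1 := l1.side (not_special hu hF 1)
    have s2 := l2.side (not_special hu hF 2)
    have s3 := l3.side (not_special hu hF 3)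
    cases t
    · obtain ⟨e1, e2⟩ := ty_false _ _ _ _ hT
      rw [← e1] at s3
      rw [← e2] at s2
      cases i
      · exact ⟨_, (s0.and s3).mono fun j hj => by have := h j; simp only [Bool.false_eq_true, if_false]; tauto⟩
      · exact ⟨_, (s1.and s2).mono fun j hj => by have := h j; simp only [Bool.false_eq_true, if_false, if_true]; tauto⟩
    · obtain ⟨e1, e2⟩ := ty_true _ _ _ _ hT
      rw [← e1] at s1
      rw [← e2] at s3
      cases i
      · exact ⟨_, (s0.and s1).mono fun j hj => by have := h j; simp only [Bool.false_eq_true, if_false, if_true]; tauto⟩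
      · exact ⟨_, (s2.and s3).mono fun j hj => by have := h j; simp only [if_true]; tauto⟩
  · intro u hu hF hT
    have s0 := l0.side (not_special hu hF 0)
    have s1 := l1.side (not_special hu hF 1)
    have s2 := l2.side (not_special hu hF 2)
    have s3 := l3.side (not_special hu hF 3)
    rcases ty_none _ _ _ _ hT with e1 | e1
    · rw [← e1] at s2
      exact ⟨_, (s0.and s2).mono fun j hj => by have := h j; tauto⟩
    · rw [← e1] at s3
      exact ⟨_, (s1.and s3).mono fun j hj => by have := h j; tauto⟩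
  · intro t u hu h1 h2
    rcases ty_anti _ _ _ _ _ h1 _ _ _ _ h2 with h | h | h | h <;> exact sg_anti hu h.1 h.2

end Vale.Agent.P032.G

namespace Vale.Agent.P032

theorem no_triangle (w : WCol) (x k1 k2 k3 : ℂ) (a b c : Fin 5) (hab : a ≠ b) (hbc : b ≠ c)
    (hac : a ≠ c) (h1 : 0 < ‖k1 - x‖ ∧ ‖k1 - x‖ < 1) (h2 : 0 < ‖k2 - x‖ ∧ ‖k2 - x‖ < 1)
    (h3 : 0 < ‖k3 - x‖ ∧ ‖k3 - x‖ < 1) (l1 : w.Lune a b x k1) (l2 : w.Lune b c x k2)
    (l3 : w.Lune c a x k3) : False :=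
  (G.ofW w x).no_tri ![k1 - x, k2 - x, k3 - x] (fun e => by fin_cases e <;> assumption)
    hab hbc hac (G.lun_ofW l1) (G.lun_ofW l2) (G.lun_ofW l3)

theorem no_fourcycle (w : WCol) (x k1 k2 k3 k4 : ℂ) (a b c d : Fin 5) (hab : a ≠ b) (hac : a ≠ c)
    (had : a ≠ d) (hbc : b ≠ c) (hbd : b ≠ d) (hcd : c ≠ d)
    (h1 : 0 < ‖k1 - x‖ ∧ ‖k1 - x‖ < 1) (h2 : 0 < ‖k2 - x‖ ∧ ‖k2 - x‖ < 1)
    (h3 : 0 < ‖k3 - x‖ ∧ ‖k3 - x‖ < 1) (h4 : 0 < ‖k4 - x‖ ∧ ‖k4 - x‖ < 1)
    (l1 : w.Lune a b x k1) (l2 : w.Lune b c x k2) (l3 : w.Lune c d x k3) (l4 : w.Lune d a x k4) :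
    False :=
  (G.ofW w x).no_four ![k1 - x, k2 - x, k3 - x, k4 - x] (fun e => by fin_cases e <;> assumption)
    hab hac had hbc hbd hcd (G.lun_ofW l1) (G.lun_ofW l2) (G.lun_ofW l3) (G.lun_ofW l4)

end Vale.Agent.P032
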