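import Vale.Agent.P032.T3

/-! A special point where three or four colours meet cyclically. -/

open MeasureTheory Set Metric Filter Topology Relation Complex

namespace Vale.Agent.P032.TT

variable {w : WCol}

/-- the three sides of the square -/
def Side (a : ℝ) (s : Fin 3) (v : ℂ) : Prop := v ∈ Icc a (a + 3) ×ℂ Icc a (a + 3) ∧
  if s = 0 then v.re = a else if s = 1 then v.im = a else v.re = a + 3 ∨ v.im = a + 3

lemma sides {a : ℝ} {u v t : ℂ} (hu : Side a 0 u) (hv : Side a 1 v) (ht : Side a 2 t)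
    (h1 : ‖v - u‖ ≤ 5 / 4) (h2 : ‖t - u‖ ≤ 5 / 4) : False := by
  have a1 := abs_le.1 ((abs_im_le_norm _).trans h1)
  have a2 := abs_le.1 ((abs_im_le_norm _).trans h2)
  have a3 := abs_le.1 ((abs_re_le_norm _).trans h2)
  have b1 : u.re = a := hu.2
  have b2 : v.im = a := hv.2
  have b3 : t.re = a + 3 ∨ t.im = a + 3 := ht.2
  simp only [sub_im, sub_re] at a1 a2 a3
  rcases b3 with b | b <;> linarith [a1.1, a2.2, a3.2]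

lemma scale {a ρ r τ ε : ℝ} {N : ℕ} {F : Set ℂ} {ℓ : ℂ → Fin 5} (hN : N * ε = 3) (e0 : 0 < ε)
    (e1 : 2 * ε ≤ r) (hr : 2 * r < ρ)
    (f1 : ∀ x ∈ F, ∀ s v, Side a s v → ρ ≤ ‖v - x‖)
    (f2 : ∀ x ∈ F, ∀ y ∈ F, y ≠ x → 2 * ρ < ‖y - x‖) {K : Set ℂ}
    (hK : K = (Icc a (a + 3) ×ℂ Icc a (a + 3)) \ ⋃ x ∈ F, ball x r)
    (l1 : ∀ z ∈ K, τ * ε ^ 2 ≤ mass (w.A (ℓ z)) z (12 * ε))
    (l2 : ∀ z₁ ∈ K, ∀ z₂ ∈ K, ∀ z₃ ∈ K, ‖z₂ - z₁‖ ≤ 2 * ε → ‖z₃ - z₁‖ ≤ 2 * ε → ‖z₃ - z₂‖ ≤ 2 * ε →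
      ℓ z₁ = ℓ z₂ ∨ ℓ z₂ = ℓ z₃ ∨ ℓ z₁ = ℓ z₃)
    (hB : ∀ c, ∀ k' ∈ Icc a (a + 3) ×ℂ Icc a (a + 3), Good w τ ε c k' →
      ∀ k, ReflTransGen (Jmp w F r τ ε c) k' k → ‖k - k'‖ ≤ 5 / 4) :
    ∃ x ∈ F, ∃ n : Fin 5 → Fin 5 → ZMod 2, (∀ a, n a a = 0) ∧ (∀ a b, n a b = n b a) ∧
      (∀ a, ∑ b, n a b = 0) ∧ (∃ a b, n a b ≠ 0) ∧ ∀ a b, n a b ≠ 0 → ∃ k' k, ‖k' - x‖ ≤ 2 * r ∧
        ρ ≤ ‖k - x‖ ∧ ‖k - x‖ ≤ 2 * ρ ∧ (Good w τ ε a k ∧ Good w τ ε b k) ∧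
        ReflTransGen (fun u v => ‖v - u‖ ≤ 2 * ε ∧ Good w τ ε a v ∧ Good w τ ε b v) k' k := by
  classical
  let p : ℕ → ℕ → ℂ := fun i j => ⟨a + i * ε, a + j * ε⟩
  have pI : ∀ i ≤ N, a + i * ε ∈ Icc a (a + 3) := fun i hi => by
    have : (i : ℝ) * ε ≤ N * ε := by gcongr
    exact ⟨by linarith [mul_nonneg i.cast_nonneg e0.le], by linarith⟩
  have pQ : ∀ i ≤ N, ∀ j ≤ N, p i j ∈ Icc a (a + 3) ×ℂ Icc a (a + 3) :=
    fun i hi j hj => ⟨pI i hi, pI j hj⟩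
  have s0 : ∀ i ≤ N, Side a 0 (p 0 i) := fun i hi => ⟨pQ _ N.zero_le _ hi, by simp [p]⟩
  have s1 : ∀ i ≤ N, Side a 1 (p i 0) := fun i hi => ⟨pQ _ hi _ N.zero_le, by simp [p]⟩
  have s2 : ∀ i ≤ N, Side a 2 (p N i) := fun i hi => ⟨pQ _ le_rfl _ hi, by simp [p, hN]⟩
  have s3 : ∀ i ≤ N, Side a 2 (p i N) := fun i hi => ⟨pQ _ hi _ le_rfl, by simp [p, hN]⟩
  have hd : ∀ c z z', Cor p c z → Cor p c z' → ‖z' - z‖ ≤ 2 * ε := fun c z z' h h' => by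
    refine (norm_le_abs_re_add_abs_im _).trans ?_
    rcases h with rfl | rfl | rfl | rfl <;> rcases h' with rfl | rfl | rfl | rfl <;>
      simp [p, add_mul, abs_of_pos e0] <;> linarith
  have gd : ∀ z ∈ K, ∀ v, ‖v - z‖ ≤ 2 * ε → Good w τ ε (ℓ z) v := fun z hz v d =>
    (l1 z hz).trans (mass_mono subset_rfl (cb_sub' (mem_closedBall_iff_norm.2 d) (by linarith)))
  have hg : ∀ c : ℕ × ℕ, ∃ o : Option ℂ, c ∈ Finset.range N ×ˢ Finset.range N →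
      (o = none → ∀ z, Cor p c z → z ∈ K) ∧
      ∀ x, o = some x → x ∈ F ∧ ∀ z, Cor p c z → ‖z - x‖ ≤ 2 * r := fun c => by
    by_cases h : ∃ x ∈ F, ∃ z, Cor p c z ∧ z ∈ ball x r
    · obtain ⟨x, h1, z, h2, h3⟩ := h
      refine ⟨some x, fun _ => ⟨by simp, ?_⟩⟩
      rintro _ ⟨⟩
      refine ⟨h1, fun z' h4 => ?_⟩
      linarith [norm_sub_le_norm_sub_add_norm_sub z' z x, hd c _ _ h2 h4, mem_ball_iff_norm.1 h3]
    · refine ⟨none, fun hc => ⟨fun _ z hz => hK ▸ ⟨?_, fun q => ?_⟩, by simp⟩⟩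
      · simp only [Finset.mem_product, Finset.mem_range] at hc
        rcases hz with rfl | rfl | rfl | rfl <;> exact pQ _ (by omega) _ (by omega)
      · obtain ⟨x, h1, h2⟩ := mem_iUnion₂.1 q
        exact h ⟨x, h1, z, hz, h2⟩
  choose g hg using hg
  let B : ℂ → ℂ → Prop := fun u v => ℓ u = ℓ v ∧ ((u ∈ K ∧ v ∈ K ∧ ‖v - u‖ ≤ 2 * ε) ∨
    ∃ x ∈ F, ‖u - x‖ ≤ 2 * r ∧ ‖v - x‖ ≤ 2 * r)
  have Bs : ∀ u v, B u v → B v u := fun u v h => ⟨h.1.symm, h.2.imp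
    (fun q => ⟨q.2.1, q.1, (norm_sub_rev _ _).trans_le q.2.2⟩) fun ⟨x, q⟩ => ⟨x, q.1, q.2.2, q.2.1⟩⟩
  have Bs' : ∀ u v, ReflTransGen B u v → ReflTransGen B v u := fun u v h => by
    induction h with
    | refl => rfl
    | tail _ s ih => exact ih.head (Bs _ _ s)
  have BJ : ∀ u v, ReflTransGen B u v → ℓ u = ℓ v ∧ ReflTransGen (Jmp w F r τ ε (ℓ u)) u v :=
    fun u v h => by
      induction h with
      | refl => exact ⟨rfl, .refl⟩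
      | tail _ s ih =>
        exact ⟨ih.1.trans s.1, ih.2.tail (s.2.imp (fun q => ⟨q.2.2, ih.1 ▸ gd _ q.1 _ q.2.2⟩) id)⟩
  let γ : ℂ → Fin 3 := fun z => Classical.epsilon fun s => ∀ v, ReflTransGen B z v → ¬ Side a s v
  have γ1 : ∀ z s, Side a s z → γ z ≠ s := fun z s h q => by
    refine Classical.epsilon_spec (p := fun s => ∀ v, ReflTransGen B z v → ¬ Side a s v) ?_ z .refl
      (q ▸ h : Side a (γ z) z)
    by_contra q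
    push Not at q
    obtain ⟨u, u1, u2⟩ := q 0
    obtain ⟨v, v1, v2⟩ := q 1
    obtain ⟨t, t1, t2⟩ := q 2
    have uK : u ∈ K := hK ▸ ⟨u2.1, fun q => by
      obtain ⟨x, h1, h2⟩ := mem_iUnion₂.1 q
      linarith [f1 x h1 _ _ u2, mem_ball_iff_norm.1 h2]⟩
    have := hB _ u u2.1 (gd u uK u (by simp; linarith))
    exact sides u2 v2 t2 (this _ (BJ _ _ ((Bs' _ _ u1).trans v1)).2)
      (this _ (BJ _ _ ((Bs' _ _ u1).trans t1)).2)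
  have γ2 : ∀ u v, B u v → γ u = γ v := fun u v h => by
    have : ReflTransGen B u = ReflTransGen B v :=
      funext fun t => propext ⟨fun q => q.head (Bs _ _ h), fun q => q.head h⟩
    simp only [γ, this]
  have h1 : ∀ c ∈ Finset.range N ×ˢ Finset.range N, g c = none → ∀ z₁ z₂ z₃, Cor p c z₁ →
      Cor p c z₂ → Cor p c z₃ → ℓ z₁ = ℓ z₂ ∨ ℓ z₂ = ℓ z₃ ∨ ℓ z₁ = ℓ z₃ :=
    fun c hc q z₁ z₂ z₃ a1 a2 a3 => l2 _ ((hg c hc).1 q _ a1) _ ((hg c hc).1 q _ a2) _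
      ((hg c hc).1 q _ a3) (hd c _ _ a1 a2) (hd c _ _ a1 a3) (hd c _ _ a2 a3)
  obtain ⟨x, i, j, hx⟩ := parity N p ℓ γ g (fun i hi => γ1 _ _ (s0 i hi))
    (fun i hi => γ1 _ _ (s1 i hi)) (fun i hi => γ1 _ _ (s2 i hi)) (fun i hi => γ1 _ _ (s3 i hi)) h1
    fun c hc c' hc' q q' z z' hz hz' e => γ2 _ _ ⟨e, by
      rcases e' : g c with _ | x
      · cases q' e'
        exact Or.inl ⟨(hg c hc).1 e' _ hz, (hg c hc).1 e' _ hz', hd c _ _ hz hz'⟩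
      · exact Or.inr ⟨x, ((hg c hc).2 x e').1, ((hg c hc).2 x e').2 _ hz,
          ((hg c' hc').2 x (q ▸ e')).2 _ hz'⟩⟩
  have xF : x ∈ F := by
    obtain ⟨c, hc, -⟩ := Finset.exists_ne_zero_of_sum_ne_zero hx
    exact ((hg c (Finset.mem_filter.1 hc).1).2 x (Finset.mem_filter.1 hc).2).1
  refine ⟨x, xF, fun i j => ∑ c ∈ Finset.range N ×ˢ Finset.range N with g c = some x,
    curl p (fun u v => om i j (ℓ u) (ℓ v)) c, fun i => ?_, fun i j => ?_, fun i => ?_, ⟨i, j, hx⟩,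
    fun i j h => escape (ℓ := ℓ) (a := i) (b := j) (fun i hi => ⟨f1 x xF _ _ (s0 i hi), f1 x xF _ _ (s1 i hi),
      f1 x xF _ _ (s2 i hi), f1 x xF _ _ (s3 i hi)⟩) hd h1 (fun c hc q z₁ z₂ z₃ a1 a2 a3 b1 b2 =>
      ⟨b1 ▸ gd _ ((hg c hc).1 q _ a1) _ (hd c _ _ a1 a3),
        b2 ▸ gd _ ((hg c hc).1 q _ a2) _ (hd c _ _ a2 a3)⟩) (fun c hc q => ((hg c hc).2 x q).2)
      (fun c hc y hy q z hz => ?_) hr (by linarith) h⟩
  · have : ∀ s t, om i i s t = 0 := by revert i; decide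
    simp [curl, this]
  · have : ∀ s t, om i j s t = om j i s t := by revert i j; decide
    simp only [this]
  · rw [Finset.sum_comm]; exact Finset.sum_eq_zero fun c _ => row_sum _ _ _ _
  · have := norm_sub_le_norm_sub_add_norm_sub y z x
    rw [norm_sub_rev y z] at this
    linarith [f2 x xF y ((hg c hc).2 y q).1 hy, ((hg c hc).2 y q).2 z hz]

end Vale.Agent.P032.TT

namespace Vale.Agent.P032

open TT

theorem topo (w : WCol) (hfin : ∀ R, (w.Sp ∩ closedBall 0 R).Finite)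
    (habs : ∀ x, ∃ e δ, 0 < δ ∧ ∀ᵐ y : ℂ, y ∈ ball x δ → w.c y ≠ e) :
    ∃ x : ℂ, (∃ (a b c : Fin 5) (k1 k2 k3 : ℂ), a ≠ b ∧ b ≠ c ∧ a ≠ c ∧
      (0 < ‖k1 - x‖ ∧ ‖k1 - x‖ < 1) ∧ (0 < ‖k2 - x‖ ∧ ‖k2 - x‖ < 1) ∧ (0 < ‖k3 - x‖ ∧ ‖k3 - x‖ < 1) ∧
      w.Lune a b x k1 ∧ w.Lune b c x k2 ∧ w.Lune c a x k3) ∨
    ∃ (a b c d : Fin 5) (k1 k2 k3 k4 : ℂ), a ≠ b ∧ a ≠ c ∧ a ≠ d ∧ b ≠ c ∧ b ≠ d ∧ c ≠ d ∧
      (0 < ‖k1 - x‖ ∧ ‖k1 - x‖ < 1) ∧ (0 < ‖k2 - x‖ ∧ ‖k2 - x‖ < 1) ∧ (0 < ‖k3 - x‖ ∧ ‖k3 - x‖ < 1) ∧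
      (0 < ‖k4 - x‖ ∧ ‖k4 - x‖ < 1) ∧
      w.Lune a b x k1 ∧ w.Lune b c x k2 ∧ w.Lune c d x k3 ∧ w.Lune d a x k4 := by
  choose e δ δ0 he using habs
  obtain ⟨a, ⟨a0, a1⟩, ha⟩ := (Ioo_infinite (show (0 : ℝ) < 1 by norm_num)).exists_notMem_finite
    ((hfin 10).biUnion (t := fun x => {x.re, x.im, x.re - 3, x.im - 3}) fun _ _ => toFinite _)
  have hQ : IsCompact (Icc a (a + 3) ×ℂ Icc a (a + 3)) := isCompact_Icc.reProdIm isCompact_Icc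
  set F := w.Sp ∩ (Icc a (a + 3) ×ℂ Icc a (a + 3)) with hF
  have sF : F ⊆ w.Sp ∩ closedBall 0 10 := fun x ⟨h, ⟨h1, h2⟩, h3, h4⟩ => ⟨h, by
    rw [mem_closedBall_zero_iff]
    refine (norm_le_abs_re_add_abs_im _).trans ?_
    rw [abs_of_pos (a0.trans_le h1), abs_of_pos (a0.trans_le h3)]; linarith⟩
  have fF := (hfin 10).subset sF
  have r1 : ∀ᶠ ρ in 𝓝[>] (0 : ℝ), ∀ x ∈ F, (∀ s v, Side a s v → ρ ≤ ‖v - x‖) ∧ 3 * ρ < δ x ∧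
      ∀ y ∈ F, y ≠ x → 2 * ρ < ‖y - x‖ := fF.eventually_all.2 fun x hx => by
    have n : ∀ t ∈ ({x.re, x.im, x.re - 3, x.im - 3} : Set ℝ), 0 < |a - t| := fun t ht =>
      abs_pos.2 fun q => ha (mem_biUnion (sF hx) (sub_eq_zero.1 q ▸ ht))
    refine Eventually.and ?_ ((ev_lt (δ0 x) 3).and (fF.eventually_all.2 fun y _ => ?_))
    · filter_upwards [ev_lt (n x.re (by simp)) 1, ev_lt (n x.im (by simp)) 1,
        ev_lt (n (x.re - 3) (by simp)) 1, ev_lt (n (x.im - 3) (by simp)) 1] with ρ b1 b2 b3 b4 s v h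
      have c1 := abs_re_le_norm (v - x)
      have c2 := abs_im_le_norm (v - x)
      have := h.2
      rw [← sub_add, sub_add_eq_add_sub] at b3 b4
      rw [sub_re] at c1; rw [sub_im] at c2
      split_ifs at this
      · rw [this] at c1; linarith
      · rw [this] at c2; linarith
      · rcases this with q | q
        · rw [q] at c1; linarith
        · rw [q] at c2; linarith
    · by_cases q : y = x
      · simp [q]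
      · exact (ev_lt (norm_pos_iff.2 (sub_ne_zero.2 q)) 2).mono fun _ h _ => h
  obtain ⟨ρ, ⟨f, ρ1⟩, (ρ0 : 0 < ρ)⟩ :=
    ((r1.and (ev_lt one_pos 2)).and self_mem_nhdsWithin).exists
  have r2 : ∀ᶠ r in 𝓝[>] (0 : ℝ), ∀ x ∈ F, ∀ i j, ∀ τ, 0 < τ → ∀ᶠ ε in 𝓝[>] (0 : ℝ),
      (∀ k ∈ closedBall x (2 * ρ) \ ball x ρ, ¬ w.Lune i j x k) →
      ∀ k ∈ closedBall x (2 * ρ) \ ball x ρ, ∀ k', ‖k' - x‖ ≤ 2 * r →
        ¬ ReflTransGen (fun u v => ‖v - u‖ ≤ 2 * ε ∧ Good w τ ε i v ∧ Good w τ ε j v) k' k :=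
    fF.eventually_all.2 fun x _ => eventually_all.2 fun i => eventually_all.2 fun j => by
      by_cases q : ∀ k ∈ closedBall x (2 * ρ) \ ball x ρ, ¬ w.Lune i j x k
      · exact (no_chain ((isCompact_closedBall _ _).diff isOpen_ball) q).mono
          fun r h τ hτ => (h τ hτ).mono fun ε h _ => h
      · exact .of_forall fun _ _ _ => .of_forall fun _ h => (q h).elim
  obtain ⟨r, ⟨⟨g1, g2⟩, g3⟩, (r0 : 0 < r)⟩ :=
    (((r2.and (bounded (w := w) fF hQ)).and (ev_lt ρ0 2)).and self_mem_nhdsWithin).exists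
  obtain ⟨τ, τ0, hl⟩ := labelling (w := w) (hQ.diff (isOpen_biUnion fun x (_ : x ∈ F) =>
    isOpen_ball (x := x) (ε := r))) fun z hz q => hz.2 (mem_biUnion ⟨q, hz.1⟩ (mem_ball_self r0))
  have t : Tendsto (fun N : ℕ => (3 / N : ℝ)) atTop (𝓝[>] 0) :=
    tendsto_nhdsWithin_iff.2 ⟨tendsto_const_div_atTop_nhds_zero_nat 3,
      (eventually_gt_atTop 0).mono fun N h => (by positivity : (0 : ℝ) < 3 / N)⟩
  obtain ⟨N, ⟨⟨⟨⟨⟨ℓ, l1, l2⟩, b1⟩, b2⟩, b3⟩, b4⟩, N0⟩ := ((t.eventually ((((hl.and (g2 τ τ0)).and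
    (fF.eventually_all.2 fun x hx => eventually_all.2 fun i => eventually_all.2 fun j =>
      g1 x hx i j τ τ0)).and (ev_lt r0 14)).and self_mem_nhdsWithin)).and
        (eventually_gt_atTop 0)).exists
  have b4 : (0 : ℝ) < 3 / N := b4
  obtain ⟨x, xF, n, n0, n1, n2, ⟨i, j, n3⟩, n4⟩ := scale (N := N) (by field_simp) b4 (by linarith) g3
    (fun x hx => (f x hx).1) (fun x hx => (f x hx).2.2) rfl l1 l2 b1
  have n5 : ∀ i j, n i j ≠ 0 → ∃ k, (0 < ‖k - x‖ ∧ ‖k - x‖ < 1) ∧ w.Lune i j x k := fun i j h => by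
    obtain ⟨k', k, c1, c2, c3, -, c5⟩ := n4 i j h
    by_contra q
    refine b2 x xF i j (fun k hk s => q ⟨k, ⟨?_, ?_⟩, s⟩) k ⟨mem_closedBall_iff_norm.2 c3,
      fun s => (mem_ball_iff_norm.1 s).not_ge c2⟩ k' c1 c5
    · exact ρ0.trans_le (not_lt.1 fun s => hk.2 (mem_ball_iff_norm.2 s))
    · linarith [mem_closedBall_iff_norm.1 hk.1]
  have n6 : ∀ j, n (e x) j = 0 := fun j => not_not.1 fun h => by
    obtain ⟨k', k, -, -, c3, c4, -⟩ := n4 _ j h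
    refine (lt_of_lt_of_le (by positivity) c4.1).ne' (mass_eq_zero_iff_ae.2 ((he x).mono
      fun y hy s => hy (closedBall_subset_ball' ?_ s)))
    rw [dist_eq_norm]; linarith [(f x xF).2.1]
  refine ⟨x, (cycle n0 n1 n2 n6 n3).imp ?_ ?_⟩
  · rintro ⟨a, b, c, h1, h2, h3, h4, h5, h6⟩
    obtain ⟨k1, p1, q1⟩ := n5 _ _ h4
    obtain ⟨k2, p2, q2⟩ := n5 _ _ h5
    obtain ⟨k3, p3, q3⟩ := n5 _ _ h6
    exact ⟨a, b, c, k1, k2, k3, h1, h2, h3, p1, p2, p3, q1, q2, q3⟩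
  · rintro ⟨a, b, c, d, h1, h2, h3, h4, h5, h6, h7, h8, h9, h10⟩
    obtain ⟨k1, p1, q1⟩ := n5 _ _ h7
    obtain ⟨k2, p2, q2⟩ := n5 _ _ h8
    obtain ⟨k3, p3, q3⟩ := n5 _ _ h9
    obtain ⟨k4, p4, q4⟩ := n5 _ _ h10
    exact ⟨a, b, c, d, k1, k2, k3, k4, h1, h2, h3, h4, h5, h6, p1, p2, p3, p4, q1, q2, q3, q4⟩

end Vale.Agent.P032
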