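import Vale.Agent.P032.ATransfer
import Vale.Agent.P032.B9
import Vale.Agent.P032.T4
import Vale.Agent.P032.GMain

/-! Assembly: no weakly proper measurable 5-colouring, hence `χ(ℝ²) ≥ 6`. -/

namespace Vale.Agent.P032

theorem no_wcol (w : WCol) : False := by
  obtain ⟨x, h | h⟩ := topo w w.sp_finite w.absent
  · obtain ⟨a, b, c, k1, k2, k3, hab, hbc, hac, h1, h2, h3, l1, l2, l3⟩ := h
    exact no_triangle w x k1 k2 k3 a b c hab hbc hac h1 h2 h3 l1 l2 l3
  · obtain ⟨a, b, c, d, k1, k2, k3, k4, hab, hac, had, hbc, hbd, hcd, h1, h2, h3, h4,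
      l1, l2, l3, l4⟩ := h
    exact no_fourcycle w x k1 k2 k3 k4 a b c d hab hac had hbc hbd hcd h1 h2 h3 h4 l1 l2 l3 l4

theorem six_le (k : ℕ) (c : EuclideanSpace ℝ (Fin 2) → Fin k)
    (hc : ∀ x y : EuclideanSpace ℝ (Fin 2), dist x y = 1 → c x ≠ c y) : 6 ≤ k := by
  by_contra hk
  have hk5 : k ≤ 5 := by omega
  let e := Complex.orthonormalBasisOneI.repr
  let c5 : ℂ → Fin 5 := fun z => Fin.castLE hk5 (c (e z))
  have h5 : ∀ x y, dist x y = 1 → c5 x ≠ c5 y := by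
    intro x y hxy h
    have h1 : dist (e x) (e y) = 1 := by rw [e.dist_map, hxy]
    exact hc _ _ h1 (Fin.castLE_injective hk5 h)
  obtain ⟨c', hm, hp⟩ := transfer 5 c5 h5
  exact no_wcol ⟨c', hm, hp⟩

end Vale.Agent.P032
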