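import Mathlib

/-! Module G of P032: plane geometry and topology helpers. -/

open Set Metric Filter Topology Complex

namespace Vale.Agent.P032.G

/-- the two sides of the unit circle -/
def side (s : Bool) (y : ℂ) : Prop := if s then 1 < ‖y‖ else ‖y‖ < 1

lemma isOpen_side (s : Bool) : IsOpen {y | side s y} := by
  cases s
  · simpa [side] using isOpen_lt continuous_norm continuous_const
  · simpa [side] using isOpen_lt continuous_const continuous_norm

lemma side_ev {s : Bool} {y : ℂ} (h : side s y) : ∀ᶠ z in 𝓝 y, side s z :=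
  (isOpen_side s).mem_nhds h

lemma side_ne {s : Bool} {y : ℂ} (h : side s y) : ‖y‖ ≠ 1 := by
  cases s
  · exact ne_of_lt (by simpa [side] using h)
  · exact ne_of_gt (by simpa [side] using h)

/-- rotation by angle `t` -/
noncomputable def rot (t : ℝ) : ℂ := cexp (t * I)

lemma norm_rot (t : ℝ) : ‖rot t‖ = 1 := Complex.norm_exp_ofReal_mul_I t

lemma rot_zero : rot 0 = 1 := by simp [rot]

lemma continuous_rot : Continuous rot := by unfold rot; fun_prop

lemma hasDeriv_sq (a v : ℂ) :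
    HasDerivAt (fun t : ℝ => ‖a + v * rot t‖ ^ 2 - 2 * ((starRingEnd ℂ) a * v * rot t).re) 0 0 := by
  have : (fun t : ℝ => ‖a + v * rot t‖ ^ 2 - 2 * ((starRingEnd ℂ) a * v * rot t).re)
      = fun _ => ‖a‖ ^ 2 + ‖v‖ ^ 2 := by
    funext t
    have h1 : ‖v * rot t‖ = ‖v‖ := by rw [norm_mul, norm_rot, mul_one]
    rw [← h1, mul_assoc]
    generalize v * rot t = z
    simp only [Complex.sq_norm, Complex.normSq_apply, add_re, add_im, mul_re, conj_re, conj_im]
    ring
  rw [this]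
  exact hasDerivAt_const _ _

lemma hasDeriv_re (c : ℂ) : HasDerivAt (fun t : ℝ => (c * rot t).re) (-c.im) 0 := by
  have h1 : HasDerivAt (fun z : ℂ => c * cexp (z * I)) (c * (cexp (0 * I) * (1 * I))) ((0 : ℝ) : ℂ) := by
    have : HasDerivAt (fun z : ℂ => z * I) (1 * I) ((0 : ℝ) : ℂ) := (hasDerivAt_id _).mul_const I
    simpa using this.cexp.const_mul c
  have h2 := h1.real_of_complex
  simpa [rot] using h2

lemma both_sides {a v : ℂ} (h : ((starRingEnd ℂ) a * v).im ≠ 0) :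
    (∃ᶠ t in 𝓝 (0 : ℝ), ‖a + v‖ < ‖a + v * rot t‖) ∧
    (∃ᶠ t in 𝓝 (0 : ℝ), ‖a + v * rot t‖ < ‖a + v‖) := by
  have hd : HasDerivAt (fun t : ℝ => ‖a + v * rot t‖ ^ 2) (2 * -((starRingEnd ℂ) a * v).im) 0 := by
    have := (hasDeriv_sq a v).fun_add ((hasDeriv_re ((starRingEnd ℂ) a * v)).const_mul 2)
    simpa only [sub_add_cancel, zero_add] using this
  have hne : (2 * -((starRingEnd ℂ) a * v).im) ≠ 0 := mul_ne_zero two_ne_zero (neg_ne_zero.2 h)
  constructor
  · intro hc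
    refine hne (IsLocalMax.hasDerivAt_eq_zero ?_ hd)
    filter_upwards [hc] with t ht
    simp only [rot_zero, mul_one]
    exact pow_le_pow_left₀ (norm_nonneg _) (not_lt.1 ht) 2
  · intro hc
    refine hne (IsLocalMin.hasDerivAt_eq_zero ?_ hd)
    filter_upwards [hc] with t ht
    simp only [rot_zero, mul_one]
    exact pow_le_pow_left₀ (norm_nonneg _) (not_lt.1 ht) 2

lemma tendsto_rot (a v : ℂ) : Tendsto (fun t : ℝ => a + v * rot t) (𝓝 0) (𝓝 (a + v)) := by
  have : Continuous (fun t : ℝ => a + v * rot t) := by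
    have := continuous_rot
    fun_prop
  simpa [rot_zero] using this.tendsto 0

/-- a unit circle through a point of the unit circle crosses it unless tangent -/
lemma cross {u y : ℂ} (hu : ‖u‖ = 1) (hy : ‖u - y‖ = 1) (h0 : y ≠ 0) (h2 : y ≠ 2 * u) (s : Bool) :
    ∃ᶠ w in 𝓝 u, side s w ∧ ‖w - y‖ = 1 := by
  have him : ((starRingEnd ℂ) y * (u - y)).im ≠ 0 := by
    intro him
    have e1 : u.re ^ 2 + u.im ^ 2 = 1 := by
      have := Complex.sq_norm u
      rw [hu, Complex.normSq_apply] at this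
      nlinarith
    have e2 : (u.re - y.re) ^ 2 + (u.im - y.im) ^ 2 = 1 := by
      have := Complex.sq_norm (u - y)
      rw [hy, Complex.normSq_apply] at this
      simp only [sub_re, sub_im] at this
      nlinarith
    simp only [mul_im, conj_re, conj_im, sub_re, sub_im] at him
    set r := y.re * u.re + y.im * u.im with hr
    have hx : y.re = r * u.re := by
      have : y.re * u.im = y.im * u.re := by linarith
      calc y.re = y.re * (u.re ^ 2 + u.im ^ 2) := by rw [e1, mul_one]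
        _ = y.re * u.re * u.re + (y.re * u.im) * u.im := by ring
        _ = r * u.re := by rw [this, hr]; ring
    have hy' : y.im = r * u.im := by
      have : y.re * u.im = y.im * u.re := by linarith
      calc y.im = y.im * (u.re ^ 2 + u.im ^ 2) := by rw [e1, mul_one]
        _ = (y.im * u.re) * u.re + y.im * u.im * u.im := by ring
        _ = r * u.im := by rw [← this, hr]; ring
    have h3 : r * (r - 2) = 0 := by
      rw [hx, hy'] at e2
      have : (1 - r) ^ 2 * (u.re ^ 2 + u.im ^ 2) = 1 := by linear_combination e2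
      rw [e1] at this
      nlinarith
    rcases mul_eq_zero.1 h3 with h4 | h4
    · exact h0 (Complex.ext (by simp [hx, h4]) (by simp [hy', h4]))
    · have : r = 2 := by linarith
      exact h2 (Complex.ext (by simp [hx, this]) (by simp [hy', this]))
  have hb := both_sides him
  have ht := tendsto_rot y (u - y)
  have e : y + (u - y) = u := by ring
  rw [e] at hb ht
  rw [hu] at hb
  have hn : ∀ t : ℝ, ‖y + (u - y) * rot t - y‖ = 1 := by
    intro t
    rw [add_sub_cancel_left, norm_mul, hy, norm_rot, mul_one]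
  cases s
  · exact ht.frequently (hb.2.mono fun t h => ⟨by simpa [side] using h, hn t⟩)
  · exact ht.frequently (hb.1.mono fun t h => ⟨by simpa [side] using h, hn t⟩)

lemma ev_notMem {B : Set ℂ} (hB : B.Finite) (u : ℂ) : ∀ᶠ y in 𝓝 u, y ≠ u → y ∉ B := by
  have h1 : IsClosed (B \ {u}) := (hB.subset sdiff_subset).isClosed
  filter_upwards [h1.isOpen_compl.mem_nhds (show u ∈ (B \ {u})ᶜ by simp)] with y hy hne hyB
  exact hy ⟨hyB, hne⟩

lemma freq_unit {u : ℂ} (hu : ‖u‖ = 1) {B : Set ℂ} (hB : B.Finite) :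
    ∃ᶠ v in 𝓝 u, ‖v‖ = 1 ∧ v ∉ B := by
  have him : ((starRingEnd ℂ) (I * u) * u).im ≠ 0 := by
    have e1 : u.re ^ 2 + u.im ^ 2 = 1 := by
      have := Complex.sq_norm u
      rw [hu, Complex.normSq_apply] at this
      nlinarith
    simp only [mul_im, conj_re, conj_im, mul_re, I_re, I_im]
    intro h
    nlinarith
  have hb := (both_sides him).1
  have ht := tendsto_rot 0 u
  simp only [zero_add] at ht
  have h1 : ∃ᶠ v in 𝓝 u, ‖v‖ = 1 ∧ v ≠ u := by
    refine ht.frequently (hb.mono fun t h => ⟨by rw [norm_mul, hu, norm_rot, mul_one], ?_⟩)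
    intro h'
    rw [h'] at h
    exact lt_irrefl _ h
  exact (h1.and_eventually (ev_notMem hB u)).mono fun v h => ⟨h.1.1, h.2 h.1.2⟩

lemma freq_side {u : ℂ} (hu : ‖u‖ = 1) (s : Bool) : ∃ᶠ y in 𝓝 u, side s y := by
  have hc : Tendsto (fun t : ℝ => u * (1 + t)) (𝓝 0) (𝓝 u) := by
    have : Continuous (fun t : ℝ => u * (1 + t)) := by fun_prop
    simpa using this.tendsto 0
  have hn : ∀ t : ℝ, ‖u * (1 + t)‖ = |1 + t| := by
    intro t
    rw [norm_mul, hu, one_mul]
    have : (1 + t : ℂ) = ((1 + t : ℝ) : ℂ) := by push_cast; ring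
    rw [this, Complex.norm_real, Real.norm_eq_abs]
  refine hc.frequently ?_
  cases s
  · have h1 : ∃ᶠ t in 𝓝 (0 : ℝ), t < 0 := frequently_lt_nhds 0
    have h2 : ∀ᶠ t in 𝓝 (0 : ℝ), -1 < t := Ioi_mem_nhds (by norm_num)
    refine (h1.and_eventually h2).mono fun t ht => ?_
    simp only [side, hn, Bool.false_eq_true, if_false]
    rw [abs_lt]
    constructor <;> linarith [ht.1, ht.2]
  · refine (frequently_gt_nhds (0 : ℝ)).mono fun t ht => ?_
    simp only [side, hn, if_true]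
    rw [lt_abs]
    left
    linarith

/-- apex of the isosceles triangle with unit legs over the base `0, b` -/
noncomputable def mid (b : ℂ) : ℂ := b * (1 / 2 + I * (√(1 / ‖b‖ ^ 2 - 1 / 4) : ℝ))

lemma norm_aux {b : ℂ} (h0 : b ≠ 0) (h2 : ‖b‖ ≤ 2) (x : ℝ) (hx : x ^ 2 = 1 / 4) :
    ‖b * (x + I * (√(1 / ‖b‖ ^ 2 - 1 / 4) : ℝ))‖ = 1 := by
  have hb : 0 < ‖b‖ := norm_pos_iff.2 h0
  have h1 : 0 ≤ 1 / ‖b‖ ^ 2 - 1 / 4 := by
    rw [sub_nonneg]
    exact one_div_le_one_div_of_le (by positivity) (by nlinarith)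
  have h3 : ‖(x + I * (√(1 / ‖b‖ ^ 2 - 1 / 4) : ℝ) : ℂ)‖ ^ 2 = 1 / ‖b‖ ^ 2 := by
    rw [Complex.sq_norm, Complex.normSq_apply]
    simp only [add_re, ofReal_re, mul_re, I_re, I_im, ofReal_im, add_im, mul_im]
    have := Real.mul_self_sqrt h1
    nlinarith
  have h4 : ‖b * (x + I * (√(1 / ‖b‖ ^ 2 - 1 / 4) : ℝ))‖ ^ 2 = 1 := by
    rw [norm_mul, mul_pow, h3]
    field_simp
  exact (pow_eq_one_iff_of_nonneg (norm_nonneg _) two_ne_zero).1 h4

lemma norm_mid {b : ℂ} (h0 : b ≠ 0) (h2 : ‖b‖ ≤ 2) : ‖mid b‖ = 1 := by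
  have := norm_aux h0 h2 (1 / 2) (by norm_num)
  simpa [mid] using this

lemma norm_mid_sub {b : ℂ} (h0 : b ≠ 0) (h2 : ‖b‖ ≤ 2) : ‖mid b - b‖ = 1 := by
  have := norm_aux h0 h2 (-1 / 2) (by norm_num)
  rw [← this, mid]
  congr 1
  push_cast
  ring

lemma continuousAt_mid {b : ℂ} (h0 : b ≠ 0) : ContinuousAt mid b := by
  unfold mid
  have hb : ‖b‖ ^ 2 ≠ 0 := pow_ne_zero 2 (norm_ne_zero_iff.2 h0)
  refine continuousAt_id.mul (continuousAt_const.add (continuousAt_const.mul ?_))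
  refine Complex.continuous_ofReal.continuousAt.comp ?_
  refine Real.continuous_sqrt.continuousAt.comp ?_
  exact (continuousAt_const.div ((continuous_norm.pow 2).continuousAt) hb).sub continuousAt_const

lemma tendsto_mid {v : ℂ} (hv : ‖v‖ = 1) :
    Tendsto (fun ε : ℝ => mid (-I * ε * v)) (𝓝[>] 0) (𝓝 v) := by
  have h1 : Tendsto (fun ε : ℝ => -I * ε * v / 2 + v * (√(1 - ε ^ 2 / 4) : ℝ)) (𝓝[>] 0) (𝓝 v) := by
    have : Continuous (fun ε : ℝ => -I * ε * v / 2 + v * (√(1 - ε ^ 2 / 4) : ℝ)) := by fun_prop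
    have h := this.tendsto 0
    simp only [ofReal_zero, mul_zero, zero_mul, zero_div, ne_eq, OfNat.ofNat_ne_zero,
      not_false_eq_true, zero_pow, sub_zero, Real.sqrt_one, ofReal_one, mul_one, zero_add] at h
    exact h.mono_left nhdsWithin_le_nhds
  refine h1.congr' ?_
  filter_upwards [self_mem_nhdsWithin] with ε hε
  have hε : 0 < ε := hε
  have hn : ‖-I * ε * v‖ = ε := by
    simp [hv, abs_of_pos hε]
  have hs : √(1 - ε ^ 2 / 4) = ε * √(1 / ε ^ 2 - 1 / 4) := by
    rw [← Real.sqrt_sq hε.le, ← Real.sqrt_mul (sq_nonneg ε), Real.sqrt_sq hε.le]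
    congr 1
    field_simp
  rw [mid, hn, hs]
  push_cast
  linear_combination (ε * v * (√(1 / ε ^ 2 - 1 / 4) : ℝ)) * I_mul_I

/-- two distinct unit points at unit distance from `k` add up to `k` -/
lemma add_eq_of_unit {k u v : ℂ} (hk : k ≠ 0) (hu : ‖u‖ = 1) (hu' : ‖u - k‖ = 1) (hv : ‖v‖ = 1)
    (hv' : ‖v - k‖ = 1) (huv : u ≠ v) : u + v = k := by
  have key : ∀ z : ℂ, ‖z‖ = 1 → ‖z - k‖ = 1 →
      (starRingEnd ℂ) k * z ^ 2 - k * (starRingEnd ℂ) k * z + k = 0 := by
    intro z h1 h2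
    have e1 : z * (starRingEnd ℂ) z = 1 := by
      rw [Complex.mul_conj, Complex.normSq_eq_norm_sq, h1]; simp
    have e2 : (z - k) * ((starRingEnd ℂ) z - (starRingEnd ℂ) k) = 1 := by
      rw [← map_sub, Complex.mul_conj, Complex.normSq_eq_norm_sq, h2]; simp
    linear_combination (z - k) * e1 - z * e2
  have hk' : (starRingEnd ℂ) k ≠ 0 := by simpa using hk
  have : (u - v) * ((starRingEnd ℂ) k * (u + v - k)) = 0 := by
    linear_combination key u hu hu' - key v hv hv'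
  rcases mul_eq_zero.1 this with h | h
  · exact (huv (sub_eq_zero.1 h)).elim
  · exact sub_eq_zero.1 ((mul_eq_zero.1 h).resolve_left hk')

/-- adjacent unit vectors move continuously -/
lemma adj_near {u v : ℂ} (hu : ‖u‖ = 1) (hv : ‖v‖ = 1) (huv : ‖v - u‖ = 1) {Q : ℂ → Prop}
    (hQ : ∀ᶠ z in 𝓝 v, Q z) : ∀ᶠ y in 𝓝 u, ∃ z, Q z ∧ ‖z‖ = 1 ∧ ‖z - y‖ = 1 := by
  have h0 : u ≠ 0 := by rintro rfl; simp at hu
  have hev : ∀ᶠ y in 𝓝 u, y ≠ 0 ∧ ‖y‖ ≤ 2 := by
    refine (eventually_ne_nhds h0).and ?_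
    have : ∀ᶠ y in 𝓝 u, ‖y‖ < 2 :=
      (isOpen_lt continuous_norm continuous_const).mem_nhds (by simp [hu])
    exact this.mono fun y hy => hy.le
  have hu2 : ‖u‖ ≤ 2 := by rw [hu]; norm_num
  by_cases h : v = mid u
  · have := (continuousAt_mid h0).tendsto
    rw [← h] at this
    filter_upwards [this.eventually hQ, hev] with y h1 h2
    exact ⟨mid y, h1, norm_mid h2.1 h2.2, norm_mid_sub h2.1 h2.2⟩
  · have h1 := add_eq_of_unit h0 hv huv (norm_mid h0 hu2) (norm_mid_sub h0 hu2) h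
    have : Tendsto (fun y => y - mid y) (𝓝 u) (𝓝 v) := by
      have h3 := (continuousAt_id.sub (continuousAt_mid h0)).tendsto
      have e : (id u - mid u) = v := by simp only [id]; linear_combination -h1
      simp only [Pi.sub_apply] at h3
      rw [e] at h3
      exact h3
    filter_upwards [this.eventually hQ, hev] with y h1 h2
    refine ⟨y - mid y, h1, ?_, ?_⟩
    · rw [norm_sub_rev]; exact norm_mid_sub h2.1 h2.2
    · rw [sub_sub_cancel_left, norm_neg]; exact norm_mid h2.1 h2.2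

/-- connected one-sided neighbourhoods -/
lemma exists_side_nbhd {u : ℂ} (hu : ‖u‖ = 1) (s : Bool) {Q : ℂ → Prop} (hQ : ∀ᶠ y in 𝓝 u, Q y) :
    ∃ W : Set ℂ, IsPreconnected W ∧ (∀ y ∈ W, side s y ∧ Q y) ∧ ∀ᶠ y in 𝓝 u, side s y → y ∈ W := by
  have h0 : u ≠ 0 := by rintro rfl; simp at hu
  have hc : Continuous fun z : ℂ => u * cexp z := by fun_prop
  have ht : Tendsto (fun z : ℂ => u * cexp z) (𝓝 0) (𝓝 u) := by simpa using hc.tendsto 0
  obtain ⟨δ, hδ, hball⟩ := Metric.eventually_nhds_iff_ball.1 (ht.eventually hQ)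
  have hn : ∀ z : ℂ, ‖u * cexp z‖ = Real.exp z.re := by
    intro z; rw [norm_mul, hu, one_mul, Complex.norm_exp]
  let H : Set ℂ := {z | if s then 0 < z.re else z.re < 0}
  have hH : Convex ℝ H := by
    cases s
    · simpa [H] using convex_halfSpace_re_lt 0
    · simpa [H] using convex_halfSpace_re_gt 0
  have hside : ∀ z, side s (u * cexp z) ↔ z ∈ H := by
    intro z
    cases s
    · simp only [side, H, hn]; simp
    · simp only [side, H, hn]; simp
  refine ⟨(fun z => u * cexp z) '' (ball 0 δ ∩ H),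
    ((convex_ball 0 δ).inter hH).isPreconnected.image _ hc.continuousOn, ?_, ?_⟩
  · rintro y ⟨z, hz, rfl⟩
    exact ⟨(hside z).2 hz.2, hball z hz.1⟩
  · have ho : IsOpenMap fun z : ℂ => u * cexp z :=
      (Homeomorph.mulLeft₀ u h0).isOpenMap.comp Complex.isOpenMap_exp
    have : (fun z => u * cexp z) '' ball 0 δ ∈ 𝓝 u :=
      (ho _ isOpen_ball).mem_nhds ⟨0, mem_ball_self hδ, by simp⟩
    filter_upwards [this] with y hy hs
    obtain ⟨z, hz, rfl⟩ := hy
    exact ⟨z, ⟨hz, (hside z).1 hs⟩, rfl⟩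

/-- locally constant on a dense set of good points implies constant -/
lemma glue {ι : Type} [Nonempty ι] {W : Set ℂ} (hW : IsPreconnected W) {G : ℂ → Prop}
    {R : ℂ → ι → Prop} (hG : ∀ x ∈ W, ∃ᶠ y in 𝓝 x, G y)
    (hR : ∀ x ∈ W, ∃ c, ∀ᶠ y in 𝓝 x, G y → R y c)
    (hU : ∀ x c c', G x → R x c → R x c' → c = c') : ∃ c, ∀ x ∈ W, G x → R x c := by
  classical
  rcases W.eq_empty_or_nonempty with rfl | ⟨x0, hx0⟩
  · exact ⟨Classical.arbitrary ι, by simp⟩
  choose! f hf using hR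
  let _ : TopologicalSpace ι := ⊥
  have : DiscreteTopology ι := ⟨rfl⟩
  have hc : ContinuousOn f W := by
    intro x hx
    refine Filter.Tendsto.congr' (f₁ := fun _ => f x) ?_ tendsto_const_nhds
    filter_upwards [nhdsWithin_le_nhds (hf x hx).eventually_nhds, self_mem_nhdsWithin] with y h1 hy
    obtain ⟨z, hz, h2, h3⟩ := ((hG y hy).and_eventually (h1.and (hf y hy))).exists
    exact hU z _ _ hz (h2 hz) (h3 hz)
  refine ⟨f x0, fun x hx hGx => ?_⟩
  rw [hW.constant hc hx0 hx]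
  exact (hf x hx).self_of_nhds hGx

/-- primitive sixth root of unity -/
noncomputable def zt : ℂ := ⟨1 / 2, √3 / 2⟩

lemma zt_sq : zt ^ 2 = zt - 1 := by
  have h : √3 * √3 = 3 := Real.mul_self_sqrt (by norm_num)
  refine Complex.ext ?_ ?_
  · simp only [zt, sq, mul_re, sub_re, one_re]; nlinarith
  · simp only [zt, sq, mul_im, sub_im, one_im]; ring

lemma zt_cube : zt ^ 3 = -1 := by linear_combination (zt + 1) * zt_sq

lemma zt_six : zt ^ 6 = 1 := by linear_combination (zt ^ 3 - 1) * zt_cube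

lemma norm_zt : ‖zt‖ = 1 := by
  have : ‖zt‖ ^ 6 = 1 := by rw [← norm_pow, zt_six, norm_one]
  exact (pow_eq_one_iff_of_nonneg (norm_nonneg _) (by norm_num)).1 this

lemma norm_zt_mul (u : ℂ) : ‖zt * u‖ = ‖u‖ := by rw [norm_mul, norm_zt, one_mul]

lemma norm_zt_pow_mul (j : ℕ) (u : ℂ) : ‖zt ^ j * u‖ = ‖u‖ := by
  rw [norm_mul, norm_pow, norm_zt, one_pow, one_mul]

lemma norm_zt_mul_sub (u : ℂ) : ‖zt * u - u‖ = ‖u‖ := by
  have : zt * u - u = zt ^ 2 * u := by rw [zt_sq]; ring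
  rw [this, norm_zt_pow_mul]

lemma norm_one_add {d : ℕ} (h0 : 0 < d) (h6 : d < 6) : 1 + zt ^ d = 0 ∨ 1 ≤ ‖1 + zt ^ d‖ := by
  have h3 : (1 : ℝ) ≤ √3 := Real.one_le_sqrt.2 (by norm_num)
  interval_cases d
  · right
    refine le_trans ?_ (Complex.re_le_norm _)
    simp only [zt, pow_one, add_re, one_re]; norm_num
  · right
    have : 1 + zt ^ 2 = zt := by rw [zt_sq]; ring
    rw [this, norm_zt]
  · left; rw [zt_cube]; ring
  · right
    have : 1 + zt ^ 4 = -zt ^ 2 := by linear_combination (zt ^ 2 + zt + 1) * zt_sq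
    rw [this, norm_neg, norm_pow, norm_zt, one_pow]
  · right
    have : 1 + zt ^ 5 = 2 - zt := by linear_combination (zt ^ 3 + zt ^ 2 - 1) * zt_sq
    rw [this]
    refine le_trans ?_ (Complex.re_le_norm _)
    simp only [zt, sub_re]; norm_num

lemma zt_pow_ne_one {d : ℕ} (h0 : 0 < d) (h6 : d < 6) : zt ^ d ≠ 1 := by
  intro h
  have hre : ∀ r : ℝ, zt = r → r = 1 / 2 := by
    intro r h; have := congrArg Complex.re h; simpa [zt] using this.symm
  have hs := zt_sq
  have hc := zt_cube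
  interval_cases d
  · have := hre 1 (by simpa using h); norm_num at this
  · have := hre 2 (by push_cast; linear_combination h - hs); norm_num at this
  · rw [hc] at h; norm_num at h
  · have := hre (-1) (by push_cast; linear_combination zt * hc - h); norm_num at this
  · have := hre 0 (by push_cast; linear_combination zt ^ 2 * hc - h - hs); norm_num at this

/-- special points of `k` -/
def Spc (k : ℂ) : Set ℂ := {u | ‖u‖ = 1 ∧ ‖u - k‖ = 1}

lemma Spc_finite {k : ℂ} (hk : 0 < ‖k‖) : (Spc k).Finite := by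
  rcases (Spc k).eq_empty_or_nonempty with h | ⟨u, hu⟩
  · rw [h]; exact finite_empty
  · refine (toFinite {u, k - u}).subset fun v hv => ?_
    by_cases h : v = u
    · exact Or.inl h
    · right
      have := add_eq_of_unit (norm_pos_iff.1 hk) hv.1 hv.2 hu.1 hu.2 h
      simp only [mem_singleton_iff]
      linear_combination this

lemma Spc_orbit {k u : ℂ} (hk : 0 < ‖k‖) (hk1 : ‖k‖ < 1) {i j : ℕ} (hij : i < j) (hj : j < 6)
    (h1 : zt ^ i * u ∈ Spc k) (h2 : zt ^ j * u ∈ Spc k) : False := by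
  obtain ⟨d, rfl⟩ := Nat.exists_eq_add_of_lt hij
  set v := zt ^ i * u with hv
  have e : zt ^ (i + d + 1) * u = zt ^ (d + 1) * v := by rw [hv]; ring
  rw [e] at h2
  have hv0 : v ≠ 0 := by
    intro h; have := h1.1; rw [h] at this; simp at this
  have hne : v ≠ zt ^ (d + 1) * v := by
    intro h
    refine zt_pow_ne_one (d := d + 1) (by omega) (by omega) (mul_right_cancel₀ hv0 ?_)
    rw [← h, one_mul]
  have h3 := add_eq_of_unit (norm_pos_iff.1 hk) h1.1 h1.2 h2.1 h2.2 hne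
  have h4 : k = (1 + zt ^ (d + 1)) * v := by rw [← h3]; ring
  rw [h4, norm_mul, h1.1, mul_one] at hk hk1
  rcases norm_one_add (d := d + 1) (by omega) (by omega) with h | h
  · rw [h] at hk; simp at hk
  · linarith

lemma exists_nonspecial {n : ℕ} (hn : n < 6) (k : Fin n → ℂ) (hk : ∀ e, 0 < ‖k e‖ ∧ ‖k e‖ < 1)
    (u : ℂ) : ∃ j : ℕ, zt ^ j * u ∉ ⋃ e, Spc (k e) := by
  by_contra hc
  push Not at hc
  simp only [mem_iUnion] at hc
  choose f hf using hc
  obtain ⟨i, j, hij, h⟩ := Fintype.exists_ne_map_eq_of_card_lt (fun j : Fin 6 => f j) (by simpa)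
  rcases lt_or_gt_of_ne hij with h1 | h1
  · exact Spc_orbit (hk _).1 (hk _).2 h1 j.2 (hf i) (h ▸ hf j)
  · exact Spc_orbit (hk _).1 (hk _).2 h1 i.2 (h ▸ hf j) (hf i)

/-- generic unit vectors -/
def Gen (F : Set ℂ) (u : ℂ) : Prop := ‖u‖ = 1 ∧ ∀ j : ℕ, zt ^ j * u ∉ F

lemma Gen.mul {F : Set ℂ} {u : ℂ} (h : Gen F u) : Gen F (zt * u) :=
  ⟨by rw [norm_zt_mul, h.1], fun j => by rw [← mul_assoc, ← pow_succ]; exact h.2 _⟩

lemma Gen.pow {F : Set ℂ} {u : ℂ} (h : Gen F u) (j : ℕ) : Gen F (zt ^ j * u) :=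
  ⟨by rw [norm_zt_pow_mul, h.1], fun i => by rw [← mul_assoc, ← pow_add]; exact h.2 _⟩

lemma Gen.notMem {F : Set ℂ} {u : ℂ} (h : Gen F u) : u ∉ F := by simpa using h.2 0

lemma freq_gen {F : Set ℂ} (hF : F.Finite) {u : ℂ} (hu : ‖u‖ = 1) : ∃ᶠ v in 𝓝 u, Gen F v := by
  have hz : zt ≠ 0 := by
    intro h; have := norm_zt; rw [h] at this; simp at this
  have hB : (⋃ j : Fin 6, (fun v => zt ^ (j : ℕ) * v) ⁻¹' F).Finite :=
    finite_iUnion fun j => hF.preimage (mul_right_injective₀ (pow_ne_zero _ hz)).injOn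
  refine (freq_unit hu hB).mono fun v hv => ⟨hv.1, fun j hj => hv.2 ?_⟩
  refine mem_iUnion.2 ⟨⟨j % 6, Nat.mod_lt _ (by norm_num)⟩, ?_⟩
  rwa [pow_eq_pow_mod j zt_six] at hj

lemma tendsto_mul_left (c u : ℂ) : Tendsto (fun v => c * v) (𝓝 u) (𝓝 (c * u)) :=
  (continuous_const_mul c).tendsto u

/-- no rotation-twisted locally constant invariant on the circle -/
lemma rot_glue {ι : Type} [Nonempty ι] {F : Set ℂ} (hF : F.Finite)
    (hF' : ∀ u, ∃ j : ℕ, zt ^ j * u ∉ F) {R : ℂ → ι → Prop} (ψ : ι → ι)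
    (huniq : ∀ u c c', Gen F u → R u c → R u c' → c = c')
    (hstep : ∀ u c, Gen F u → R (zt * u) c → R u (ψ c))
    (hne : ∀ u c, Gen F u → R u c → R (zt * u) c → False)
    (hloc : ∀ u, ‖u‖ = 1 → u ∉ F → ∃ c, ∀ᶠ v in 𝓝 u, Gen F v → R v c) : False := by
  have hW : IsPreconnected (sphere (0 : ℂ) 1) :=
    isPreconnected_sphere (by rw [Complex.rank_real_complex]; norm_num) 0 1
  have hdesc : ∀ (u : ℂ) (j : ℕ), (∃ c, ∀ᶠ v in 𝓝 u, Gen F v → R (zt ^ j * v) c) →
      ∃ c, ∀ᶠ v in 𝓝 u, Gen F v → R v c := by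
    intro u j
    induction j with
    | zero => simp
    | succ j ih =>
      rintro ⟨c, hc⟩
      refine ih ⟨ψ c, hc.mono fun v hv hG => hstep _ _ (hG.pow j) ?_⟩
      rw [← mul_assoc, ← pow_succ']
      exact hv hG
  obtain ⟨c, hc⟩ := glue (G := Gen F) (R := R) hW
    (fun x hx => freq_gen hF (by simpa using hx)) (fun x hx => by
      obtain ⟨j, hj⟩ := hF' x
      obtain ⟨c, hc⟩ := hloc _ (by rw [norm_zt_pow_mul]; simpa using hx) hj
      exact hdesc x j ⟨c, ((tendsto_mul_left _ x).eventually hc).mono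
        fun v hv hG => hv (hG.pow j)⟩) huniq
  obtain ⟨u, hu⟩ := (freq_gen hF (u := 1) (by simp)).exists
  exact hne u c hu (hc u (by simpa using hu.1) hu) (hc _ (by simpa using hu.mul.1) hu.mul)

end Vale.Agent.P032.G
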