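import Vale.Agent.P032.BDefs
import Vale.Agent.P032.GGeo

/-! Module G of P032: the point-set system of density points and its local rigidity. -/

open MeasureTheory Set Metric Filter Topology Complex

namespace Vale.Agent.P032.G

/-- abstract properties of the five sets of density points -/
structure PS where
  D : Fin 5 → Set ℂ
  uniq : ∀ {i j x}, x ∈ D i → x ∈ D j → i = j
  indep : ∀ {i x y}, ‖y - x‖ = 1 → x ∈ D i → y ∉ D i
  pure : ∀ {c y}, (∀ᶠ z in 𝓝 y, ∀ i, z ∈ D i → i = c) → y ∈ D c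
  dense : ∀ y, ∃ᶠ z in 𝓝 y, ∃ i, z ∈ D i
  flip : ∀ {p q y z}, y ∈ D p → ‖z - y‖ = 1 →
    (∀ᶠ z' in 𝓝 z, ∀ i, z' ∈ D i → i = p ∨ i = q) → z ∈ D q

lemma w_pure (w : WCol) {c : Fin 5} {y : ℂ} (h : ∀ᶠ z in 𝓝 y, ∀ i, z ∈ w.D i → i = c) :
    y ∈ w.D c := by
  obtain ⟨δ, hδ, hb⟩ := Metric.eventually_nhds_iff_ball.1 h
  refine w.mem_D_of_ae hδ ?_
  filter_upwards [w.ae_D] with z hz hzb using hb z hzb _ hz

lemma w_dense (w : WCol) (y : ℂ) : ∃ᶠ z in 𝓝 y, ∃ i, z ∈ w.D i := by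
  intro h
  obtain ⟨δ, hδ, hb⟩ := Metric.eventually_nhds_iff_ball.1 h
  obtain ⟨z, hz, -, h2⟩ := (dens_univ y).exists_mem (N := {x | x ∈ w.D (w.c x)}) hδ w.ae_D
  exact hb z hz ⟨w.c z, h2⟩

lemma w_flip (w : WCol) {p q : Fin 5} {y z : ℂ} (hy : y ∈ w.D p) (hz : ‖z - y‖ = 1)
    (h : ∀ᶠ z' in 𝓝 z, ∀ i, z' ∈ w.D i → i = p ∨ i = q) : z ∈ w.D q := by
  obtain ⟨δ, hδ, hb⟩ := Metric.eventually_nhds_iff_ball.1 h
  intro η hη
  have h1 : ∀ᶠ r in 𝓝[>] (0 : ℝ), r < δ := nhdsWithin_le_nhds (Iio_mem_nhds hδ)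
  filter_upwards [hy η hη, h1] with r hr hr1
  refine le_trans ?_ hr
  have h2 := w.mass_le_compl p y hz r
  rw [add_sub_cancel] at h2
  refine le_trans (mass_mono_ae ?_) h2
  filter_upwards [w.ae_D] with v hv hq hvb
  refine ⟨?_, hvb⟩
  exact (hb v (closedBall_subset_ball hr1 hvb) _ hv).resolve_right hq

lemma ev_shift {x y : ℂ} {Q : ℂ → Prop} (h : ∀ᶠ z in 𝓝 y, Q (x + z)) : ∀ᶠ z in 𝓝 (x + y), Q z := by
  have : Tendsto (fun z => z - x) (𝓝 (x + y)) (𝓝 y) := by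
    simpa using (continuous_sub_right x).tendsto (x + y)
  filter_upwards [this.eventually h] with z hz
  simpa using hz

/-- the system seen from the base point `x` -/
def ofW (w : WCol) (x : ℂ) : PS where
  D i := {y | x + y ∈ w.D i}
  uniq {i j y} h1 h2 := w.D_unique (i := i) (j := j) (x := x + y) h1 h2
  indep {i y z} h h1 := w.D_indep (i := i) (x := x + y) (y := x + z)
    (by rw [add_sub_add_left_eq_sub]; exact h) h1
  pure {c y} h := w_pure w (c := c) (y := x + y)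
    (ev_shift (x := x) (y := y) (Q := fun z => ∀ i, z ∈ w.D i → i = c) h)
  dense y := fun h => w_dense w (x + y)
    (ev_shift (x := x) (y := y) (Q := fun z => ¬ ∃ i, z ∈ w.D i) h)
  flip {p q y z} h1 h2 h := w_flip w (p := p) (q := q) (y := x + y) (z := x + z) h1
    (by rw [add_sub_add_left_eq_sub]; exact h2)
    (ev_shift (x := x) (y := z) (Q := fun z => ∀ i, z ∈ w.D i → i = p ∨ i = q) h)

namespace PS

variable (P : PS)

/-- only colours in `S` occur near `y` -/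
def Only (S : Fin 5 → Prop) (y : ℂ) : Prop := ∀ᶠ z in 𝓝 y, ∀ i, z ∈ P.D i → S i

/-- only colours in `S` occur near `u` on the side `s` -/
def Side (u : ℂ) (s : Bool) (S : Fin 5 → Prop) : Prop :=
  ∀ᶠ z in 𝓝 u, side s z → ∀ i, z ∈ P.D i → S i

/-- the side `s` near `u` has the single colour `c` -/
def Pure (u : ℂ) (s : Bool) (c : Fin 5) : Prop := P.Side u s (· = c)

variable {P}

lemma Only.ev {S : Fin 5 → Prop} {y : ℂ} (h : P.Only S y) : ∀ᶠ z in 𝓝 y, P.Only S z :=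
  Eventually.eventually_nhds h

lemma Side.ev {S : Fin 5 → Prop} {u : ℂ} {s : Bool} (h : P.Side u s S) :
    ∀ᶠ v in 𝓝 u, P.Side v s S := Eventually.eventually_nhds h

lemma Side.mono {S T : Fin 5 → Prop} {u : ℂ} {s : Bool} (h : P.Side u s S) (hST : ∀ i, S i → T i) :
    P.Side u s T := Eventually.mono h fun _ hz hs i hi => hST i (hz hs i hi)

lemma Side.and {S T : Fin 5 → Prop} {u : ℂ} {s : Bool} (h : P.Side u s S) (h' : P.Side u s T) :
    P.Side u s fun i => S i ∧ T i :=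
  (Eventually.and h h').mono fun _ hz hs i hi => ⟨hz.1 hs i hi, hz.2 hs i hi⟩

lemma Side.only {S : Fin 5 → Prop} {u : ℂ} {s : Bool} (h : P.Side u s S) :
    ∀ᶠ y in 𝓝 u, side s y → P.Only S y := by
  filter_upwards [h.ev] with y hy hs
  filter_upwards [hy, side_ev hs] with z h1 h2 using h1 h2

lemma Pure.mem {u : ℂ} {s : Bool} {c : Fin 5} (h : P.Pure u s c) :
    ∀ᶠ y in 𝓝 u, side s y → ∀ᶠ z in 𝓝 y, z ∈ P.D c := by
  filter_upwards [Side.only h] with y hy hs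
  exact (hy hs).ev.mono fun z hz => P.pure hz

lemma Pure.freq {u : ℂ} {s : Bool} {c : Fin 5} (h : P.Pure u s c) (hu : ‖u‖ = 1) :
    ∃ᶠ y in 𝓝 u, side s y ∧ y ∈ P.D c :=
  ((freq_side hu s).and_eventually h.mem).mono fun _ hy => ⟨hy.1, (hy.2 hy.1).self_of_nhds⟩

lemma Pure.side {u : ℂ} {s : Bool} {c : Fin 5} (h : P.Pure u s c) (hu : ‖u‖ = 1)
    {S : Fin 5 → Prop} (hS : P.Side u s S) : S c := by
  obtain ⟨y, h1, h2⟩ := ((h.freq hu).and_eventually hS).exists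
  exact h2 h1.1 c h1.2

/-- a pure side excludes its colour near every point at unit distance -/
lemma Pure.excl {u y : ℂ} {s : Bool} {c : Fin 5} (h : P.Pure u s c) (hu : ‖u‖ = 1)
    (hy : ‖u - y‖ = 1) (h0 : y ≠ 0) (h2 : y ≠ 2 * u) : ∀ᶠ z in 𝓝 y, z ∉ P.D c := by
  obtain ⟨w, ⟨hs, hw⟩, h1⟩ := ((cross hu hy h0 h2 s).and_eventually h.mem).exists
  have ht : Tendsto (fun z => z + (w - y)) (𝓝 y) (𝓝 w) := by
    simpa using (continuous_add_const (w - y)).tendsto y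
  filter_upwards [ht.eventually (h1 hs)] with z hz
  refine P.indep ?_ hz
  rw [sub_add_cancel_left, norm_neg, hw]

lemma Pure.excl_adj {u v : ℂ} {s : Bool} {c : Fin 5} (h : P.Pure u s c) (hu : ‖u‖ = 1)
    (hv : ‖v‖ = 1) (huv : ‖u - v‖ = 1) : ∀ᶠ z in 𝓝 v, z ∉ P.D c := by
  refine h.excl hu huv ?_ ?_
  · rintro rfl; simp at hv
  · rintro rfl; simp [hu] at hv

lemma Pure.not_adj {u v : ℂ} {s s' : Bool} {c : Fin 5} (h : P.Pure u s c) (h' : P.Pure v s' c)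
    (hu : ‖u‖ = 1) (hv : ‖v‖ = 1) (huv : ‖u - v‖ = 1) : False := by
  obtain ⟨y, h1, h2⟩ := ((h'.freq hv).and_eventually (h.excl_adj hu hv huv)).exists
  exact h2 h1.2

lemma two_flips {p q c : Fin 5} {y w z : ℂ} (hc : c = p ∨ c = q) (hy : y ∈ P.D c)
    (hw : P.Only (fun i => i = p ∨ i = q) w) (hz : P.Only (fun i => i = p ∨ i = q) z)
    (h1 : ‖w - y‖ = 1) (h2 : ‖z - w‖ = 1) : z ∈ P.D c := by
  rcases hc with rfl | rfl
  · exact P.flip (P.flip hy h1 hw) h2 (Eventually.mono hz fun _ h i hi => (h i hi).symm)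
  · exact P.flip (P.flip hy h1 (Eventually.mono hw fun _ h i hi => (h i hi).symm)) h2 hz

/-- local constancy: two two-coloured neighbourhoods at unit distance -/
lemma loc_const {p q : Fin 5} {y0 w0 : ℂ} (h : ‖w0 - y0‖ = 1)
    (hy : P.Only (fun i => i = p ∨ i = q) y0) (hw : P.Only (fun i => i = p ∨ i = q) w0) :
    ∃ c, ∀ᶠ y in 𝓝 y0, y ∈ P.D c := by
  set v := w0 - y0 with hv
  have t1 : Tendsto (fun ε : ℝ => y0 + mid (-I * ε * v)) (𝓝[>] 0) (𝓝 w0) := by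
    have := (tendsto_mid h).const_add y0
    simpa [hv] using this
  have t2 : Tendsto (fun ε : ℝ => y0 + -I * ε * v) (𝓝[>] 0) (𝓝 y0) := by
    have : Continuous (fun ε : ℝ => y0 + -I * ε * v) := by fun_prop
    have h := this.tendsto 0
    simp only [ofReal_zero, mul_zero, zero_mul, add_zero] at h
    exact h.mono_left nhdsWithin_le_nhds
  have t3 : ∀ᶠ ε in 𝓝[>] (0 : ℝ), ε < 2 := nhdsWithin_le_nhds (Iio_mem_nhds two_pos)
  obtain ⟨ε, ⟨⟨h1, h2⟩, h3⟩, h4⟩ := ((((t1.eventually hw.ev).and (t2.eventually hy.ev)).and t3).and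
    self_mem_nhdsWithin).exists
  have h4 : 0 < ε := h4
  set b := -I * ε * v with hb
  have hn : ‖b‖ = ε := by simp [hb, h, abs_of_pos h4]
  have hb0 : b ≠ 0 := by rw [← norm_pos_iff, hn]; exact h4
  have hb2 : ‖b‖ < 2 := by rw [hn]; exact h3
  have c1 : Tendsto (fun x : ℂ × ℂ => b + x.2 - x.1) (𝓝 y0 ×ˢ 𝓝 y0) (𝓝 b) := by
    have : Tendsto (fun x : ℂ × ℂ => b + x.2 - x.1) (𝓝 y0 ×ˢ 𝓝 y0) (𝓝 (b + y0 - y0)) :=
      (tendsto_const_nhds.add tendsto_snd).sub tendsto_fst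
    simpa using this
  have c2 : Tendsto (fun x : ℂ × ℂ => x.1 + mid (b + x.2 - x.1)) (𝓝 y0 ×ˢ 𝓝 y0)
      (𝓝 (y0 + mid b)) := tendsto_fst.add ((continuousAt_mid hb0).tendsto.comp c1)
  have c3 : Tendsto (fun x : ℂ × ℂ => x.2 + b) (𝓝 y0 ×ˢ 𝓝 y0) (𝓝 (y0 + b)) :=
    tendsto_snd.add tendsto_const_nhds
  have c4 : Tendsto (fun x : ℂ × ℂ => x.2 + mid b) (𝓝 y0 ×ˢ 𝓝 y0) (𝓝 (y0 + mid b)) :=
    tendsto_snd.add tendsto_const_nhds
  have e1 : ∀ᶠ z in 𝓝 b, z ≠ 0 ∧ ‖z‖ < 2 := (eventually_ne_nhds hb0).and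
    ((isOpen_lt continuous_norm continuous_const).mem_nhds hb2)
  have key : ∀ᶠ x : ℂ × ℂ in 𝓝 y0 ×ˢ 𝓝 y0, ∀ c, x.1 ∈ P.D c → x.2 ∈ P.D c := by
    filter_upwards [c1.eventually e1, c2.eventually h1.ev, c3.eventually h2.ev, c4.eventually h1.ev,
      tendsto_fst.eventually hy, tendsto_snd.eventually hy.ev] with x a1 a2 a3 a4 a5 a6 c hc
    have hpq := a5 c hc
    have s1 : x.2 + b ∈ P.D c := by
      refine two_flips hpq hc a2 a3 ?_ ?_
      · rw [add_sub_cancel_left]; exact norm_mid a1.1 a1.2.le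
      · rw [← norm_mid_sub a1.1 a1.2.le, norm_sub_rev]; congr 1; ring
    refine two_flips hpq s1 a4 a6 ?_ ?_
    · rw [add_sub_add_left_eq_sub]; exact norm_mid_sub hb0 hb2.le
    · rw [sub_add_cancel_left, norm_neg]; exact norm_mid hb0 hb2.le
  obtain ⟨y, ⟨c, hc⟩, hy'⟩ := ((P.dense y0).and_eventually key.curry).exists
  exact ⟨c, hy'.mono fun z hz => hz c hc⟩

/-- a two-coloured side seen from other two-coloured sides is pure -/
lemma purify {p q : Fin 5} {u : ℂ} {s : Bool} (hu : ‖u‖ = 1)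
    (h : P.Side u s fun i => i = p ∨ i = q)
    (hv : ∀ᶠ y in 𝓝 u, side s y →
      ∃ v s', ‖v‖ = 1 ∧ ‖v - y‖ = 1 ∧ P.Side v s' fun i => i = p ∨ i = q) :
    P.Pure u s p ∨ P.Pure u s q := by
  have h0 : u ≠ 0 := by rintro rfl; simp at hu
  have e1 : ∀ᶠ z in 𝓝 u, z ≠ 0 ∧ ‖z‖ < 2 := (eventually_ne_nhds h0).and
    ((isOpen_lt continuous_norm continuous_const).mem_nhds (by simp [hu]))
  have key : ∀ᶠ y in 𝓝 u, side s y → ∃ c, ∀ᶠ z in 𝓝 y, z ∈ P.D c := by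
    filter_upwards [hv, h.only, e1] with y h1 h2 h3 hs
    obtain ⟨v, s', hv1, hv2, hv3⟩ := h1 hs
    have hne : y ≠ 2 * v := by
      rintro rfl
      have := h3.2
      simp [hv1] at this
    obtain ⟨w, ⟨hw1, hw2⟩, hw3⟩ := ((cross hv1 hv2 h3.1 hne s').and_eventually hv3.only).exists
    exact loc_const hw2 (h2 hs) (hw3 hw1)
  obtain ⟨W, hW, hW1, hW2⟩ := exists_side_nbhd hu s key
  obtain ⟨c, hc⟩ := glue (G := fun _ => True) (R := fun y c => y ∈ P.D c) hW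
    (fun x _ => (frequently_true_iff_neBot _).2 inferInstance)
    (fun x hx => ((hW1 x hx).2 (hW1 x hx).1).imp fun c hc => hc.mono fun _ h _ => h)
    (fun x c c' _ h1 h2 => P.uniq h1 h2)
  have hp : P.Pure u s c := hW2.mono fun y hy hs i hi => P.uniq hi (hc y (hy hs) trivial)
  rcases hp.side hu h with rfl | rfl
  · exact Or.inl hp
  · exact Or.inr hp

lemma purify_adj {p q : Fin 5} {u v : ℂ} {s s' : Bool} (hu : ‖u‖ = 1) (hv : ‖v‖ = 1)
    (huv : ‖v - u‖ = 1) (h : P.Side u s fun i => i = p ∨ i = q)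
    (h' : P.Side v s' fun i => i = p ∨ i = q) : P.Pure u s p ∨ P.Pure u s q := by
  refine purify hu h ?_
  filter_upwards [adj_near hu hv huv h'.ev] with y ⟨z, h1, h2, h3⟩ _
  exact ⟨z, s', h2, h3, h1⟩

/-- the two-colour lemma -/
lemma two_colour {F : Set ℂ} (hF : F.Finite) (hF' : ∀ u, ∃ j : ℕ, zt ^ j * u ∉ F) {p q : Fin 5}
    (h : ∀ u, ‖u‖ = 1 → u ∉ F → ∃ s, P.Side u s fun i => i = p ∨ i = q) : False := by
  have hex : ∀ u, ‖u‖ = 1 → u ∉ F → ∃ c, (c = p ∨ c = q) ∧ ∃ s, P.Pure u s c := by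
    intro u hu huF
    obtain ⟨s, hs⟩ := h u hu huF
    have h0 : u ≠ 0 := by rintro rfl; simp at hu
    have e1 : ∀ᶠ z in 𝓝 u, z ≠ 0 ∧ ‖z‖ < 2 := (eventually_ne_nhds h0).and
      ((isOpen_lt continuous_norm continuous_const).mem_nhds (by simp [hu]))
    have : P.Pure u s p ∨ P.Pure u s q := by
      refine purify hu hs ?_
      filter_upwards [ev_notMem (hF.image2 (· + ·) hF) u, e1] with y h1 h2 hy
      have hne : y ≠ u := by rintro rfl; exact side_ne hy hu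
      have n1 := norm_mid h2.1 h2.2.le
      have n2 := norm_mid_sub h2.1 h2.2.le
      by_cases hm : mid y ∈ F
      · have hm' : y - mid y ∉ F := fun hm' => h1 hne ⟨_, hm, _, hm', by simp⟩
        have n3 : ‖y - mid y‖ = 1 := by rw [norm_sub_rev, n2]
        obtain ⟨s', hs'⟩ := h _ n3 hm'
        exact ⟨_, s', n3, by rw [sub_sub_cancel_left, norm_neg, n1], hs'⟩
      · obtain ⟨s', hs'⟩ := h _ n1 hm
        exact ⟨_, s', n1, n2, hs'⟩
    rcases this with h1 | h1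
    · exact ⟨p, Or.inl rfl, s, h1⟩
    · exact ⟨q, Or.inr rfl, s, h1⟩
  have hne : ∀ u c, Gen F u → (∃ s, P.Pure u s c) → (∃ s, P.Pure (zt * u) s c) → False := by
    rintro u c hu ⟨s, h1⟩ ⟨s', h2⟩
    exact h2.not_adj h1 hu.mul.1 hu.1 (by rw [norm_zt_mul_sub, hu.1])
  refine rot_glue (R := fun u c => (c = p ∨ c = q) ∧ ∃ s, P.Pure u s c) hF hF'
    (fun c => if c = p then q else p) ?_ ?_ ?_ ?_
  · intro u c c' hu h1 h2
    obtain ⟨d, hd, hd'⟩ := hex _ hu.mul.1 hu.mul.notMem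
    have a1 : c ≠ d := by rintro rfl; exact hne u c hu h1.2 hd'
    have a2 : c' ≠ d := by rintro rfl; exact hne u c' hu h2.2 hd'
    have := h1.1
    have := h2.1
    omega
  · intro u c hu h1
    obtain ⟨d, hd, hd'⟩ := hex _ hu.1 hu.notMem
    have a1 : c ≠ d := by rintro rfl; exact hne u c hu hd' h1.2
    have : (if c = p then q else p) = d := by
      have := h1.1
      split_ifs <;> omega
    rw [this]
    exact ⟨hd, hd'⟩
  · intro u c hu h1 h2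
    exact hne u c hu h1.2 h2.2
  · intro u hu huF
    obtain ⟨c, hc, s, hs⟩ := hex u hu huF
    exact ⟨c, (Side.ev hs).mono fun v hv _ => ⟨hc, s, hv⟩⟩

end PS

end Vale.Agent.P032.G
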