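import Vale.Agent.P032.GBase

/-! Module G of P032: the abstract four-cycle argument. -/

open Set Metric Filter Topology Complex

namespace Vale.Agent.P032.G

/-- class of a state pattern on a hexagon -/
def cl (s0 s1 s2 s3 s4 s5 : Fin 3) : Fin 5 :=
  if s0 = 2 ∧ s3 = 2 then 0 else if s1 = 2 ∧ s4 = 2 then 1 else if s2 = 2 ∧ s5 = 2 then 2
  else if s0 ≠ 2 ∧ s2 ≠ 2 ∧ s4 ≠ 2 then 3 else 4

/-- class before the shift -/
def psi : Fin 5 → Fin 5 := ![1, 2, 0, 4, 3]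

/-- not one of each type -/
def ap (x y : Fin 3) : Prop := ¬ (x = 0 ∧ y = 1) ∧ ¬ (x = 1 ∧ y = 0)

instance (x y : Fin 3) : Decidable (ap x y) := by unfold ap; infer_instance

set_option synthInstance.maxSize 4000 in
lemma fin_shift : ∀ s0 s1 : Fin 3, s0 ≠ s1 → ∀ s2, s1 ≠ s2 → ∀ s3, s2 ≠ s3 → ap s0 s3 →
    ∀ s4, s3 ≠ s4 → ap s1 s4 → ∀ s5, s4 ≠ s5 → ap s2 s5 → s5 ≠ s0 →
    cl s0 s1 s2 s3 s4 s5 ≠ cl s1 s2 s3 s4 s5 s0 ∧
      cl s0 s1 s2 s3 s4 s5 = psi (cl s1 s2 s3 s4 s5 s0) := by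
  decide +kernel

set_option synthInstance.maxSize 4000 in
set_option synthInstance.maxHeartbeats 200000 in
lemma fin_loc : ∀ s0 s1 : Fin 3, s0 ≠ s1 → ∀ s2, s1 ≠ s2 → ∀ s3, s2 ≠ s3 → ap s0 s3 →
    ∀ s4, s3 ≠ s4 → ap s1 s4 → ∀ s5, s4 ≠ s5 → ap s2 s5 → s5 ≠ s0 →
    ∀ t0 t1 : Fin 3, t0 ≠ t1 → ∀ t2, t1 ≠ t2 → ∀ t3, t2 ≠ t3 → ap t0 t3 →
    ∀ t4, t3 ≠ t4 → ap t1 t4 → ∀ t5, t4 ≠ t5 → ap t2 t5 → t5 ≠ t0 →
    ap s0 t3 → ap t0 s3 →
    (s0 = t1 → s0 = 2) → (s1 = t2 → s1 = 2) → (s2 = t3 → s2 = 2) → (s3 = t4 → s3 = 2) →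
    (s4 = t5 → s4 = 2) → (s5 = t0 → s5 = 2) →
    (t0 = s1 → t0 = 2) → (t1 = s2 → t1 = 2) → (t2 = s3 → t2 = 2) → (t3 = s4 → t3 = 2) →
    (t4 = s5 → t4 = 2) → (t5 = s0 → t5 = 2) →
    cl s0 s1 s2 s3 s4 s5 = cl t0 t1 t2 t3 t4 t5 := by
  decide +kernel

/-- data extracted from a four-cycle of lunes -/
structure Four (P : PS) where
  e : Fin 5
  c : Bool → Bool → Fin 5
  cover : ∀ j, j = e ∨ ∃ t i, j = c t i
  F : Set ℂ
  fin : F.Finite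
  orb : ∀ u, ∃ j : ℕ, zt ^ j * u ∉ F
  T : Bool → ℂ → Prop
  excl : ∀ t u, T t u → ¬ T (!t) u
  loc : ∀ t u, ‖u‖ = 1 → u ∉ F → ∀ᶠ v in 𝓝 u, (T t v ↔ T t u)
  sideT : ∀ t u, ‖u‖ = 1 → u ∉ F → T t u → ∀ i, ∃ s, P.Side u s fun j => j = c t i ∨ j = e
  sideE : ∀ u, ‖u‖ = 1 → u ∉ F → (∀ t, ¬ T t u) → ∃ s, P.Pure u s e
  anti : ∀ t u, ‖u‖ = 1 → T t u → ¬ T (!t) (-u)

lemma Gen.neg {F : Set ℂ} {u : ℂ} (h : Gen F u) : Gen F (-u) := by
  have := h.pow 3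
  rwa [zt_cube, neg_one_mul] at this

lemma bool_cases (t t' : Bool) : t' = t ∨ t' = !t := by cases t <;> cases t' <;> simp

namespace Four

variable {P : PS} (Q : Four P)

/-- fully coloured points of type `t` -/
def U (t : Bool) (u : ℂ) : Prop :=
  ‖u‖ = 1 ∧ u ∉ Q.F ∧ Q.T t u ∧ ∀ i, ∃ s, P.Pure u s (Q.c t i)

/-- some side has the fifth colour -/
def O (u : ℂ) : Prop := ∃ s, P.Pure u s Q.e

/-- adjacent nonspecial unit vectors -/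
def Adj (u v : ℂ) : Prop := ‖u‖ = 1 ∧ ‖v‖ = 1 ∧ ‖u - v‖ = 1 ∧ u ∉ Q.F ∧ v ∉ Q.F

variable {Q}

lemma Adj.symm {u v : ℂ} (h : Q.Adj u v) : Q.Adj v u :=
  ⟨h.2.1, h.1, by rw [norm_sub_rev]; exact h.2.2.1, h.2.2.2.2, h.2.2.2.1⟩

lemma adj_gen {u : ℂ} (h : Gen Q.F u) : Q.Adj (zt * u) u :=
  ⟨h.mul.1, h.1, by rw [norm_zt_mul_sub, h.1], h.mul.notMem, h.notMem⟩

lemma U.ev {t : Bool} {u : ℂ} (h : Q.U t u) : ∀ᶠ v in 𝓝 u, ‖v‖ = 1 → Q.U t v := by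
  obtain ⟨h1, h2, h3, h4⟩ := h
  obtain ⟨s0, hs0⟩ := h4 false
  obtain ⟨s1, hs1⟩ := h4 true
  have hF : ∀ᶠ v in 𝓝 u, v ∉ Q.F := Q.fin.isClosed.isOpen_compl.mem_nhds h2
  filter_upwards [hF, Q.loc t u h1 h2, PS.Side.ev hs0, PS.Side.ev hs1] with v a1 a2 a3 a4 hv
  refine ⟨hv, a1, a2.2 h3, fun i => ?_⟩
  cases i
  · exact ⟨s0, a3⟩
  · exact ⟨s1, a4⟩

lemma U_of_O {u v : ℂ} (h : Q.Adj u v) (ho : Q.O u) : ∃ t, Q.U t v := by
  obtain ⟨s, hs⟩ := ho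
  have hx := hs.excl_adj h.1 h.2.1 h.2.2.1
  by_cases hT : ∃ t, Q.T t v
  · obtain ⟨t, ht⟩ := hT
    refine ⟨t, h.2.1, h.2.2.2.2, ht, fun i => ?_⟩
    obtain ⟨s', hs'⟩ := Q.sideT t v h.2.1 h.2.2.2.2 ht i
    refine ⟨s', ?_⟩
    filter_upwards [hs', hx] with z h1 h2 hz j hj
    refine (h1 hz j hj).resolve_right ?_
    rintro rfl
    exact h2 hj
  · obtain ⟨s', hs'⟩ := Q.sideE v h.2.1 h.2.2.2.2 (not_exists.1 hT)
    exact (hs.not_adj hs' h.1 h.2.1 h.2.2.1).elim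

lemma U_or_O {t : Bool} {u v : ℂ} (h : Q.Adj u v) (hu : Q.T t u) (hv : Q.T t v) :
    Q.U t u ∨ Q.O u := by
  by_cases ho : Q.O u
  · exact Or.inr ho
  refine Or.inl ⟨h.1, h.2.2.2.1, hu, fun i => ?_⟩
  obtain ⟨s, hs⟩ := Q.sideT t u h.1 h.2.2.2.1 hu i
  obtain ⟨s', hs'⟩ := Q.sideT t v h.2.1 h.2.2.2.2 hv i
  exact ⟨s, (PS.purify_adj h.1 h.2.1 h.symm.2.2.1 hs hs').resolve_right fun h' => ho ⟨s, h'⟩⟩

lemma not_U_U {t : Bool} {u v : ℂ} (h : Q.Adj u v) (hu : Q.U t u) (hv : Q.U t v) : False := by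
  obtain ⟨s, hs⟩ := hu.2.2.2 false
  obtain ⟨s', hs'⟩ := hv.2.2.2 false
  exact hs.not_adj hs' h.1 h.2.1 h.2.2.1

lemma typed {u : ℂ} (hu : ‖u‖ = 1) (hF : u ∉ Q.F) (ho : ¬ Q.O u) : ∃ t, Q.T t u := by
  by_contra hc
  exact ho (Q.sideE u hu hF (not_exists.1 hc))

lemma T_flip {t : Bool} {u v : ℂ} (h : Q.Adj u v) (hn : ∀ t, ¬ Q.U t u) (ho : ¬ Q.O u)
    (hu : Q.T t u) : Q.T (!t) v := by
  have hov : ¬ Q.O v := fun h' => by
    obtain ⟨t', ht'⟩ := U_of_O h.symm h'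
    exact hn t' ht'
  obtain ⟨t', ht'⟩ := typed h.2.1 h.2.2.2.2 hov
  rcases bool_cases t t' with rfl | rfl
  · exact ((U_or_O h hu ht').elim (hn _) ho).elim
  · exact ht'

lemma not_nn {u : ℂ} (h : Gen Q.F u) (h0 : ∀ t, ¬ Q.U t u) (h1 : ∀ t, ¬ Q.U t (zt * u)) :
    False := by
  have a01 := (adj_gen h).symm
  have a12 := (adj_gen h.mul).symm
  have a05 : Q.Adj u (-(zt * (zt * u))) := by
    have := adj_gen h.mul.mul.neg
    have e : zt * -(zt * (zt * u)) = u := by linear_combination (-u) * zt_cube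
    rwa [e] at this
  have o0 : ¬ Q.O u := fun h' => by
    obtain ⟨t, ht⟩ := U_of_O a01 h'
    exact h1 t ht
  have o1 : ¬ Q.O (zt * u) := fun h' => by
    obtain ⟨t, ht⟩ := U_of_O a01.symm h'
    exact h0 t ht
  obtain ⟨t, ht⟩ := typed h.1 h.notMem o0
  have t2 := T_flip a12 h1 o1 (T_flip a01 h0 o0 ht)
  rw [Bool.not_not] at t2
  exact Q.anti t _ h.mul.mul.1 t2 (T_flip a05 h0 o0 ht)

lemma one_empty {t : Bool} (h : ∀ v, ¬ Q.U (!t) v) : False := by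
  have hn : ∀ u, ¬ Q.U t u → ∀ t', ¬ Q.U t' u := by
    intro u hu t'
    rcases bool_cases t t' with rfl | rfl
    · exact hu
    · exact h u
  have hg : ∀ u, Gen Q.F u → ¬ Q.T (!t) u := by
    intro u hu hT
    have n0 : ¬ Q.U t u := fun h' => Q.excl t u h'.2.2.1 hT
    have u1 : Q.U t (zt * u) := by
      by_contra hc
      exact not_nn hu (hn _ n0) (hn _ hc)
    have n2 : ¬ Q.U t (zt * (zt * u)) := fun h' => not_U_U (adj_gen hu.mul) h' u1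
    have u3 : Q.U t (zt * (zt * (zt * u))) := by
      by_contra hc
      exact not_nn hu.mul.mul (hn _ n2) (hn _ hc)
    have e : -(zt * (zt * (zt * u))) = u := by linear_combination (-u) * zt_cube
    exact Q.anti t _ u3.1 u3.2.2.1 (by rw [e]; exact hT)
  refine P.two_colour Q.fin Q.orb (p := Q.c t false) (q := Q.e) fun u hu hF => ?_
  by_cases hT : Q.T t u
  · exact Q.sideT t u hu hF hT false
  have hT' : ¬ Q.T (!t) u := by
    intro h'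
    obtain ⟨v, h1, h2⟩ := ((freq_gen Q.fin hu).and_eventually (Q.loc (!t) u hu hF)).exists
    exact hg v h1 (h2.2 h')
  obtain ⟨s, hs⟩ := Q.sideE u hu hF fun t' => by
    rcases bool_cases t t' with rfl | rfl
    · exact hT
    · exact hT'
  exact ⟨s, PS.Side.mono hs fun i hi => Or.inr hi⟩

lemma sum_excl {t : Bool} {u v : ℂ} (hu : Q.U t u) (hv : Q.U (!t) v) (i : Bool) :
    ∀ᶠ z in 𝓝 (u + v), z ∉ P.D (Q.c t i) := by
  obtain ⟨s, hs⟩ := hu.2.2.2 i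
  refine hs.excl hu.1 (by rw [sub_add_cancel_left, norm_neg, hv.1]) (fun h => ?_) fun h => ?_
  · have : v = -u := by linear_combination h
    exact Q.anti t u hu.1 hu.2.2.1 (this ▸ hv.2.2.1)
  · have : v = u := by linear_combination h
    exact Q.excl t u hu.2.2.1 (this ▸ hv.2.2.1)

lemma sum_mem {t : Bool} {u v : ℂ} (hu : Q.U t u) (hv : Q.U (!t) v) : u + v ∈ P.D Q.e := by
  have h1 := sum_excl hu hv
  have h2 := sum_excl hv (by rw [Bool.not_not]; exact hu)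
  rw [add_comm] at h2
  refine P.pure ?_
  filter_upwards [h1 false, h1 true, h2 false, h2 true] with z a1 a2 a3 a4 j hj
  rcases Q.cover j with h | ⟨t', i, rfl⟩
  · exact h
  · exfalso
    rcases bool_cases t t' with rfl | rfl <;> cases i <;> contradiction

lemma im_ne {a m : ℂ} (ha : ‖a‖ = 1) (hm : ‖m‖ = 1) (h : m ∉ ({a, -a} : Set ℂ)) :
    ((starRingEnd ℂ) (a - m) * m).im ≠ 0 := by
  intro him
  have e1 : a * (starRingEnd ℂ) a = 1 := by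
    rw [Complex.mul_conj, Complex.normSq_eq_norm_sq, ha]; simp
  have h1 : ((starRingEnd ℂ) a * m).im = 0 := by
    simp only [map_sub, sub_mul, sub_im, mul_im, conj_re, conj_im] at him ⊢
    linarith
  obtain ⟨r, hr⟩ : ∃ r : ℝ, (starRingEnd ℂ) a * m = r := 
    ⟨((starRingEnd ℂ) a * m).re, Complex.ext (ofReal_re _).symm (h1.trans (ofReal_im _).symm)⟩
  have h2 : |r| = 1 := by
    have := congrArg norm hr
    simpa [ha, hm] using this.symm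
  have h3 : m = r * a := by linear_combination a * hr - m * e1
  rcases (abs_eq zero_le_one).1 h2 with rfl | rfl
  · exact h (Or.inl (by simpa using h3))
  · exact h (Or.inr (by simpa using h3))

lemma not_both {t : Bool} {m0 : ℂ} (hm0 : Q.U (!t) m0) {u0 : ℂ} (hu0 : ‖u0‖ = 1)
    (h1 : ∃ᶠ u in 𝓝 u0, Q.U t u) (h2 : ∃ᶠ u in 𝓝 (zt * u0), Q.U t u) : False := by
  set a0 := u0 - zt * u0 with ha0
  have ha : ‖a0‖ = 1 := by rw [ha0, norm_sub_rev, norm_zt_mul_sub, hu0]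
  obtain ⟨m, ⟨hm, hm'⟩, hm1⟩ :=
    ((freq_unit hm0.1 (toFinite ({a0, -a0} : Set ℂ))).and_eventually hm0.ev).exists
  have hU := hm1 hm
  have hb := both_sides (im_ne ha hm hm')
  rw [sub_add_cancel, ha] at hb
  have ht := tendsto_rot 0 m
  simp only [zero_add] at ht
  obtain ⟨δ, hδ, hball⟩ := Metric.eventually_nhds_iff_ball.1 (ht.eventually hU.ev)
  obtain ⟨x, hx, hx'⟩ := (hb.1.and_eventually (ball_mem_nhds 0 hδ)).exists
  obtain ⟨y, hy, hy'⟩ := (hb.2.and_eventually (ball_mem_nhds 0 hδ)).exists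
  have c1 : ∀ θ : ℝ, Tendsto (fun z : ℂ × ℂ => ‖z.1 - z.2 - m + m * rot θ‖)
      (𝓝 u0 ×ˢ 𝓝 (zt * u0)) (𝓝 ‖a0 - m + m * rot θ‖) := fun θ =>
    (((tendsto_fst.sub tendsto_snd).sub tendsto_const_nhds).add tendsto_const_nhds).norm
  have e1 := ((c1 x).eventually (lt_mem_nhds hx)).and ((c1 y).eventually (gt_mem_nhds hy))
  obtain ⟨u, hu, hu'⟩ := (h1.and_eventually e1.curry).exists
  obtain ⟨v, hv, hv1, hv2⟩ := (h2.and_eventually hu').exists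
  have hc : Continuous fun θ : ℝ => ‖u - v - m + m * rot θ‖ := by
    have := continuous_rot
    fun_prop
  obtain ⟨θ, hθ, hθ'⟩ := (convex_ball (0 : ℝ) δ).isPreconnected.intermediate_value hy' hx'
    hc.continuousOn (show (1 : ℝ) ∈ Icc _ _ from ⟨hv2.le, hv1.le⟩)
  have hU' := hball θ hθ (by rw [norm_mul, hm, norm_rot, mul_one])
  refine P.indep ?_ (sum_mem hv hU) (sum_mem hu hU')
  rw [← hθ']
  congr 1
  ring

lemma cross_ev (hne : ∀ t, ∃ m, Q.U t m) {u0 : ℂ} (hu0 : ‖u0‖ = 1) :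
    ∀ᶠ x : ℂ × ℂ in 𝓝 u0 ×ˢ 𝓝 u0, ∀ t, ¬ (Q.U t x.1 ∧ Q.U t (zt * x.2)) := by
  refine eventually_all.2 fun t => ?_
  obtain ⟨m, hm⟩ := hne (!t)
  by_cases h1 : ∃ᶠ u in 𝓝 u0, Q.U t u
  · have h2 : ∀ᶠ u in 𝓝 (zt * u0), ¬ Q.U t u := not_frequently.1 (not_both hm hu0 h1)
    exact (tendsto_snd.eventually ((tendsto_mul_left zt u0).eventually h2)).mono
      fun x hx h => hx h.2
  · exact (tendsto_fst.eventually (not_frequently.1 h1)).mono fun x hx h => hx h.1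

variable (Q)

open Classical in
/-- the state of a unit vector -/
noncomputable def st (u : ℂ) : Fin 3 := if Q.U true u then 0 else if Q.U false u then 1 else 2

/-- states along the hexagon -/
noncomputable def sq (u : ℂ) (j : ℕ) : Fin 3 := Q.st (zt ^ j * u)

/-- the class of a unit vector -/
noncomputable def kp (u : ℂ) : Fin 5 :=
  cl (Q.sq u 0) (Q.sq u 1) (Q.sq u 2) (Q.sq u 3) (Q.sq u 4) (Q.sq u 5)

variable {Q}

lemma st_zero {u : ℂ} (h : Q.st u = 0) : Q.U true u := by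
  unfold st at h
  split_ifs at h <;> first | assumption | simp at h

lemma st_one {u : ℂ} (h : Q.st u = 1) : Q.U false u := by
  unfold st at h
  split_ifs at h <;> first | assumption | simp at h

lemma st_two {u : ℂ} (h : Q.st u = 2) (t : Bool) : ¬ Q.U t u := by
  unfold st at h
  cases t <;> split_ifs at h <;> first | assumption | simp at h

lemma st_cross {u v : ℂ} (h : ∀ t, ¬ (Q.U t u ∧ Q.U t v)) (he : Q.st u = Q.st v) :
    Q.st u = 2 := by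
  have h3 : ∀ x : Fin 3, x = 0 ∨ x = 1 ∨ x = 2 := by decide
  rcases h3 (Q.st u) with h' | h' | h'
  · exact (h true ⟨st_zero h', st_zero (he ▸ h')⟩).elim
  · exact (h false ⟨st_one h', st_one (he ▸ h')⟩).elim
  · exact h'

lemma st_ap {u v : ℂ} (h : ∀ t, Q.U t u → ¬ Q.U (!t) v) : ap (Q.st u) (Q.st v) :=
  ⟨fun h' => h true (st_zero h'.1) (st_one h'.2), fun h' => h false (st_one h'.1) (st_zero h'.2)⟩

lemma sq_mul (u : ℂ) (j : ℕ) : Q.sq (zt * u) j = Q.sq u (j + 1) := by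
  unfold sq; rw [← mul_assoc, ← pow_succ]

lemma sq_six (u : ℂ) : Q.sq u 6 = Q.sq u 0 := by
  unfold sq; rw [zt_six, pow_zero]

lemma sq_ne {u : ℂ} (h : Gen Q.F u) (j : ℕ) : Q.sq u j ≠ Q.sq u (j + 1) := by
  intro he
  have hg := h.pow j
  have e : zt ^ (j + 1) * u = zt * (zt ^ j * u) := by ring
  unfold sq at he
  rw [e] at he
  have h2 := st_cross (fun t h' => not_U_U (adj_gen hg) h'.2 h'.1) he
  exact not_nn hg (st_two h2) (st_two (he ▸ h2))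

lemma sq_ap (u : ℂ) (j : ℕ) : ap (Q.sq u j) (Q.sq u (j + 3)) := by
  have e : zt ^ (j + 3) * u = -(zt ^ j * u) := by rw [pow_add, zt_cube]; ring
  unfold sq
  rw [e]
  exact st_ap fun t h1 h2 => Q.anti t _ h1.1 h1.2.2.1 h2.2.2.1

lemma sq_ap' {u v : ℂ} (hv : ‖v‖ = 1) (h : ∀ t, Q.T t u → Q.T t v) :
    ap (Q.sq u 0) (Q.sq v 3) := by
  unfold sq
  rw [zt_cube, pow_zero, one_mul, neg_one_mul]
  exact st_ap fun t h1 h2 => Q.anti t _ hv (h t h1.2.2.1) h2.2.2.1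

lemma kp_shift {u : ℂ} (h : Gen Q.F u) : Q.kp u ≠ Q.kp (zt * u) ∧ Q.kp u = psi (Q.kp (zt * u)) := by
  have h5 := sq_ne h 5
  simp only [kp, sq_mul]
  rw [show 5 + 1 = 6 from rfl, sq_six] at h5 ⊢
  exact fin_shift _ _ (sq_ne h 0) _ (sq_ne h 1) _ (sq_ne h 2) (sq_ap u 0) _ (sq_ne h 3) (sq_ap u 1)
    _ (sq_ne h 4) (sq_ap u 2) h5

lemma kp_eq {u v : ℂ} (hu : Gen Q.F u) (hv : Gen Q.F v) (hT : ∀ t, Q.T t u ↔ Q.T t v)
    (h1 : ∀ j < 6, Q.sq u j = Q.sq v (j + 1) → Q.sq u j = 2)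
    (h2 : ∀ j < 6, Q.sq v j = Q.sq u (j + 1) → Q.sq v j = 2) : Q.kp u = Q.kp v := by
  have a5 := sq_ne hu 5
  have b5 := sq_ne hv 5
  have c5 := h1 5 (by norm_num)
  have d5 := h2 5 (by norm_num)
  rw [show 5 + 1 = 6 from rfl, sq_six] at a5 b5 c5 d5
  exact fin_loc _ _ (sq_ne hu 0) _ (sq_ne hu 1) _ (sq_ne hu 2) (sq_ap u 0) _ (sq_ne hu 3)
    (sq_ap u 1) _ (sq_ne hu 4) (sq_ap u 2) a5
    _ _ (sq_ne hv 0) _ (sq_ne hv 1) _ (sq_ne hv 2) (sq_ap v 0) _ (sq_ne hv 3)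
    (sq_ap v 1) _ (sq_ne hv 4) (sq_ap v 2) b5
    (sq_ap' hv.1 fun t => (hT t).1) (sq_ap' hu.1 fun t => (hT t).2)
    (h1 0 (by norm_num)) (h1 1 (by norm_num)) (h1 2 (by norm_num)) (h1 3 (by norm_num))
    (h1 4 (by norm_num)) c5
    (h2 0 (by norm_num)) (h2 1 (by norm_num)) (h2 2 (by norm_num)) (h2 3 (by norm_num))
    (h2 4 (by norm_num)) d5

lemma sq_cross_ev (hne : ∀ t, ∃ m, Q.U t m) {u0 : ℂ} (hu0 : ‖u0‖ = 1) :
    ∀ᶠ x : ℂ × ℂ in 𝓝 u0 ×ˢ 𝓝 u0, ∀ j < 6, Q.sq x.1 j = Q.sq x.2 (j + 1) → Q.sq x.1 j = 2 := by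
  have : ∀ᶠ x : ℂ × ℂ in 𝓝 u0 ×ˢ 𝓝 u0, ∀ j ∈ Finset.range 6,
      Q.sq x.1 j = Q.sq x.2 (j + 1) → Q.sq x.1 j = 2 := by
    refine (Finset.range 6).eventually_all.2 fun j _ => ?_
    have h := cross_ev hne (u0 := zt ^ j * u0) (by rw [norm_zt_pow_mul, hu0])
    have ht := (tendsto_mul_left (zt ^ j) u0).prodMap (tendsto_mul_left (zt ^ j) u0)
    filter_upwards [ht.eventually h] with x hx
    have e : zt ^ (j + 1) * x.2 = zt * (zt ^ j * x.2) := by ring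
    unfold sq
    rw [e]
    exact st_cross hx
  exact this.mono fun x hx j hj => hx j (Finset.mem_range.2 hj)

theorem false_of (Q : Four P) : False := by
  by_cases hne : ∀ t, ∃ m, Q.U t m
  swap
  · push Not at hne
    obtain ⟨t, ht⟩ := hne
    exact one_empty (Q := Q) (t := !t) (by rwa [Bool.not_not])
  refine rot_glue (R := fun u c => Q.kp u = c) Q.fin Q.orb psi ?_ ?_ ?_ ?_
  · intro u c c' _ h1 h2
    exact h1.symm.trans h2
  · rintro u c hu rfl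
    exact (kp_shift hu).2
  · rintro u c hu rfl h
    exact (kp_shift hu).1 h.symm
  · intro u hu hF
    have h1 := sq_cross_ev hne hu
    have h2 := (tendsto_prod_swap (f := 𝓝 u) (g := 𝓝 u)).eventually h1
    have h3 : ∀ᶠ v in 𝓝 u, ∀ t, (Q.T t v ↔ Q.T t u) := eventually_all.2 fun t => Q.loc t u hu hF
    have key : ∀ᶠ x : ℂ × ℂ in 𝓝 u ×ˢ 𝓝 u, Gen Q.F x.1 → Gen Q.F x.2 → Q.kp x.2 = Q.kp x.1 := by
      filter_upwards [h1, h2, tendsto_fst.eventually h3, tendsto_snd.eventually h3]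
        with x a1 a2 a3 a4 g1 g2
      exact (kp_eq g1 g2 (fun t => (a3 t).trans (a4 t).symm) a1 a2).symm
    obtain ⟨v, hv, hv'⟩ := ((freq_gen Q.fin hu).and_eventually key.curry).exists
    exact ⟨Q.kp v, hv'.mono fun z hz hG => hz hv hG⟩

end Four

end Vale.Agent.P032.G
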