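import Mathlib

/-! A small reverse-unit-propagation checker, with its soundness proof. -/

namespace Vale.Agent.P032.SC

/-- Static clause store: a search tree of pairs of codes. -/
inductive Db where
  | leaf (c j : ℕ) : Db
  | node (m : ℕ) (l r : Db) : Db

noncomputable def Db.get (t : Db) (n : ℕ) : ℕ × ℕ :=
  Db.rec (motive := fun _ => ℕ × ℕ) (fun c j => (c, j))
    (fun m _ _ l r => cond (Nat.blt n m) l r) t

/-- evaluate a number before using it -/
noncomputable def force {β : Type} (n : ℕ) (k : ℕ → β) : β :=
  Nat.rec (motive := fun _ => β) (k 0) (fun m _ => k (Nat.succ m)) n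

theorem force_eq {β : Type} (n : ℕ) (k : ℕ → β) : force n k = k n := by
  cases n <;> rfl

/-- digits in base 4096, each lowered by one -/
noncomputable def dec (c : ℕ) : List ℕ :=
  Nat.rec (motive := fun _ => ℕ → List ℕ) (fun _ => [])
    (fun _ ih c => Nat.rec (motive := fun _ => List ℕ) []
      (fun m _ => (Nat.pred (Nat.mod (Nat.succ m) 4096)) :: ih (Nat.div (Nat.succ m) 4096)) c) 200 c

def neg (l : ℕ) : ℕ := l + 1 - 2 * (l % 2)

/-- value of a literal -/
def Lv (α : ℕ → Prop) (l : ℕ) : Prop := if l % 2 = 0 then α (l / 2) else ¬ α (l / 2)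

theorem Lv_neg (α : ℕ → Prop) (l : ℕ) (h : Lv α l) : ¬ Lv α (neg l) := by
  unfold Lv neg at *
  by_cases h2 : l % 2 = 0
  · rw [if_pos h2] at h
    rw [if_neg (by omega), show (l + 1 - 2 * (l % 2)) / 2 = l / 2 by omega]
    exact fun h' => h' h
  · rw [if_neg h2] at h
    rw [if_pos (by omega), show (l + 1 - 2 * (l % 2)) / 2 = l / 2 by omega]
    exact h

def Sat (α : ℕ → Prop) (c : List ℕ) : Prop := ∃ l ∈ c, Lv α l

noncomputable def filt (F : ℕ) (c : List ℕ) : List ℕ :=
  List.rec (motive := fun _ => List ℕ) [] (fun x _ ih => cond (Nat.testBit F x) ih (x :: ih)) c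

theorem mem_filt (F : ℕ) (c : List ℕ) (x : ℕ) (hx : x ∈ c) (h : F.testBit x = false) :
    x ∈ filt F c := by
  induction c with
  | nil => simp at hx
  | cons y t ih =>
    show x ∈ cond (Nat.testBit F y) (filt F t) (y :: filt F t)
    rcases List.mem_cons.1 hx with rfl | hx
    · rw [h]; simp
    · cases Nat.testBit F y
      · simp [ih hx]
      · simp [ih hx]

noncomputable def maskOf (c : List ℕ) : ℕ :=
  List.rec (motive := fun _ => ℕ) 0 (fun x _ ih => Nat.lor ih (Nat.pow 2 x)) c

theorem testBit_add (F k x : ℕ) (h : (Nat.lor F (Nat.pow 2 k)).testBit x = true) :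
    F.testBit x = true ∨ x = k := by
  have : (F ||| 2 ^ k).testBit x = true := h
  rw [Nat.testBit_or, Nat.testBit_two_pow] at this
  simp only [Bool.or_eq_true, decide_eq_true_eq] at this
  tauto

theorem mem_of_maskOf (c : List ℕ) (x : ℕ) (h : (maskOf c).testBit x = true) : x ∈ c := by
  induction c with
  | nil => have : (0 : ℕ).testBit x = true := h
           simp at this
  | cons y t ih =>
    rcases testBit_add (maskOf t) y x h with h | rfl
    · exact List.mem_cons_of_mem _ (ih h)
    · exact List.mem_cons_self

noncomputable def Cl (t : Db) (n : ℕ) : List ℕ := dec (t.get n).1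

/-- run the hints from the state `F` (the set of literals assumed false) -/
noncomputable def rup (t : Db) (n : ℕ) (hs : List ℕ) : ℕ → Bool :=
  List.rec (motive := fun _ => ℕ → Bool) (fun _ => false)
    (fun h _ ih F => force h fun h => force F fun F => cond (Nat.blt h n)
      (List.rec (motive := fun _ => Bool) true
        (fun k r _ => List.rec (motive := fun _ => Bool) (ih (Nat.lor F (Nat.pow 2 (neg k))))
          (fun _ _ _ => false) r) (filt F (Cl t h))) false) hs

theorem rup_sound (α : ℕ → Prop) (t : Db) (n : ℕ) (hn : ∀ h < n, Sat α (Cl t h)) (hs : List ℕ) :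
    ∀ F, rup t n hs F = true → (∀ x, F.testBit x = true → ¬ Lv α x) → False := by
  induction hs with
  | nil => intro F h _; exact absurd h (by simp [rup])
  | cons h r ih =>
    intro F hr hF
    have hr' : (force h fun h => force F fun F => cond (Nat.blt h n)
      (List.rec (motive := fun _ => Bool) true
        (fun k r' _ => List.rec (motive := fun _ => Bool)
          (rup t n r (Nat.lor F (Nat.pow 2 (neg k))))
          (fun _ _ _ => false) r') (filt F (Cl t h))) false) = true := hr
    rw [force_eq, force_eq] at hr'
    have hlt : h < n := by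
      by_contra hc
      have : Nat.blt h n = false := by
        cases hb : Nat.blt h n
        · rfl
        · exact absurd (Nat.blt_eq ▸ hb) hc
      rw [this] at hr'
      exact absurd hr' (by simp)
    have hbt : Nat.blt h n = true := by rw [Nat.blt_eq]; exact hlt
    rw [hbt, cond_true] at hr'
    obtain ⟨l, hl, hv⟩ := hn h hlt
    have hm : l ∈ filt F (Cl t h) := mem_filt F _ l hl (by
      cases hb : F.testBit l
      · rfl
      · exact absurd hv (hF l hb))
    generalize filt F (Cl t h) = w at hr' hm
    match w, hr', hm with
    | [], _, hm => simp at hm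
    | [k], hr', hm =>
      have hk : l = k := by simpa using hm
      subst hk
      refine ih _ hr' fun x hx => ?_
      rcases testBit_add _ _ _ hx with hx | rfl
      · exact hF x hx
      · exact Lv_neg α l hv
    | _ :: _ :: _, hr', _ => exact absurd hr' (by simp)

/-- one step: either an original clause passing `ok`, or a clause derived from earlier ones -/
noncomputable def step (ok : List ℕ → ℕ → List ℕ → Bool) (t : Db) (n : ℕ) : Bool :=
  List.rec (motive := fun _ => Bool) false
    (fun a r _ => cond (Nat.beq a 6) (rup t n r (maskOf (Cl t n))) (ok (Cl t n) a r))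
    (dec (t.get n).2)

noncomputable def run (ok : List ℕ → ℕ → List ℕ → Bool) (t : Db) (a k : ℕ) : Bool :=
  Nat.rec (motive := fun _ => Bool) true
    (fun m ih => cond (force (Nat.add a m) (step ok t)) ih false) k

theorem run_spec (ok : List ℕ → ℕ → List ℕ → Bool) (t : Db) (a k : ℕ) (h : run ok t a k = true) :
    ∀ n, a ≤ n → n < a + k → step ok t n = true := by
  induction k with
  | zero => intro n h1 h2; omega
  | succ m ih =>
    have h' : cond (force (Nat.add a m) (step ok t)) (run ok t a m) false = true := h
    rw [force_eq] at h'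
    cases hs : step ok t (Nat.add a m)
    · rw [hs] at h'; exact absurd h' (by simp)
    · rw [hs, cond_true] at h'
      intro n h1 h2
      by_cases hn : n = a + m
      · subst hn; exact hs
      · exact ih h' n h1 (by omega)

theorem all_sat (α : ℕ → Prop) (ok : List ℕ → ℕ → List ℕ → Bool)
    (hok : ∀ c a r, ok c a r = true → Sat α c) (t : Db) (N : ℕ)
    (h : ∀ n < N, step ok t n = true) : ∀ n < N, Sat α (Cl t n) := by
  intro n
  induction n using Nat.strong_induction_on with
  | _ n ih =>
    intro hn
    have hs := h n hn
    unfold step at hs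
    generalize dec (t.get n).2 = w at hs
    match w, hs with
    | [], hs => exact absurd hs (by simp)
    | a :: r, hs =>
      have hs' : cond (Nat.beq a 6) (rup t n r (maskOf (Cl t n))) (ok (Cl t n) a r) = true := hs
      cases hb : Nat.beq a 6
      · rw [hb, cond_false] at hs'; exact hok _ _ _ hs'
      · rw [hb, cond_true] at hs'
        by_contra hc
        exact rup_sound α t n (fun h hh => ih h hh (by omega)) r _ hs'
          (fun x hx hv => hc ⟨x, mem_of_maskOf _ _ hx, hv⟩)

end Vale.Agent.P032.SC
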