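import Vale.Agent.P032.SChk

/-! The 18 unit vectors and the meaning of the original clauses. -/

namespace Vale.Agent.P032.SC

noncomputable def _root_.Vale.Agent.P032.zeta : ℂ := ⟨1 / 2, √3 / 2⟩

abbrev Q4 := ℤ × ℤ × ℤ × ℤ

noncomputable def emb (p : Q4) : ℂ :=
  ⟨(p.1 + p.2.1 * (√3 * √11)) / 12, (p.2.2.1 * √3 + p.2.2.2 * √11) / 12⟩

def utl : List Q4 :=
  [(12,0,0,0),(6,0,6,0),(-6,0,6,0),(-12,0,0,0),(-6,0,-6,0),(6,0,-6,0),(0,2,2,0),(-3,1,1,3),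
   (-3,-1,-1,3),(0,-2,-2,0),(3,-1,-1,-3),(3,1,1,-3),(10,0,0,2),(5,-1,5,1),(-5,-1,5,-1),
   (-10,0,0,-2),(-5,1,-5,-1),(5,1,-5,1)]

def ut (n : ℕ) : Q4 := utl.getD n (12,0,0,0)

noncomputable def _root_.Vale.Agent.P032.U : Finset ℂ := (utl.map emb).toFinset

def qadd (p q : Q4) : Q4 := (p.1 + q.1, p.2.1 + q.2.1, p.2.2.1 + q.2.2.1, p.2.2.2 + q.2.2.2)
def qsub (p q : Q4) : Q4 := (p.1 - q.1, p.2.1 - q.2.1, p.2.2.1 - q.2.2.1, p.2.2.2 - q.2.2.2)

def isUnitQ (p : Q4) : Bool :=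
  decide (p.1 * p.1 + 33 * (p.2.1 * p.2.1) + 3 * (p.2.2.1 * p.2.2.1) + 11 * (p.2.2.2 * p.2.2.2)
    = 144) && decide (p.1 * p.2.1 + p.2.2.1 * p.2.2.2 = 0)

def nzQ (p : Q4) : Bool :=
  !decide (p.1 * p.1 = 33 * (p.2.1 * p.2.1)) ||
    !decide (3 * (p.2.2.1 * p.2.2.1) = 11 * (p.2.2.2 * p.2.2.2))

def rotQ (p q : Q4) : Bool :=
  decide (2 * q.1 = p.1 - 3 * p.2.2.1) && decide (2 * q.2.1 = p.2.1 - p.2.2.2) &&
    decide (2 * q.2.2.1 = p.1 + p.2.2.1) && decide (2 * q.2.2.2 = 3 * p.2.1 + p.2.2.2)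

theorem s3 : √3 * √3 = (3 : ℝ) := Real.mul_self_sqrt (by norm_num)
theorem s11 : √11 * √11 = (11 : ℝ) := Real.mul_self_sqrt (by norm_num)

theorem emb_add (p q : Q4) : emb (qadd p q) = emb p + emb q := by
  apply Complex.ext <;> simp [emb, qadd] <;> ring

theorem emb_sub (p q : Q4) : emb (qsub p q) = emb p - emb q := by
  apply Complex.ext <;> simp [emb, qsub] <;> ring

theorem norm_one_of_sq (z : ℂ) (h : z.re * z.re + z.im * z.im = 1) : ‖z‖ = 1 := by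
  have : ‖z‖ ^ 2 = 1 := by rw [Complex.sq_norm, Complex.normSq_apply, h]
  nlinarith [norm_nonneg z]

theorem emb_unit (p : Q4) (h : isUnitQ p = true) : ‖emb p‖ = 1 := by
  obtain ⟨a, b, c, d⟩ := p
  simp only [isUnitQ, Bool.and_eq_true, decide_eq_true_eq] at h
  have h1 : (a : ℝ) * a + 33 * (b * b) + 3 * (c * c) + 11 * (d * d) = 144 := by exact_mod_cast h.1
  have h2 : (a : ℝ) * b + c * d = 0 := by exact_mod_cast h.2
  apply norm_one_of_sq
  simp only [emb]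
  linear_combination (1 / 144 : ℝ) * h1 + (2 * (√3 * √11) / 144) * h2 +
    ((b * b * (√11 * √11) + c * c) / 144) * s3 + ((3 * (b * b) + d * d) / 144) * s11

theorem emb_nz (p : Q4) (h : nzQ p = true) : emb p ≠ 0 := by
  obtain ⟨a, b, c, d⟩ := p
  intro h0
  have hre : ((a : ℝ) + b * (√3 * √11)) / 12 = 0 := congrArg Complex.re h0
  have him : ((c : ℝ) * √3 + d * √11) / 12 = 0 := congrArg Complex.im h0
  have e1 : (a : ℝ) * a = 33 * (b * b) := by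
    linear_combination 12 * (a - b * (√3 * √11)) * hre + (b * b * (√11 * √11)) * s3 +
      (3 * (b * b)) * s11
  have e2 : 3 * ((c : ℝ) * c) = 11 * (d * d) := by
    linear_combination 12 * (c * √3 - d * √11) * him - (c * c) * s3 + (d * d) * s11
  have e1' : a * a = 33 * (b * b) := by exact_mod_cast e1
  have e2' : 3 * (c * c) = 11 * (d * d) := by exact_mod_cast e2
  simp [nzQ, e1', e2'] at h

theorem emb_rot (p q : Q4) (h : rotQ p q = true) : zeta * emb p = emb q := by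
  obtain ⟨a, b, c, d⟩ := p
  obtain ⟨a', b', c', d'⟩ := q
  simp only [rotQ, Bool.and_eq_true, decide_eq_true_eq] at h
  obtain ⟨⟨⟨h1, h2⟩, h3⟩, h4⟩ := h
  have h1' : 2 * (a' : ℝ) = a - 3 * c := by exact_mod_cast h1
  have h2' : 2 * (b' : ℝ) = b - d := by exact_mod_cast h2
  have h3' : 2 * (c' : ℝ) = a + c := by exact_mod_cast h3
  have h4' : 2 * (d' : ℝ) = 3 * b + d := by exact_mod_cast h4
  apply Complex.ext
  · simp only [Complex.mul_re, zeta, emb]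
    linear_combination (-1 / 24 : ℝ) * h1' - (√3 * √11 / 24) * h2' - (c / 24) * s3
  · simp only [Complex.mul_im, zeta, emb]
    linear_combination (-√3 / 24 : ℝ) * h3' - (√11 / 24) * h4' + (b * √11 / 24) * s3

theorem ut_mem (n : ℕ) : ut n ∈ utl := by
  unfold ut
  rw [List.getD_eq_getElem?_getD]
  cases h : utl[n]? with
  | none => simp [utl]
  | some x => exact List.mem_of_getElem? h

theorem emb_ut_mem (n : ℕ) : emb (ut n) ∈ U := by
  unfold U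
  rw [List.mem_toFinset]
  exact List.mem_map_of_mem (ut_mem n)

theorem utl_unit : ∀ p ∈ utl, isUnitQ p = true := by decide

theorem _root_.Vale.Agent.P032.U_norm : ∀ u ∈ U, ‖u‖ = 1 := by
  intro u hu
  unfold U at hu
  rw [List.mem_toFinset, List.mem_map] at hu
  obtain ⟨p, hp, rfl⟩ := hu
  exact emb_unit p (utl_unit p hp)

theorem _root_.Vale.Agent.P032.zeta_norm : ‖zeta‖ = 1 := by
  apply norm_one_of_sq
  simp only [zeta]
  linear_combination (1 / 4 : ℝ) * s3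

theorem _root_.Vale.Agent.P032.zeta_sub_one_norm : ‖zeta - 1‖ = 1 := by
  apply norm_one_of_sq
  simp only [zeta, Complex.sub_re, Complex.sub_im, Complex.one_re, Complex.one_im]
  linear_combination (1 / 4 : ℝ) * s3

/-- the point with number `p` -/
def sPt (p : ℕ) : Q4 := qadd (ut (p / 18)) (ut (p % 18))

def okc (c : List ℕ) (a : ℕ) (r : List ℕ) : Bool :=
  let x := r.getD 0 0
  let y := r.getD 1 0
  let z := r.getD 2 0
  let w := r.getD 3 0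
  cond (Nat.beq a 5)
    (decide (z < 5) && isUnitQ (qsub (sPt x) (sPt y)) &&
      decide (c = [2 * (5 * (18 + x) + z) + 1, 2 * (5 * (18 + y) + z) + 1]))
  (cond (Nat.beq a 4)
    (decide (w < 5) && decide (x < 18) && nzQ (qsub (ut x) (ut y)) && nzQ (qadd (ut x) (ut y)) &&
      decide (sPt z = qadd (ut x) (ut y)) &&
      decide (c = [2 * (5 * (18 + z) + w) + 1, 2 * (5 * x + w) + 1]))
  (cond (Nat.beq a 3)
    (decide (c = [2 * (5 * (18 + x)), 2 * (5 * (18 + x) + 1), 2 * (5 * (18 + x) + 2),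
      2 * (5 * (18 + x) + 3), 2 * (5 * (18 + x) + 4)]))
  (cond (Nat.beq a 2)
    (decide (z < 5) && decide (x < 18) && decide (y < 18) && rotQ (ut x) (ut y) &&
      decide (c = [2 * (5 * x + z) + 1, 2 * (5 * y + z) + 1]))
  (cond (Nat.beq a 1)
    (decide (x < 18) &&
      decide (c = ([0, 1, 2, 3, 4].filter (fun j => !decide (j = y))).map (fun j => 2 * (5 * x + j))))
    (decide (c = [0]) || decide (c = [2]) || decide (c = [14]) || decide (c = [16]))))))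

noncomputable def asg (C : ℂ → Finset (Fin 5)) (col : ℂ → Fin 5) (σ : ℕ → Fin 5) (n : ℕ) : Prop :=
  if n < 90 then σ (n % 5) ∈ C (emb (ut (n / 5))) else col (emb (sPt (n / 5 - 18))) = σ (n % 5)

theorem asg_s (C : ℂ → Finset (Fin 5)) (col : ℂ → Fin 5) (σ : ℕ → Fin 5) (u i : ℕ) (hu : u < 18)
    (hi : i < 5) : asg C col σ (5 * u + i) ↔ σ i ∈ C (emb (ut u)) := by
  unfold asg
  rw [if_pos (by omega), show (5 * u + i) % 5 = i by omega, show (5 * u + i) / 5 = u by omega]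

theorem asg_c (C : ℂ → Finset (Fin 5)) (col : ℂ → Fin 5) (σ : ℕ → Fin 5) (p i : ℕ)
    (hi : i < 5) : asg C col σ (5 * (18 + p) + i) ↔ col (emb (sPt p)) = σ i := by
  unfold asg
  rw [if_neg (by omega), show (5 * (18 + p) + i) % 5 = i by omega,
    show (5 * (18 + p) + i) / 5 - 18 = p by omega]

theorem Lv_pos (α : ℕ → Prop) (n : ℕ) : Lv α (2 * n) ↔ α n := by
  unfold Lv
  rw [if_pos (by omega), show 2 * n / 2 = n by omega]

theorem Lv_ng (α : ℕ → Prop) (n : ℕ) : Lv α (2 * n + 1) ↔ ¬ α n := by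
  unfold Lv
  rw [if_neg (by omega), show (2 * n + 1) / 2 = n by omega]

theorem sat_two (α : ℕ → Prop) (m n : ℕ) (h : α m → α n → False) :
    Sat α [2 * m + 1, 2 * n + 1] := by
  by_cases hm : α m
  · exact ⟨2 * n + 1, by simp, (Lv_ng α n).2 (h hm)⟩
  · exact ⟨2 * m + 1, by simp, (Lv_ng α m).2 hm⟩

theorem emb_sPt (p : ℕ) : emb (sPt p) = emb (ut (p / 18)) + emb (ut (p % 18)) := emb_add _ _

theorem okc_sound (C : ℂ → Finset (Fin 5)) (col : ℂ → Fin 5)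
    (h2 : ∀ u ∈ U, 2 ≤ (C u).card) (hadj : ∀ u ∈ U, Disjoint (C u) (C (zeta * u)))
    (hex : ∀ u ∈ U, ∀ v ∈ U, u + v ≠ 0 → u ≠ v → col (u + v) ∉ C u)
    (hcol : ∀ u ∈ U, ∀ v ∈ U, ∀ u' ∈ U, ∀ v' ∈ U, ‖(u + v) - (u' + v')‖ = 1 →
      col (u + v) ≠ col (u' + v'))
    (σ : ℕ → Fin 5) (hs : ∀ x, ∃ i < 5, σ i = x)
    (h0 : σ 0 ∈ C (emb (ut 0))) (h1 : σ 1 ∈ C (emb (ut 0)))
    (h2' : σ 2 ∈ C (emb (ut 1))) (h3 : σ 3 ∈ C (emb (ut 1)))
    (c : List ℕ) (a : ℕ) (r : List ℕ) (h : okc c a r = true) : Sat (asg C col σ) c := by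
  unfold okc at h
  generalize r.getD 0 0 = x at h
  generalize r.getD 1 0 = y at h
  generalize r.getD 2 0 = z at h
  generalize r.getD 3 0 = w at h
  simp only at h
  cases h5 : Nat.beq a 5
  swap
  · rw [h5, cond_true] at h
    simp only [Bool.and_eq_true, decide_eq_true_eq] at h
    obtain ⟨⟨hz, hu⟩, rfl⟩ := h
    refine sat_two _ _ _ fun e1 e2 => ?_
    rw [asg_c _ _ _ _ _ hz] at e1 e2
    have hn := emb_unit _ hu
    rw [emb_sub, emb_sPt, emb_sPt] at hn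
    refine hcol _ (emb_ut_mem _) _ (emb_ut_mem _) _ (emb_ut_mem _) _ (emb_ut_mem _) hn ?_
    rw [← emb_sPt, ← emb_sPt, e1, e2]
  rw [h5, cond_false] at h
  cases h4 : Nat.beq a 4
  swap
  · rw [h4, cond_true] at h
    simp only [Bool.and_eq_true, decide_eq_true_eq] at h
    obtain ⟨⟨⟨⟨⟨hw, hx⟩, hn1⟩, hn2⟩, hp⟩, rfl⟩ := h
    refine sat_two _ _ _ fun e1 e2 => ?_
    rw [asg_c _ _ _ _ _ hw, hp, emb_add] at e1
    rw [asg_s _ _ _ _ _ hx hw] at e2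
    have g1 := emb_nz _ hn1
    have g2 := emb_nz _ hn2
    rw [emb_sub, sub_ne_zero] at g1
    rw [emb_add] at g2
    exact hex _ (emb_ut_mem x) _ (emb_ut_mem y) g2 g1 (e1 ▸ e2)
  rw [h4, cond_false] at h
  cases h3' : Nat.beq a 3
  swap
  · rw [h3', cond_true] at h
    simp only [decide_eq_true_eq] at h
    subst h
    obtain ⟨i, hi, e⟩ := hs (col (emb (sPt x)))
    refine ⟨2 * (5 * (18 + x) + i), ?_, (Lv_pos _ _).2 ((asg_c _ _ _ _ _ hi).2 e.symm)⟩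
    interval_cases i <;> simp
  rw [h3', cond_false] at h
  cases h2b : Nat.beq a 2
  swap
  · rw [h2b, cond_true] at h
    simp only [Bool.and_eq_true, decide_eq_true_eq] at h
    obtain ⟨⟨⟨⟨hz, hx⟩, hy⟩, hr⟩, rfl⟩ := h
    refine sat_two _ _ _ fun e1 e2 => ?_
    rw [asg_s _ _ _ _ _ hx hz] at e1
    rw [asg_s _ _ _ _ _ hy hz, ← emb_rot _ _ hr] at e2
    exact Finset.disjoint_left.1 (hadj _ (emb_ut_mem x)) e1 e2
  rw [h2b, cond_false] at h
  cases h1b : Nat.beq a 1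
  swap
  · rw [h1b, cond_true] at h
    simp only [Bool.and_eq_true, decide_eq_true_eq] at h
    obtain ⟨hx, rfl⟩ := h
    obtain ⟨s, hs1, t, ht1, hst⟩ := Finset.one_lt_card.1 (h2 _ (emb_ut_mem x))
    have key : ∃ j < 5, j ≠ y ∧ σ j ∈ C (emb (ut x)) := by
      obtain ⟨i, hi, rfl⟩ := hs s
      obtain ⟨j, hj, rfl⟩ := hs t
      by_cases hiy : i = y
      · refine ⟨j, hj, ?_, ht1⟩
        rintro rfl
        exact hst (by rw [hiy])
      · exact ⟨i, hi, hiy, hs1⟩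
    obtain ⟨j, hj, hjy, hm⟩ := key
    refine ⟨2 * (5 * x + j), List.mem_map.2 ⟨j, List.mem_filter.2 ⟨?_, by simpa using hjy⟩, rfl⟩,
      (Lv_pos _ _).2 ((asg_s _ _ _ _ _ hx hj).2 hm)⟩
    interval_cases j <;> simp
  rw [h1b, cond_false] at h
  simp only [Bool.or_eq_true, decide_eq_true_eq] at h
  rcases h with ((rfl | rfl) | rfl) | rfl
  · exact ⟨2 * (5 * 0 + 0), by simp, (Lv_pos _ _).2 ((asg_s _ _ _ 0 0 (by omega) (by omega)).2 h0)⟩
  · exact ⟨2 * (5 * 0 + 1), by simp, (Lv_pos _ _).2 ((asg_s _ _ _ 0 1 (by omega) (by omega)).2 h1)⟩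
  · exact ⟨2 * (5 * 1 + 2), by simp, (Lv_pos _ _).2 ((asg_s _ _ _ 1 2 (by omega) (by omega)).2 h2')⟩
  · exact ⟨2 * (5 * 1 + 3), by simp, (Lv_pos _ _).2 ((asg_s _ _ _ 1 3 (by omega) (by omega)).2 h3)⟩

theorem fifth : ∀ a b c d : Fin 5, a ≠ b → a ≠ c → a ≠ d → b ≠ c → b ≠ d → c ≠ d →
    ∃ e, ∀ x, x = a ∨ x = b ∨ x = c ∨ x = d ∨ x = e := by decide +kernel

theorem exists_sigma (C : ℂ → Finset (Fin 5))
    (h2 : ∀ u ∈ U, 2 ≤ (C u).card) (hadj : ∀ u ∈ U, Disjoint (C u) (C (zeta * u))) :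
    ∃ σ : ℕ → Fin 5, (∀ x, ∃ i < 5, σ i = x) ∧ σ 0 ∈ C (emb (ut 0)) ∧ σ 1 ∈ C (emb (ut 0)) ∧
      σ 2 ∈ C (emb (ut 1)) ∧ σ 3 ∈ C (emb (ut 1)) := by
  obtain ⟨a, ha, b, hb, hab⟩ := Finset.one_lt_card.1 (h2 _ (emb_ut_mem 0))
  obtain ⟨c, hc, d, hd, hcd⟩ := Finset.one_lt_card.1 (h2 _ (emb_ut_mem 1))
  have hdis := hadj _ (emb_ut_mem 0)
  rw [emb_rot (ut 0) (ut 1) (by decide), Finset.disjoint_left] at hdis
  obtain ⟨e, he⟩ := fifth a b c d hab (fun h => hdis ha (h ▸ hc)) (fun h => hdis ha (h ▸ hd))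
    (fun h => hdis hb (h ▸ hc)) (fun h => hdis hb (h ▸ hd)) hcd
  refine ⟨fun i => [a, b, c, d].getD i e, fun x => ?_, ha, hb, hc, hd⟩
  rcases he x with rfl | rfl | rfl | rfl | rfl
  · exact ⟨0, by omega, rfl⟩
  · exact ⟨1, by omega, rfl⟩
  · exact ⟨2, by omega, rfl⟩
  · exact ⟨3, by omega, rfl⟩
  · exact ⟨4, by omega, rfl⟩

end Vale.Agent.P032.SC
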