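import Vale.Agent.P032.BDefs

/-! Labelling of the points away from the special points. -/

open MeasureTheory Set Metric Filter Topology

namespace Vale.Agent.P032.TT

variable {w : WCol}

lemma mass_cont {S : Set ℂ} (hS : MeasurableSet S) (x : ℂ) :
    ContinuousOn (mass S x) (Ici 0) := by
  have key : ∀ r r', 0 ≤ r → r ≤ r' → |mass S x r' - mass S x r| ≤
      |Real.pi * r' ^ 2 - Real.pi * r ^ 2| := fun r r' h h' => by
    have h1 := mass_add_compl hS x h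
    have h2 := mass_add_compl hS x (h.trans h')
    have h3 := mass_mono (subset_refl S) (closedBall_subset_closedBall (x := x) h')
    have h4 := mass_mono (subset_refl Sᶜ) (closedBall_subset_closedBall (x := x) h')
    rw [abs_of_nonneg (by linarith), abs_of_nonneg (by linarith)]; linarith
  intro r hr
  rw [ContinuousWithinAt, tendsto_iff_dist_tendsto_zero]
  have : Tendsto (fun r' : ℝ => |Real.pi * r' ^ 2 - Real.pi * r ^ 2|) (𝓝[Ici 0] r) (𝓝 0) := by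
    refine tendsto_nhdsWithin_of_tendsto_nhds (Continuous.tendsto' (by fun_prop) _ _ (by simp))
  refine squeeze_zero' (Eventually.of_forall fun _ => dist_nonneg) ?_ this
  filter_upwards [self_mem_nhdsWithin] with r' hr'
  rcases le_total r r' with h | h
  · exact key r r' hr h
  · rw [dist_comm, abs_sub_comm]; exact key r' r hr' h

lemma ivt {S : Set ℂ} (hS : MeasurableSet S) {y : ℂ} (hy : Dens S y) {δ R : ℝ} (hδ : 0 < δ)
    (hR : 0 < R) (h : δ * R ^ 2 < mass Sᶜ y R) : ∃ ρ, 0 < ρ ∧ ρ ≤ R ∧ mass Sᶜ y ρ = δ * ρ ^ 2 := by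
  obtain ⟨r, h1, h2⟩ := ((hy δ hδ).and (Ioo_mem_nhdsGT hR)).exists
  have c : ContinuousOn (fun ρ => mass Sᶜ y ρ - δ * ρ ^ 2) (Icc r R) :=
    ((mass_cont hS.compl y).mono fun _ h => h2.1.le.trans h.1).sub (by fun_prop)
  obtain ⟨ρ, h3, h4⟩ := intermediate_value_Icc h2.2.le c
    (show (0 : ℝ) ∈ Icc _ _ from ⟨by linarith, by linarith⟩)
  exact ⟨ρ, h2.1.trans_le h3.1, h3.2, by linarith⟩

lemma chart_mono {x z a b c δ δ'} (h : w.Chart x a b c δ) (h0 : 0 < δ') (h1 : δ' ≤ δ)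
    (h2 : ball z δ' ⊆ ball x δ) : w.Chart z a b c δ' := by
  refine ⟨h0, h.2.1.mono fun y hy hy' => hy (h2 hy'), fun z r hr hz => ?_⟩
  have := mul_le_mul_of_nonneg_right h1 (sq_nonneg r)
  exact ⟨fun q => (h.2.2 z r hr (hz.trans h2)).1 (q.trans this),
    fun q => (h.2.2 z r hr (hz.trans h2)).2 (q.trans this)⟩

lemma chart_symm {x a b c δ} (h : w.Chart x a b c δ) : w.Chart x c b a δ :=
  ⟨h.1, h.2.1.mono fun _ hy hy' => by have := hy hy'; tauto, fun z r hr hz => (h.2.2 z r hr hz).symm⟩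

lemma chart_mem {x z a b c δ r i} (h : w.Chart x a b c δ) (h2 : closedBall z r ⊆ ball x δ)
    (h3 : 0 < mass (w.A i) z r) : i = a ∨ i = b ∨ i = c := by
  by_contra hc
  refine h3.ne' (mass_eq_zero_iff_ae.2 (h.2.1.mono fun y hy hy' q => hc ?_))
  rw [← w.mem_A.1 q]; exact hy (h2 hy')

lemma compl_le {x z a b c δ r} (h : w.Chart x a b c δ) (h2 : closedBall z r ⊆ ball x δ) :
    mass (w.A a)ᶜ z r ≤ mass (w.A b) z r + mass (w.A c) z r :=
  (mass_mono_ae (h.2.1.mono fun _ hy h3 h4 => ⟨(hy (h2 h4)).resolve_left h3, h4⟩)).trans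
    (mass_union_le _ _ _ _)

lemma exists_D {i z r} (h : 0 < mass (w.A i) z r) {N : Set ℂ} (hN : ∀ᵐ y, y ∈ N) :
    ∃ y ∈ closedBall z r, y ∈ w.D i ∧ y ∈ N := by
  by_contra hc
  refine h.ne' (mass_eq_zero_iff_ae.2 ?_)
  filter_upwards [w.ae_D, hN] with y h1 h2 h3 h4
  exact hc ⟨y, h3, w.mem_A.1 h4 ▸ h1, h2⟩

lemma cb_sub {y z : ℂ} {R a b : ℝ} (hy : y ∈ closedBall z R) (h : a + R ≤ b) :
    closedBall y a ⊆ closedBall z b :=
  closedBall_subset_closedBall' (by have := mem_closedBall.1 hy; linarith)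

lemma cb_sub' {y z : ℂ} {R a b : ℝ} (hy : y ∈ closedBall z R) (h : a + R ≤ b) :
    closedBall z a ⊆ closedBall y b := cb_sub (mem_closedBall_comm.1 hy) h

lemma disc {z a b c δ R y} (h : w.Chart z a b c δ) (hR : 0 < R) (h3 : 3 * R < δ)
    (hc : 0 < mass (w.A c) z R) (hy : y ∈ closedBall z R) (hy' : y ∈ w.D a) :
    ∃ ρ, 0 < ρ ∧ ρ ≤ 2 * R ∧ mass (w.A a)ᶜ y ρ = δ * ρ ^ 2 ∧ δ * ρ ^ 2 ≤ mass (w.A b) y ρ := by
  have s : ∀ ρ ≤ 2 * R, closedBall y ρ ⊆ ball z δ := fun ρ hρ =>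
    (cb_sub hy (by linarith)).trans (closedBall_subset_ball h3)
  obtain ⟨ρ, h0, h1, h2⟩ := ivt (w.measA a) hy' h.1 (R := 2 * R) (by linarith) (lt_of_not_ge fun q =>
    hc.not_ge ((mass_mono subset_rfl (cb_sub' hy (by linarith))).trans
      ((h.2.2 y _ (by linarith) (s _ le_rfl)).1 q).le))
  have := compl_le h (s ρ h1)
  rw [(h.2.2 y ρ h0 (s ρ h1)).1 h2.le] at this
  exact ⟨ρ, h0, h1, h2, by linarith⟩

lemma two_charts {z a b c δ R} (h : w.Chart z a b c δ) (h' : w.Chart z a c b δ) (hR : 0 < R)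
    (h3 : 3 * R < δ) (ha : 0 < mass (w.A a) z R) (hc : 0 < mass (w.A c) z R) : False := by
  obtain ⟨y, hy, hy', -⟩ := exists_D ha (N := univ) (by simp)
  obtain ⟨ρ, h0, h1, h2, h4⟩ := disc h hR h3 hc hy hy'
  rw [(h'.2.2 y ρ h0 ((cb_sub hy (by linarith)).trans (closedBall_subset_ball h3))).1 h2.le] at h4
  exact h4.not_gt (by have := h.1; positivity)

lemma middle {z a b c δ R} (h : w.Chart z a b c δ) (hR : 0 < R) (h3 : 3 * R < δ)
    (hc : 0 < mass (w.A c) z R) : mass (w.A a) z R ≤ 64 / δ * mass (w.A b) z (3 * R) := by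
  have hδ := h.1
  choose! ρ h0 h1 _ h4 using fun y (hy : y ∈ closedBall z R ∩ w.D a) => disc h hR h3 hc hy.1 hy.2
  obtain ⟨u, u1, u2, u3⟩ := Vitali.exists_disjoint_subfamily_covering_enlargement_closedBall
    (closedBall z R ∩ w.D a) id ρ (2 * R) h1 4 (by norm_num)
  have uc : u.Countable := u2.countable_of_nonempty_interior fun y hy => by
    rw [interior_closedBall _ (h0 y (u1 hy)).ne']; exact nonempty_ball.2 (h0 y (u1 hy))
  have e1 : volume (w.A a ∩ closedBall z R) ≤ volume (⋃ y ∈ u, closedBall y (4 * ρ y)) := by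
    refine measure_mono_ae (w.ae_D.mono fun y hy hy' => ?_)
    have q : y ∈ closedBall z R ∩ w.D a := ⟨hy'.2, w.mem_A.1 hy'.1 ▸ hy⟩
    obtain ⟨b, hb, hb'⟩ := u3 y q
    exact mem_biUnion hb (hb' (mem_closedBall_self (h0 y q).le))
  have e2 : ∀ y : u, volume (closedBall (y : ℂ) (4 * ρ y)) ≤
      ENNReal.ofReal (64 / δ) * volume (w.A b ∩ closedBall y (ρ y)) := fun y => by
    have a0 := h0 y (u1 y.2)
    rw [← ENNReal.ofReal_toReal (inter_closedBall_ne_top (w.A b) y (ρ y)),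
      ← ENNReal.ofReal_mul (by positivity), ← univ_inter (closedBall _ (4 * _)),
      ← ENNReal.ofReal_toReal (inter_closedBall_ne_top univ y _)]
    refine ENNReal.ofReal_le_ofReal ((mass_univ y (by positivity)).trans_le ?_)
    refine le_trans ?_ (mul_le_mul_of_nonneg_left (h4 y (u1 y.2)) (by positivity))
    rw [← mul_assoc, div_mul_cancel₀ _ hδ.ne']
    nlinarith [Real.pi_le_four, sq_nonneg (ρ y)]
  have e3 : ∑' y : u, volume (w.A b ∩ closedBall (y : ℂ) (ρ y)) ≤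
      volume (w.A b ∩ closedBall z (3 * R)) := by
    rw [← measure_biUnion (f := fun y => w.A b ∩ closedBall y (ρ y)) uc
      (u2.mono fun _ => inter_subset_right) fun _ _ => (w.measA b).inter measurableSet_closedBall]
    exact measure_mono (iUnion₂_subset fun y hy => inter_subset_inter_right _
      (cb_sub (u1 hy).1 (by linarith [h1 y (u1 hy)])))
  have := ENNReal.toReal_mono (ENNReal.mul_ne_top ENNReal.ofReal_ne_top
    (inter_closedBall_ne_top _ _ _)) (e1.trans ((measure_biUnion_le _ uc _).trans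
      ((ENNReal.tsum_le_tsum e2).trans (ENNReal.tsum_mul_left.trans_le (mul_le_mul_right e3 _)))))
  rwa [ENNReal.toReal_mul, ENNReal.toReal_ofReal (by positivity)] at this

lemma exists_heavy (w : WCol) (z : ℂ) {ε : ℝ} (hε : 0 < ε) :
    ∃ i, ε ^ 2 ≤ mass (w.A i) z (2 * ε) := by
  by_contra hc
  push Not at hc
  have h1 : mass univ z (2 * ε) ≤ ∑ i, mass (w.A i) z (2 * ε) := by
    refine le_trans (le_of_eq ?_) (measureReal_iUnion_fintype_le _)
    rw [mass, ← iUnion_inter]; congr 2; ext y; simp [WCol.A]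
  have h2 := Finset.sum_le_card_nsmul Finset.univ _ _ fun i _ => (hc i).le
  rw [mass_univ z (by positivity)] at h1
  simp at h2
  nlinarith [Real.pi_gt_three, sq_pos_of_pos hε]

theorem labelling {K : Set ℂ} (hK : IsCompact K) (hS : ∀ z ∈ K, z ∉ w.Sp) : ∃ τ, 0 < τ ∧
    ∀ᶠ ε in 𝓝[>] (0 : ℝ), ∃ ℓ : ℂ → Fin 5, (∀ z ∈ K, τ * ε ^ 2 ≤ mass (w.A (ℓ z)) z (12 * ε)) ∧
      ∀ z₁ ∈ K, ∀ z₂ ∈ K, ∀ z₃ ∈ K, ‖z₂ - z₁‖ ≤ 2 * ε → ‖z₃ - z₁‖ ≤ 2 * ε → ‖z₃ - z₂‖ ≤ 2 * ε →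
        ℓ z₁ = ℓ z₂ ∨ ℓ z₂ = ℓ z₃ ∨ ℓ z₁ = ℓ z₃ := by
  classical
  have h1 : ∀ᶠ δ in 𝓝[>] (0 : ℝ), ∀ z ∈ K, ∃ a b c, w.Chart z a b c δ := by
    refine hK.induction_on (p := fun S => ∀ᶠ δ in 𝓝[>] (0 : ℝ), ∀ z ∈ S, ∃ a b c, w.Chart z a b c δ)
      (by simp) (fun s t h h' => h'.mono fun δ q z hz => q z (h hz))
      (fun s t h h' => (h.and h').mono fun δ q z hz => hz.elim (q.1 z) (q.2 z)) fun x hx => ?_
    obtain ⟨a, b, c, δ, h⟩ := not_not.1 (hS x hx)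
    refine ⟨ball x (δ / 2), nhdsWithin_le_nhds (ball_mem_nhds x (half_pos h.1)), ?_⟩
    filter_upwards [Ioo_mem_nhdsGT (half_pos h.1)] with δ' q z hz
    exact ⟨a, b, c, chart_mono h q.1 (by linarith [q.2, q.1])
      (ball_subset_ball' (by linarith [q.2, mem_ball.1 hz]))⟩
  obtain ⟨δ, h2, h0⟩ := (h1.and self_mem_nhdsWithin).exists
  have h0 : 0 < δ := h0
  choose! a b c hc using h2
  refine ⟨min 1 (δ / 64), by positivity, ?_⟩
  filter_upwards [Ioo_mem_nhdsGT (show 0 < δ / 100 by positivity)] with ε ⟨e0, e1⟩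
  let H : ℂ → Fin 5 → Prop := fun z i => ε ^ 2 ≤ mass (w.A i) z (4 * ε)
  let ℓ : ℂ → Fin 5 := fun z => if h : ∃ s, ∀ i, H z i ↔ i = s then h.choose else b z
  have l1 : ∀ z, (∀ i, H z i ↔ i = ℓ z) ∨ (ℓ z = b z ∧ ¬ ∃ s, ∀ i, H z i ↔ i = s) := fun z => by
    by_cases h : ∃ s, ∀ i, H z i ↔ i = s
    · left; simp only [ℓ, dif_pos h]; exact h.choose_spec
    · exact Or.inr ⟨dif_neg h, h⟩
  have hp : 0 < ε ^ 2 := by positivity
  have l2 : ∀ z ∈ K, min 1 (δ / 64) * ε ^ 2 ≤ mass (w.A (ℓ z)) z (12 * ε) := fun z hz => by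
    have k : H z (ℓ z) → min 1 (δ / 64) * ε ^ 2 ≤ mass (w.A (ℓ z)) z (12 * ε) := fun h =>
      (mul_le_of_le_one_left hp.le (min_le_left _ _)).trans (h.trans
        (mass_mono subset_rfl (closedBall_subset_closedBall (by linarith))))
    rcases l1 z with h | ⟨h, h'⟩
    · exact k ((h _).2 rfl)
    by_cases hb : H z (ℓ z)
    · exact k hb
    obtain ⟨i, hi⟩ := exists_heavy w z e0
    have hi : H z i := hi.trans (mass_mono subset_rfl (closedBall_subset_closedBall (by linarith)))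
    obtain ⟨j, hj, hj'⟩ : ∃ j, H z j ∧ j ≠ i := by
      by_contra q
      exact h' ⟨i, fun j => ⟨fun r => not_not.1 fun r' => q ⟨j, r, r'⟩, fun r => r ▸ hi⟩⟩
    have m := fun i (hi : H z i) => chart_mem (hc z hz) (closedBall_subset_ball (by linarith))
      (hp.trans_le hi)
    have hac : H z (a z) ∧ H z (c z) := by have := m i hi; have := m j hj; grind
    have := hac.1.trans (middle (hc z hz) (by positivity) (by linarith) (hp.trans_le hac.2))
    rw [div_mul_eq_mul_div, le_div_iff₀ h0, show 3 * (4 * ε) = 12 * ε by ring, ← h] at this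
    nlinarith [min_le_right 1 (δ / 64)]
  have l3 : ∀ z z', ‖z' - z‖ ≤ 2 * ε → (∀ i, H z i ↔ i = ℓ z) → (∀ i, H z' i ↔ i = ℓ z') →
      ℓ z = ℓ z' := fun z z' d h h' => by
    obtain ⟨i, hi⟩ := exists_heavy w z e0
    exact ((h i).1 (hi.trans (mass_mono subset_rfl
      (closedBall_subset_closedBall (by linarith))))).symm.trans ((h' i).1 (hi.trans
        (mass_mono subset_rfl (cb_sub' (mem_closedBall_iff_norm.2 d) (by linarith)))))
  have l4 : ∀ z₁ ∈ K, ∀ z₂ ∈ K, ∀ z₃ ∈ K, ‖z₂ - z₁‖ ≤ 2 * ε → ‖z₃ - z₁‖ ≤ 2 * ε → ℓ z₁ = b z₁ →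
      ℓ z₂ = b z₂ → ℓ z₁ = ℓ z₂ ∨ ℓ z₂ = ℓ z₃ ∨ ℓ z₁ = ℓ z₃ := by
    intro z₁ k1 z₂ k2 z₃ k3 d2 d3 b1 b2
    by_contra q
    have p : ∀ z ∈ K, ‖z - z₁‖ ≤ 2 * ε → 0 < mass (w.A (ℓ z)) z₁ (14 * ε) := fun z hz d =>
      lt_of_lt_of_le (by positivity) ((l2 z hz).trans
        (mass_mono subset_rfl (cb_sub (mem_closedBall_iff_norm.2 d) (by linarith))))
    have p1 := p z₁ k1 (by simp; linarith)
    have p2 := p z₂ k2 d2
    have p3 := p z₃ k3 d3
    have c1 := chart_mono (hc z₁ k1) (half_pos h0) (by linarith) (ball_subset_ball (by linarith))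
    have c2 := chart_mono (z := z₁) (hc z₂ k2) (half_pos h0) (by linarith)
      (ball_subset_ball' (by rw [dist_comm, dist_eq_norm]; linarith))
    have s : closedBall z₁ (14 * ε) ⊆ ball z₁ (δ / 2) := closedBall_subset_ball (by linarith)
    have m1 := chart_mem c1 s p2
    have m2 := chart_mem c1 s p3
    have m3 := chart_mem c2 s p1
    have m4 := chart_mem c2 s p3
    rw [← b1] at c1 m1 m2
    rw [← b2] at c2 m3 m4
    have c1' := chart_symm c1
    have c2' := chart_symm c2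
    refine two_charts (b := ℓ z₁) ?_ ?_ (by positivity) (by linarith : _ < δ / 2) p3 p2 <;> grind
  refine ⟨ℓ, l2, fun z₁ k1 z₂ k2 z₃ k3 d1 d2 d3 => ?_⟩
  have d1' := (norm_sub_rev _ _).trans_le d1
  have d2' := (norm_sub_rev _ _).trans_le d2
  have d3' := (norm_sub_rev _ _).trans_le d3
  rcases l1 z₁ with h1 | h1 <;> rcases l1 z₂ with h2 | h2 <;> rcases l1 z₃ with h3 | h3
  exacts [Or.inl (l3 _ _ d1 h1 h2), Or.inl (l3 _ _ d1 h1 h2), Or.inr (Or.inr (l3 _ _ d2 h1 h3)),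
    by have := l4 z₂ k2 z₃ k3 z₁ k1 d3 d1' h2.1 h3.1; grind, Or.inr (Or.inl (l3 _ _ d3 h2 h3)),
    by have := l4 z₁ k1 z₃ k3 z₂ k2 d2 d1 h1.1 h3.1; grind, l4 z₁ k1 z₂ k2 z₃ k3 d1 d2 h1.1 h2.1,
    l4 z₁ k1 z₂ k2 z₃ k3 d1 d2 h1.1 h2.1]

end Vale.Agent.P032.TT
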