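import Vale.Agent.P032.T1

/-! Chains of points near which a colour has substantial area do not cross unit circles about
density points of that colour. -/

open MeasureTheory Set Metric Filter Topology Relation

namespace Vale.Agent.P032.TT

variable {w : WCol}

/-- the colour `c` has substantial area near `v` -/
def Good (w : WCol) (τ ε : ℝ) (c : Fin 5) (v : ℂ) : Prop := τ * ε ^ 2 ≤ mass (w.A c) v (14 * ε)

lemma cross {y : ℂ} {c : Fin 5} (hy : y ∈ w.D c) {τ : ℝ} (hτ : 0 < τ) :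
    ∀ᶠ ε in 𝓝[>] (0 : ℝ), ∀ v, Good w τ ε c v → 2 * ε < |‖v - y‖ - 1| := by
  have t : Tendsto (fun ε : ℝ => 16 * ε) (𝓝[>] 0) (𝓝[>] 0) :=
    tendsto_nhdsWithin_iff.2 ⟨tendsto_nhdsWithin_of_tendsto_nhds
      (Continuous.tendsto' (by fun_prop) _ _ (by simp)),
      eventually_mem_nhdsWithin.mono fun ε (h : 0 < ε) => (by positivity : 0 < 16 * ε)⟩
  filter_upwards [t.eventually (hy (τ / 512) (by positivity)),
    Ioo_mem_nhdsGT (show (0 : ℝ) < 1 / 4 by norm_num)] with ε h ⟨e0, e1⟩ v hv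
  by_contra q
  rw [not_lt] at q
  have n0 : 0 < ‖v - y‖ := by rw [abs_le] at q; linarith [q.1]
  have n1 : (‖v - y‖ : ℂ) ≠ 0 := by exact_mod_cast n0.ne'
  have hu : ‖(v - y) / ‖v - y‖‖ = 1 := by
    rw [norm_div, Complex.norm_real, norm_norm, div_self n0.ne']
  have d : v ∈ closedBall (y + (v - y) / ‖v - y‖) (2 * ε) := by
    rw [mem_closedBall_iff_norm, show v - (y + (v - y) / ‖v - y‖) =
      (v - y) / ‖v - y‖ * ((‖v - y‖ - 1 : ℝ) : ℂ) by push_cast; field_simp; ring, norm_mul, hu,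
      one_mul, Complex.norm_real]
    exact q
  have := hv.trans ((mass_mono subset_rfl (cb_sub d (show _ ≤ 16 * ε by linarith))).trans
    ((w.mass_le_compl c y hu _).trans h))
  nlinarith [mul_pos hτ (sq_pos_of_pos e0)]

lemma side {u v y : ℂ} {d : ℝ} (h : ‖v - u‖ ≤ d) (h' : d < |‖v - y‖ - 1|) :
    (‖u - y‖ < 1 ↔ ‖v - y‖ < 1) := by
  have := abs_norm_sub_norm_le (v - y) (u - y)
  rw [sub_sub_sub_cancel_right, abs_le] at this
  rcases lt_abs.1 h' with q | q <;> constructor <;> intro _ <;> linarith [this.1, this.2]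

lemma ev_lt {a : ℝ} (h : 0 < a) (c : ℝ) : ∀ᶠ r in 𝓝[>] (0 : ℝ), c * r < a :=
  nhdsWithin_le_nhds ((by fun_prop : Continuous fun r : ℝ => c * r).continuousAt.eventually_lt
    continuousAt_const (by simpa using h))

lemma no_chain {x : ℂ} {a b : Fin 5} {S : Set ℂ} (hS : IsCompact S)
    (h : ∀ k ∈ S, ¬ w.Lune a b x k) : ∀ᶠ r in 𝓝[>] (0 : ℝ), ∀ τ, 0 < τ → ∀ᶠ ε in 𝓝[>] (0 : ℝ),
      ∀ k ∈ S, ∀ k', ‖k' - x‖ ≤ 2 * r →
        ¬ ReflTransGen (fun u v => ‖v - u‖ ≤ 2 * ε ∧ Good w τ ε a v ∧ Good w τ ε b v) k' k := by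
  refine hS.induction_on (p := fun S => ∀ᶠ r in 𝓝[>] (0 : ℝ), ∀ τ, 0 < τ → ∀ᶠ ε in 𝓝[>] (0 : ℝ),
      ∀ k ∈ S, ∀ k', ‖k' - x‖ ≤ 2 * r →
        ¬ ReflTransGen (fun u v => ‖v - u‖ ≤ 2 * ε ∧ Good w τ ε a v ∧ Good w τ ε b v) k' k)
    (by simp) (fun s t h h' => h'.mono fun r q τ hτ => (q τ hτ).mono fun ε q k hk => q k (h hk))
    (fun s t h h' => (h.and h').mono fun r q τ hτ => ((q.1 τ hτ).and (q.2 τ hτ)).mono
      fun ε q k hk => hk.elim (q.1 k) (q.2 k)) fun k hk => ?_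
  obtain ⟨y, h1, h2⟩ : ∃ y, (‖y - x‖ - 1) * (‖y - k‖ - 1) < 0 ∧ (y ∈ w.D a ∨ y ∈ w.D b) := by
    by_contra q
    exact h k hk fun y hy => ⟨fun r => q ⟨y, hy, Or.inl r⟩, fun r => q ⟨y, hy, Or.inr r⟩⟩
  rw [norm_sub_rev y, norm_sub_rev y] at h1
  have n1 : 0 < |‖x - y‖ - 1| := abs_pos.2 fun q => by simp [q] at h1
  have n2 : 0 < |‖k - y‖ - 1| := abs_pos.2 fun q => by simp [q] at h1
  refine ⟨ball k _, nhdsWithin_le_nhds (ball_mem_nhds k n2), ?_⟩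
  filter_upwards [ev_lt n1 2] with r hr τ hτ
  have : ∀ᶠ ε in 𝓝[>] (0 : ℝ), ∀ v, Good w τ ε a v → Good w τ ε b v → 2 * ε < |‖v - y‖ - 1| :=
    h2.elim (fun q => (cross q hτ).mono fun ε q v a _ => q v a)
      fun q => (cross q hτ).mono fun ε q v _ b => q v b
  filter_upwards [this] with ε q k₁ hk₁ k' hk' c
  have s1 : ‖k' - y‖ < 1 ↔ ‖k₁ - y‖ < 1 := by
    clear hk₁
    induction c with
    | refl => rfl
    | tail _ s ih => exact ih.trans (side s.1 (q _ s.2.1 s.2.2))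
  have s2 := side ((norm_sub_rev _ _).trans_le hk') hr
  have s3 := side (norm_sub_rev k k₁).le (mem_ball_iff_norm.1 hk₁)
  rcases mul_neg_iff.1 h1 with q | q
  · linarith [s2.1 (s1.2 (s3.2 (by linarith [q.2]))), q.1]
  · linarith [s3.1 (s1.1 (s2.2 (by linarith [q.1]))), q.2]

/-- a step of a monochromatic chain with jumps -/
def Jmp (w : WCol) (F : Set ℂ) (r τ ε : ℝ) (c : Fin 5) (u v : ℂ) : Prop :=
  (‖v - u‖ ≤ 2 * ε ∧ Good w τ ε c v) ∨ ∃ x ∈ F, ‖u - x‖ ≤ 2 * r ∧ ‖v - x‖ ≤ 2 * r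

lemma bounded {F Q : Set ℂ} (hF : F.Finite) (hQ : IsCompact Q) :
    ∀ᶠ r in 𝓝[>] (0 : ℝ), ∀ τ, 0 < τ → ∀ᶠ ε in 𝓝[>] (0 : ℝ), ∀ c, ∀ k' ∈ Q, Good w τ ε c k' →
      ∀ k, ReflTransGen (Jmp w F r τ ε c) k' k → ‖k - k'‖ ≤ 5 / 4 := by
  suffices H : ∀ c, ∀ᶠ r in 𝓝[>] (0 : ℝ), ∀ τ, 0 < τ → ∀ᶠ ε in 𝓝[>] (0 : ℝ), ∀ k' ∈ Q,
      Good w τ ε c k' → ∀ k, ReflTransGen (Jmp w F r τ ε c) k' k → ‖k - k'‖ ≤ 5 / 4 from
    (eventually_all.2 H).mono fun r q τ hτ => eventually_all.2 fun c => q c τ hτ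
  intro c
  refine hQ.induction_on (p := fun Q => ∀ᶠ r in 𝓝[>] (0 : ℝ), ∀ τ, 0 < τ → ∀ᶠ ε in 𝓝[>] (0 : ℝ),
      ∀ k' ∈ Q, Good w τ ε c k' → ∀ k, ReflTransGen (Jmp w F r τ ε c) k' k → ‖k - k'‖ ≤ 5 / 4)
    (by simp) (fun s t h h' => h'.mono fun r q τ hτ => (q τ hτ).mono fun ε q k hk => q k (h hk))
    (fun s t h h' => (h.and h').mono fun r q τ hτ => ((q.1 τ hτ).and (q.2 τ hτ)).mono
      fun ε q k hk => hk.elim (q.1 k) (q.2 k)) fun p _ => ?_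
  refine ⟨closedBall p (1 / 16), nhdsWithin_le_nhds (closedBall_mem_nhds p (by norm_num)), ?_⟩
  by_cases h : 0 < mass (w.A c) p (1 / 8)
  swap
  · refine Eventually.of_forall fun r τ hτ => ?_
    filter_upwards [ev_lt (show (0 : ℝ) < 1 / 16 by norm_num) 14, self_mem_nhdsWithin]
      with ε e1 (e0 : 0 < ε) k' hk' g
    exact (h (lt_of_lt_of_le (by positivity)
      (g.trans (mass_mono subset_rfl (cb_sub hk' (by linarith)))))).elim
  obtain ⟨y, y1, y2, y3⟩ := exists_D h (N := {y | ∀ x ∈ F, y ∉ sphere x 1})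
    ((ae_ball_iff hF.countable).2 fun x _ =>
      measure_eq_zero_iff_ae_notMem.1 (Measure.addHaar_sphere _ _ _))
  have : ∀ᶠ r in 𝓝[>] (0 : ℝ), ∀ x ∈ F, 2 * r < |‖x - y‖ - 1| :=
    hF.eventually_all.2 fun x hx => ev_lt (abs_pos.2 fun q => y3 x hx (by
      rw [mem_sphere_iff_norm, norm_sub_rev]; linarith)) 2
  filter_upwards [this] with r hr τ hτ
  filter_upwards [cross y2 hτ] with ε q k' hk' _ k ch
  have s0 : ‖k' - y‖ ≤ 3 / 16 := by
    have := norm_sub_le_norm_sub_add_norm_sub k' p y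
    rw [norm_sub_rev p] at this
    linarith [mem_closedBall_iff_norm.1 hk', mem_closedBall_iff_norm.1 y1]
  have s1 : ‖k - y‖ < 1 := by
    induction ch with
    | refl => linarith
    | tail _ s ih =>
      rcases s with s | ⟨x, hx, s1, s2⟩
      · exact (side s.1 (q _ s.2)).1 ih
      · exact (side ((norm_sub_rev _ _).trans_le s2) (hr x hx)).2
          ((side ((norm_sub_rev _ _).trans_le s1) (hr x hx)).1 ih)
  have := norm_sub_le_norm_sub_add_norm_sub k y k'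
  rw [norm_sub_rev y] at this
  linarith

end Vale.Agent.P032.TT
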