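import Vale.Agent.P032.T2

/-! The discrete parity argument. -/

open Finset Relation

namespace Vale.Agent.P032.TT

section
variable {α β : Type}

/-- sum of a cochain around a cell -/
def curl (p : ℕ → ℕ → α) (ψ : α → α → ZMod 2) (c : ℕ × ℕ) : ZMod 2 :=
  ψ (p c.1 c.2) (p (c.1 + 1) c.2) + ψ (p c.1 (c.2 + 1)) (p (c.1 + 1) (c.2 + 1)) +
    (ψ (p c.1 c.2) (p c.1 (c.2 + 1)) + ψ (p (c.1 + 1) c.2) (p (c.1 + 1) (c.2 + 1)))

/-- corners of a cell -/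
def Cor (p : ℕ → ℕ → α) (c : ℕ × ℕ) (z : α) : Prop :=
  z = p c.1 c.2 ∨ z = p (c.1 + 1) c.2 ∨ z = p c.1 (c.2 + 1) ∨ z = p (c.1 + 1) (c.2 + 1)

lemma curl_congr {p : ℕ → ℕ → α} {ψ ψ' : α → α → ZMod 2} {c : ℕ × ℕ}
    (h : ∀ z z', Cor p c z → Cor p c z' → ψ z z' = ψ' z z') : curl p ψ c = curl p ψ' c := by
  unfold curl
  rw [h, h (p c.1 (c.2 + 1)), h (p c.1 c.2), h (p (c.1 + 1) c.2)] <;> simp [Cor]

lemma tele (f : ℕ → ZMod 2) (N : ℕ) : ∑ j ∈ range N, (f j + f (j + 1)) = f 0 + f N := by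
  simp only [add_comm (f _) (f (_ + 1)), add_comm (f 0), ← CharTwo.sub_eq_add, sum_range_sub]

lemma stokes (p : ℕ → ℕ → α) (ψ : α → α → ZMod 2) (N : ℕ) :
    ∑ c ∈ range N ×ˢ range N, curl p ψ c =
      ∑ i ∈ range N, (ψ (p i 0) (p (i + 1) 0) + ψ (p i N) (p (i + 1) N) +
        (ψ (p 0 i) (p 0 (i + 1)) + ψ (p N i) (p N (i + 1)))) := by
  simp only [curl]
  rw [sum_add_distrib, sum_add_distrib (s := range N), sum_product, sum_product_right]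
  congr 1 <;> refine sum_congr rfl fun i _ => ?_
  exacts [tele (fun j => ψ (p i j) (p (i + 1) j)) N, tele (fun j => ψ (p j i) (p j (i + 1))) N]

lemma curl_two {p : ℕ → ℕ → α} {ℓ : α → β} {c : ℕ × ℕ} {φ : β → β → ZMod 2}
    (h0 : ∀ s, φ s s = 0) (h1 : ∀ s t, φ s t = φ t s) (h : ∀ z₁ z₂ z₃, Cor p c z₁ → Cor p c z₂ →
      Cor p c z₃ → ℓ z₁ = ℓ z₂ ∨ ℓ z₂ = ℓ z₃ ∨ ℓ z₁ = ℓ z₃) :
    curl p (fun u v => φ (ℓ u) (ℓ v)) c = 0 := by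
  have a1 := h _ _ _ (Or.inl rfl) (Or.inr (Or.inl rfl)) (Or.inr (Or.inr (Or.inl rfl)))
  have a2 := h _ _ _ (Or.inl rfl) (Or.inr (Or.inl rfl)) (Or.inr (Or.inr (Or.inr rfl)))
  have a3 := h _ _ _ (Or.inl rfl) (Or.inr (Or.inr (Or.inl rfl))) (Or.inr (Or.inr (Or.inr rfl)))
  have a4 := h _ _ _ (Or.inr (Or.inl rfl)) (Or.inr (Or.inr (Or.inl rfl)))
    (Or.inr (Or.inr (Or.inr rfl)))
  simp only [curl]
  generalize ℓ (p c.1 c.2) = x at *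
  generalize ℓ (p (c.1 + 1) c.2) = y at *
  generalize ℓ (p c.1 (c.2 + 1)) = z at *
  generalize ℓ (p (c.1 + 1) (c.2 + 1)) = t at *
  have := @CharTwo.add_self_eq_zero (ZMod 2) _ _
  by_cases e1 : x = y
  · rcases a3 with a | a | a <;> simp [← e1, ← a, h0, this, h1 z x]
  by_cases e2 : x = z
  · rcases a2 with a | a | a <;> simp [← e2, ← a, h0, this, h1 y x]
  obtain rfl : y = z := by tauto
  rcases a2 with a | a | a
  · exact (e1 a).elim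
  · simp [← a, h0, this]
  · exact this _

lemma factor {γ' : Type} [Nonempty γ'] {S : α → Prop} {ℓ : α → β} {γ : α → γ'}
    (h : ∀ u v, S u → S v → ℓ u = ℓ v → γ u = γ v) : ∃ g : β → γ', ∀ u, S u → γ u = g (ℓ u) := by
  classical
  refine ⟨fun b => if q : ∃ u, S u ∧ ℓ u = b then γ q.choose else Classical.arbitrary _,
    fun u hu => ?_⟩
  have q : ∃ v, S v ∧ ℓ v = ℓ u := ⟨u, hu, rfl⟩
  simp only [dif_pos q]; exact h _ _ hu q.choose_spec.1 q.choose_spec.2.symm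

/-- indicator of the unordered pair -/
def om [DecidableEq β] (a b s t : β) : ZMod 2 :=
  (if s = a ∧ t = b then 1 else 0) + if t = a ∧ s = b then 1 else 0

lemma om_self [DecidableEq β] (a b s : β) : om a b s s = 0 := CharTwo.add_self_eq_zero _
lemma om_symm [DecidableEq β] (a b s t : β) : om a b s t = om a b t s := add_comm _ _

end

lemma cycle {n : Fin 5 → Fin 5 → ZMod 2} (h0 : ∀ a, n a a = 0) (h1 : ∀ a b, n a b = n b a)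
    (h2 : ∀ a, ∑ b, n a b = 0) {e : Fin 5} (he : ∀ b, n e b = 0) {a b : Fin 5} (h : n a b ≠ 0) :
    (∃ a b c, a ≠ b ∧ b ≠ c ∧ a ≠ c ∧ n a b ≠ 0 ∧ n b c ≠ 0 ∧ n c a ≠ 0) ∨
    ∃ a b c d, a ≠ b ∧ a ≠ c ∧ a ≠ d ∧ b ≠ c ∧ b ≠ d ∧ c ≠ d ∧
      n a b ≠ 0 ∧ n b c ≠ 0 ∧ n c d ≠ 0 ∧ n d a ≠ 0 := by
  have k : ∀ a b, n a b ≠ 0 → ∃ c, c ≠ b ∧ n a c ≠ 0 := fun a b h => by
    by_contra q
    exact h ((sum_eq_single b (fun c _ hc => not_not.1 fun r => q ⟨c, hc, r⟩) (by simp)).symm.trans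
      (h2 a))
  have k1 : ∀ a b, n a b ≠ 0 → a ≠ b ∧ a ≠ e ∧ b ≠ e := fun a b h =>
    ⟨fun q => h (q ▸ h0 a), fun q => h (q ▸ he b), fun q => h (q ▸ (h1 _ _).trans (he a))⟩
  obtain ⟨d, d1, d2⟩ := k a b h
  obtain ⟨c, c1, c2⟩ := k b a (h1 a b ▸ h)
  obtain ⟨t, t1, t2⟩ := k d a (h1 a d ▸ d2)
  have := k1 _ _ h
  have := k1 _ _ d2
  have := k1 _ _ c2
  have := k1 _ _ t2
  by_cases e1 : n d b = 0
  swap
  · exact Or.inl ⟨a, b, d, by tauto, by tauto, by tauto, h, h1 d b ▸ e1, h1 a d ▸ d2⟩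
  have : c ≠ d := fun q => c2 (q ▸ (h1 _ _).trans e1)
  have : t ≠ b := fun q => t2 (q ▸ e1)
  obtain rfl : t = c := by omega
  exact Or.inr ⟨a, b, t, d, by tauto, by tauto, by tauto, by tauto, by tauto, by tauto, h, c2,
    h1 d t ▸ t2, h1 a d ▸ d2⟩

/-- The abstract parity argument. -/
lemma parity {α ι : Type} (N : ℕ) (p : ℕ → ℕ → α) (ℓ : α → Fin 5) (γ : α → Fin 3)
    (g : ℕ × ℕ → Option ι) (l : ∀ i ≤ N, γ (p 0 i) ≠ 0) (b : ∀ i ≤ N, γ (p i 0) ≠ 1)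
    (r : ∀ i ≤ N, γ (p N i) ≠ 2) (t : ∀ i ≤ N, γ (p i N) ≠ 2)
    (h1 : ∀ c ∈ range N ×ˢ range N, g c = none → ∀ z₁ z₂ z₃, Cor p c z₁ → Cor p c z₂ →
      Cor p c z₃ → ℓ z₁ = ℓ z₂ ∨ ℓ z₂ = ℓ z₃ ∨ ℓ z₁ = ℓ z₃)
    (h2 : ∀ c ∈ range N ×ˢ range N, ∀ c' ∈ range N ×ˢ range N, g c = g c' → (g c = none → c = c') →
      ∀ z z', Cor p c z → Cor p c' z' → ℓ z = ℓ z' → γ z = γ z') [DecidableEq ι] :
    ∃ x a b, ∑ c ∈ range N ×ˢ range N with g c = some x,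
      curl p (fun u v => om a b (ℓ u) (ℓ v)) c ≠ 0 := by
  have e1 : ∑ c ∈ range N ×ˢ range N, curl p (fun u v => om 0 1 (γ u) (γ v)) c ≠ 0 := by
    have k0 : ∀ s t : Fin 3, s ≠ 0 → t ≠ 0 → om 0 1 s t = 0 := by decide
    have k1 : ∀ s t : Fin 3, s ≠ 1 → t ≠ 1 → om 0 1 s t = 0 := by decide
    have k2 : ∀ s t : Fin 3, s ≠ 2 → t ≠ 2 → om 0 1 s t = (s : ℕ) + (t : ℕ) := by decide
    have k3 : ∀ s t u : Fin 3, s ≠ 0 → s ≠ 2 → t ≠ 1 → t ≠ 2 →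
      ((s : ℕ) + (u : ℕ) + ((t : ℕ) + (u : ℕ)) : ZMod 2) ≠ 0 := by decide
    rw [stokes, sum_congr rfl fun i hi => by
      have := mem_range.1 hi
      rw [k1 _ _ (b i (by omega)) (b _ this), k0 _ _ (l i (by omega)) (l _ this),
        k2 _ _ (r i (by omega)) (r _ this), k2 _ _ (t i (by omega)) (t _ this), zero_add, zero_add],
      sum_add_distrib, tele fun i => (γ (p i N) : ℕ), tele fun i => (γ (p N i) : ℕ)]
    exact k3 _ _ _ (l N le_rfl) (t 0 N.zero_le) (b N le_rfl) (r 0 N.zero_le)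
  rw [← sum_fiberwise_of_maps_to (g := g) fun c hc => mem_image_of_mem g hc] at e1
  obtain ⟨o, -, ho⟩ := exists_ne_zero_of_sum_ne_zero e1
  cases o with
  | none =>
    refine (ho (sum_eq_zero fun c hc => ?_)).elim
    obtain ⟨hc, hg⟩ := mem_filter.1 hc
    obtain ⟨f, hf⟩ := factor (S := Cor p c) (h2 c hc c hc rfl fun _ => rfl)
    rw [curl_congr fun z z' hz hz' => by rw [hf z hz, hf z' hz']]
    exact curl_two (φ := fun s t => om 0 1 (f s) (f t)) (fun _ => om_self _ _ _)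
      (fun _ _ => om_symm _ _ _ _) (h1 c hc hg)
  | some x =>
    by_contra q
    push Not at q
    obtain ⟨f, hf⟩ := factor (S := fun z => ∃ c ∈ range N ×ˢ range N, g c = some x ∧ Cor p c z)
      (ℓ := ℓ) (γ := γ) fun u v ⟨c, h, hc, hu⟩ ⟨c', h', hc', hv⟩ =>
        h2 c h c' h' (hc.trans hc'.symm) (by simp [hc]) u v hu hv
    have k : ∀ s t, om 0 1 (f s) (f t) =
        ∑ a : Fin 5 × Fin 5, (if f a.1 = 0 ∧ f a.2 = 1 then 1 else 0) * om a.1 a.2 s t := by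
      intro s t
      simp only [om, mul_add, sum_add_distrib, ← Prod.ext_iff (x := (_, _)), mul_ite, mul_one,
        mul_zero, sum_ite_eq, mem_univ, if_true]
    refine ho ((sum_congr rfl fun c hc => ?_).trans ((sum_comm.trans (sum_eq_zero fun a _ =>
      (mul_sum _ _ (if f a.1 = 0 ∧ f a.2 = 1 then 1 else 0)).symm.trans
        (by rw [q x a.1 a.2, mul_zero])) : ∑ c ∈ _, ∑ a : Fin 5 × Fin 5, _ = _)))
    obtain ⟨hc, hg⟩ := mem_filter.1 hc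
    rw [curl_congr fun z z' hz hz' => by rw [hf z ⟨c, hc, hg, hz⟩, hf z' ⟨c, hc, hg, hz'⟩, k]]
    simp only [curl, mul_add, sum_add_distrib]

lemma row_sum {α : Type} (p : ℕ → ℕ → α) (ℓ : α → Fin 5) (c : ℕ × ℕ) (a : Fin 5) :
    ∑ b, curl p (fun u v => om a b (ℓ u) (ℓ v)) c = 0 := by
  have k : ∀ s t, ∑ b, om a b s t = (if s = a then 1 else 0) + if t = a then 1 else 0 := by
    revert a; decide
  have : ∀ x y z t : ZMod 2, x + y + (z + t) + (x + z + (y + t)) = 0 := by decide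
  simp only [curl, sum_add_distrib, k, this]

lemma escape {N : ℕ} {p : ℕ → ℕ → ℂ} {ℓ : ℂ → Fin 5} {g : ℕ × ℕ → Option ℂ} {x : ℂ} {a b : Fin 5}
    {G : ℂ → Prop} {r ρ ε : ℝ} (hb : ∀ i ≤ N, ρ ≤ ‖p 0 i - x‖ ∧ ρ ≤ ‖p i 0 - x‖ ∧ ρ ≤ ‖p N i - x‖ ∧
      ρ ≤ ‖p i N - x‖) (hd : ∀ c z z', Cor p c z → Cor p c z' → ‖z' - z‖ ≤ 2 * ε)
    (h1 : ∀ c ∈ range N ×ˢ range N, g c = none → ∀ z₁ z₂ z₃, Cor p c z₁ → Cor p c z₂ →
      Cor p c z₃ → ℓ z₁ = ℓ z₂ ∨ ℓ z₂ = ℓ z₃ ∨ ℓ z₁ = ℓ z₃)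
    (hG : ∀ c ∈ range N ×ˢ range N, g c = none → ∀ z₁ z₂ z₃, Cor p c z₁ → Cor p c z₂ →
      Cor p c z₃ → ℓ z₁ = a → ℓ z₂ = b → G z₃)
    (hx : ∀ c ∈ range N ×ˢ range N, g c = some x → ∀ z, Cor p c z → ‖z - x‖ ≤ 2 * r)
    (hy : ∀ c ∈ range N ×ˢ range N, ∀ y ≠ x, g c = some y → ∀ z, Cor p c z → ρ ≤ ‖z - x‖)
    (hr : 2 * r < ρ) (hε : 2 * ε ≤ ρ) [DecidableEq ℂ]
    (hn : ∑ c ∈ range N ×ˢ range N with g c = some x,
      curl p (fun u v => om a b (ℓ u) (ℓ v)) c ≠ 0) :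
    ∃ k' k, ‖k' - x‖ ≤ 2 * r ∧ ρ ≤ ‖k - x‖ ∧ ‖k - x‖ ≤ 2 * ρ ∧ G k ∧
      ReflTransGen (fun u v => ‖v - u‖ ≤ 2 * ε ∧ G v) k' k := by
  classical
  let R : ℂ → Prop := fun v => ∃ k', ‖k' - x‖ ≤ 2 * r ∧
    ReflTransGen (fun u v => ‖u - x‖ < ρ ∧ ‖v - u‖ ≤ 2 * ε ∧ G v) k' v
  by_contra q
  have r1 : ∀ v, R v → ‖v - x‖ < ρ := fun v ⟨k', a1, a2⟩ => lt_of_not_ge fun a3 => by
    rcases a2.cases_tail with rfl | ⟨u, -, a4⟩
    · linarith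
    · have := norm_sub_le_norm_sub_add_norm_sub v u x
      exact q ⟨k', v, a1, a3, by linarith [a4.1, a4.2.1], a4.2.2,
        ReflTransGen.mono (fun _ _ h => h.2) _ _ a2⟩
  have r2 : ∀ v u, ρ ≤ ‖v - x‖ → (if R v then om a b (ℓ v) (ℓ u) else 0) = 0 :=
    fun v u h => if_neg fun h' => (r1 v h').not_ge h
  have e := stokes p (fun u v => if R u then om a b (ℓ u) (ℓ v) else 0) N
  rw [sum_eq_zero (s := range N) fun i hi => by
    have := hb i (mem_range.1 hi).le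
    rw [r2 _ _ this.1, r2 _ _ this.2.1, r2 _ _ this.2.2.1, r2 _ _ this.2.2.2]; simp] at e
  refine hn ((sum_filter _ _).trans (Eq.trans (sum_congr rfl fun c hc => ?_) e))
  have z0 : curl p (fun _ _ => 0) c = 0 := by simp [curl]
  split_ifs with h
  · exact curl_congr fun z z' hz _ => (if_pos ⟨z, hx c hc h z hz, .refl⟩).symm
  rcases e' : g c with _ | y
  swap
  · rw [← z0]
    exact curl_congr fun z z' hz _ => (r2 _ _ (hy c hc y (fun q => h (q ▸ e')) e' z hz)).symm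
  by_cases h2 : ∀ z z', Cor p c z → Cor p c z' → (if R z then om a b (ℓ z) (ℓ z') else 0) = 0
  · rw [← z0]; exact (curl_congr h2).symm
  push Not at h2
  obtain ⟨z, z', hz, hz', h2⟩ := h2
  obtain ⟨⟨k', a1, a2⟩, h3⟩ := ite_ne_right_iff.1 h2
  have h4 : ∀ v, Cor p c v → G v := fun v hv => by
    by_contra q
    refine h3 ?_
    rw [om, if_neg fun s => q (hG c hc e' _ _ _ hz hz' hv s.1 s.2),
      if_neg fun s => q (hG c hc e' _ _ _ hz' hz hv s.1 s.2), add_zero]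
  rw [← curl_two (om_self a b) (om_symm a b) (h1 c hc e')]
  exact curl_congr fun v v' hv _ =>
    (if_pos ⟨k', a1, a2.tail ⟨r1 z ⟨k', a1, a2⟩, hd c _ _ hz hv, h4 v hv⟩⟩).symm

end Vale.Agent.P032.TT
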