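import Mathlib

/-! Module T of P032, discrete part: a mod 2 Stokes formula on a square grid. -/

open Finset

namespace Vale.Agent.P032.TG

/-- grid point -/
noncomputable def pos (m : ℝ) (i j : ℕ) : ℂ := ⟨-3 + i * m, -3 + j * m⟩

/-- the four corners of a cell -/
def InCell (m : ℝ) (i j : ℕ) (z : ℂ) : Prop :=
  z = pos m i j ∨ z = pos m (i + 1) j ∨ z = pos m i (j + 1) ∨ z = pos m (i + 1) (j + 1)

/-- sum of an edge function around a cell -/
noncomputable def curl (m : ℝ) (φ : ℂ → ℂ → ZMod 2) (i j : ℕ) : ZMod 2 :=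
  φ (pos m i j) (pos m (i + 1) j) + φ (pos m i (j + 1)) (pos m (i + 1) (j + 1)) +
    (φ (pos m i j) (pos m i (j + 1)) + φ (pos m (i + 1) j) (pos m (i + 1) (j + 1)))

/-- indicator of the unordered pair `a b` -/
def om {α : Type*} [DecidableEq α] (a b s t : α) : ZMod 2 :=
  if (s = a ∧ t = b) ∨ (s = b ∧ t = a) then 1 else 0

lemma tele (f : ℕ → ZMod 2) (N : ℕ) : ∑ j ∈ range N, (f j + f (j + 1)) = f 0 + f N := by
  induction N with
  | zero => simp [CharTwo.add_self_eq_zero]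
  | succ n ih =>
    rw [sum_range_succ, ih]
    have := CharTwo.add_self_eq_zero (f n)
    linear_combination this

lemma stokes (m : ℝ) (φ : ℂ → ℂ → ZMod 2) (N : ℕ) :
    ∑ i ∈ range N, ∑ j ∈ range N, curl m φ i j =
      ∑ i ∈ range N, (φ (pos m i 0) (pos m (i + 1) 0) + φ (pos m i N) (pos m (i + 1) N)) +
      ∑ j ∈ range N, (φ (pos m 0 j) (pos m 0 (j + 1)) + φ (pos m N j) (pos m N (j + 1))) := by
  simp only [curl]
  simp_rw [sum_add_distrib (f := fun j => φ (pos m _ j) (pos m (_ + 1) j) +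
    φ (pos m _ (j + 1)) (pos m (_ + 1) (j + 1)))]
  rw [sum_add_distrib]
  congr 1
  · exact sum_congr rfl fun i _ => tele (fun j => φ (pos m i j) (pos m (i + 1) j)) N
  · rw [sum_comm]
    exact sum_congr rfl fun j _ => tele (fun i => φ (pos m i j) (pos m i (j + 1))) N

lemma curl_congr {m : ℝ} {φ ψ : ℂ → ℂ → ZMod 2} {i j : ℕ}
    (h : ∀ z z', InCell m i j z → InCell m i j z' → φ z z' = ψ z z') :
    curl m φ i j = curl m ψ i j := by
  have h1 : InCell m i j (pos m i j) := Or.inl rfl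
  have h2 : InCell m i j (pos m (i + 1) j) := Or.inr (Or.inl rfl)
  have h3 : InCell m i j (pos m i (j + 1)) := Or.inr (Or.inr (Or.inl rfl))
  have h4 : InCell m i j (pos m (i + 1) (j + 1)) := Or.inr (Or.inr (Or.inr rfl))
  simp only [curl]
  rw [h _ _ h1 h2, h _ _ h3 h4, h _ _ h1 h3, h _ _ h2 h4]

lemma curl_sum {ι : Type*} (m : ℝ) (S : Finset ι) (φ : ι → ℂ → ℂ → ZMod 2) (i j : ℕ) :
    curl m (fun z z' => ∑ a ∈ S, φ a z z') i j = ∑ a ∈ S, curl m (φ a) i j := by
  simp only [curl, sum_add_distrib]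

lemma curl_cob (m : ℝ) (f : ℂ → ZMod 2) (i j : ℕ) :
    curl m (fun z z' => f z + f z') i j = 0 := by
  simp only [curl]
  have h1 := CharTwo.add_self_eq_zero (f (pos m i j))
  have h2 := CharTwo.add_self_eq_zero (f (pos m (i + 1) j))
  have h3 := CharTwo.add_self_eq_zero (f (pos m i (j + 1)))
  have h4 := CharTwo.add_self_eq_zero (f (pos m (i + 1) (j + 1)))
  linear_combination h1 + h2 + h3 + h4

lemma curl_zero (m : ℝ) (i j : ℕ) : curl m (fun _ _ => 0) i j = 0 := by simp [curl]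

lemma om3 : ∀ g1 g2 g3 g4 : Fin 3,
    om 0 1 g1 g2 + om 0 1 g3 g4 + (om 0 1 g1 g3 + om 0 1 g2 g4) ≠ 0 →
      ∀ t : Fin 3, g1 = t ∨ g2 = t ∨ g3 = t ∨ g4 = t := by decide

lemma curl3 {m : ℝ} {γ : ℂ → Fin 3} {i j : ℕ}
    (h : curl m (fun z z' => om 0 1 (γ z) (γ z')) i j ≠ 0) (t : Fin 3) :
    ∃ z, InCell m i j z ∧ γ z = t := by
  rcases om3 _ _ _ _ h t with h | h | h | h
  · exact ⟨_, Or.inl rfl, h⟩
  · exact ⟨_, Or.inr (Or.inl rfl), h⟩
  · exact ⟨_, Or.inr (Or.inr (Or.inl rfl)), h⟩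
  · exact ⟨_, Or.inr (Or.inr (Or.inr rfl)), h⟩

lemma InCell.coord {m : ℝ} (hm : 0 ≤ m) {i j : ℕ} {z : ℂ} (h : InCell m i j z) :
    -3 + i * m ≤ z.re ∧ z.re ≤ -3 + i * m + m ∧ -3 + j * m ≤ z.im ∧ z.im ≤ -3 + j * m + m := by
  rcases h with rfl | rfl | rfl | rfl <;> simp only [pos] <;> push_cast <;>
    refine ⟨?_, ?_, ?_, ?_⟩ <;> linarith

lemma InCell.dist {m : ℝ} (hm : 0 ≤ m) {i j : ℕ} {z z' : ℂ} (h : InCell m i j z)
    (h' : InCell m i j z') : ‖z - z'‖ ≤ 2 * m := by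
  obtain ⟨a1, a2, a3, a4⟩ := h.coord hm
  obtain ⟨b1, b2, b3, b4⟩ := h'.coord hm
  refine (Complex.norm_le_abs_re_add_abs_im _).trans ?_
  have e1 : |(z - z').re| ≤ m := abs_le.2 ⟨by simp; linarith, by simp; linarith⟩
  have e2 : |(z - z').im| ≤ m := abs_le.2 ⟨by simp; linarith, by simp; linarith⟩
  linarith

lemma pos_norm {m : ℝ} (hm : 0 ≤ m) {N i j : ℕ} (hN : N * m ≤ 7) (hi : i ≤ N) (hj : j ≤ N) :
    ‖pos m i j‖ ≤ 10 := by
  refine (Complex.norm_le_abs_re_add_abs_im _).trans ?_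
  have h1 : (i : ℝ) * m ≤ N * m := mul_le_mul_of_nonneg_right (by exact_mod_cast hi) hm
  have h2 : (j : ℝ) * m ≤ N * m := mul_le_mul_of_nonneg_right (by exact_mod_cast hj) hm
  have h3 : 0 ≤ (i : ℝ) * m := by positivity
  have h4 : 0 ≤ (j : ℝ) * m := by positivity
  have e1 : |(pos m i j).re| ≤ 4 := abs_le.2 ⟨by simp only [pos]; linarith, by simp only [pos]; linarith⟩
  have e2 : |(pos m i j).im| ≤ 4 := abs_le.2 ⟨by simp only [pos]; linarith, by simp only [pos]; linarith⟩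
  linarith

lemma InCell.norm {m : ℝ} (hm : 0 ≤ m) {N i j : ℕ} (hN : N * m ≤ 7) (hi : i < N) (hj : j < N)
    {z : ℂ} (h : InCell m i j z) : ‖z‖ ≤ 10 := by
  rcases h with rfl | rfl | rfl | rfl
  · exact pos_norm hm hN hi.le hj.le
  · exact pos_norm hm hN hi hj.le
  · exact pos_norm hm hN hi.le hj
  · exact pos_norm hm hN hi hj

/-- three sectors of the plane -/
noncomputable def sector (y : ℂ) : Fin 3 := if 0 < y.im then 2 else if 0 < y.re then 1 else 0

lemma re_close {y z : ℂ} (h : ‖y - z‖ < 1) : z.re - 1 < y.re ∧ y.re < z.re + 1 := by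
  have := abs_lt.1 ((Complex.abs_re_le_norm (y - z)).trans_lt h)
  simp only [Complex.sub_re] at this
  constructor <;> linarith [this.1, this.2]

lemma im_close {y z : ℂ} (h : ‖y - z‖ < 1) : z.im - 1 < y.im ∧ y.im < z.im + 1 := by
  have := abs_lt.1 ((Complex.abs_im_le_norm (y - z)).trans_lt h)
  simp only [Complex.sub_im] at this
  constructor <;> linarith [this.1, this.2]

lemma om_ne0 : ∀ s t : Fin 3, s ≠ 0 → t ≠ 0 → om 0 1 s t = 0 := by decide
lemma om_ne1 : ∀ s t : Fin 3, s ≠ 1 → t ≠ 1 → om 0 1 s t = 0 := by decide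
lemma om_ne2 : ∀ s t : Fin 3, s ≠ 2 → t ≠ 2 →
    om 0 1 s t = (if s = 1 then 1 else 0) + (if t = 1 then 1 else 0) := by decide

/-- the global parity -/
lemma total_odd {m : ℝ} (hm : 0 ≤ m) {N : ℕ} (hN : N * m ≤ 7) (hN' : 6 ≤ N * m) (p : ℂ → ℂ)
    (hp : ∀ z, ‖z‖ ≤ 10 → ‖p z - z‖ < 1) :
    ∑ i ∈ range N, ∑ j ∈ range N,
      curl m (fun z z' => om 0 1 (sector (p z)) (sector (p z'))) i j = 1 := by
  rw [stokes]
  have left : ∀ j ≤ N, sector (p (pos m 0 j)) ≠ 1 := by
    intro j hj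
    have := re_close (hp _ (pos_norm hm hN (Nat.zero_le _) hj))
    have h : ¬ 0 < (p (pos m 0 j)).re := by
      have h2 := this.2
      simp only [pos] at h2 ⊢
      push_cast at h2 ⊢
      linarith
    unfold sector
    split_ifs <;> decide
  have right : ∀ j ≤ N, sector (p (pos m N j)) ≠ 0 := by
    intro j hj
    have := re_close (hp _ (pos_norm hm hN le_rfl hj))
    have h : 0 < (p (pos m N j)).re := by
      have h2 := this.1
      simp only [pos] at h2 ⊢
      linarith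
    unfold sector
    split_ifs <;> decide
  have top : ∀ i ≤ N, sector (p (pos m i N)) ≠ 0 := by
    intro i hi
    have := im_close (hp _ (pos_norm hm hN hi le_rfl))
    have h : 0 < (p (pos m i N)).im := by
      have h2 := this.1
      simp only [pos] at h2 ⊢
      linarith
    unfold sector
    split_ifs; decide
  have bot : ∀ i ≤ N, sector (p (pos m i 0)) ≠ 2 := by
    intro i hi
    have := im_close (hp _ (pos_norm hm hN hi (Nat.zero_le _)))
    have h : ¬ 0 < (p (pos m i 0)).im := by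
      have h2 := this.2
      simp only [pos] at h2 ⊢
      push_cast at h2 ⊢
      linarith
    unfold sector
    split_ifs <;> decide
  have e2 : ∑ j ∈ range N, (om 0 1 (sector (p (pos m 0 j))) (sector (p (pos m 0 (j + 1)))) +
      om 0 1 (sector (p (pos m N j))) (sector (p (pos m N (j + 1))))) = 0 := by
    refine sum_eq_zero fun j hj => ?_
    have hj := mem_range.1 hj
    rw [om_ne1 _ _ (left j hj.le) (left _ hj), om_ne0 _ _ (right j hj.le) (right _ hj), add_zero]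
  have e1 : ∑ i ∈ range N, (om 0 1 (sector (p (pos m i 0))) (sector (p (pos m (i + 1) 0))) +
      om 0 1 (sector (p (pos m i N))) (sector (p (pos m (i + 1) N)))) =
      ∑ i ∈ range N, ((if sector (p (pos m i 0)) = 1 then (1 : ZMod 2) else 0) +
        (if sector (p (pos m (i + 1) 0)) = 1 then 1 else 0)) := by
    refine sum_congr rfl fun i hi => ?_
    have hi := mem_range.1 hi
    rw [om_ne0 _ _ (top i hi.le) (top _ hi), add_zero, om_ne2 _ _ (bot i hi.le) (bot _ hi)]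
  rw [e1, e2, tele (fun i => if sector (p (pos m i 0)) = 1 then (1 : ZMod 2) else 0) N,
    if_neg (left 0 (Nat.zero_le _))]
  have h1 := right 0 (Nat.zero_le _)
  have h2 := bot N le_rfl
  have h3 : sector (p (pos m N 0)) = 1 := by
    revert h1 h2
    generalize sector (p (pos m N 0)) = t
    revert t
    decide
  rw [if_pos h3]
  simp

end Vale.Agent.P032.TG
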