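import Vale.Agent.P032.TGrid

/-! Module T of P032, discrete part: a cycle of colours around a hole. -/

open Finset

namespace Vale.Agent.P032.TG

/-- a nonempty symmetric loopless relation without leaves that misses a colour -/
def Cyc (E : Fin 5 → Fin 5 → Prop) : Prop :=
  (∀ a b, E a b → E b a) ∧ (∀ a, ¬ E a a) ∧ (∃ a b, E a b) ∧
  (∀ a b, E a b → ∃ c, c ≠ b ∧ E a c) ∧ ∃ e, ∀ b, ¬ E e b

/-- a short step to a point close to both labels -/
def Step (s : ℝ) (l : ℂ → Fin 5) (a b : Fin 5) (z z' : ℂ) : Prop :=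
  ‖z' - z‖ ≤ s ∧ (∃ u, ‖u - z'‖ ≤ s ∧ l u = a) ∧ (∃ u, ‖u - z'‖ ≤ s ∧ l u = b)

open Classical in
/-- total curl over the cells of a hole -/
noncomputable def hole (m r : ℝ) (N : ℕ) (x : ℂ) (φ : ℂ → ℂ → ZMod 2) : ZMod 2 :=
  ∑ i ∈ range N, ∑ j ∈ range N, if ‖pos m i j - x‖ < r then curl m φ i j else 0

lemma hole_congr {m r : ℝ} (hm : 0 ≤ m) (hmr : 2 * m ≤ r) {N : ℕ} {x : ℂ} {φ ψ : ℂ → ℂ → ZMod 2}
    (h : ∀ z z', ‖z - x‖ ≤ 2 * r → ‖z' - x‖ ≤ 2 * r → φ z z' = ψ z z') :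
    hole m r N x φ = hole m r N x ψ := by
  refine sum_congr rfl fun i _ => sum_congr rfl fun j _ => ?_
  split_ifs with hc
  · have key : ∀ z, InCell m i j z → ‖z - x‖ ≤ 2 * r := fun z hz => by
      have h1 := hz.dist hm (Or.inl rfl)
      have h2 := norm_sub_le_norm_sub_add_norm_sub z (pos m i j) x
      linarith
    exact curl_congr fun z z' hz hz' => h z z' (key z hz) (key z' hz')
  · rfl

lemma hole_sum {ι : Type*} (m r : ℝ) (N : ℕ) (x : ℂ) (S : Finset ι) (φ : ι → ℂ → ℂ → ZMod 2) :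
    hole m r N x (fun z z' => ∑ a ∈ S, φ a z z') = ∑ a ∈ S, hole m r N x (φ a) := by
  simp only [hole]
  rw [sum_comm (s := S)]
  refine sum_congr rfl fun i _ => ?_
  rw [sum_comm (s := S)]
  refine sum_congr rfl fun j _ => ?_
  split_ifs
  · exact curl_sum _ _ _ _ _
  · simp

lemma hole_cob (m r : ℝ) (N : ℕ) (x : ℂ) (f : ℂ → ZMod 2) :
    hole m r N x (fun z z' => f z + f z') = 0 := by
  simp [hole, curl_cob]

lemma hole_zero (m r : ℝ) (N : ℕ) (x : ℂ) : hole m r N x (fun _ _ => 0) = 0 := by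
  simp [hole, curl_zero]

lemma om_symm {α : Type*} [DecidableEq α] (a b s t : α) : om a b s t = om b a s t := by
  simp only [om, or_comm]

lemma om_row : ∀ a s t : Fin 5, ∑ b ∈ univ.erase a, om a b s t =
    (if s = a then 1 else 0) + (if t = a then 1 else 0) := by decide

lemma om_comp (g : Fin 5 → Fin 3) (s t : Fin 5) :
    om 0 1 (g s) (g t) =
      ∑ q ∈ (univ : Finset (Fin 5 × Fin 5)).filter (fun q => g q.1 = 0 ∧ g q.2 = 1),
        om q.1 q.2 s t := by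
  by_cases h1 : g s = 0 ∧ g t = 1
  · rw [sum_eq_single (s, t)]
    · simp [om, h1]
    · rintro ⟨a, b⟩ hq hne
      simp only [mem_filter, mem_univ, true_and] at hq
      refine if_neg ?_
      rintro (⟨rfl, rfl⟩ | ⟨rfl, rfl⟩)
      · exact hne rfl
      · exact absurd (h1.1.symm.trans hq.2) (by decide)
    · intro h
      exact absurd (by simpa using h1) h
  by_cases h2 : g s = 1 ∧ g t = 0
  · rw [sum_eq_single (t, s)]
    · simp [om, h2]
    · rintro ⟨a, b⟩ hq hne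
      simp only [mem_filter, mem_univ, true_and] at hq
      refine if_neg ?_
      rintro (⟨rfl, rfl⟩ | ⟨rfl, rfl⟩)
      · exact h1 hq
      · exact hne rfl
    · intro h
      exact absurd (by simpa using h2.symm) h
  · rw [om, if_neg (by tauto)]
    refine (sum_eq_zero ?_).symm
    rintro ⟨a, b⟩ hq
    simp only [mem_filter, mem_univ, true_and] at hq
    refine if_neg ?_
    rintro (⟨rfl, rfl⟩ | ⟨rfl, rfl⟩)
    · exact h1 hq
    · exact h2 hq.symm

lemma chain {m r ρ : ℝ} (hm : 0 ≤ m) (hmr : 2 * m ≤ r) (hrρ : r ≤ ρ) (hρ : ρ ≤ 1 / 4) {N : ℕ}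
    (hN' : 6 ≤ N * m) (X : Finset ℂ)
    (hsep : ∀ x ∈ X, ∀ x' ∈ X, x ≠ x' → 3 * ρ ≤ ‖x - x'‖) (l : ℂ → Fin 5)
    (h2 : ∀ i < N, ∀ j < N, (∀ x ∈ X, r ≤ ‖pos m i j - x‖) → ∀ z1 z2 z3, InCell m i j z1 →
      InCell m i j z2 → InCell m i j z3 → l z1 = l z2 ∨ l z2 = l z3 ∨ l z1 = l z3)
    {x : ℂ} (hx : x ∈ X) (hre : |x.re| ≤ 2) (him : |x.im| ≤ 2) {a b : Fin 5} (hab : a ≠ b)
    (hZ : hole m r N x (fun z z' => om a b (l z) (l z')) ≠ 0) :
    ∃ k' k : ℂ, ‖k' - x‖ ≤ 2 * r ∧ ρ ≤ ‖k - x‖ ∧ ‖k - x‖ ≤ 2 * ρ ∧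
      Relation.ReflTransGen (Step (2 * m) l a b) k' k := by
  classical
  set R : ℂ → ℂ → Prop := fun z z' => ‖z - x‖ < ρ ∧ Step (2 * m) l a b z z' with hR
  set U : Set ℂ := {z | ∃ k', ‖k' - x‖ ≤ 2 * r ∧ Relation.ReflTransGen R k' z} with hU
  have hup : ∀ z ∈ U, ‖z - x‖ ≤ 2 * ρ := by
    rintro z ⟨k', hk', hc⟩
    rcases Relation.ReflTransGen.cases_tail hc with rfl | ⟨y, -, hy1, hy2, -⟩
    · linarith
    · have := norm_sub_le_norm_sub_add_norm_sub z y x
      linarith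
  by_contra hcon
  have hlow : ∀ z ∈ U, ‖z - x‖ < ρ := by
    intro z hz
    by_contra hz'
    obtain ⟨k', hk', hc⟩ := id hz
    exact hcon ⟨k', z, hk', not_lt.1 hz', hup z hz,
      Relation.ReflTransGen.mono (r := R) (fun _ _ h => h.2) _ _ hc⟩
  set γ : ℂ → Fin 3 := fun z => if z ∈ U ∧ l z = a then 0 else if z ∈ U ∧ l z = b then 1 else 2
    with hγ
  have γ0 : ∀ z, γ z = 0 → z ∈ U ∧ l z = a := by
    intro z hz
    simp only [hγ] at hz
    split_ifs at hz with c1 c2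
    · exact c1
    · exact absurd hz (by decide)
    · exact absurd hz (by decide)
  have γ1 : ∀ z, γ z = 1 → z ∈ U ∧ l z = b := by
    intro z hz
    simp only [hγ] at hz
    split_ifs at hz with c1 c2
    · exact absurd hz (by decide)
    · exact c2
    · exact absurd hz (by decide)
  have γ2 : ∀ z, γ z = 2 → z ∈ U → l z ≠ a ∧ l z ≠ b := by
    intro z hz hzU
    simp only [hγ] at hz
    split_ifs at hz with c1 c2
    · exact absurd hz (by decide)
    · exact absurd hz (by decide)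
    · exact ⟨fun h => c1 ⟨hzU, h⟩, fun h => c2 ⟨hzU, h⟩⟩
  have far : ∀ z : ℂ, (3 ≤ |z.re| ∨ 3 ≤ |z.im|) → γ z ≠ 0 := by
    intro z hz h0
    have h1 := hlow z (γ0 z h0).1
    have h3 := Complex.abs_re_le_norm (z - x)
    have h4 := Complex.abs_im_le_norm (z - x)
    have h5 := abs_sub_abs_le_abs_sub z.re x.re
    have h6 := abs_sub_abs_le_abs_sub z.im x.im
    rw [Complex.sub_re] at h3
    rw [Complex.sub_im] at h4
    rcases hz with hz | hz <;> linarith
  have p0 : ∀ j, 3 ≤ |(pos m 0 j).re| := fun j => by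
    simp only [pos]; norm_num
  have pN : ∀ j, 3 ≤ |(pos m N j).re| := fun j => by
    simp only [pos]; exact le_trans (by linarith) (le_abs_self _)
  have q0 : ∀ i, 3 ≤ |(pos m i 0).im| := fun j => by
    simp only [pos]; norm_num
  have qN : ∀ i, 3 ≤ |(pos m i N).im| := fun j => by
    simp only [pos]; exact le_trans (by linarith) (le_abs_self _)
  have tot : ∑ i ∈ range N, ∑ j ∈ range N,
      curl m (fun z z' => om 0 1 (γ z) (γ z')) i j = 0 := by
    rw [stokes, sum_eq_zero, sum_eq_zero, add_zero]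
    · intro j _
      rw [om_ne0 _ _ (far _ (Or.inl (p0 _))) (far _ (Or.inl (p0 _))),
        om_ne0 _ _ (far _ (Or.inl (pN _))) (far _ (Or.inl (pN _))), add_zero]
    · intro i _
      rw [om_ne0 _ _ (far _ (Or.inr (q0 _))) (far _ (Or.inr (q0 _))),
        om_ne0 _ _ (far _ (Or.inr (qN _))) (far _ (Or.inr (qN _))), add_zero]
  have e1 : hole m r N x (fun z z' => om a b (l z) (l z')) =
      hole m r N x (fun z z' => om 0 1 (γ z) (γ z')) := by
    refine hole_congr hm hmr fun z z' hz hz' => ?_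
    have u1 : z ∈ U := ⟨z, hz, Relation.ReflTransGen.refl⟩
    have u2 : z' ∈ U := ⟨z', hz', Relation.ReflTransGen.refl⟩
    simp only [hγ, u1, u2, true_and]
    generalize l z = s
    generalize l z' = t
    revert hab s t
    generalize a = a'
    generalize b = b'
    revert a' b'
    decide
  apply hZ
  rw [e1, ← tot]
  refine sum_congr rfl fun i hi => sum_congr rfl fun j hj => ?_
  split_ifs with hc
  · rfl
  by_contra hne
  obtain ⟨z0, c0, g0⟩ := curl3 (Ne.symm hne) 0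
  obtain ⟨z1, c1, g1⟩ := curl3 (Ne.symm hne) 1
  obtain ⟨z2, c2, g2⟩ := curl3 (Ne.symm hne) 2
  obtain ⟨u0, l0⟩ := γ0 z0 g0
  obtain ⟨-, l1⟩ := γ1 z1 g1
  have u2 : z2 ∈ U := by
    obtain ⟨k', hk', hch⟩ := id u0
    exact ⟨k', hk', hch.tail ⟨hlow z0 u0, c2.dist hm c0, ⟨z0, c0.dist hm c2, l0⟩,
      ⟨z1, c1.dist hm c2, l1⟩⟩⟩
  obtain ⟨n1, n2⟩ := γ2 z2 g2 u2
  have hout : ∀ x' ∈ X, r ≤ ‖pos m i j - x'‖ := by
    intro x' hx'
    by_cases hxx : x = x'
    · subst hxx; exact not_lt.1 hc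
    have s1 := hsep x hx x' hx' hxx
    have s2 := hlow z0 u0
    have s3 := c0.dist hm (Or.inl rfl)
    have s4 := norm_sub_le_norm_sub_add_norm_sub x z0 x'
    have s5 := norm_sub_le_norm_sub_add_norm_sub z0 (pos m i j) x'
    rw [norm_sub_rev x z0] at s4
    linarith
  rcases h2 i (mem_range.1 hi) j (mem_range.1 hj) hout z0 z1 z2 c0 c1 c2 with h | h | h
  · exact hab (l0.symm.trans (h.trans l1))
  · exact n2 (h.symm.trans l1)
  · exact n1 (h.symm.trans l0)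

theorem grid {s r ρ : ℝ} (hs : 0 < s) (hsr : s ≤ r) (hrρ : r ≤ ρ) (hρ : ρ ≤ 1 / 4)
    (X : Finset ℂ) (hsep : ∀ x ∈ X, ∀ x' ∈ X, x ≠ x' → 3 * ρ ≤ ‖x - x'‖) (l : ℂ → Fin 5)
    (p : ℂ → ℂ)
    (h2 : ∀ z, ‖z‖ ≤ 10 → (∀ x ∈ X, r ≤ ‖z - x‖) → ∀ z1 z2 z3, ‖z1 - z‖ ≤ s → ‖z2 - z‖ ≤ s →
      ‖z3 - z‖ ≤ s → ‖z1 - z2‖ ≤ s → ‖z2 - z3‖ ≤ s → ‖z1 - z3‖ ≤ s →
      l z1 = l z2 ∨ l z2 = l z3 ∨ l z1 = l z3)
    (hp1 : ∀ z, ‖z‖ ≤ 10 → ‖p z - z‖ < 1)
    (hp2 : ∀ z z', l z = l z' → ‖z - z'‖ ≤ s → p z = p z')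
    (hp3 : ∀ x ∈ X, ∀ z z', l z = l z' → ‖z - x‖ ≤ 2 * r → ‖z' - x‖ ≤ 2 * r → p z = p z')
    (habs : ∀ x ∈ X, ∃ e, ∀ z, ‖z - x‖ ≤ 2 * r → l z ≠ e) :
    ∃ x ∈ X, ∃ E : Fin 5 → Fin 5 → Prop, Cyc E ∧ ∀ a b, E a b →
      ∃ k' k : ℂ, ‖k' - x‖ ≤ 2 * r ∧ ρ ≤ ‖k - x‖ ∧ ‖k - x‖ ≤ 2 * ρ ∧
        Relation.ReflTransGen (Step s l a b) k' k := by
  classical
  obtain ⟨m, rfl⟩ : ∃ m, s = 2 * m := ⟨s / 2, by ring⟩
  have hm0 : 0 < m := by linarith
  have hm : 0 ≤ m := hm0.le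
  set N := ⌈6 / m⌉₊ with hNdef
  have hN' : 6 ≤ N * m := by
    have := Nat.le_ceil (6 / m)
    rwa [div_le_iff₀ hm0] at this
  have hN : N * m ≤ 7 := by
    have := (Nat.ceil_lt_add_one (show 0 ≤ 6 / m by positivity)).le
    have h3 := mul_le_mul_of_nonneg_right this hm
    rw [add_mul, div_mul_cancel₀ _ hm0.ne'] at h3
    linarith
  have h2c : ∀ i < N, ∀ j < N, (∀ x ∈ X, r ≤ ‖pos m i j - x‖) → ∀ z1 z2 z3, InCell m i j z1 →
      InCell m i j z2 → InCell m i j z3 → l z1 = l z2 ∨ l z2 = l z3 ∨ l z1 = l z3 :=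
    fun i hi j hj hout z1 z2 z3 c1 c2 c3 =>
      h2 _ (pos_norm hm hN hi.le hj.le) hout z1 z2 z3 (c1.dist hm (Or.inl rfl))
        (c2.dist hm (Or.inl rfl)) (c3.dist hm (Or.inl rfl)) (c1.dist hm c2) (c2.dist hm c3)
        (c1.dist hm c3)
  set γ : ℂ → Fin 3 := fun z => sector (p z) with hγ
  have tot := total_odd hm hN hN' p hp1
  have split : ∑ i ∈ range N, ∑ j ∈ range N, curl m (fun z z' => om 0 1 (γ z) (γ z')) i j =
      ∑ x ∈ X, hole m r N x (fun z z' => om 0 1 (γ z) (γ z')) := by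
    simp only [hole]
    rw [sum_comm (s := X)]
    refine sum_congr rfl fun i hi => ?_
    rw [sum_comm (s := X)]
    refine sum_congr rfl fun j hj => ?_
    by_cases hex : ∃ x ∈ X, ‖pos m i j - x‖ < r
    · obtain ⟨x, hx, hxr⟩ := hex
      rw [sum_eq_single x, if_pos hxr]
      · intro x' hx' hne
        refine if_neg fun h => ?_
        have s1 := hsep x' hx' x hx hne
        have s2 := norm_sub_le_norm_sub_add_norm_sub x' (pos m i j) x
        rw [norm_sub_rev x' (pos m i j)] at s2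
        linarith
      · intro h; exact absurd hx h
    · push Not at hex
      rw [sum_eq_zero fun x hx => if_neg (not_lt.2 (hex x hx))]
      by_contra hne
      obtain ⟨z0, c0, g0⟩ := curl3 hne 0
      obtain ⟨z1, c1, g1⟩ := curl3 hne 1
      obtain ⟨z2, c2, g2⟩ := curl3 hne 2
      rcases h2c i (mem_range.1 hi) j (mem_range.1 hj) hex z0 z1 z2 c0 c1 c2 with h | h | h
      · have : γ z0 = γ z1 := by simp only [hγ, hp2 _ _ h (c0.dist hm c1)]
        rw [g0, g1] at this; exact absurd this (by decide)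
      · have : γ z1 = γ z2 := by simp only [hγ, hp2 _ _ h (c1.dist hm c2)]
        rw [g2, g1] at this; exact absurd this (by decide)
      · have : γ z0 = γ z2 := by simp only [hγ, hp2 _ _ h (c0.dist hm c2)]
        rw [g0, g2] at this; exact absurd this (by decide)
  have hne : ∑ x ∈ X, hole m r N x (fun z z' => om 0 1 (γ z) (γ z')) ≠ 0 := by
    rw [← split, hγ, tot]; decide
  obtain ⟨x, hx, hxne⟩ := exists_ne_zero_of_sum_ne_zero hne
  -- the hole is near the origin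
  have hcen : |x.re| ≤ 2 ∧ |x.im| ≤ 2 := by
    obtain ⟨i, hi, h⟩ := exists_ne_zero_of_sum_ne_zero hxne
    obtain ⟨j, hj, h⟩ := exists_ne_zero_of_sum_ne_zero h
    split_ifs at h with hc
    swap
    · exact absurd rfl h
    obtain ⟨z0, c0, g0⟩ := curl3 h 0
    obtain ⟨z1, c1, g1⟩ := curl3 h 1
    obtain ⟨z2, c2, g2⟩ := curl3 h 2
    have key : ∀ z, InCell m i j z → ‖p z - z‖ < 1 ∧ ‖x - z‖ < 1 := fun z hz => by
      refine ⟨hp1 z (hz.norm hm hN (mem_range.1 hi) (mem_range.1 hj)), ?_⟩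
      have h1 := hz.dist hm (Or.inl rfl)
      have h2 := norm_sub_le_norm_sub_add_norm_sub z (pos m i j) x
      rw [norm_sub_rev]
      linarith
    have t0 : ¬ 0 < (p z0).im ∧ ¬ 0 < (p z0).re := by
      simp only [hγ, sector] at g0
      split_ifs at g0 with d1 d2
      · exact absurd g0 (by decide)
      · exact absurd g0 (by decide)
      · exact ⟨d1, d2⟩
    have t1 : 0 < (p z1).re := by
      simp only [hγ, sector] at g1
      split_ifs at g1 with d1 d2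
      · exact absurd g1 (by decide)
      · exact d2
      · exact absurd g1 (by decide)
    have t2 : 0 < (p z2).im := by
      simp only [hγ, sector] at g2
      split_ifs at g2 with d1 d2
      · exact d1
      · exact absurd g2 (by decide)
      · exact absurd g2 (by decide)
    have a0 := re_close (key z0 c0).1
    have a1 := re_close (key z0 c0).2
    have a2 := im_close (key z0 c0).1
    have a3 := im_close (key z0 c0).2
    have a4 := re_close (key z1 c1).1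
    have a5 := re_close (key z1 c1).2
    have a6 := im_close (key z2 c2).1
    have a7 := im_close (key z2 c2).2
    have := t0.1
    have := t0.2
    refine ⟨abs_le.2 ⟨?_, ?_⟩, abs_le.2 ⟨?_, ?_⟩⟩ <;> linarith [a0.1, a1.2, a2.1, a3.2, a4.2, a5.1,
      a6.2, a7.1]
  refine ⟨x, hx, fun a b => a ≠ b ∧ hole m r N x (fun z z' => om a b (l z) (l z')) ≠ 0,
    ⟨?_, ?_, ?_, ?_, ?_⟩, fun a b h => chain hm hsr hrρ hρ hN' X hsep l h2c hx hcen.1 hcen.2 h.1 h.2⟩
  · rintro a b ⟨h1, h⟩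
    refine ⟨h1.symm, ?_⟩
    simp_rw [om_symm b a]
    exact h
  · intro a h; exact h.1 rfl
  · set g : Fin 5 → Fin 3 := fun c =>
      if h : ∃ z, ‖z - x‖ ≤ 2 * r ∧ l z = c then γ h.choose else 0 with hg
    have hgl : ∀ z, ‖z - x‖ ≤ 2 * r → γ z = g (l z) := by
      intro z hz
      have hex : ∃ z', ‖z' - x‖ ≤ 2 * r ∧ l z' = l z := ⟨z, hz, rfl⟩
      simp only [hg, dif_pos hex]
      simp only [hγ]
      rw [hp3 x hx _ _ hex.choose_spec.2 hex.choose_spec.1 hz]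
    rw [hole_congr hm hsr (ψ := fun z z' => ∑ q ∈ (univ : Finset (Fin 5 × Fin 5)).filter
      (fun q => g q.1 = 0 ∧ g q.2 = 1), om q.1 q.2 (l z) (l z'))
      (fun z z' hz hz' => by rw [hgl z hz, hgl z' hz', om_comp]), hole_sum] at hxne
    obtain ⟨⟨a, b⟩, hq, h⟩ := exists_ne_zero_of_sum_ne_zero hxne
    simp only [mem_filter, mem_univ, true_and] at hq
    refine ⟨a, b, ?_, h⟩
    rintro rfl
    exact absurd (hq.1.symm.trans hq.2) (by decide)
  · rintro a b ⟨h1, h⟩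
    by_contra hcon
    push Not at hcon
    have e : ∑ c ∈ univ.erase a, hole m r N x (fun z z' => om a c (l z) (l z')) = 0 := by
      rw [← hole_sum]
      simp_rw [om_row]
      exact hole_cob m r N x fun z => if l z = a then 1 else 0
    rw [sum_eq_single b] at e
    · exact h e
    · intro c hc hcb
      exact hcon c hcb (ne_of_mem_erase hc).symm
    · intro hb
      exact absurd (mem_erase.2 ⟨h1.symm, mem_univ _⟩) hb
  · obtain ⟨e, he⟩ := habs x hx
    refine ⟨e, fun b h => h.2 ?_⟩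
    rw [hole_congr hm hsr (ψ := fun _ _ => 0), hole_zero]
    intro z z' hz hz'
    refine if_neg ?_
    rintro (⟨h, -⟩ | ⟨-, h⟩)
    · exact he z hz h
    · exact he z' hz' h

lemma Cyc.tri_or_four {E : Fin 5 → Fin 5 → Prop} (h : Cyc E) :
    (∃ a b c, a ≠ b ∧ b ≠ c ∧ a ≠ c ∧ E a b ∧ E b c ∧ E c a) ∨
    (∃ a b c d, a ≠ b ∧ a ≠ c ∧ a ≠ d ∧ b ≠ c ∧ b ≠ d ∧ c ≠ d ∧ E a b ∧ E b c ∧ E c d ∧ E d a) := by
  obtain ⟨hs, hi, ⟨a, b, hab⟩, hl, e, he⟩ := h
  have ne : ∀ {p q}, E p q → p ≠ q := fun {p q} h hpq => hi p (by subst hpq; exact h)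
  have nee : ∀ {p q}, E p q → p ≠ e := fun {p q} h hpq => he q (by subst hpq; exact h)
  obtain ⟨c, hca, hbc⟩ := hl b a (hs _ _ hab)
  obtain ⟨d, hdb, had⟩ := hl a b hab
  by_cases hcd : c = d
  · subst hcd
    exact Or.inl ⟨a, b, c, ne hab, ne hbc, hca.symm, hab, hbc, hs _ _ had⟩
  obtain ⟨f, hfb, hcf⟩ := hl c b (hs _ _ hbc)
  by_cases hfa : f = a
  · subst hfa
    exact Or.inl ⟨f, b, c, ne hab, ne hbc, hca.symm, hab, hbc, hcf⟩
  have hfd : f = d := by
    have := ne hab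
    have := ne hbc
    have := ne had
    have := ne hcf
    have := nee hab
    have := nee hbc
    have := nee hcf
    have := nee (hs _ _ had)
    have := nee (hs _ _ hcf)
    omega
  subst hfd
  exact Or.inr ⟨a, b, c, f, ne hab, hca.symm, ne had, ne hbc, hfb.symm, hcd, hab, hbc, hcf,
    hs _ _ had⟩

end Vale.Agent.P032.TG
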