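import Vale.Agent.P032.BDefs

/-! Module T of P032: labelling points by colours at a small scale. -/

open MeasureTheory Set Metric Filter Topology

namespace Vale.Agent.P032

lemma mass_dist_le {S : Set ℂ} (hS : MeasurableSet S) (y : ℂ) {a b : ℝ} (ha : 0 ≤ a) (hb : 0 ≤ b) :
    dist (mass S y a) (mass S y b) ≤ dist (Real.pi * a ^ 2) (Real.pi * b ^ 2) := by
  wlog hab : a ≤ b generalizing a b
  · rw [dist_comm, dist_comm (Real.pi * a ^ 2)]
    exact this hb ha (not_le.1 hab).le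
  have h1 := mass_add_compl hS y ha
  have h2 := mass_add_compl hS y hb
  have h3 : mass S y a ≤ mass S y b := mass_mono subset_rfl (closedBall_subset_closedBall hab)
  have h4 : mass Sᶜ y a ≤ mass Sᶜ y b := mass_mono subset_rfl (closedBall_subset_closedBall hab)
  rw [Real.dist_eq, Real.dist_eq, abs_of_nonpos (by linarith), abs_of_nonpos (by linarith)]
  linarith

lemma mass_contOn {S : Set ℂ} (hS : MeasurableSet S) (y : ℂ) :
    ContinuousOn (fun ρ => mass S y ρ) (Ici 0) := by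
  intro a ha
  have hc : ContinuousWithinAt (fun ρ : ℝ => Real.pi * ρ ^ 2) (Ici 0) a := by fun_prop
  rw [ContinuousWithinAt, tendsto_iff_dist_tendsto_zero] at hc ⊢
  refine squeeze_zero' (Eventually.of_forall fun _ => dist_nonneg) ?_ hc
  filter_upwards [self_mem_nhdsWithin] with b hb using mass_dist_le hS y hb ha

lemma Dens.ivt {S : Set ℂ} (hS : MeasurableSet S) {y : ℂ} (h : Dens S y) {δ R : ℝ} (hδ : 0 < δ)
    (hR : 0 < R) (hm : δ * R ^ 2 ≤ mass Sᶜ y R) :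
    ∃ ρ, 0 < ρ ∧ ρ ≤ R ∧ mass Sᶜ y ρ = δ * ρ ^ 2 := by
  have h1 : ∀ᶠ r in 𝓝[>] (0 : ℝ), r < R := nhdsWithin_le_nhds (Iio_mem_nhds hR)
  obtain ⟨r, ⟨hr1, hr2⟩, hr0⟩ := (((h δ hδ).and h1).and self_mem_nhdsWithin).exists
  have hr0 : 0 < r := hr0
  have hc : ContinuousOn (fun ρ => mass Sᶜ y ρ - δ * ρ ^ 2) (Icc r R) :=
    ((mass_contOn hS.compl y).mono fun t ht => hr0.le.trans ht.1).sub (by fun_prop)
  obtain ⟨ρ, hρ, e⟩ := intermediate_value_Icc hr2.le hc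
    (show (0 : ℝ) ∈ _ from ⟨by linarith, by linarith⟩)
  exact ⟨ρ, hr0.trans_le hρ.1, hρ.2, by simp only at e; linarith⟩

lemma vitali_mass {t T W : Set ℂ} (hT : MeasurableSet T) (ρ : ℂ → ℝ) {δ R : ℝ} (hδ : 0 ≤ δ)
    (h : ∀ y ∈ t, 0 < ρ y ∧ ρ y ≤ R ∧ closedBall y (ρ y) ⊆ W ∧ δ * ρ y ^ 2 ≤ mass T y (ρ y)) :
    ENNReal.ofReal δ * volume t ≤ 64 * volume (T ∩ W) := by
  obtain ⟨u, hut, hd, hc⟩ := Vitali.exists_disjoint_subfamily_covering_enlargement_closedBall t id ρ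
    R (fun a ha => (h a ha).2.1) 4 (by norm_num)
  simp only [id] at hd hc
  have hcount : u.Countable := hd.countable_of_nonempty_interior fun b hb =>
    ⟨b, ball_subset_interior_closedBall (mem_ball_self (h b (hut hb)).1)⟩
  have h1 : volume t ≤ ∑' b : u, volume (closedBall (b : ℂ) (4 * ρ b)) := by
    refine le_trans (measure_mono ?_) (measure_biUnion_le volume hcount
      fun b => closedBall b (4 * ρ b))
    intro a ha
    obtain ⟨b, hb, hab⟩ := hc a ha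
    exact mem_biUnion hb (hab (mem_closedBall_self (h a ha).1.le))
  have h2 : ∑' b : u, volume (T ∩ closedBall (b : ℂ) (ρ b)) ≤ volume (T ∩ W) := by
    rw [← measure_biUnion (f := fun b => T ∩ closedBall b (ρ b)) hcount
      (hd.mono fun _ => inter_subset_right) fun b _ => hT.inter measurableSet_closedBall]
    exact measure_mono (iUnion₂_subset fun b hb => inter_subset_inter_right _ (h b (hut hb)).2.2.1)
  refine le_trans (mul_le_mul_right h1 _) (le_trans ?_ (mul_le_mul_right h2 _))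
  rw [← ENNReal.tsum_mul_left, ← ENNReal.tsum_mul_left]
  refine ENNReal.tsum_le_tsum fun b => ?_
  obtain ⟨r0, -, -, hm⟩ := h b (hut b.2)
  have e1 : volume (closedBall (b : ℂ) (4 * ρ b)) = ENNReal.ofReal (Real.pi * (4 * ρ b) ^ 2) := by
    rw [← mass_univ (b : ℂ) (by positivity), mass, univ_inter,
      ofReal_measureReal measure_closedBall_lt_top.ne]
  have e2 : volume (T ∩ closedBall (b : ℂ) (ρ b)) = ENNReal.ofReal (mass T b (ρ b)) := by
    rw [mass, ofReal_measureReal (inter_closedBall_ne_top _ _ _)]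
  rw [e1, e2, ← ENNReal.ofReal_mul hδ, show (64 : ENNReal) = ENNReal.ofReal 64 by simp,
    ← ENNReal.ofReal_mul (by norm_num)]
  refine ENNReal.ofReal_le_ofReal ?_
  have := Real.pi_le_four
  have h5 : 0 ≤ δ * ρ b ^ 2 := by positivity
  nlinarith

namespace WCol

variable {w : WCol}

lemma Chart.symm {x : ℂ} {a b c : Fin 5} {δ : ℝ} (h : w.Chart x a b c δ) : w.Chart x c b a δ :=
  ⟨h.1, h.2.1.mono fun _ hy h1 => by have := hy h1; tauto,
    fun z r hr hs => (h.2.2 z r hr hs).symm⟩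

lemma Chart.mono {x z : ℂ} {a b c : Fin 5} {δ δ' : ℝ} (h : w.Chart x a b c δ) (h0 : 0 < δ')
    (hz : ‖z - x‖ + δ' ≤ δ) : w.Chart z a b c δ' := by
  have hs : ball z δ' ⊆ ball x δ := ball_subset_ball' (by rw [dist_eq_norm]; linarith)
  have hle : δ' ≤ δ := by linarith [norm_nonneg (z - x)]
  refine ⟨h0, h.2.1.mono fun y hy h1 => hy (hs h1), fun y r hr hy => ?_⟩
  have := h.2.2 y r hr (hy.trans hs)
  have e : δ' * r ^ 2 ≤ δ * r ^ 2 := by gcongr
  exact ⟨fun h1 => this.1 (h1.trans e), fun h1 => this.2 (h1.trans e)⟩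

lemma Chart.mem {x z : ℂ} {a b c i : Fin 5} {δ r : ℝ} (h : w.Chart x a b c δ)
    (hz : closedBall z r ⊆ ball x δ) (hi : 0 < mass (w.A i) z r) : i = a ∨ i = b ∨ i = c := by
  by_contra hc
  refine hi.ne' (mass_eq_zero_iff_ae.2 ?_)
  filter_upwards [h.2.1] with y hy h1 h2
  rw [mem_A] at h2
  exact hc (h2 ▸ hy (hz h1))

lemma Chart.reorder {x : ℂ} {a b c p q : Fin 5} {δ : ℝ} (h : w.Chart x a b c δ)
    (hp : p = a ∨ p = b ∨ p = c) (hq : q = a ∨ q = b ∨ q = c) (hpq : p ≠ q) (hpb : p ≠ b)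
    (hqb : q ≠ b) : w.Chart x p b q δ := by
  rcases hp with rfl | rfl | rfl <;> rcases hq with rfl | rfl | rfl
  all_goals first | exact h | exact h.symm | contradiction

lemma Chart.compl_le {x z : ℂ} {a b c : Fin 5} {δ r : ℝ} (h : w.Chart x a b c δ)
    (hz : closedBall z r ⊆ ball x δ) :
    mass (w.A a)ᶜ z r ≤ mass (w.A b) z r + mass (w.A c) z r := by
  refine le_trans (mass_mono_ae ?_) (mass_union_le _ _ _ _)
  filter_upwards [h.2.1] with y hy h1 h2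
  refine ⟨?_, h2⟩
  rcases hy (hz h2) with h3 | h3 | h3
  · exact absurd h3 h1
  · exact Or.inl h3
  · exact Or.inr h3

variable (w)

lemma exists_heavy (z : ℂ) {r : ℝ} (hr : 0 ≤ r) : ∃ i, r ^ 2 / 2 ≤ mass (w.A i) z r := by
  by_contra hc
  push Not at hc
  have h1 : mass univ z r ≤ mass (w.A 0 ∪ (w.A 1 ∪ (w.A 2 ∪ (w.A 3 ∪ w.A 4)))) z r := by
    refine mass_mono (fun y _ => ?_) subset_rfl
    simp only [mem_union, mem_A]
    generalize w.c y = t
    revert t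
    decide
  rw [mass_univ z hr] at h1
  have h2 := mass_union_le (w.A 0) (w.A 1 ∪ (w.A 2 ∪ (w.A 3 ∪ w.A 4))) z r
  have h3 := mass_union_le (w.A 1) (w.A 2 ∪ (w.A 3 ∪ w.A 4)) z r
  have h4 := mass_union_le (w.A 2) (w.A 3 ∪ w.A 4) z r
  have h5 := mass_union_le (w.A 3) (w.A 4) z r
  have := Real.pi_gt_three
  have h6 : 0 ≤ r ^ 2 := by positivity
  nlinarith [hc 0, hc 1, hc 2, hc 3, hc 4]

lemma exists_D {i : Fin 5} {z : ℂ} {r : ℝ} (h : 0 < mass (w.A i) z r) {N : Set ℂ}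
    (hN : ∀ᵐ y : ℂ, y ∈ N) : ∃ y ∈ closedBall z r, y ∈ w.D i ∧ y ∈ N := by
  by_contra hc
  push Not at hc
  refine h.ne' (mass_eq_zero_iff_ae.2 ?_)
  filter_upwards [w.ae_D, hN] with y hy h1 h2 h3
  rw [mem_A] at h3
  exact hc y h2 (h3 ▸ hy) h1

lemma mass_le_compl_of_ne {i j : Fin 5} (hij : i ≠ j) {z y : ℂ} {r R : ℝ}
    (h : ‖z - y‖ + r ≤ R) : mass (w.A i) z r ≤ mass (w.A j)ᶜ y R :=
  mass_mono (fun _ h1 h2 => hij (h1.symm.trans h2))
    (closedBall_subset_closedBall' (by rw [dist_eq_norm]; linarith))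

variable {w}

lemma cb_sub {y z : ℂ} {r δ : ℝ} (h : ‖y - z‖ + r < δ) : closedBall y r ⊆ ball z δ :=
  closedBall_subset_ball' (by rw [dist_eq_norm]; linarith)

/-- two heavy outer colours force the middle colour -/
lemma Chart.middle {z : ℂ} {a b c : Fin 5} {δ s : ℝ} (h : w.Chart z a b c δ) (hδ : δ ≤ 1 / 400)
    (hs : 0 < s) (hsδ : 10 * s ≤ δ) (hac : a ≠ c) (ha : s ^ 2 / 16 ≤ mass (w.A a) z s)
    (hc : s ^ 2 / 16 ≤ mass (w.A c) z s) : δ / 1024 * s ^ 2 ≤ mass (w.A b) z (3 * s) := by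
  have hδ0 := h.1
  have key : ∀ y ∈ w.D a ∩ closedBall z s, ∃ ρ, 0 < ρ ∧ ρ ≤ 2 * s ∧
      closedBall y ρ ⊆ closedBall z (3 * s) ∧ δ * ρ ^ 2 ≤ mass (w.A b) y ρ := by
    rintro y ⟨hy, hyz⟩
    rw [mem_closedBall, dist_eq_norm] at hyz
    have h1 : mass (w.A c) z s ≤ mass (w.A a)ᶜ y (2 * s) :=
      w.mass_le_compl_of_ne hac.symm (by rw [norm_sub_rev]; linarith)
    obtain ⟨ρ, r0, r1, e⟩ := Dens.ivt (w.measA a) hy hδ0 (by positivity : 0 < 2 * s)
      (by nlinarith [sq_nonneg s])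
    have hsub : closedBall y ρ ⊆ ball z δ := cb_sub (by linarith)
    have h2 := (h.2.2 y ρ r0 hsub).1 e.le
    have h3 := h.compl_le hsub
    exact ⟨ρ, r0, r1, closedBall_subset_closedBall' (by rw [dist_eq_norm]; linarith), by linarith⟩
  choose! ρ hρ using key
  have hv := vitali_mass (w.measA b) ρ hδ0.le hρ
  have h1 : volume (w.A a ∩ closedBall z s) ≤ volume (w.D a ∩ closedBall z s) := by
    refine measure_mono_ae ?_
    filter_upwards [w.ae_D] with y hy hy'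
    have h2 : w.c y = a := hy'.1
    exact ⟨h2 ▸ hy, hy'.2⟩
  have h2 := ENNReal.toReal_mono (ENNReal.mul_ne_top (by simp) (inter_closedBall_ne_top _ _ _))
    (le_trans (mul_le_mul_right h1 _) hv)
  rw [ENNReal.toReal_mul, ENNReal.toReal_mul, ENNReal.toReal_ofReal hδ0.le] at h2
  have h3 : δ * mass (w.A a) z s ≤ 64 * mass (w.A b) z (3 * s) := by
    simpa [mass, Measure.real] using h2
  nlinarith

/-- colours with a fixed share of the disc -/
def Heavy (w : WCol) (s : ℝ) (z : ℂ) (i : Fin 5) : Prop := s ^ 2 / 16 ≤ mass (w.A i) z s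

lemma exists_Heavy (w : WCol) {s : ℝ} (hs : 0 < s) (z : ℂ) : ∃ i, w.Heavy s z i := by
  obtain ⟨i, hi⟩ := w.exists_heavy z hs.le
  exact ⟨i, le_trans (by nlinarith) hi⟩

lemma common_Heavy (w : WCol) {s : ℝ} (hs : 0 < s) {z z' : ℂ} (h : ‖z - z'‖ ≤ s) :
    ∃ i, w.Heavy s z i ∧ w.Heavy s z' i := by
  obtain ⟨i, hi⟩ := w.exists_heavy ((z + z') / 2) (show 0 ≤ s / 2 by linarith)
  have e1 : ‖(z + z') / 2 - z‖ ≤ s / 2 := by
    rw [show (z + z') / 2 - z = (z' - z) / 2 by ring, norm_div, norm_sub_rev]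
    simp only [Complex.norm_ofNat]; linarith
  have e2 : ‖(z + z') / 2 - z'‖ ≤ s / 2 := by
    rw [show (z + z') / 2 - z' = (z - z') / 2 by ring, norm_div]
    simp only [Complex.norm_ofNat]; linarith
  refine ⟨i, le_trans (le_trans (by nlinarith) hi) (mass_mono subset_rfl ?_),
    le_trans (le_trans (by nlinarith) hi) (mass_mono subset_rfl ?_)⟩
  · exact closedBall_subset_closedBall' (by rw [dist_eq_norm]; linarith)
  · exact closedBall_subset_closedBall' (by rw [dist_eq_norm]; linarith)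

lemma two_middles {z1 z2 z3 : ℂ} {a1 c1 a2 c2 l1 l2 l3 : Fin 5} {δ s : ℝ}
    (h1 : w.Chart z1 a1 l1 c1 δ) (h2 : w.Chart z2 a2 l2 c2 δ) (hδ : δ ≤ 1 / 400) (hs : 0 < s)
    (hsδ : 10 * s ≤ δ) (d12 : ‖z1 - z2‖ ≤ s) (d23 : ‖z2 - z3‖ ≤ s) (d13 : ‖z1 - z3‖ ≤ s)
    (m1 : 0 < mass (w.A l1) z1 (3 * s)) (m2 : 0 < mass (w.A l2) z2 (3 * s))
    (m3 : 0 < mass (w.A l3) z3 (3 * s)) (hh : ∃ i, i ≠ l3 ∧ w.Heavy s z1 i) :
    l1 = l2 ∨ l2 = l3 ∨ l1 = l3 := by
  by_contra hc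
  push Not at hc
  obtain ⟨n12, n23, n13⟩ := hc
  have d21 : ‖z2 - z1‖ ≤ s := by rwa [norm_sub_rev]
  have d32 : ‖z3 - z2‖ ≤ s := by rwa [norm_sub_rev]
  have d31 : ‖z3 - z1‖ ≤ s := by rwa [norm_sub_rev]
  have k1 : w.Chart z1 l3 l1 l2 δ := h1.reorder (h1.mem (cb_sub (by linarith)) m3)
    (h1.mem (cb_sub (by linarith)) m2) n23.symm n13.symm n12.symm
  have k2 : w.Chart z2 l3 l2 l1 δ := h2.reorder (h2.mem (cb_sub (by linarith)) m3)
    (h2.mem (cb_sub (by linarith)) m1) n13.symm n23.symm n12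
  obtain ⟨y, hy, hyD, -⟩ := w.exists_D m3 (N := univ) (Eventually.of_forall fun _ => trivial)
  rw [mem_closedBall, dist_eq_norm] at hy
  obtain ⟨i, hi, hiH⟩ := hh
  have y1 : ‖y - z1‖ ≤ 4 * s := by linarith [norm_sub_le_norm_sub_add_norm_sub y z3 z1]
  have y2 : ‖y - z2‖ ≤ 4 * s := by linarith [norm_sub_le_norm_sub_add_norm_sub y z3 z2]
  have e1 : mass (w.A i) z1 s ≤ mass (w.A l3)ᶜ y (5 * s) :=
    w.mass_le_compl_of_ne hi (by rw [norm_sub_rev]; linarith)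
  have hδ0 := h1.1
  obtain ⟨ρ, r0, r1, e⟩ := Dens.ivt (w.measA l3) hyD hδ0 (by positivity : 0 < 5 * s)
    (by unfold Heavy at hiH; nlinarith [sq_nonneg s])
  have s1 : closedBall y ρ ⊆ ball z1 δ := cb_sub (by linarith)
  have s2 : closedBall y ρ ⊆ ball z2 δ := cb_sub (by linarith)
  have t1 := (k1.2.2 y ρ r0 s1).1 e.le
  have t2 := (k2.2.2 y ρ r0 s2).1 e.le
  have t3 := k1.compl_le s1
  have : 0 < δ * ρ ^ 2 := by positivity
  linarith

/-- the labelling -/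
theorem exists_label (w : WCol) {δ s : ℝ} (hδ : δ ≤ 1 / 400) (hs : 0 < s) (hsδ : 10 * s ≤ δ) :
    ∃ l : ℂ → Fin 5, (∀ z, δ / 1024 * s ^ 2 ≤ mass (w.A (l z)) z (3 * s)) ∧
      ∀ z1 z2 z3, (∃ a b c, w.Chart z1 a b c δ) → (∃ a b c, w.Chart z2 a b c δ) →
        (∃ a b c, w.Chart z3 a b c δ) → ‖z1 - z2‖ ≤ s → ‖z2 - z3‖ ≤ s → ‖z1 - z3‖ ≤ s →
        l z1 = l z2 ∨ l z2 = l z3 ∨ l z1 = l z3 := by
  have hδ0 : 0 < δ := by linarith
  have hv : ∀ z i, w.Heavy s z i → δ / 1024 * s ^ 2 ≤ mass (w.A i) z (3 * s) := fun z i hi =>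
    le_trans (le_trans (by nlinarith [sq_nonneg s]) hi)
      (mass_mono subset_rfl (closedBall_subset_closedBall (by linarith)))
  have key : ∀ z, ∃ i, δ / 1024 * s ^ 2 ≤ mass (w.A i) z (3 * s) ∧
      ((∃ a b c, w.Chart z a b c δ) → (∀ j, w.Heavy s z j → j = i) ∨
        ((∃ a c, w.Chart z a i c δ) ∧ ∀ k, ∃ j, j ≠ k ∧ w.Heavy s z j)) := by
    intro z
    obtain ⟨p, hp⟩ := w.exists_Heavy hs z
    by_cases h1 : ∀ j, w.Heavy s z j → j = p
    · exact ⟨p, hv z p hp, fun _ => Or.inl h1⟩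
    push Not at h1
    obtain ⟨q, hq, hqp⟩ := h1
    by_cases h2 : ∃ a b c, w.Chart z a b c δ
    swap
    · exact ⟨p, hv z p hp, fun h => absurd h h2⟩
    obtain ⟨a, b, c, hch⟩ := h2
    refine ⟨b, ?_, fun _ => Or.inr ⟨⟨a, c, hch⟩, fun k => ?_⟩⟩
    · by_cases hpb : p = b
      · exact hpb ▸ hv z p hp
      by_cases hqb : q = b
      · exact hqb ▸ hv z q hq
      have hs2 : 0 < s ^ 2 / 16 := by positivity
      have hsub : closedBall z s ⊆ ball z δ := closedBall_subset_ball (by linarith)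
      exact (hch.reorder (hch.mem hsub (hs2.trans_le hp)) (hch.mem hsub (hs2.trans_le hq))
        hqp.symm hpb hqb).middle hδ hs hsδ hqp.symm hp hq
    · by_cases hpk : p = k
      · exact ⟨q, hpk ▸ hqp, hq⟩
      · exact ⟨p, hpk, hp⟩
  choose l hl1 hl2 using key
  refine ⟨l, hl1, fun z1 z2 z3 c1 c2 c3 d12 d23 d13 => ?_⟩
  have pos : ∀ z, 0 < mass (w.A (l z)) z (3 * s) := fun z =>
    lt_of_lt_of_le (by positivity) (hl1 z)
  have sing : ∀ z z', ‖z - z'‖ ≤ s → (∀ j, w.Heavy s z j → j = l z) →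
      (∀ j, w.Heavy s z' j → j = l z') → l z = l z' := by
    intro z z' d u u'
    obtain ⟨i, h, h'⟩ := w.common_Heavy hs d
    exact (u i h).symm.trans (u' i h')
  have d21 : ‖z2 - z1‖ ≤ s := by rwa [norm_sub_rev]
  have d32 : ‖z3 - z2‖ ≤ s := by rwa [norm_sub_rev]
  have d31 : ‖z3 - z1‖ ≤ s := by rwa [norm_sub_rev]
  rcases hl2 z1 c1 with u1 | ⟨⟨a1, b1, u1⟩, v1⟩ <;> rcases hl2 z2 c2 with u2 | ⟨⟨a2, b2, u2⟩, v2⟩ <;>
    rcases hl2 z3 c3 with u3 | ⟨⟨a3, b3, u3⟩, v3⟩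
  · exact Or.inl (sing _ _ d12 u1 u2)
  · exact Or.inl (sing _ _ d12 u1 u2)
  · exact Or.inr (Or.inr (sing _ _ d13 u1 u3))
  · have := two_middles u2 u3 hδ hs hsδ d23 d31 d21 (pos _) (pos _) (pos _) (v2 _)
    tauto
  · exact Or.inr (Or.inl (sing _ _ d23 u2 u3))
  · have := two_middles u1 u3 hδ hs hsδ d13 d32 d12 (pos _) (pos _) (pos _) (v1 _)
    tauto
  · exact two_middles u1 u2 hδ hs hsδ d12 d23 d13 (pos _) (pos _) (pos _) (v1 _)
  · exact two_middles u1 u2 hδ hs hsδ d12 d23 d13 (pos _) (pos _) (pos _) (v1 _)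

end WCol

end Vale.Agent.P032
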