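import Vale.Agent.P032.TLabel
import Vale.Agent.P032.TGrid2

/-! Module T of P032: a special point carrying a triangle or a four-cycle of lunes. -/

open MeasureTheory Set Metric Filter Topology

namespace Vale.Agent.P032

lemma cluster {ι Y : Type*} [TopologicalSpace Y] {l : Filter ι} {C : Set Y} (hC : IsCompact C)
    {S : ι → Y → Prop} (h : ∃ᶠ i in l, ∃ t ∈ C, S i t) :
    ∃ t ∈ C, ∀ U ∈ 𝓝 t, ∃ᶠ i in l, ∃ t' ∈ U, S i t' := by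
  by_contra hc
  push Not at hc
  have : ∀ᶠ i in l, ∀ t ∈ C, ¬ S i t := by
    refine hC.induction_on (p := fun s => ∀ᶠ i in l, ∀ t ∈ s, ¬ S i t) (by simp) ?_ ?_ ?_
    · intro s t hst ht
      exact ht.mono fun i hi y hy => hi y (hst hy)
    · intro s t hs ht
      filter_upwards [hs, ht] with i h1 h2 y hy using hy.elim (h1 y) (h2 y)
    · intro t ht
      obtain ⟨U, hU, h1⟩ := hc t ht
      exact ⟨U, nhdsWithin_le_nhds hU, h1⟩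
  obtain ⟨i, ⟨t, ht, h1⟩, h2⟩ := (h.and_eventually this).exists
  exact h2 t ht h1

lemma pigeon {ι α β : Type*} [Finite β] {l : Filter ι} (X : Finset α) {P : ι → α → β → Prop}
    (h : ∃ᶠ i in l, ∃ x ∈ X, ∃ b, P i x b) : ∃ x ∈ X, ∃ b, ∃ᶠ i in l, P i x b := by
  by_contra hc
  push Not at hc
  have : ∀ᶠ i in l, ∀ x ∈ X, ∀ b, ¬ P i x b :=
    (eventually_all_finset X).2 fun x hx => eventually_all.2 fun b => hc x hx b
  obtain ⟨i, ⟨x, hx, b, h1⟩, h2⟩ := (h.and_eventually this).exists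
  exact h2 x hx b h1

lemma cross {z z' y : ℂ} {s : ℝ} (h : ‖z - z'‖ ≤ s) (h' : ¬ (‖z - y‖ < 1 ↔ ‖z' - y‖ < 1)) :
    |‖z' - y‖ - 1| ≤ s := by
  have h1 := norm_sub_le_norm_sub_add_norm_sub z z' y
  have h2 := norm_sub_le_norm_sub_add_norm_sub z' z y
  rw [norm_sub_rev z' z] at h2
  have := norm_nonneg (z - z')
  rw [abs_le]
  by_cases a : ‖z - y‖ < 1 <;> by_cases b : ‖z' - y‖ < 1
  · exact absurd (iff_of_true a b) h'
  · constructor <;> linarith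
  · constructor <;> linarith
  · exact absurd (iff_of_false a b) h'

lemma isOpen_sep (y : ℂ) : IsOpen {t : ℂ × ℂ | (‖y - t.1‖ - 1) * (‖y - t.2‖ - 1) < 0} :=
  isOpen_lt (by fun_prop) continuous_const

namespace WCol

variable (w : WCol)

lemma unif_chart {K : Set ℂ} (hK : IsCompact K) (hd : ∀ z ∈ K, z ∉ w.Sp) :
    ∃ δ, 0 < δ ∧ δ ≤ 1 / 400 ∧ ∀ z ∈ K, ∀ z', ‖z' - z‖ ≤ δ → ∃ a b c, w.Chart z' a b c δ := by
  have : ∀ᶠ δ in 𝓝 (0 : ℝ), ∀ z ∈ K,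
      0 < δ → ∀ z', ‖z' - z‖ ≤ δ → ∃ a b c, w.Chart z' a b c δ := by
    refine hK.eventually_forall_of_forall_eventually fun y hy => ?_
    obtain ⟨a, b, c, d, hch⟩ := not_not.1 (hd y hy)
    have d0 : 0 < d / 3 := by linarith [hch.1]
    have h1 : ∀ᶠ q : ℝ × ℂ in 𝓝 (0, y), q.1 < d / 3 :=
      continuous_fst.continuousAt.eventually_lt continuousAt_const d0
    have h2 : ∀ᶠ q : ℝ × ℂ in 𝓝 (0, y), ‖q.2 - y‖ < d / 3 :=
      ContinuousAt.eventually_lt (by fun_prop) continuousAt_const (by simpa using hch.1)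
    filter_upwards [h1, h2] with q q1 q2 q0 z' hz'
    exact ⟨a, b, c, hch.mono q0 (by linarith [norm_sub_le_norm_sub_add_norm_sub z' q.2 y])⟩
  have h2 : ∀ᶠ δ in 𝓝[>] (0 : ℝ), δ ≤ 1 / 400 := nhdsWithin_le_nhds (Iic_mem_nhds (by norm_num))
  obtain ⟨δ, ⟨h3, h4⟩, h5⟩ :=
    (((this.filter_mono nhdsWithin_le_nhds).and h2).and self_mem_nhdsWithin).exists
  exact ⟨δ, h5, h4, fun z hz => h3 z hz h5⟩

/-- colour `i` is sparse at scale `s` along the unit circle about `y` -/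
def KF (τ s : ℝ) (y : ℂ) (i : Fin 5) : Prop :=
  ∀ z, |‖z - y‖ - 1| ≤ s → mass (w.A i) z (4 * s) < τ * s ^ 2

lemma kf {τ : ℝ} (hτ : 0 < τ) {y : ℂ} {i : Fin 5} (hy : y ∈ w.D i) :
    ∀ᶠ s in 𝓝[>] (0 : ℝ), w.KF τ s y i := by
  have ht : Tendsto (fun s : ℝ => 5 * s) (𝓝[>] 0) (𝓝[>] 0) := by
    refine tendsto_nhdsWithin_iff.2 ⟨?_, ?_⟩
    · have : Tendsto (fun s : ℝ => 5 * s) (𝓝 0) (𝓝 (5 * 0)) := tendsto_id.const_mul 5
      rw [mul_zero] at this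
      exact this.mono_left nhdsWithin_le_nhds
    · filter_upwards [self_mem_nhdsWithin] with s hs
      exact mul_pos (show (0 : ℝ) < 5 by norm_num) hs
  have h1 : ∀ᶠ s in 𝓝[>] (0 : ℝ), s < 1 := nhdsWithin_le_nhds (Iio_mem_nhds one_pos)
  filter_upwards [ht.eventually (hy (τ / 50) (by positivity)), h1, self_mem_nhdsWithin]
    with s hs hs1 hs0 z hz
  have hs0 : 0 < s := hs0
  have hn : 0 < ‖z - y‖ := by linarith [(abs_le.1 hz).1]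
  have hn' : ((‖z - y‖ : ℝ) : ℂ) ≠ 0 := by exact_mod_cast hn.ne'
  have hu : ‖(z - y) / ((‖z - y‖ : ℝ) : ℂ)‖ = 1 := by
    rw [norm_div, Complex.norm_real, norm_norm, div_self hn.ne']
  have hd : ‖z - (y + (z - y) / ((‖z - y‖ : ℝ) : ℂ))‖ ≤ s := by
    rw [show z - (y + (z - y) / ((‖z - y‖ : ℝ) : ℂ)) =
      (z - y) / ((‖z - y‖ : ℝ) : ℂ) * ((‖z - y‖ - 1 : ℝ) : ℂ) by push_cast; field_simp; ring,
      norm_mul, hu, one_mul, Complex.norm_real, Real.norm_eq_abs]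
    exact hz
  have h2 : mass (w.A i) z (4 * s) ≤ mass (w.A i) (y + (z - y) / ((‖z - y‖ : ℝ) : ℂ)) (5 * s) :=
    mass_mono subset_rfl (closedBall_subset_closedBall' (by rw [dist_eq_norm]; linarith))
  have h3 := w.mass_le_compl i y hu (5 * s)
  have h4 : 0 < τ * s ^ 2 := by positivity
  nlinarith

lemma net (X : Finset ℂ) (c : Fin 5) : ∃ Y : Finset ℂ,
    (∀ y ∈ Y, y ∈ w.D c ∧ ∀ x ∈ X, ‖x - y‖ ≠ 1) ∧
    ∀ z, ‖z‖ ≤ 10 → 0 < mass (w.A c) z (1 / 4) → ∃ y ∈ Y, ‖z - y‖ < 1 := by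
  classical
  obtain ⟨t, -, htf, hcov⟩ := finite_cover_balls_of_compact (isCompact_closedBall (0 : ℂ) 10)
    (show (0 : ℝ) < 1 / 4 by norm_num)
  have hN : ∀ᵐ y : ℂ, y ∈ {y | ∀ x ∈ X, ‖x - y‖ ≠ 1} := by
    refine (eventually_all_finset X).2 fun x _ => ?_
    filter_upwards [measure_eq_zero_iff_ae_notMem.1 (Measure.addHaar_sphere volume x 1)] with y hy h
    exact hy (by rw [mem_sphere, dist_eq_norm, norm_sub_rev]; exact h)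
  have key : ∀ q : ℂ, ∃ y, (∃ y, ‖q - y‖ ≤ 1 / 2 ∧ y ∈ w.D c ∧ ∀ x ∈ X, ‖x - y‖ ≠ 1) →
      ‖q - y‖ ≤ 1 / 2 ∧ y ∈ w.D c ∧ ∀ x ∈ X, ‖x - y‖ ≠ 1 := by
    intro q
    by_cases h : ∃ y, ‖q - y‖ ≤ 1 / 2 ∧ y ∈ w.D c ∧ ∀ x ∈ X, ‖x - y‖ ≠ 1
    · exact ⟨h.choose, fun _ => h.choose_spec⟩
    · exact ⟨0, fun h' => absurd h' h⟩
  choose f hf using key
  refine ⟨(htf.toFinset.image f).filter fun y => y ∈ w.D c ∧ ∀ x ∈ X, ‖x - y‖ ≠ 1,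
    fun y hy => (Finset.mem_filter.1 hy).2, fun z hz hm => ?_⟩
  obtain ⟨q, hq, hzq⟩ := mem_iUnion₂.1 (hcov (show z ∈ closedBall 0 10 by simpa using hz))
  obtain ⟨y, hy, hyD, hyN⟩ := w.exists_D hm hN
  rw [mem_ball, dist_eq_norm] at hzq
  rw [mem_closedBall, dist_eq_norm, norm_sub_rev] at hy
  have h1 := norm_sub_le_norm_sub_add_norm_sub q z y
  rw [norm_sub_rev q z] at h1
  obtain ⟨h2, h3⟩ := hf q ⟨y, by linarith, hyD, hyN⟩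
  refine ⟨f q, Finset.mem_filter.2 ⟨Finset.mem_image_of_mem _ (htf.mem_toFinset.2 hq), h3⟩, ?_⟩
  linarith [norm_sub_le_norm_sub_add_norm_sub z q (f q)]

lemma scale {r ρ : ℝ} (hr : 0 < r) (hrρ : r ≤ ρ) (hρ : ρ ≤ 1 / 4) (X : Finset ℂ)
    (hX : ∀ z ∈ w.Sp, ‖z‖ ≤ 10 → z ∈ X)
    (hsep : ∀ x ∈ X, ∀ x' ∈ X, x ≠ x' → 3 * ρ ≤ ‖x - x'‖) (Y : Fin 5 → Finset ℂ)
    (hY1 : ∀ c, ∀ y ∈ Y c, y ∈ w.D c ∧ ∀ x ∈ X, 2 * r < |‖x - y‖ - 1|)
    (hY2 : ∀ c z, ‖z‖ ≤ 10 → 0 < mass (w.A c) z (1 / 4) → ∃ y ∈ Y c, ‖z - y‖ < 1)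
    (habs : ∀ x ∈ X, ∃ e, ∀ᵐ y : ℂ, y ∈ ball x (6 * r) → w.c y ≠ e) :
    ∃ x ∈ X, ∃ E : Fin 5 → Fin 5 → Prop, TG.Cyc E ∧ ∀ a b, E a b →
      ∃ k' k : ℂ, ‖k' - x‖ ≤ 2 * r ∧ ρ ≤ ‖k - x‖ ∧ ‖k - x‖ ≤ 2 * ρ ∧ w.Lune a b k' k := by
  classical
  have hK : IsCompact (closedBall (0 : ℂ) 10 \ ⋃ x ∈ X, ball x r) :=
    (isCompact_closedBall _ _).diff (isOpen_biUnion fun _ _ => isOpen_ball)
  obtain ⟨δ, hδ0, hδ, hch⟩ := w.unif_chart hK fun z hz hsp =>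
    hz.2 (mem_iUnion₂.2 ⟨z, hX z hsp (by simpa using hz.1), mem_ball_self hr⟩)
  have hτ : 0 < δ / 1024 := by positivity
  have e1 : ∀ᶠ s in 𝓝[>] (0 : ℝ), ∀ c, ∀ y ∈ Y c, w.KF (δ / 1024) s y c :=
    eventually_all.2 fun c => (eventually_all_finset _).2 fun y hy => w.kf hτ (hY1 c y hy).1
  have e2 : ∀ᶠ s in 𝓝[>] (0 : ℝ), s ≤ r := nhdsWithin_le_nhds (Iic_mem_nhds hr)
  have e3 : ∀ᶠ s in 𝓝[>] (0 : ℝ), s ≤ δ / 10 := nhdsWithin_le_nhds (Iic_mem_nhds (by positivity))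
  have main : ∀ᶠ s in 𝓝[>] (0 : ℝ), ∃ x ∈ X, ∃ E : Fin 5 → Fin 5 → Prop, TG.Cyc E ∧ ∀ a b, E a b →
      ∃ t ∈ closedBall x (2 * r) ×ˢ (closedBall x (2 * ρ) \ ball x ρ),
        ∀ y, (w.KF (δ / 1024) s y a ∨ w.KF (δ / 1024) s y b) → (‖t.1 - y‖ < 1 ↔ ‖t.2 - y‖ < 1) := by
    filter_upwards [e1, e2, e3, self_mem_nhdsWithin] with s hkf hsr hsδ hs
    have hs : 0 < s := hs
    obtain ⟨l, hl1, hl2⟩ := w.exists_label hδ hs (by linarith)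
    have pos : ∀ z, 0 < mass (w.A (l z)) z (3 * s) := fun z =>
      lt_of_lt_of_le (by positivity) (hl1 z)
    have big : ∀ u z, ‖u - z‖ ≤ s → δ / 1024 * s ^ 2 ≤ mass (w.A (l u)) z (4 * s) := fun u z h =>
      (hl1 u).trans (mass_mono subset_rfl
        (closedBall_subset_closedBall' (by rw [dist_eq_norm]; linarith)))
    have pe : ∀ z z', l z = l z' → (∀ y ∈ Y (l z'), (‖z - y‖ < 1 ↔ ‖z' - y‖ < 1)) →
        Classical.epsilon (fun y => y ∈ Y (l z) ∧ ‖z - y‖ < 1) =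
          Classical.epsilon (fun y => y ∈ Y (l z') ∧ ‖z' - y‖ < 1) := by
      intro z z' h h'
      congr 1
      ext y
      rw [h]
      exact and_congr_right fun hy => h' y hy
    refine Exists.elim (TG.grid hs hsr hrρ hρ X hsep l
      (fun z => Classical.epsilon fun y => y ∈ Y (l z) ∧ ‖z - y‖ < 1) ?_ ?_ ?_ ?_ ?_) ?_
    rotate_right
    · rintro x ⟨hx, E, hE, hc⟩
      refine ⟨x, hx, E, hE, fun a b hab => ?_⟩
      obtain ⟨k', k, k1, k2, k3, hcc⟩ := hc a b hab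
      refine ⟨(k', k), ⟨by simpa [dist_eq_norm] using k1, by simpa [dist_eq_norm] using k3,
        by simpa [dist_eq_norm] using k2⟩, fun y hy => ?_⟩
      simp only
      clear k2 k3
      induction hcc with
      | refl => rfl
      | tail _ hst ih =>
        refine ih.trans ?_
        obtain ⟨d, ⟨u, du, lu⟩, ⟨v, dv, lv⟩⟩ := hst
        by_contra hn
        have := cross (s := s) (by rwa [norm_sub_rev]) hn
        rcases hy with hy | hy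
        · exact absurd (hy _ this) (not_lt.2 (lu ▸ big _ _ du))
        · exact absurd (hy _ this) (not_lt.2 (lv ▸ big _ _ dv))
    · intro z hz hout z1 z2 z3 d1 d2 d3 d12 d23 d13
      have hzK : z ∈ closedBall (0 : ℂ) 10 \ ⋃ x ∈ X, ball x r := by
        refine ⟨by simpa using hz, fun h => ?_⟩
        obtain ⟨x, hx, h⟩ := mem_iUnion₂.1 h
        rw [mem_ball, dist_eq_norm] at h
        exact absurd h (not_lt.2 (hout x hx))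
      exact hl2 z1 z2 z3 (hch z hzK _ (by linarith)) (hch z hzK _ (by linarith))
        (hch z hzK _ (by linarith)) d12 d23 d13
    · intro z hz
      have := hY2 (l z) z hz ((pos z).trans_le
        (mass_mono subset_rfl (closedBall_subset_closedBall (by linarith))))
      rw [norm_sub_rev]
      exact (Classical.epsilon_spec this).2
    · intro z z' h d
      refine pe z z' h fun y hy => ?_
      by_contra hn
      exact absurd (hkf _ y hy _ (cross d hn)) (not_lt.2 (big z' z' (by simpa using hs.le)))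
    · intro x hx z z' h d d'
      refine pe z z' h fun y hy => ?_
      have h1 := (hY1 _ y hy).2 x hx
      have h2 : (‖z - y‖ < 1 ↔ ‖x - y‖ < 1) := by
        by_contra hn
        exact absurd (cross d hn) (not_le.2 h1)
      have h3 : (‖z' - y‖ < 1 ↔ ‖x - y‖ < 1) := by
        by_contra hn
        exact absurd (cross d' hn) (not_le.2 h1)
      exact h2.trans h3.symm
    · intro x hx
      obtain ⟨e, he⟩ := habs x hx
      refine ⟨e, fun z hz hl => (pos z).ne' (mass_eq_zero_iff_ae.2 ?_)⟩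
      filter_upwards [he] with y hy h1 h2
      exact hy (cb_sub (by linarith) h1) (hl ▸ h2)
  obtain ⟨x, hx, E, hf⟩ := pigeon X main.frequently
  refine ⟨x, hx, E, hf.exists.choose_spec.1, fun a b hab => ?_⟩
  obtain ⟨t, ht, hcl⟩ := cluster ((isCompact_closedBall x (2 * r)).prod
    ((isCompact_closedBall x (2 * ρ)).diff isOpen_ball)) (hf.mono fun s hs => hs.2 a b hab)
  refine ⟨t.1, t.2, by simpa [dist_eq_norm] using ht.1, by simpa [dist_eq_norm] using ht.2.2,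
    by simpa [dist_eq_norm] using ht.2.1, fun y hy => ?_⟩
  have hno : ¬ ∀ᶠ s in 𝓝[>] (0 : ℝ), w.KF (δ / 1024) s y a ∨ w.KF (δ / 1024) s y b := by
    intro hev
    obtain ⟨s, ⟨t', h1, h2⟩, h3⟩ := ((hcl _ ((isOpen_sep y).mem_nhds hy)).and_eventually hev).exists
    have h4 := h2 y h3
    rw [norm_sub_rev t'.1, norm_sub_rev t'.2] at h4
    rcases mul_neg_iff.1 (show (‖y - t'.1‖ - 1) * (‖y - t'.2‖ - 1) < 0 from h1) with
      ⟨a1, a2⟩ | ⟨a1, a2⟩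
    · linarith [h4.2 (by linarith)]
    · linarith [h4.1 (by linarith)]
  exact ⟨fun h => hno ((w.kf hτ h).mono fun _ => Or.inl),
    fun h => hno ((w.kf hτ h).mono fun _ => Or.inr)⟩

lemma exists_cyc (hfin : ∀ R : ℝ, (w.Sp ∩ closedBall 0 R).Finite)
    (habs : ∀ x : ℂ, ∃ (e : Fin 5) (δ : ℝ), 0 < δ ∧ ∀ᵐ y : ℂ, y ∈ ball x δ → w.c y ≠ e) :
    ∃ (x : ℂ) (E : Fin 5 → Fin 5 → Prop), TG.Cyc E ∧ ∀ a b, E a b →
      ∃ k : ℂ, (0 < ‖k - x‖ ∧ ‖k - x‖ < 1) ∧ w.Lune a b x k := by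
  set X := (hfin 10).toFinset with hXdef
  have hX : ∀ z ∈ w.Sp, ‖z‖ ≤ 10 → z ∈ X := fun z hz h =>
    (hfin 10).mem_toFinset.2 ⟨hz, by simpa using h⟩
  have small : ∀ k d : ℝ, 0 < d → ∀ᶠ r in 𝓝[>] (0 : ℝ), k * r < d := fun k d hd =>
    nhdsWithin_le_nhds (ContinuousAt.eventually_lt (f := fun r : ℝ => k * r) (by fun_prop)
      continuousAt_const (by simpa using hd))
  have e1 : ∀ᶠ ρ in 𝓝[>] (0 : ℝ), ∀ x ∈ X, ∀ x' ∈ X, x ≠ x' → 3 * ρ ≤ ‖x - x'‖ := by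
    refine (eventually_all_finset _).2 fun x _ => (eventually_all_finset _).2 fun x' _ => ?_
    by_cases h : x = x'
    · exact Eventually.of_forall fun _ h' => absurd h h'
    · exact (small 3 _ (norm_pos_iff.2 (sub_ne_zero.2 h))).mono fun _ h1 _ => h1.le
  obtain ⟨ρ, ⟨hsep, hρ⟩, hρ0⟩ := ((e1.and (small 4 1 one_pos)).and self_mem_nhdsWithin).exists
  have hρ0 : 0 < ρ := hρ0
  choose Y hY1 hY2 using w.net X
  have e2 : ∀ᶠ r in 𝓝[>] (0 : ℝ), ∀ c, ∀ y ∈ Y c, y ∈ w.D c ∧ ∀ x ∈ X, 2 * r < |‖x - y‖ - 1| :=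
    eventually_all.2 fun c => (eventually_all_finset _).2 fun y hy =>
      (Eventually.of_forall fun _ => (hY1 c y hy).1).and ((eventually_all_finset _).2 fun x hx =>
        small 2 _ (abs_pos.2 (sub_ne_zero.2 ((hY1 c y hy).2 x hx))))
  have e3 : ∀ᶠ r in 𝓝[>] (0 : ℝ), ∀ x ∈ X, ∃ e, ∀ᵐ y : ℂ, y ∈ ball x (6 * r) → w.c y ≠ e := by
    refine (eventually_all_finset _).2 fun x _ => ?_
    obtain ⟨e, d, hd, h⟩ := habs x
    filter_upwards [small 6 d hd] with r hr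
    exact ⟨e, h.mono fun y hy h1 => hy (ball_subset_ball hr.le h1)⟩
  have main : ∀ᶠ r in 𝓝[>] (0 : ℝ), ∃ x ∈ X, ∃ E : Fin 5 → Fin 5 → Prop, TG.Cyc E ∧ ∀ a b, E a b →
      ∃ k ∈ closedBall x (2 * ρ) \ ball x ρ, ∃ k', ‖k' - x‖ ≤ 2 * r ∧ w.Lune a b k' k := by
    filter_upwards [e2, e3, small 1 ρ hρ0, self_mem_nhdsWithin] with r h2 h3 h4 hr
    obtain ⟨x, hx, E, hE, hc⟩ := w.scale hr (by linarith) (by linarith) X hX hsep Y h2 hY2 h3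
    refine ⟨x, hx, E, hE, fun a b hab => ?_⟩
    obtain ⟨k', k, k1, k2, k3, hL⟩ := hc a b hab
    exact ⟨k, ⟨by simpa [dist_eq_norm] using k3, by simpa [dist_eq_norm] using k2⟩, k', k1, hL⟩
  obtain ⟨x, -, E, hf⟩ := pigeon X main.frequently
  refine ⟨x, E, hf.exists.choose_spec.1, fun a b hab => ?_⟩
  obtain ⟨k, hk, hcl⟩ := cluster ((isCompact_closedBall x (2 * ρ)).diff isOpen_ball)
    (hf.mono fun s hs => hs.2 a b hab)
  have k1 : ‖k - x‖ ≤ 2 * ρ := by simpa [dist_eq_norm] using hk.1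
  have k2 : ρ ≤ ‖k - x‖ := by simpa [dist_eq_norm] using hk.2
  refine ⟨k, ⟨by linarith, by linarith⟩, fun y hy => ?_⟩
  obtain ⟨V, hV, U, hU, hVU⟩ := mem_nhds_prod_iff.1
    ((isOpen_sep y).mem_nhds (show ((x, k) : ℂ × ℂ) ∈ _ from hy))
  obtain ⟨d, hd, hdV⟩ := Metric.mem_nhds_iff.1 hV
  obtain ⟨r, ⟨k0, h1, k', h2, hL⟩, h3⟩ := ((hcl U hU).and_eventually (small 2 d hd)).exists
  exact hL y (hVU (show ((k', k0) : ℂ × ℂ) ∈ V ×ˢ U from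
    ⟨hdV (by rw [mem_ball, dist_eq_norm]; linarith), h1⟩))

end WCol

/-- Module T -/
theorem topo (w : WCol) (hfin : ∀ R : ℝ, (w.Sp ∩ closedBall 0 R).Finite)
    (habs : ∀ x : ℂ, ∃ (e : Fin 5) (δ : ℝ), 0 < δ ∧ ∀ᵐ y : ℂ, y ∈ ball x δ → w.c y ≠ e) :
    ∃ x : ℂ,
      (∃ (a b c : Fin 5) (k1 k2 k3 : ℂ), a ≠ b ∧ b ≠ c ∧ a ≠ c ∧
        (0 < ‖k1 - x‖ ∧ ‖k1 - x‖ < 1) ∧ (0 < ‖k2 - x‖ ∧ ‖k2 - x‖ < 1) ∧
        (0 < ‖k3 - x‖ ∧ ‖k3 - x‖ < 1) ∧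
        w.Lune a b x k1 ∧ w.Lune b c x k2 ∧ w.Lune c a x k3) ∨
      (∃ (a b c d : Fin 5) (k1 k2 k3 k4 : ℂ), a ≠ b ∧ a ≠ c ∧ a ≠ d ∧ b ≠ c ∧ b ≠ d ∧ c ≠ d ∧
        (0 < ‖k1 - x‖ ∧ ‖k1 - x‖ < 1) ∧ (0 < ‖k2 - x‖ ∧ ‖k2 - x‖ < 1) ∧
        (0 < ‖k3 - x‖ ∧ ‖k3 - x‖ < 1) ∧ (0 < ‖k4 - x‖ ∧ ‖k4 - x‖ < 1) ∧
        w.Lune a b x k1 ∧ w.Lune b c x k2 ∧ w.Lune c d x k3 ∧ w.Lune d a x k4) := by
  obtain ⟨x, E, hE, h⟩ := w.exists_cyc hfin habs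
  refine ⟨x, ?_⟩
  rcases hE.tri_or_four with ⟨a, b, c, n1, n2, n3, e1, e2, e3⟩ |
    ⟨a, b, c, d, n1, n2, n3, n4, n5, n6, e1, e2, e3, e4⟩
  · obtain ⟨k1, p1, q1⟩ := h _ _ e1
    obtain ⟨k2, p2, q2⟩ := h _ _ e2
    obtain ⟨k3, p3, q3⟩ := h _ _ e3
    exact Or.inl ⟨a, b, c, k1, k2, k3, n1, n2, n3, p1, p2, p3, q1, q2, q3⟩
  · obtain ⟨k1, p1, q1⟩ := h _ _ e1
    obtain ⟨k2, p2, q2⟩ := h _ _ e2
    obtain ⟨k3, p3, q3⟩ := h _ _ e3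
    obtain ⟨k4, p4, q4⟩ := h _ _ e4
    exact Or.inr ⟨a, b, c, d, k1, k2, k3, k4, n1, n2, n3, n4, n5, n6, p1, p2, p3, p4, q1, q2, q3, q4⟩

end Vale.Agent.P032
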